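import Crest.Prelude.Def_AsymptoticConvexity

/-!
Generic tools about closed finite-codimensional subspaces and asymptotic uniform convexity:
a "game" criterion excluding equivalent AUC norms.
-/

set_option autoImplicit false

namespace Crest.Agent.Lib.AsympGame

open Crest.AnalysisR

attribute [local instance] RealBanach.normed RealBanach.space

/-- A finite family of continuous functionals cuts out a closed finite-codimensional subspace. -/
theorem isCof_of_functionals (E : RealBanach) {ι : Type*} [Fintype ι]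
    (φ : ι → (E.X →L[ℝ] ℝ)) : E.IsCof {x | ∀ i, φ i x = 0} := by
  let Φ : E.X →ₗ[ℝ] (ι → ℝ) := LinearMap.pi fun i => (φ i : E.X →ₗ[ℝ] ℝ)
  refine ⟨LinearMap.ker Φ, ?_, ?_, ?_⟩
  · ext x
    simp [Φ, funext_iff]
  · have : {x | ∀ i, φ i x = 0} = ⋂ i, {x | φ i x = 0} := by
      ext x; simp
    rw [this]
    exact isClosed_iInter fun i => isClosed_eq (φ i).continuous continuous_const
  · exact (LinearMap.quotKerEquivRange Φ).symm.finiteDimensional

/-- Finite-codimensional closed subspaces are cut out by finitely many functionals, with an explicit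
finite-rank "projection" onto them. -/
theorem exists_functionals_of_isCof (E : RealBanach) (F : Set E.X) (hF : E.IsCof F) :
    ∃ (d : ℕ) (φ : Fin d → (E.X →L[ℝ] ℝ)) (b : Fin d → E.X),
      (∀ x : E.X, x - ∑ j, φ j x • b j ∈ F) ∧ (∀ x ∈ F, ∀ j, φ j x = 0) := by
  obtain ⟨S, rfl, hcl, hfd⟩ := hF
  have : IsClosed (S : Set E.X) := hcl
  let V := E.X ⧸ S
  let B := Module.finBasis ℝ V
  let d := Module.finrank ℝ V
  have hsurj : Function.Surjective (S.mkQ) := Submodule.mkQ_surjective S
  choose lift hlift using hsurj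
  let c : Fin d → (V →L[ℝ] ℝ) := fun j => LinearMap.toContinuousLinearMap (B.coord j)
  let φ : Fin d → (E.X →L[ℝ] ℝ) := fun j =>
    (c j).comp ⟨S.mkQ, S.isOpenQuotientMap_mkQ.continuous⟩
  refine ⟨d, φ, fun j => lift (B j), ?_, ?_⟩
  · intro x
    have hx : S.mkQ (x - ∑ j, φ j x • lift (B j)) = 0 := by
      rw [map_sub, map_sum]
      simp only [map_smul, hlift]
      rw [sub_eq_zero]
      exact (B.sum_repr (S.mkQ x)).symm
    simpa using (Submodule.Quotient.mk_eq_zero S).1 (by simpa using hx)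
  · intro x hx j
    have : S.mkQ x = 0 := by simpa using (Submodule.Quotient.mk_eq_zero S).2 hx
    show B.coord j (S.mkQ x) = 0
    rw [this]; simp

/-- A family with a weak-`ℓ²` upper bound has members arbitrarily close to any closed
finite-codimensional subspace. -/
theorem exists_close_of_weakL2 (E : RealBanach) (F : Set E.X) (hF : E.IsCof F)
    (z : ℕ → E.X) (C : ℝ)
    (hz : ∀ (A : Finset ℕ) (ε : ℕ → ℝ), (∀ i, |ε i| ≤ 1) →
      ‖∑ i ∈ A, ε i • z i‖ ≤ C * Real.sqrt A.card)
    (δ : ℝ) (hδ : 0 < δ) : ∃ n, ∃ y ∈ F, ‖z n - y‖ < δ := by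
  obtain ⟨d, φ, b, hφ, -⟩ := exists_functionals_of_isCof E F hF
  -- total constant
  let M : ℝ := ∑ j, ‖b j‖ + 1
  have hMpos : 0 < M := by positivity
  let W : ℝ := ∑ j, ‖φ j‖ * |C| 
  have hW : 0 ≤ W := by positivity
  -- For each finite `A`, ∑_{i ∈ A} ∑_j |φ j (z i)| ≤ W √|A|
  have key : ∀ A : Finset ℕ, ∑ i ∈ A, ∑ j, |φ j (z i)| ≤ W * Real.sqrt A.card := by
    intro A
    rw [Finset.sum_comm, show W * Real.sqrt A.card
      = ∑ j, (‖φ j‖ * |C|) * Real.sqrt A.card by rw [Finset.sum_mul]]
    apply Finset.sum_le_sum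
    intro j _
    let ε : ℕ → ℝ := fun i => SignType.sign (φ j (z i))
    have hε : ∀ i, |ε i| ≤ 1 := by
      intro i
      rcases SignType.trichotomy (SignType.sign (φ j (z i))) with h | h | h <;>
        simp [ε, h]
    have h1 : ∑ i ∈ A, |φ j (z i)| = φ j (∑ i ∈ A, ε i • z i) := by
      rw [map_sum]
      apply Finset.sum_congr rfl
      intro i _
      simp only [map_smul, smul_eq_mul, ε]
      rw [sign_mul_self]
    rw [h1]
    calc φ j (∑ i ∈ A, ε i • z i) ≤ |φ j (∑ i ∈ A, ε i • z i)| := le_abs_self _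
      _ ≤ ‖φ j‖ * ‖∑ i ∈ A, ε i • z i‖ := by
          rw [← Real.norm_eq_abs]; exact (φ j).le_opNorm _
      _ ≤ ‖φ j‖ * (C * Real.sqrt A.card) := by
          gcongr
          exact hz A ε hε
      _ ≤ ‖φ j‖ * (|C| * Real.sqrt A.card) := by
          gcongr
          exact le_abs_self C
      _ = ‖φ j‖ * |C| * Real.sqrt A.card := by ring
  -- choose m large
  obtain ⟨m, hm⟩ := exists_nat_gt ((W * M / δ) ^ 2)
  have hm0 : 0 < m := by
    have : (0:ℝ) ≤ (W * M / δ) ^ 2 := by positivity
    have : (0:ℝ) < m := lt_of_le_of_lt this hm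
    exact_mod_cast this
  -- some index has small sum
  have : ∃ n ∈ Finset.range m, ∑ j, |φ j (z n)| < δ / M := by
    by_contra hcon
    push Not at hcon
    have h2 : ∑ i ∈ Finset.range m, (δ / M) ≤ ∑ i ∈ Finset.range m, ∑ j, |φ j (z i)| :=
      Finset.sum_le_sum hcon
    have h3 := key (Finset.range m)
    simp only [Finset.sum_const, Finset.card_range, nsmul_eq_mul] at h2 h3
    have h4 : (m:ℝ) * (δ / M) ≤ W * Real.sqrt m := h2.trans h3
    have hmR : (0:ℝ) < m := by exact_mod_cast hm0
    have hs : 0 < Real.sqrt m := Real.sqrt_pos.2 hmR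
    have h5 : Real.sqrt m * (δ / M) ≤ W := by
      have h6 : (Real.sqrt m * Real.sqrt m) * (δ / M) ≤ W * Real.sqrt m := by
        rw [Real.mul_self_sqrt hmR.le]; exact h4
      have h7 : (Real.sqrt m * (δ / M)) * Real.sqrt m ≤ W * Real.sqrt m := by
        linarith [h6]
      exact le_of_mul_le_mul_right h7 hs
    have h6 : Real.sqrt m ≤ W * M / δ := by
      rw [le_div_iff₀ hδ]
      have : Real.sqrt m * (δ / M) * M ≤ W * M := by gcongr
      have h8 : Real.sqrt m * (δ / M) * M = Real.sqrt m * δ := by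
        field_simp
      linarith
    have h7 : (m:ℝ) ≤ (W * M / δ) ^ 2 := by
      have := Real.sq_sqrt hmR.le
      calc (m:ℝ) = (Real.sqrt m) ^ 2 := this.symm
        _ ≤ (W * M / δ) ^ 2 := by gcongr
    linarith
  obtain ⟨n, -, hn⟩ := this
  refine ⟨n, _, hφ (z n), ?_⟩
  have h1 : z n - (z n - ∑ j, φ j (z n) • b j) = ∑ j, φ j (z n) • b j := by abel
  rw [h1]
  calc ‖∑ j, φ j (z n) • b j‖ ≤ ∑ j, ‖φ j (z n) • b j‖ := norm_sum_le _ _
    _ = ∑ j, |φ j (z n)| * ‖b j‖ := by
        apply Finset.sum_congr rfl; intro j _; rw [norm_smul, Real.norm_eq_abs]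
    _ ≤ ∑ j, |φ j (z n)| * M := by
        apply Finset.sum_le_sum; intro j _
        have : ‖b j‖ ≤ M := by
          have h2 : ‖b j‖ ≤ ∑ j, ‖b j‖ :=
            Finset.single_le_sum (f := fun j => ‖b j‖) (fun _ _ => norm_nonneg _) (Finset.mem_univ j)
          simp only [M]; linarith
        gcongr
    _ = (∑ j, |φ j (z n)|) * M := by rw [Finset.sum_mul]
    _ < δ / M * M := by gcongr
    _ = δ := by field_simp

/-- Convexity of a seminorm along a line. -/
theorem scalar_convex {X : Type*} [AddCommGroup X] [Module ℝ X] (N : X → ℝ)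
    (hadd : ∀ x y : X, N (x + y) ≤ N x + N y) (hsmul : ∀ (a : ℝ) (x : X), N (a • x) = abs a * N x)
    (x w : X) (t τ : ℝ) (ht : 0 < t) (hτ : t ≤ τ) :
    N (x + t • w) ≤ (1 - t / τ) * N x + (t / τ) * N (x + τ • w) := by
  have hτpos : 0 < τ := lt_of_lt_of_le ht hτ
  have hl0 : 0 ≤ t / τ := by positivity
  have hl1 : t / τ ≤ 1 := (div_le_one hτpos).2 hτ
  have hdecomp : x + t • w = (1 - t / τ) • x + (t / τ) • (x + τ • w) := by
    rw [smul_add, smul_smul, div_mul_cancel₀ _ hτpos.ne', sub_smul, one_smul]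
    abel
  rw [hdecomp]
  refine (hadd _ _).trans ?_
  rw [hsmul, hsmul, abs_of_nonneg (sub_nonneg.2 hl1), abs_of_nonneg hl0]

/-- **Game criterion**: if for each length `K` one can play `K` steps: from a point of `S i` and a
closed finite-codimensional `F` go to a point of `S (i+1)` approximately by adding a vector of `F` of
norm at least `κ`, staying within norm `B`, then no equivalent norm is AUC. -/
theorem no_auc_of_game (E : RealBanach) (κ B : ℝ) (hκ : 0 < κ)
    (hgame : ∀ K : ℕ, ∃ S : ℕ → Set E.X,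
      (∃ p ∈ S 0, κ ≤ ‖p‖) ∧
      (∀ i < K, ∀ p ∈ S i, ∀ F, E.IsCof F → ∀ ε : ℝ, 0 < ε →
        ∃ p' ∈ S (i + 1), ∃ y ∈ F, κ ≤ ‖y‖ ∧ ‖p' - (p + y)‖ ≤ ε) ∧
      (∀ i ≤ K, ∀ p ∈ S i, ‖p‖ ≤ B)) :
    ∀ N : E.X → ℝ, E.IsEquivNorm N → ¬ E.IsAUC N := by
  intro N hN hAUC
  obtain ⟨hadd, hsmul, a, b, ha, hab⟩ := hN
  -- basic facts on N
  have hκB : κ ≤ B := by
    obtain ⟨S, ⟨p, hp, hpκ⟩, -, hB⟩ := hgame 0
    exact hpκ.trans (hB 0 le_rfl p hp)
  have hBpos : 0 < B := lt_of_lt_of_le hκ hκB
  -- b positive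
  have hbpos : 0 < b := by
    obtain ⟨S, ⟨p, hp, hpκ⟩, -, -⟩ := hgame 0
    have h1 := hab p
    have hp0 : 0 < ‖p‖ := lt_of_lt_of_le hκ hpκ
    by_contra hb
    push Not at hb
    have : b * ‖p‖ ≤ 0 := mul_nonpos_of_nonpos_of_nonneg hb hp0.le
    nlinarith [h1.1, h1.2, mul_pos ha hp0]
  let t₀ : ℝ := a * κ / (b * B)
  have ht₀ : 0 < t₀ := by positivity
  obtain ⟨c, hc, hAUC'⟩ := hAUC t₀ ht₀
  -- choose K
  have hgrow : ∃ K : ℕ, b * B < (1 + c / 2) ^ K * (a * κ) := by
    have h1 : Filter.Tendsto (fun K : ℕ => (1 + c / 2) ^ K) Filter.atTop Filter.atTop :=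
      tendsto_pow_atTop_atTop_of_one_lt (by linarith)
    have h2 := (h1.eventually_gt_atTop (b * B / (a * κ))).exists
    obtain ⟨K, hK⟩ := h2
    refine ⟨K, ?_⟩
    have : 0 < a * κ := by positivity
    rwa [div_lt_iff₀ this] at hK
  obtain ⟨K, hK⟩ := hgrow
  obtain ⟨S, ⟨p₀, hp₀, hp₀κ⟩, hstep, hB⟩ := hgame K
  have hNneg : ∀ x, N (-x) = N x := by
    intro x
    have := hsmul (-1) x
    simpa using this
  -- induction
  have hind : ∀ i ≤ K, ∃ p ∈ S i, (1 + c / 2) ^ i * (a * κ) ≤ N p := by
    intro i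
    induction i with
    | zero =>
      intro _
      refine ⟨p₀, hp₀, ?_⟩
      have := (hab p₀).1
      have h2 : a * κ ≤ a * ‖p₀‖ := by gcongr
      simpa using h2.trans this
    | succ i ih =>
      intro hi
      obtain ⟨p, hp, hpN⟩ := ih (by omega)
      have hpow : 1 ≤ (1 + c / 2) ^ i := one_le_pow₀ (by linarith)
      have haκ : 0 < a * κ := by positivity
      have hNp : a * κ ≤ N p := by nlinarith
      have hNppos : 0 < N p := lt_of_lt_of_le haκ hNp
      -- the unit vector
      let x : E.X := (N p)⁻¹ • p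
      have hx : N x = 1 := by
        simp only [x]
        rw [hsmul, abs_of_pos (inv_pos.2 hNppos)]
        field_simp
      obtain ⟨F, hF, hF'⟩ := hAUC' x hx
      -- play
      let ε : ℝ := c * (a * κ) / (2 * b)
      have hε : 0 < ε := by positivity
      obtain ⟨p', hp', y, hy, hyκ, hclose⟩ := hstep i (by omega) p hp F hF ε hε
      refine ⟨p', hp', ?_⟩
      -- F is a subspace
      obtain ⟨Sub, hSub, -, -⟩ := hF
      have hyS : y ∈ Sub := by rw [← SetLike.mem_coe, hSub]; exact hy
      have hyne : 0 < N y := by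
        have h1 := (hab y).1
        have : a * κ ≤ a * ‖y‖ := by gcongr
        linarith
      let w : E.X := (N y)⁻¹ • y
      have hw : N w = 1 := by
        simp only [w]
        rw [hsmul, abs_of_pos (inv_pos.2 hyne)]
        field_simp
      have hwF : w ∈ F := by
        rw [← hSub, SetLike.mem_coe]
        exact Sub.smul_mem _ hyS
      have h1 := hF' w hwF hw
      -- convexity in the scalar
      let τ : ℝ := N y / N p
      have hτpos : 0 < τ := by positivity
      have hτ : t₀ ≤ τ := by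
        have hNy : a * κ ≤ N y := by
          have h1 := (hab y).1
          have : a * κ ≤ a * ‖y‖ := by gcongr
          linarith
        have hNpu : N p ≤ b * B := by
          have := (hab p).2
          have h3 : b * ‖p‖ ≤ b * B := by
            gcongr
            exact hB i (by omega) p hp
          linarith
        simp only [t₀, τ]
        apply div_le_div₀ hyne.le hNy hNppos hNpu
      have hconv := scalar_convex N hadd hsmul x w t₀ τ ht₀ hτ
      have hbig : 1 + c ≤ N (x + τ • w) := by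
        have hl0 : 0 < t₀ / τ := by positivity
        have hl1 : t₀ / τ ≤ 1 := (div_le_one hτpos).2 hτ
        rw [hx] at hconv
        have h2 : 1 + c ≤ N (x + t₀ • w) := by linarith
        by_contra hcon
        push Not at hcon
        have h3 : (t₀ / τ) * N (x + τ • w) ≤ (t₀ / τ) * (1 + c) := by gcongr
        nlinarith
      have hpy : p + y = N p • (x + τ • w) := by
        simp only [x, w, τ]
        rw [smul_add, smul_smul, smul_smul, mul_inv_cancel₀ hNppos.ne', one_smul, smul_smul]
        have : N p * (N y / N p) * (N y)⁻¹ = 1 := by field_simp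
        rw [this, one_smul]
        
      have hNpy : (1 + c) * N p ≤ N (p + y) := by
        rw [hpy, hsmul, abs_of_pos hNppos]
        nlinarith
      have htri : N (p + y) ≤ N p' + N (p' - (p + y)) := by
        have h3 := hadd p' (-(p' - (p + y)))
        rw [hNneg] at h3
        have h4 : p' + -(p' - (p + y)) = p + y := by abel
        rwa [h4] at h3
      have hsmall : N (p' - (p + y)) ≤ b * ε := by
        have h3 := (hab (p' - (p + y))).2
        have : b * ‖p' - (p + y)‖ ≤ b * ε := by gcongr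
        linarith
      have hbε : b * ε = c * (a * κ) / 2 := by
        simp only [ε]; field_simp
      rw [pow_succ]
      have h5 : (1 + c / 2) ^ i * (a * κ) * (1 + c / 2) ≤ N p * (1 + c / 2) := by
        gcongr
      have h6 : c / 2 * (a * κ) ≤ c / 2 * N p := by gcongr
      nlinarith
  obtain ⟨p, hp, hNp⟩ := hind K le_rfl
  have h1 := (hab p).2
  have h2 : b * ‖p‖ ≤ b * B := by
    gcongr
    exact hB K le_rfl p hp
  linarith

/-- A space without equivalent AUC norm is infinite-dimensional: in finite dimension the subspace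
`{0}` makes any norm vacuously AUC. -/
theorem not_finiteDimensional_of_no_auc (E : RealBanach)
    (h : ∀ N : E.X → ℝ, E.IsEquivNorm N → ¬ E.IsAUC N) : ¬ FiniteDimensional ℝ E.X := by
  intro hfd
  apply h (fun x => ‖x‖)
  · refine ⟨fun x y => norm_add_le x y, fun a x => ?_, 1, 1, one_pos, fun x => by simp⟩
    show ‖a • x‖ = |a| * ‖x‖
    rw [norm_smul, Real.norm_eq_abs]
  · intro t _
    refine ⟨1, one_pos, fun x _ => ⟨{0}, ⟨⊥, by simp, isClosed_singleton, inferInstance⟩, ?_⟩⟩
    intro y hy hy1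
    have : y = 0 := hy
    subst this
    simp at hy1

end Crest.Agent.Lib.AsympGame
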