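import Mathlib

/-!
# Areas of planar pieces in Euclidean space

Exact `μHE[2]` of affine images of planar sets: a set `S ⊆ ℝ²` mapped by
`x ↦ c + x₀ a + x₁ b` into `E` has area `√(‖a‖²‖b‖² − ⟪a,b⟫²) · vol S`.
Consequences: parallelograms, triangles (convex hulls of three points), and the relation
between `μH[2]` and `μHE[2]` on `ℝ³`.
-/

set_option autoImplicit false

open MeasureTheory Measure
open scoped ENNReal RealInnerProductSpace

namespace Crest.Agent.Lib.CylArea

/-- The plane `ℝ²`. -/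
abbrev E2 := EuclideanSpace ℝ (Fin 2)

/-- Square root of the Gram determinant of `a, b`. -/
noncomputable def gramSqrt {E : Type*} [NormedAddCommGroup E] [InnerProductSpace ℝ E] (a b : E) : ℝ :=
  Real.sqrt (‖a‖ ^ 2 * ‖b‖ ^ 2 - ⟪a, b⟫ ^ 2)

section General

variable {E : Type*} [NormedAddCommGroup E] [InnerProductSpace ℝ E]

/-- The linear map `x ↦ x₀ a + x₁ b` from `ℝ²` to `E`. -/
noncomputable def planeLin (a b : E) : E2 →ₗ[ℝ] E where
  toFun x := x 0 • a + x 1 • b
  map_add' x y := by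
    simp only [PiLp.add_apply, add_smul]; abel
  map_smul' r x := by
    simp only [PiLp.smul_apply, smul_eq_mul, mul_smul, RingHom.id_apply, smul_add]

@[simp] lemma planeLin_apply (a b : E) (x : E2) : planeLin a b x = x 0 • a + x 1 • b := rfl

lemma planeLin_basis0 (a b : E) :
    planeLin a b ((EuclideanSpace.basisFun (Fin 2) ℝ) 0) = a := by
  simp [planeLin_apply]

lemma planeLin_basis1 (a b : E) :
    planeLin a b ((EuclideanSpace.basisFun (Fin 2) ℝ) 1) = b := by
  simp [planeLin_apply]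

/-- The norm-determinant of `planeLin a b` is the Gram square root. -/
lemma normDet_planeLin (a b : E) : (planeLin a b).normDet = gramSqrt a b := by
  have h := LinearMap.normDet_sq_eq_det_gram (𝕜 := ℝ) (planeLin a b)
    (EuclideanSpace.basisFun (Fin 2) ℝ)
  have h2 : (Matrix.gram ℝ (fun i => planeLin a b ((EuclideanSpace.basisFun (Fin 2) ℝ) i))).det
      = ‖a‖ ^ 2 * ‖b‖ ^ 2 - ⟪a, b⟫ ^ 2 := by
    rw [Matrix.det_fin_two]
    simp only [Matrix.gram_apply, planeLin_basis0, planeLin_basis1]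
    simp only [real_inner_self_eq_norm_sq]
    rw [real_inner_comm b a]
    ring
  rw [h2] at h
  have h3 : (planeLin a b).normDet ^ 2 = ‖a‖ ^ 2 * ‖b‖ ^ 2 - ⟪a, b⟫ ^ 2 := by
    simpa using h
  unfold gramSqrt
  rw [← h3, Real.sqrt_sq (LinearMap.normDet_nonneg _)]

variable [MeasurableSpace E] [BorelSpace E]

/-- **Area of a planar image.** -/
theorem mu_image_plane (c a b : E) (S : Set E2) :
    μHE[2] ((fun x : E2 => c + x 0 • a + x 1 • b) '' S) =
      ENNReal.ofReal (gramSqrt a b) * volume S := by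
  have h1 : (fun x : E2 => c + x 0 • a + x 1 • b) = (fun y : E => c + y) ∘ (planeLin a b) := by
    funext x; simp [add_assoc]
  rw [h1, Set.image_comp, (isometry_add_left c).euclideanHausdorffMeasure_image]
  have h2 := LinearMap.euclideanHausdorffMeasure_image_eq_normDet_mul_volume (planeLin a b) S
  simp only [finrank_euclideanSpace, Fintype.card_fin] at h2
  rw [h2, normDet_planeLin]

end General

/-! ### Volumes in `ℝ²` -/

/-- Closed box in `ℝ²`. -/
lemma volume_box_closed (a b c d : ℝ) (hab : a ≤ b) (hcd : c ≤ d) :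
    volume {x : E2 | x 0 ∈ Set.Icc a b ∧ x 1 ∈ Set.Icc c d} =
      ENNReal.ofReal ((b - a) * (d - c)) := by
  have h := (PiLp.volume_preserving_ofLp (Fin 2)).measure_preimage
    (s := Set.pi Set.univ ![Set.Icc a b, Set.Icc c d])
    ((MeasurableSet.univ_pi fun i => by fin_cases i <;> simp [measurableSet_Icc]).nullMeasurableSet)
  have h2 : (WithLp.ofLp : E2 → Fin 2 → ℝ) ⁻¹' (Set.pi Set.univ ![Set.Icc a b, Set.Icc c d]) =
      {x : E2 | x 0 ∈ Set.Icc a b ∧ x 1 ∈ Set.Icc c d} := by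
    ext x; simp [Set.mem_pi, Fin.forall_fin_two]
  rw [h2] at h
  rw [h, volume_pi_pi]
  simp [Fin.prod_univ_two, ENNReal.ofReal_mul (sub_nonneg.2 hab)]

/-- Half-open box in `ℝ²`. -/
lemma volume_box_Ico (a b c d : ℝ) (hab : a ≤ b) :
    volume {x : E2 | x 0 ∈ Set.Ico a b ∧ x 1 ∈ Set.Ico c d} =
      ENNReal.ofReal ((b - a) * (d - c)) := by
  have h := (PiLp.volume_preserving_ofLp (Fin 2)).measure_preimage
    (s := Set.pi Set.univ ![Set.Ico a b, Set.Ico c d])
    ((MeasurableSet.univ_pi fun i => by fin_cases i <;> simp [measurableSet_Ico]).nullMeasurableSet)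
  have h2 : (WithLp.ofLp : E2 → Fin 2 → ℝ) ⁻¹' (Set.pi Set.univ ![Set.Ico a b, Set.Ico c d]) =
      {x : E2 | x 0 ∈ Set.Ico a b ∧ x 1 ∈ Set.Ico c d} := by
    ext x; simp [Set.mem_pi, Fin.forall_fin_two]
  rw [h2] at h
  rw [h, volume_pi_pi]
  simp [Fin.prod_univ_two, ENNReal.ofReal_mul (sub_nonneg.2 hab)]

/-- Open box in `ℝ²`. -/
lemma volume_box_open (a b c d : ℝ) (hab : a ≤ b) :
    volume {x : E2 | x 0 ∈ Set.Ioo a b ∧ x 1 ∈ Set.Ioo c d} =
      ENNReal.ofReal ((b - a) * (d - c)) := by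
  have h := (PiLp.volume_preserving_ofLp (Fin 2)).measure_preimage
    (s := Set.pi Set.univ ![Set.Ioo a b, Set.Ioo c d])
    ((MeasurableSet.univ_pi fun i => by fin_cases i <;> simp [measurableSet_Ioo]).nullMeasurableSet)
  have h2 : (WithLp.ofLp : E2 → Fin 2 → ℝ) ⁻¹' (Set.pi Set.univ ![Set.Ioo a b, Set.Ioo c d]) =
      {x : E2 | x 0 ∈ Set.Ioo a b ∧ x 1 ∈ Set.Ioo c d} := by
    ext x; simp [Set.mem_pi, Fin.forall_fin_two]
  rw [h2] at h
  rw [h, volume_pi_pi]
  simp [Fin.prod_univ_two, ENNReal.ofReal_mul (sub_nonneg.2 hab)]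

end Crest.Agent.Lib.CylArea
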