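import Crest.Prelude.Def_DaugavetL1
import Crest.Agent.Lib.AsympGame

/-!
Consequences of the Daugavet property, obtained by an approachability argument in the finite
dimensional quotient.
-/

set_option autoImplicit false

namespace Crest.Agent.Lib.DaugavetCore

open Crest.AnalysisR Crest.AnalysisR.L1Subspace

section abstract

variable {V : Type*} [NormedAddCommGroup V] [NormedSpace ℝ V]

/-- One step of the Daugavet iteration. -/
theorem daug_step (hD : HasDaugavetProperty V) (w : V) (hw : ‖w‖ = 1) (f : V →L[ℝ] ℝ) (δ : ℝ)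
    (hδ : 0 < δ) (hδ1 : δ < 1) :
    ∃ y : V, ‖y‖ ≤ 1 ∧ (1 - δ) * ‖f‖ ≤ f y ∧ ∃ g : V →L[ℝ] ℝ, ‖g‖ ≤ 1 ∧ 1 - δ ≤ g y ∧ 1 - δ ≤ g w := by
  classical
  have hne : Nontrivial V := by
    refine ⟨⟨w, 0, ?_⟩⟩
    intro h
    rw [h] at hw
    simp at hw
  -- a normalized functional
  obtain ⟨f₁, hf₁, hrel⟩ : ∃ f₁ : V →L[ℝ] ℝ, ‖f₁‖ = 1 ∧ ∀ y, 0 ≤ f₁ y → 1 - δ ≤ f₁ y →
      (1 - δ) * ‖f‖ ≤ f y := by
    by_cases hf : f = 0
    · obtain ⟨g, hg1, hg2⟩ := exists_dual_vector ℝ w (by intro h; rw [h] at hw; simp at hw)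
      refine ⟨g, hg1, ?_⟩
      intro y _ _
      simp [hf]
    · have hfn : ‖f‖ ≠ 0 := norm_ne_zero_iff.2 hf
      have hfp : 0 < ‖f‖ := norm_pos_iff.2 hf
      refine ⟨‖f‖⁻¹ • f, ?_, ?_⟩
      · rw [norm_smul, norm_inv, norm_norm]
        field_simp
      · intro y _ h
        simp only [ContinuousLinearMap.smul_apply, smul_eq_mul] at h
        have : f y = ‖f‖ * (‖f‖⁻¹ * f y) := by field_simp
        rw [this]
        nlinarith
  -- the operator
  have hT := hD f₁ w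
  rw [ContinuousLinearMap.norm_smulRight_apply, hf₁, hw] at hT
  have hT2 : ‖ContinuousLinearMap.id ℝ V + f₁.smulRight w‖ = 2 := by rw [hT]; norm_num
  obtain ⟨u, hu, hu2⟩ : ∃ u : V, ‖u‖ = 1 ∧ 2 - δ < ‖(ContinuousLinearMap.id ℝ V + f₁.smulRight w) u‖ := by
    by_contra hcon
    push Not at hcon
    have := ContinuousLinearMap.opNorm_le_of_unit_norm (𝕜 := ℝ) (by linarith) hcon
    linarith
  simp only [ContinuousLinearMap.add_apply, ContinuousLinearMap.id_apply,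
    ContinuousLinearMap.smulRight_apply] at hu2
  obtain ⟨v, hv, hv0, hv2⟩ : ∃ v : V, ‖v‖ = 1 ∧ 0 ≤ f₁ v ∧ 2 - δ < ‖v + f₁ v • w‖ := by
    rcases le_total 0 (f₁ u) with h | h
    · exact ⟨u, hu, h, hu2⟩
    · refine ⟨-u, by simpa using hu, by simpa using h, ?_⟩
      have : -u + f₁ (-u) • w = -(u + f₁ u • w) := by
        simp [neg_add_rev, add_comm]
      rw [this, norm_neg]
      exact hu2
  obtain ⟨g, hg1, hg2⟩ := exists_dual_vector'' ℝ (v + f₁ v • w)
  have hgv : g (v + f₁ v • w) = g v + f₁ v * g w := by simp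
  have hgv2 : ((‖v + f₁ v • w‖ : ℝ)) = ‖v + f₁ v • w‖ := rfl
  have h1 : 2 - δ < g v + f₁ v * g w := by
    rw [← hgv, hg2]
    simpa using hv2
  have hbd : ∀ z : V, ‖z‖ ≤ 1 → g z ≤ 1 := by
    intro z hz
    calc g z ≤ |g z| := le_abs_self _
      _ = ‖g z‖ := (Real.norm_eq_abs _).symm
      _ ≤ ‖g‖ * ‖z‖ := g.le_opNorm z
      _ ≤ 1 * 1 := by gcongr
      _ = 1 := by ring
  have hf₁v : f₁ v ≤ 1 := by
    calc f₁ v ≤ |f₁ v| := le_abs_self _
      _ = ‖f₁ v‖ := (Real.norm_eq_abs _).symm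
      _ ≤ ‖f₁‖ * ‖v‖ := f₁.le_opNorm v
      _ = 1 := by rw [hf₁, hv]; ring
  have hgv1 := hbd v hv.le
  have hgw1 := hbd w hw.le
  have h2 : 1 - δ < f₁ v * g w := by linarith
  have h3 : 0 < g w := by
    by_contra hcon
    push Not at hcon
    have : f₁ v * g w ≤ 0 := mul_nonpos_of_nonneg_of_nonpos hv0 hcon
    linarith
  have h4 : f₁ v * g w ≤ f₁ v := by nlinarith
  have h5 : f₁ v * g w ≤ g w := by nlinarith
  have h6 : f₁ v * g w ≤ 1 := by nlinarith
  exact ⟨v, hv.le, hrel v hv0 (by linarith), g, hg1, by linarith, by linarith⟩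

/-- Points far from `x` in every weak neighbourhood of `x` in the ball. -/
theorem daug_weak (hD : HasDaugavetProperty V) {ι : Type*} [Fintype ι] (φ : ι → (V →L[ℝ] ℝ))
    (x : V) (hx : ‖x‖ = 1) (ε : ℝ) (hε : 0 < ε) :
    ∃ u : V, ‖u‖ ≤ 1 ∧ (∀ j, |φ j u - φ j x| < ε) ∧ 2 - ε ≤ ‖u - x‖ := by
  set Λ : ℝ := ∑ j, ‖φ j‖ ^ 2 with hΛ
  have hΛ0 : 0 ≤ Λ := by positivity
  obtain ⟨n, hn⟩ := exists_nat_gt (8 * Λ / ε ^ 2 + 1)
  have hn1 : (1:ℝ) < n := by
    have : 0 ≤ 8 * Λ / ε ^ 2 := by positivity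
    linarith
  have hnpos : (0:ℝ) < n := by linarith
  have hn8 : 8 * Λ / n < ε ^ 2 := by
    rw [div_lt_iff₀ hnpos]
    have h1 : 8 * Λ / ε ^ 2 < n := by linarith
    rw [div_lt_iff₀ (by positivity)] at h1
    linarith
  set δ : ℝ := min (1 / (2 * n)) (ε / ((n + 1) * n)) with hδdef
  have hδ : 0 < δ := by
    apply lt_min <;> positivity
  have hδ1 : δ < 1 := by
    have : δ ≤ 1 / (2 * n) := min_le_left _ _
    have h2 : 1 / (2 * (n:ℝ)) < 1 := by
      rw [div_lt_one (by positivity)]; linarith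
    linarith
  have hδ2 : δ * (2 * n) ≤ 1 := by
    have : δ ≤ 1 / (2 * n) := min_le_left _ _
    calc δ * (2 * n) ≤ 1 / (2 * n) * (2 * n) := by gcongr
      _ = 1 := by field_simp
  have hδ3 : (n + 1) * n * δ ≤ ε := by
    have : δ ≤ ε / ((n + 1) * n) := min_le_right _ _
    calc ((n:ℝ) + 1) * n * δ ≤ (n + 1) * n * (ε / ((n + 1) * n)) := by gcongr
      _ = ε := by field_simp
  -- the induction
  have hind : ∀ i : ℕ, i ≤ n → ∃ Y : V, ‖Y‖ ≤ i ∧ ((i:ℝ) + 1) * (1 - δ) ^ i ≤ ‖Y - x‖ ∧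
      ∑ j, (φ j Y - i * φ j x) ^ 2 ≤ 8 * i * Λ := by
    intro i
    induction i with
    | zero =>
      intro _
      refine ⟨0, by simp, by simp [hx], by simp⟩
    | succ i ih =>
      intro hi
      obtain ⟨Y, hY, hY2, hY3⟩ := ih (by omega)
      have hin : (i:ℝ) + 1 ≤ n := by exact_mod_cast hi
      set a := ‖Y - x‖ with ha
      have hpow : 0 < (1 - δ) ^ i := pow_pos (by linarith) _
      have hapos : 0 < a := lt_of_lt_of_le (by positivity) hY2
      let w : V := a⁻¹ • (Y - x)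
      have hw : ‖w‖ = 1 := by
        simp only [w]
        rw [norm_smul, norm_inv, Real.norm_eq_abs, abs_of_pos hapos, ← ha]
        field_simp
      let A : ι → ℝ := fun j => φ j Y - i * φ j x
      let f : V →L[ℝ] ℝ := - ∑ j, A j • φ j
      obtain ⟨y, hy, hfy, g, hg, hgy, hgw⟩ := daug_step hD w hw f δ hδ hδ1
      have hfapp : ∀ z, f z = - ∑ j, A j * φ j z := by
        intro z
        simp [f, ContinuousLinearMap.sum_apply]
      have hφz : ∀ j z, |φ j z| ≤ ‖φ j‖ * ‖z‖ := fun j z => by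
        rw [← Real.norm_eq_abs]; exact (φ j).le_opNorm z
      have hAb : ∀ j, |A j| ≤ 2 * i * ‖φ j‖ := by
        intro j
        have h1 : A j = φ j (Y - (i:ℝ) • x) := by simp [A]
        rw [h1]
        refine (hφz j _).trans ?_
        have h2 : ‖Y - (i:ℝ) • x‖ ≤ 2 * i := by
          calc ‖Y - (i:ℝ) • x‖ ≤ ‖Y‖ + ‖(i:ℝ) • x‖ := norm_sub_le _ _
            _ ≤ i + i := by
              gcongr
              rw [norm_smul, hx]; simp
            _ = 2 * i := by ring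
        have := norm_nonneg (φ j)
        nlinarith
      have hfnorm : ‖f‖ ≤ 2 * i * Λ := by
        simp only [f, norm_neg]
        calc ‖∑ j, A j • φ j‖ ≤ ∑ j, ‖A j • φ j‖ := norm_sum_le _ _
          _ = ∑ j, |A j| * ‖φ j‖ := by
              apply Finset.sum_congr rfl; intro j _; rw [norm_smul, Real.norm_eq_abs]
          _ ≤ ∑ j, (2 * i * ‖φ j‖) * ‖φ j‖ := by
              apply Finset.sum_le_sum; intro j _
              exact mul_le_mul_of_nonneg_right (hAb j) (norm_nonneg _)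
          _ = 2 * i * Λ := by
              rw [hΛ, Finset.mul_sum]
              apply Finset.sum_congr rfl; intro j _; ring
      let b : ι → ℝ := fun j => φ j y - φ j x
      have hbb : ∀ j, (b j) ^ 2 ≤ 4 * ‖φ j‖ ^ 2 := by
        intro j
        have h1 : b j = φ j (y - x) := by simp [b]
        have h2 : |b j| ≤ 2 * ‖φ j‖ := by
          rw [h1]
          refine (hφz j _).trans ?_
          have h3 : ‖y - x‖ ≤ 2 := by
            calc ‖y - x‖ ≤ ‖y‖ + ‖x‖ := norm_sub_le _ _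
              _ ≤ 2 := by rw [hx]; linarith
          have := norm_nonneg (φ j)
          nlinarith
        rw [← sq_abs]
        have h0 := abs_nonneg (b j)
        nlinarith
      have hAbsum : ∑ j, A j * b j ≤ Λ := by
        have h1 : ∑ j, A j * b j = f x - f y := by
          rw [hfapp, hfapp]
          simp only [b, mul_sub, Finset.sum_sub_distrib]
          ring
        rw [h1]
        have h2 : f x ≤ ‖f‖ := by
          calc f x ≤ |f x| := le_abs_self _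
            _ = ‖f x‖ := (Real.norm_eq_abs _).symm
            _ ≤ ‖f‖ * ‖x‖ := f.le_opNorm x
            _ = ‖f‖ := by rw [hx]; ring
        have h3 : f x - f y ≤ δ * ‖f‖ := by nlinarith
        have h4 : δ * ‖f‖ ≤ δ * (2 * i * Λ) := by gcongr
        have h5 : δ * (2 * i) ≤ 1 := by
          calc δ * (2 * (i:ℝ)) ≤ δ * (2 * n) := by
                gcongr; linarith
            _ ≤ 1 := hδ2
        nlinarith
      refine ⟨Y + y, ?_, ?_, ?_⟩
      · calc ‖Y + y‖ ≤ ‖Y‖ + ‖y‖ := norm_add_le _ _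
          _ ≤ i + 1 := by gcongr
          _ = ((i + 1 : ℕ) : ℝ) := by push_cast; ring
      · have hg1 : g (Y + y - x) = a * g w + g y := by
          simp only [w, map_sub, map_add, map_smul, smul_eq_mul]
          field_simp
          ring
        have hle : g (Y + y - x) ≤ ‖Y + y - x‖ := by
          calc g (Y + y - x) ≤ |g (Y + y - x)| := le_abs_self _
            _ = ‖g (Y + y - x)‖ := (Real.norm_eq_abs _).symm
            _ ≤ ‖g‖ * ‖Y + y - x‖ := g.le_opNorm _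
            _ ≤ 1 * ‖Y + y - x‖ := by gcongr
            _ = _ := one_mul _
        refine le_trans ?_ hle
        rw [hg1]
        have h1 : a * (1 - δ) ≤ a * g w := by gcongr
        have h2 : ((i:ℝ) + 1) * (1 - δ) ^ i * (1 - δ) ≤ a * (1 - δ) := by
          have : 0 ≤ 1 - δ := by linarith
          gcongr
        have h3 : (1 - δ) ^ (i + 1) ≤ 1 - δ := by
          rw [pow_succ]
          have h4 : (1 - δ) ^ i ≤ 1 := pow_le_one₀ (by linarith) (by linarith)
          have : 0 ≤ 1 - δ := by linarith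
          nlinarith
        push_cast
        rw [pow_succ] at h3 ⊢
        nlinarith
      · have h1 : ∀ j, φ j (Y + y) - ((i + 1 : ℕ) : ℝ) * φ j x = A j + b j := by
          intro j
          simp only [A, b, map_add]
          push_cast
          ring
        simp_rw [h1]
        have h2 : ∑ j, (A j + b j) ^ 2
            = ∑ j, (A j) ^ 2 + 2 * ∑ j, A j * b j + ∑ j, (b j) ^ 2 := by
          rw [Finset.mul_sum, ← Finset.sum_add_distrib, ← Finset.sum_add_distrib]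
          apply Finset.sum_congr rfl; intro j _; ring
        rw [h2]
        have h3 : ∑ j, (b j) ^ 2 ≤ 4 * Λ := by
          rw [hΛ, Finset.mul_sum]
          exact Finset.sum_le_sum fun j _ => hbb j
        have h4 : ∑ j, (A j) ^ 2 ≤ 8 * i * Λ := hY3
        push_cast
        nlinarith
  obtain ⟨Y, hY, hY2, hY3⟩ := hind n le_rfl
  refine ⟨(n:ℝ)⁻¹ • Y, ?_, ?_, ?_⟩
  · rw [norm_smul, norm_inv, Real.norm_of_nonneg hnpos.le]
    rw [inv_mul_le_iff₀ hnpos]
    linarith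
  · intro j
    have h1 : φ j ((n:ℝ)⁻¹ • Y) - φ j x = (φ j Y - n * φ j x) / n := by
      simp only [map_smul, smul_eq_mul]
      field_simp
    rw [h1, abs_div, abs_of_pos hnpos, div_lt_iff₀ hnpos]
    have h2 : (φ j Y - n * φ j x) ^ 2 ≤ 8 * n * Λ :=
      (Finset.single_le_sum (f := fun j => (φ j Y - n * φ j x) ^ 2)
        (fun _ _ => sq_nonneg _) (Finset.mem_univ j)).trans hY3
    apply abs_lt_of_sq_lt_sq _ (by positivity)
    have h3 : 8 * n * Λ < (ε * n) ^ 2 := by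
      rw [mul_pow]
      have h4 : 8 * Λ < ε ^ 2 * n := by
        rw [div_lt_iff₀ hnpos] at hn8; exact hn8
      nlinarith
    linarith
  · set u : V := (n:ℝ)⁻¹ • Y with hu
    have hYu : Y = (n:ℝ) • u := by
      rw [hu, smul_smul, mul_inv_cancel₀ hnpos.ne', one_smul]
    have hunorm : ‖u‖ ≤ 1 := by
      rw [hu, norm_smul, norm_inv, Real.norm_of_nonneg hnpos.le, inv_mul_le_iff₀ hnpos]
      linarith
    have h1 : Y - x = ((n:ℝ) - 1) • u + (u - x) := by
      rw [hYu, sub_smul, one_smul]; abel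
    have h2 : ‖Y - x‖ ≤ (n - 1) + ‖u - x‖ := by
      rw [h1]
      refine (norm_add_le _ _).trans ?_
      gcongr
      rw [norm_smul, Real.norm_of_nonneg (by linarith)]
      nlinarith
    have h3 : 1 - n * δ ≤ (1 - δ) ^ n := by
      have := one_add_mul_le_pow (a := -δ) (by linarith) n
      have h4 : (1:ℝ) + (n:ℝ) * (-δ) = 1 - n * δ := by ring
      have h5 : (1:ℝ) + -δ = 1 - δ := by ring
      rw [h4, h5] at this
      exact this
    have h4 : ((n:ℝ) + 1) * (1 - n * δ) ≤ ((n:ℝ) + 1) * (1 - δ) ^ n := by gcongr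
    nlinarith

end abstract

attribute [local instance] RealBanach.normed RealBanach.space

/-- Unit vectors of `F` close to `-x/2` at distance `1/2`. -/
theorem daug_half (E : RealBanach) (hD : HasDaugavetProperty E.X) (x : E.X) (hx : ‖x‖ = 1)
    (F : Set E.X) (hF : E.IsCof F) (η : ℝ) (hη : 0 < η) :
    ∃ y ∈ F, ‖y‖ = 1 ∧ ‖y + (1 / 2 : ℝ) • x‖ ≤ 1 / 2 + η := by
  obtain ⟨d, φ, b, hφ, -⟩ := Crest.Agent.Lib.AsympGame.exists_functionals_of_isCof E F hF
  obtain ⟨Sub, hSub, -, -⟩ := hF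
  have hFsmul : ∀ (c : ℝ) (z : E.X), z ∈ F → c • z ∈ F := by
    intro c z hz
    rw [← hSub] at hz ⊢
    exact Sub.smul_mem c hz
  set M : ℝ := ∑ j, ‖b j‖ + 1 with hM
  have hM0 : 0 < M := by positivity
  set η' : ℝ := min η (1 / 2) with hη'
  have hη'0 : 0 < η' := lt_min hη (by norm_num)
  set ε : ℝ := η' / (1 + M) with hε
  have hε0 : 0 < ε := by positivity
  have hεM : ε * (1 + M) = η' := by
    rw [hε]; field_simp
  obtain ⟨u, hu, huφ, hufar⟩ := daug_weak hD φ x hx ε hε0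
  set z : E.X := u - x with hz
  have hφz : ∀ j, |φ j z| ≤ ε := by
    intro j
    have : φ j z = φ j u - φ j x := by simp [hz]
    rw [this]; exact (huφ j).le
  set c : E.X := (1 / 2 : ℝ) • ∑ j, φ j z • b j with hc
  have hcn : ‖c‖ ≤ ε * M / 2 := by
    rw [hc, norm_smul]
    have h1 : ‖∑ j, φ j z • b j‖ ≤ ε * M := by
      calc ‖∑ j, φ j z • b j‖ ≤ ∑ j, ‖φ j z • b j‖ := norm_sum_le _ _
        _ = ∑ j, |φ j z| * ‖b j‖ := by
            apply Finset.sum_congr rfl; intro j _; rw [norm_smul, Real.norm_eq_abs]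
        _ ≤ ∑ j, ε * ‖b j‖ := by
            apply Finset.sum_le_sum; intro j _
            exact mul_le_mul_of_nonneg_right (hφz j) (norm_nonneg _)
        _ = ε * ∑ j, ‖b j‖ := by rw [Finset.mul_sum]
        _ ≤ ε * M := by
            gcongr
            rw [hM]; linarith
    have h2 : ‖(1 / 2 : ℝ)‖ = 1 / 2 := by norm_num
    rw [h2]; linarith
  set y₁ : E.X := (1 / 2 : ℝ) • z - c with hy₁
  have hy₁F : y₁ ∈ F := by
    have h1 := hFsmul (1 / 2) _ (hφ z)
    have h2 : (1 / 2 : ℝ) • (z - ∑ j, φ j z • b j) = y₁ := by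
      rw [hy₁, hc, smul_sub]
    rwa [h2] at h1
  have hz1 : ‖(1 / 2 : ℝ) • z‖ = ‖z‖ / 2 := by
    rw [norm_smul]; norm_num; ring
  have hzu : ‖z‖ ≤ 2 := by
    calc ‖z‖ ≤ ‖u‖ + ‖x‖ := norm_sub_le _ _
      _ ≤ 2 := by rw [hx]; linarith
  have hy₁u : ‖y₁‖ ≤ 1 + ε * M / 2 := by
    calc ‖y₁‖ ≤ ‖(1 / 2 : ℝ) • z‖ + ‖c‖ := norm_sub_le _ _
      _ ≤ 1 + ε * M / 2 := by rw [hz1]; linarith
  have hy₁l : 1 - ε / 2 - ε * M / 2 ≤ ‖y₁‖ := by
    have h1 : ‖(1 / 2 : ℝ) • z‖ ≤ ‖y₁‖ + ‖c‖ := by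
      have : (1 / 2 : ℝ) • z = y₁ + c := by rw [hy₁]; abel
      rw [this]; exact norm_add_le _ _
    rw [hz1] at h1
    linarith
  have hη'le : η' ≤ 1 / 2 := min_le_right _ _
  have hy₁pos : 0 < ‖y₁‖ := by nlinarith
  refine ⟨‖y₁‖⁻¹ • y₁, hFsmul _ _ hy₁F, ?_, ?_⟩
  · rw [norm_smul, norm_inv, norm_norm]
    field_simp
  · have hdiff : ‖‖y₁‖⁻¹ • y₁ - y₁‖ ≤ ε / 2 + ε * M / 2 := by
      have h1 : ‖y₁‖⁻¹ • y₁ - y₁ = (‖y₁‖⁻¹ - 1) • y₁ := by rw [sub_smul, one_smul]
      rw [h1, norm_smul, Real.norm_eq_abs]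
      have h2 : |‖y₁‖⁻¹ - 1| * ‖y₁‖ = |(‖y₁‖⁻¹ - 1) * ‖y₁‖| := by
        rw [abs_mul, abs_of_pos hy₁pos]
      rw [h2]
      have h3 : (‖y₁‖⁻¹ - 1) * ‖y₁‖ = 1 - ‖y₁‖ := by field_simp
      rw [h3, abs_le]
      constructor <;> linarith
    have hy₁x : y₁ + (1 / 2 : ℝ) • x = (1 / 2 : ℝ) • u - c := by
      rw [hy₁, hz, smul_sub]; abel
    have hsum : ‖y₁‖⁻¹ • y₁ + (1 / 2 : ℝ) • x = (‖y₁‖⁻¹ • y₁ - y₁) + ((1 / 2 : ℝ) • u - c) := by
      rw [← hy₁x]; abel
    rw [hsum]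
    have h3 : ‖(1 / 2 : ℝ) • u‖ ≤ 1 / 2 := by
      rw [norm_smul]; norm_num; linarith
    have h4 : ‖(1 / 2 : ℝ) • u - c‖ ≤ 1 / 2 + ε * M / 2 := by
      refine (norm_sub_le _ _).trans ?_
      linarith
    have h5 := norm_add_le (‖y₁‖⁻¹ • y₁ - y₁) ((1 / 2 : ℝ) • u - c)
    have h6 : η' ≤ η := min_le_left _ _
    nlinarith

/-- Upper bounds for the asymptotic quantities on a Daugavet space. -/
theorem daug_upper (E : RealBanach) (hD : HasDaugavetProperty E.X) (t : ℝ) (ht : 0 < t) (x : E.X)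
    (hx : ‖x‖ = 1) (F : Set E.X) (hF : E.IsCof F) (η : ℝ) (hη : 0 < η) :
    ∃ y ∈ F, ‖y‖ = 1 ∧ ‖x + t • y‖ - 1 ≤ max 0 (t - 2) + η ∧
      (‖x + t • y‖ + ‖x - t • y‖) / 2 - 1 ≤ max (t / 2) (t - 1) + η := by
  obtain ⟨y, hyF, hy1, hy2⟩ := daug_half E hD x hx F hF (η / t) (by positivity)
  refine ⟨y, hyF, hy1, ?_⟩
  have hw : t * ‖y + (1 / 2 : ℝ) • x‖ ≤ t / 2 + η := by
    calc t * ‖y + (1 / 2 : ℝ) • x‖ ≤ t * (1 / 2 + η / t) := by gcongr
      _ = t / 2 + η := by field_simp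
  have h1 : ‖x + t • y‖ ≤ |1 - t / 2| + (t / 2 + η) := by
    have : x + t • y = (1 - t / 2) • x + t • (y + (1 / 2 : ℝ) • x) := by
      rw [sub_smul, one_smul, smul_add, smul_smul]
      have : t * (1 / 2) = t / 2 := by ring
      rw [this]; abel
    rw [this]
    refine (norm_add_le _ _).trans ?_
    rw [norm_smul, norm_smul, hx, Real.norm_eq_abs, Real.norm_of_nonneg ht.le]
    linarith
  have h2 : ‖x - t • y‖ ≤ (1 + t / 2) + (t / 2 + η) := by
    have : x - t • y = (1 + t / 2) • x - t • (y + (1 / 2 : ℝ) • x) := by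
      rw [add_smul, one_smul, smul_add, smul_smul]
      have : t * (1 / 2) = t / 2 := by ring
      rw [this]; abel
    rw [this]
    refine (norm_sub_le _ _).trans ?_
    rw [norm_smul, norm_smul, hx, Real.norm_of_nonneg (by positivity), Real.norm_of_nonneg ht.le]
    linarith
  rcases le_total t 2 with ht2 | ht2
  · have habs : |1 - t / 2| = 1 - t / 2 := abs_of_nonneg (by linarith)
    rw [habs] at h1
    constructor
    · have := le_max_left (0:ℝ) (t - 2)
      linarith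
    · have := le_max_left (t / 2) (t - 1)
      linarith
  · have habs : |1 - t / 2| = t / 2 - 1 := by
      rw [abs_of_nonpos (by linarith)]; ring
    rw [habs] at h1
    constructor
    · have := le_max_right (0:ℝ) (t - 2)
      linarith
    · have := le_max_right (t / 2) (t - 1)
      linarith

/-- No equivalent norm is AUC on a non-trivial Daugavet space. -/
theorem daug_no_auc (E : RealBanach) (hD : HasDaugavetProperty E.X) (x₀ : E.X) (hx₀ : ‖x₀‖ = 1) :
    ∀ N : E.X → ℝ, E.IsEquivNorm N → ¬ E.IsAUC N := by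
  apply Crest.Agent.Lib.AsympGame.no_auc_of_game E 1 2 one_pos
  intro K
  have hK : (0:ℝ) < (K:ℝ) + 1 := by positivity
  refine ⟨fun i => {p | 1 ≤ ‖p‖ ∧ ‖p‖ ≤ 1 + (i:ℝ) / ((K:ℝ) + 1)}, ⟨x₀, ⟨hx₀.ge, ?_⟩, hx₀.ge⟩, ?_, ?_⟩
  · simp [hx₀]
  · rintro i hi p ⟨hp1, hp2⟩ F hF ε hε
    set r := ‖p‖ with hr
    have hrpos : 0 < r := by linarith
    obtain ⟨x, hx⟩ : ∃ x : E.X, x = r⁻¹ • p := ⟨_, rfl⟩
    have hxn : ‖x‖ = 1 := by
      rw [hx, norm_smul, norm_inv, Real.norm_eq_abs, abs_of_pos hrpos, ← hr]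
      field_simp
    have hpx : r • x = p := by
      rw [hx, smul_smul, mul_inv_cancel₀ hrpos.ne', one_smul]
    set η : ℝ := 1 / (8 * ((K:ℝ) + 1)) with hη
    have hη0 : 0 < η := by positivity
    obtain ⟨y, hyF, hy1, hy2⟩ := daug_half E hD x hxn F hF η hη0
    obtain ⟨Sub, hSub, -, -⟩ := hF
    have hyS : y ∈ Sub := by rw [← SetLike.mem_coe, hSub]; exact hyF
    have hy'F : (2 * r) • y ∈ F := by
      rw [← hSub]; exact Sub.smul_mem _ hyS
    have hiK : (i:ℝ) + 1 ≤ (K:ℝ) := by exact_mod_cast hi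
    have hr2 : r ≤ 2 := by
      have : (i:ℝ) / ((K:ℝ) + 1) ≤ 1 := by
        rw [div_le_one hK]; linarith
      linarith
    have hp' : p + (2 * r) • y = (2 * r) • (y + (1 / 2 : ℝ) • x) := by
      rw [smul_add, smul_smul]
      have : 2 * r * (1 / 2) = r := by ring
      rw [this, hpx]; abel
    have hnorm' : ‖p + (2 * r) • y‖ = 2 * r * ‖y + (1 / 2 : ℝ) • x‖ := by
      rw [hp', norm_smul, Real.norm_of_nonneg (by positivity)]
    refine ⟨p + (2 * r) • y, ⟨?_, ?_⟩, (2 * r) • y, hy'F, ?_, ?_⟩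
    · rw [hnorm']
      have h1 : ‖y‖ ≤ ‖y + (1 / 2 : ℝ) • x‖ + ‖(1 / 2 : ℝ) • x‖ := by
        have := norm_sub_le (y + (1 / 2 : ℝ) • x) ((1 / 2 : ℝ) • x)
        simpa using this
      have h2 : ‖(1 / 2 : ℝ) • x‖ = 1 / 2 := by
        rw [norm_smul, hxn]; norm_num
      rw [hy1, h2] at h1
      nlinarith
    · rw [hnorm']
      push_cast
      have h1 : ((i:ℝ) + 1) / ((K:ℝ) + 1) = (i:ℝ) / ((K:ℝ) + 1) + 1 / ((K:ℝ) + 1) := by ring
      rw [h1]
      have h2 : 4 * η = 1 / (2 * ((K:ℝ) + 1)) := by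
        rw [hη]; field_simp; norm_num
      have h3 : 1 / (2 * ((K:ℝ) + 1)) ≤ 1 / ((K:ℝ) + 1) := by
        apply one_div_le_one_div_of_le hK; linarith
      have h4 : r * (2 * η) ≤ 2 * (2 * η) := by gcongr
      nlinarith
    · rw [norm_smul, hy1, Real.norm_of_nonneg (by positivity)]
      linarith
    · simp [hε.le]
  · rintro i hi p ⟨-, hp2⟩
    have hiK : (i:ℝ) ≤ (K:ℝ) := by exact_mod_cast hi
    have : (i:ℝ) / ((K:ℝ) + 1) ≤ 1 := by
      rw [div_le_one hK]; linarith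
    linarith

end Crest.Agent.Lib.DaugavetCore
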