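import Crest.Prelude.Def_Diamond
import Crest.Agent.Lib.AsympGame

/-!
Lower bounds for the distortion of the countably branching diamond graphs in spaces with a
maximum-based asymptotic midpoint property.
-/

set_option autoImplicit false

namespace Crest.Agent.Lib.DiamondBound

open Crest.AnalysisR Crest.Agent.Lib.AsympGame

attribute [local instance] RealBanach.normed RealBanach.space

/-- The maximum along a line is monotone in the parameter. -/
theorem max_mono {X : Type*} [NormedAddCommGroup X] [NormedSpace ℝ X] (x y : X) (t τ : ℝ)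
    (ht : 0 ≤ t) (hτ : t ≤ τ) (hτ0 : 0 < τ) :
    max ‖x + t • y‖ ‖x - t • y‖ ≤ max ‖x + τ • y‖ ‖x - τ • y‖ := by
  set M := max ‖x + τ • y‖ ‖x - τ • y‖ with hM
  have hA : ‖x + τ • y‖ ≤ M := le_max_left _ _
  have hB : ‖x - τ • y‖ ≤ M := le_max_right _ _
  set l : ℝ := (1 + t / τ) / 2 with hl
  have hr0 : 0 ≤ t / τ := by positivity
  have hr1 : t / τ ≤ 1 := (div_le_one hτ0).2 hτ
  have hl0 : 0 ≤ l := by rw [hl]; linarith
  have hl1 : 0 ≤ 1 - l := by rw [hl]; linarith
  have hlτ : (2 * l - 1) * τ = t := by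
    rw [hl]; field_simp; ring
  have h1 : x + t • y = l • (x + τ • y) + (1 - l) • (x - τ • y) := by
    have : l • (x + τ • y) + (1 - l) • (x - τ • y) = x + ((2 * l - 1) * τ) • y := by
      module
    rw [this, hlτ]
  have h2 : x - t • y = (1 - l) • (x + τ • y) + l • (x - τ • y) := by
    have : (1 - l) • (x + τ • y) + l • (x - τ • y) = x - ((2 * l - 1) * τ) • y := by
      module
    rw [this, hlτ]
  apply max_le
  · rw [h1]
    refine (norm_add_le _ _).trans ?_
    rw [norm_smul, norm_smul, Real.norm_of_nonneg hl0, Real.norm_of_nonneg hl1]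
    nlinarith
  · rw [h2]
    refine (norm_add_le _ _).trans ?_
    rw [norm_smul, norm_smul, Real.norm_of_nonneg hl0, Real.norm_of_nonneg hl1]
    nlinarith

/-- A bounded sequence has two distinct terms which are almost equal on finitely many functionals. -/
theorem exists_pair_close {X : Type*} [NormedAddCommGroup X] [NormedSpace ℝ X] {d : ℕ}
    (φ : Fin d → (X →L[ℝ] ℝ)) (m : ℕ → X) (R : ℝ) (hm : ∀ i, ‖m i‖ ≤ R) (δ : ℝ) (hδ : 0 < δ) :
    ∃ i i', i ≠ i' ∧ ∀ j, |φ j (m i) - φ j (m i')| < δ := by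
  let x : ℕ → (Fin d → ℝ) := fun n j => φ j (m n)
  let B : ℝ := (∑ j, ‖φ j‖) * |R|
  have hB0 : 0 ≤ B := by positivity
  have hx : ∀ n, x n ∈ Metric.closedBall (0 : Fin d → ℝ) B := by
    intro n
    rw [mem_closedBall_zero_iff, pi_norm_le_iff_of_nonneg hB0]
    intro j
    calc ‖x n j‖ = ‖φ j (m n)‖ := rfl
      _ ≤ ‖φ j‖ * ‖m n‖ := (φ j).le_opNorm _
      _ ≤ ‖φ j‖ * |R| := by
          gcongr
          exact (hm n).trans (le_abs_self R)
      _ ≤ B := by
          simp only [B]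
          gcongr
          exact Finset.single_le_sum (f := fun j => ‖φ j‖) (fun _ _ => norm_nonneg _)
            (Finset.mem_univ j)
  obtain ⟨a, -, ψ, hψ, hlim⟩ := tendsto_subseq_of_bounded Metric.isBounded_closedBall hx
  obtain ⟨N, hN⟩ := Metric.tendsto_atTop.1 hlim (δ / 2) (by positivity)
  refine ⟨ψ N, ψ (N + 1), hψ.injective.ne (by omega), fun j => ?_⟩
  have h1 := hN N le_rfl
  have h2 := hN (N + 1) (by omega)
  have h3 : dist (x (ψ N)) (x (ψ (N + 1))) < δ := by
    have := dist_triangle_right (x (ψ N)) (x (ψ (N + 1))) a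
    simp only [Function.comp] at h1 h2
    linarith
  have h4 : dist (x (ψ N) j) (x (ψ (N + 1)) j) ≤ dist (x (ψ N)) (x (ψ (N + 1))) := dist_le_pi_dist _ _ j
  rw [Real.dist_eq] at h4
  exact lt_of_le_of_lt h4 h3

/-- The key midpoint step. -/
theorem midpoint_step (E : RealBanach)
    (hmax : ∀ t : ℝ, 0 < t → E.MaxMidpointModulusGE E.norm t (Real.sqrt (1 + t ^ 2 / 4) - 1))
    (u : E.X) (hu : 0 < ‖u‖) (m : ℕ → E.X) (R : ℝ) (hm : ∀ i, ‖m i‖ ≤ R) (s : ℝ) (hs : 0 < s)
    (hsep : ∀ i i', i ≠ i' → 2 * s ≤ ‖m i - m i'‖) (ε : ℝ) (hε : 0 < ε) :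
    ∃ i, Real.sqrt (‖u‖ ^ 2 + s ^ 2 / 4) - ε ≤ max ‖u + m i‖ ‖u - m i‖ := by
  set δ : ℝ := min (s / 2) (ε / 3) with hδdef
  have hδ : 0 < δ := lt_min (by positivity) (by positivity)
  have hδ1 : δ ≤ s / 2 := min_le_left _ _
  have hδ2 : δ ≤ ε / 3 := min_le_right _ _
  set U := ‖u‖ with hU
  set t₀ : ℝ := (s - δ) / U with ht₀def
  have hsδ : 0 < s - δ := by linarith
  have ht₀ : 0 < t₀ := by positivity
  set x : E.X := U⁻¹ • u with hxdef
  have hx : E.norm x = 1 := by
    show ‖x‖ = 1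
    rw [hxdef, norm_smul, norm_inv, Real.norm_of_nonneg hu.le, ← hU]
    field_simp
  set η : ℝ := ε / (3 * U) with hηdef
  have hη : 0 < η := by positivity
  obtain ⟨F, hF, hF'⟩ := hmax t₀ ht₀ x hx η hη
  have hFsub := hF
  obtain ⟨d, φ, b, hφ, -⟩ := exists_functionals_of_isCof E F hF
  set M : ℝ := ∑ j, ‖b j‖ + 1 with hMdef
  have hM : 0 < M := by positivity
  obtain ⟨i, i', hne, hclose⟩ := exists_pair_close φ m R hm (δ / M) (by positivity)
  set z : E.X := (1 / 2 : ℝ) • (m i - m i') with hzdef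
  have hzn : s ≤ ‖z‖ := by
    rw [hzdef, norm_smul]
    have := hsep i i' hne
    rw [Real.norm_of_nonneg (by norm_num)]
    linarith
  set z' : E.X := z - ∑ j, φ j z • b j with hz'def
  have hz'F : z' ∈ F := hφ z
  have hzz' : ‖z - z'‖ ≤ δ := by
    have h1 : z - z' = ∑ j, φ j z • b j := by rw [hz'def]; abel
    rw [h1]
    have hφz : ∀ j, |φ j z| ≤ δ / M := by
      intro j
      have h2 : φ j z = (1 / 2 : ℝ) * (φ j (m i) - φ j (m i')) := by
        rw [hzdef, map_smul, map_sub, smul_eq_mul]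
      rw [h2, abs_mul, abs_of_pos (by norm_num : (0 : ℝ) < 1 / 2)]
      have h3 := (hclose j).le
      have h4 := abs_nonneg (φ j (m i) - φ j (m i'))
      linarith
    calc ‖∑ j, φ j z • b j‖ ≤ ∑ j, ‖φ j z • b j‖ := norm_sum_le _ _
      _ = ∑ j, |φ j z| * ‖b j‖ := by
          apply Finset.sum_congr rfl; intro j _; rw [norm_smul, Real.norm_eq_abs]
      _ ≤ ∑ j, (δ / M) * ‖b j‖ := by
          apply Finset.sum_le_sum; intro j _
          gcongr
          exact hφz j
      _ = (δ / M) * ∑ j, ‖b j‖ := by rw [Finset.mul_sum]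
      _ ≤ (δ / M) * M := by
          gcongr
          rw [hMdef]; linarith
      _ = δ := by field_simp
  have hz'n : s - δ ≤ ‖z'‖ := by
    have h1 : ‖z‖ ≤ ‖z'‖ + ‖z - z'‖ := by
      have := norm_add_le z' (z - z')
      simpa using this
    linarith
  have hz'pos : 0 < ‖z'‖ := lt_of_lt_of_le hsδ hz'n
  set y : E.X := ‖z'‖⁻¹ • z' with hydef
  have hyF : y ∈ F := by
    obtain ⟨S, hS, -, -⟩ := hFsub
    rw [← hS] at hz'F ⊢
    exact S.smul_mem _ hz'F
  have hy : E.norm y = 1 := by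
    show ‖y‖ = 1
    rw [hydef, norm_smul, norm_inv, norm_norm]
    field_simp
  have h1 := hF' y hyF hy
  have h1' : Real.sqrt (1 + t₀ ^ 2 / 4) - η ≤ max ‖x + t₀ • y‖ ‖x - t₀ • y‖ := by
    have : Real.sqrt (1 + t₀ ^ 2 / 4) - 1 - η ≤ max ‖x + t₀ • y‖ ‖x - t₀ • y‖ - 1 := h1
    linarith
  set τ : ℝ := ‖z'‖ / U with hτdef
  have hτpos : 0 < τ := by positivity
  have hτ : t₀ ≤ τ := by
    rw [ht₀def, hτdef]
    gcongr
  have h2 := max_mono x y t₀ τ ht₀.le hτ hτpos
  have hUne : U ≠ 0 := hu.ne'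
  have hz'ne : ‖z'‖ ≠ 0 := hz'pos.ne'
  have h3 : U • (x + τ • y) = u + z' := by
    rw [smul_add, hxdef, hydef, smul_smul, smul_smul, smul_smul, hτdef]
    have e1 : U * U⁻¹ = 1 := by field_simp
    have e2 : U * (‖z'‖ / U) * ‖z'‖⁻¹ = 1 := by field_simp
    rw [e1, e2, one_smul, one_smul]
  have h4 : U • (x - τ • y) = u - z' := by
    rw [smul_sub, hxdef, hydef, smul_smul, smul_smul, smul_smul, hτdef]
    have e1 : U * U⁻¹ = 1 := by field_simp
    have e2 : U * (‖z'‖ / U) * ‖z'‖⁻¹ = 1 := by field_simp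
    rw [e1, e2, one_smul, one_smul]
  have h5 : U * max ‖x + τ • y‖ ‖x - τ • y‖ = max ‖u + z'‖ ‖u - z'‖ := by
    rw [← h3, ← h4, norm_smul, norm_smul, Real.norm_of_nonneg hu.le,
      mul_max_of_nonneg _ _ hu.le]
  have h6 : U * Real.sqrt (1 + t₀ ^ 2 / 4) = Real.sqrt (U ^ 2 + (s - δ) ^ 2 / 4) := by
    have e : U ^ 2 + (s - δ) ^ 2 / 4 = U ^ 2 * (1 + t₀ ^ 2 / 4) := by
      rw [ht₀def]; field_simp
    rw [e, Real.sqrt_mul (by positivity), Real.sqrt_sq hu.le]
  have h7 : Real.sqrt (U ^ 2 + (s - δ) ^ 2 / 4) - ε / 3 ≤ max ‖u + z'‖ ‖u - z'‖ := by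
    rw [← h5, ← h6]
    have e : U * η = ε / 3 := by
      rw [hηdef]; field_simp
    have : U * (Real.sqrt (1 + t₀ ^ 2 / 4) - η) ≤ U * max ‖x + τ • y‖ ‖x - τ • y‖ := by
      gcongr
      exact h1'.trans h2
    rw [mul_sub, e] at this
    exact this
  have h8 : Real.sqrt (U ^ 2 + s ^ 2 / 4) ≤ Real.sqrt (U ^ 2 + (s - δ) ^ 2 / 4) + δ / 2 := by
    apply Real.sqrt_le_iff.2 ⟨by positivity, ?_⟩
    set Q := Real.sqrt (U ^ 2 + (s - δ) ^ 2 / 4) with hQ
    have hQ2 : Q ^ 2 = U ^ 2 + (s - δ) ^ 2 / 4 := Real.sq_sqrt (by positivity)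
    have hQ3 : (s - δ) / 2 ≤ Q := by
      apply Real.le_sqrt_of_sq_le
      nlinarith [sq_nonneg U]
    nlinarith
  -- passing to z
  have hAz : ‖u + z'‖ ≤ ‖u + z‖ + δ := by
    have e : u + z' = (u + z) - (z - z') := by abel
    rw [e]
    exact (norm_sub_le _ _).trans (by linarith)
  have hBz : ‖u - z'‖ ≤ ‖u - z‖ + δ := by
    have e : u - z' = (u - z) + (z - z') := by abel
    rw [e]
    exact (norm_add_le _ _).trans (by linarith)
  set Ai := max ‖u + m i‖ ‖u - m i‖ with hAi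
  set Ai' := max ‖u + m i'‖ ‖u - m i'‖ with hAi'
  have e1 : u + z = (1 / 2 : ℝ) • ((u + m i) + (u - m i')) := by
    rw [hzdef, smul_add, smul_add, smul_sub, smul_sub]
    have : u = (1 / 2 : ℝ) • u + (1 / 2 : ℝ) • u := by
      rw [← add_smul]; norm_num
    nth_rw 1 [this]
    abel
  have e2 : u - z = (1 / 2 : ℝ) • ((u - m i) + (u + m i')) := by
    rw [hzdef, smul_add, smul_sub, smul_add, smul_sub]
    have : u = (1 / 2 : ℝ) • u + (1 / 2 : ℝ) • u := by
      rw [← add_smul]; norm_num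
    nth_rw 1 [this]
    abel
  have hzA : ‖u + z‖ ≤ max Ai Ai' := by
    rw [e1, norm_smul, Real.norm_of_nonneg (by norm_num)]
    have h9 := norm_add_le (u + m i) (u - m i')
    have h10 : ‖u + m i‖ ≤ max Ai Ai' := (le_max_left _ _).trans (le_max_left _ _)
    have h11 : ‖u - m i'‖ ≤ max Ai Ai' := (le_max_right _ _).trans (le_max_right _ _)
    linarith
  have hzB : ‖u - z‖ ≤ max Ai Ai' := by
    rw [e2, norm_smul, Real.norm_of_nonneg (by norm_num)]
    have h9 := norm_add_le (u - m i) (u + m i')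
    have h10 : ‖u - m i‖ ≤ max Ai Ai' := (le_max_right _ _).trans (le_max_left _ _)
    have h11 : ‖u + m i'‖ ≤ max Ai Ai' := (le_max_left _ _).trans (le_max_right _ _)
    linarith
  have hfinal : Real.sqrt (U ^ 2 + s ^ 2 / 4) - ε ≤ max Ai Ai' := by
    have h12 : max ‖u + z'‖ ‖u - z'‖ ≤ max Ai Ai' + δ := by
      apply max_le
      · linarith
      · linarith
    linarith
  rcases le_total Ai Ai' with h | h
  · refine ⟨i', ?_⟩
    rw [max_eq_right h] at hfinal
    exact hfinal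
  · refine ⟨i, ?_⟩
    rw [max_eq_left h] at hfinal
    exact hfinal

/-- Functions which are `1`-Lipschitz along edges. -/
def EdgeLip (k : ℕ) (h : DiamondVertex k → ℝ) : Prop :=
  ∀ e : DiamondEdge k, |h (diamondSrc k e) - h (diamondTgt k e)| ≤ 1

/-- Lifting to the next diamond, doubling the values. -/
noncomputable def liftFn {k : ℕ} (h : DiamondVertex k → ℝ) : DiamondVertex (k + 1) → ℝ :=
  Sum.elim (fun u => 2 * h u) (fun p => h (diamondSrc k p.1) + h (diamondTgt k p.1))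

theorem liftFn_edgeLip {k : ℕ} (h : DiamondVertex k → ℝ) (hh : EdgeLip k h) :
    EdgeLip (k + 1) (liftFn h) := by
  rintro ⟨e, i, b⟩
  have h1 := hh e
  cases b
  · show |2 * h (diamondSrc k e) - (h (diamondSrc k e) + h (diamondTgt k e))| ≤ 1
    rw [show 2 * h (diamondSrc k e) - (h (diamondSrc k e) + h (diamondTgt k e))
      = h (diamondSrc k e) - h (diamondTgt k e) by ring]
    exact h1
  · show |(h (diamondSrc k e) + h (diamondTgt k e)) - 2 * h (diamondTgt k e)| ≤ 1
    rw [show (h (diamondSrc k e) + h (diamondTgt k e)) - 2 * h (diamondTgt k e)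
      = h (diamondSrc k e) - h (diamondTgt k e) by ring]
    exact h1

open Classical in
/-- The spike function at two middle points. -/
noncomputable def spike {k : ℕ} (e : DiamondEdge k) (i i' : ℕ) : DiamondVertex (k + 1) → ℝ :=
  Sum.elim (fun _ => 0) (fun p => if p = (e, i) then 1 else if p = (e, i') then -1 else 0)

theorem spike_inl {k : ℕ} (e : DiamondEdge k) (i i' : ℕ) (a : DiamondVertex k) :
    spike e i i' (Sum.inl a) = 0 := rfl

open Classical in
theorem spike_inr {k : ℕ} (e : DiamondEdge k) (i i' : ℕ) (p : DiamondEdge k × ℕ) :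
    spike e i i' (Sum.inr p) = if p = (e, i) then 1 else if p = (e, i') then -1 else 0 := rfl

theorem spike_abs_le {k : ℕ} (e : DiamondEdge k) (i i' : ℕ) (p : DiamondEdge k × ℕ) :
    |spike e i i' (Sum.inr p)| ≤ 1 := by
  rw [spike_inr]
  split_ifs <;> simp

theorem spike_edgeLip {k : ℕ} (e : DiamondEdge k) (i i' : ℕ) :
    EdgeLip (k + 1) (spike e i i') := by
  rintro ⟨e', j, b⟩
  cases b
  · show |spike e i i' (Sum.inl (diamondSrc k e')) - spike e i i' (Sum.inr (e', j))| ≤ 1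
    rw [spike_inl, zero_sub, abs_neg]
    exact spike_abs_le _ _ _ _
  · show |spike e i i' (Sum.inr (e', j)) - spike e i i' (Sum.inl (diamondTgt k e'))| ≤ 1
    rw [spike_inl, sub_zero]
    exact spike_abs_le _ _ _ _

theorem spike_left {k : ℕ} (e : DiamondEdge k) (i i' : ℕ) :
    spike e i i' (Sum.inr (e, i)) = 1 := by
  rw [spike_inr]; simp

theorem spike_right {k : ℕ} (e : DiamondEdge k) (i i' : ℕ) (hne : i ≠ i') :
    spike e i i' (Sum.inr (e, i')) = -1 := by
  rw [spike_inr]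
  have : ((e, i') : DiamondEdge k × ℕ) ≠ (e, i) := by
    intro h
    exact hne (Prod.ext_iff.1 h).2.symm
  simp [this]

/-- The main induction. -/
theorem diamond_induction (E : RealBanach)
    (hmax : ∀ t : ℝ, 0 < t → E.MaxMidpointModulusGE E.norm t (Real.sqrt (1 + t ^ 2 / 4) - 1)) :
    ∀ (k : ℕ) (g : DiamondVertex k → E.X) (s C : ℝ), 0 < s →
      (∀ h, EdgeLip k h → ∀ u v, s * |h u - h v| ≤ ‖g u - g v‖) →
      (∀ e, ‖g (diamondSrc k e) - g (diamondTgt k e)‖ ≤ C) →
      ∀ ε : ℝ, 0 < ε →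
        ∃ e, s ^ 2 * (1 + (k : ℝ) / 4) - ε ≤ ‖g (diamondSrc k e) - g (diamondTgt k e)‖ ^ 2 := by
  intro k
  induction k with
  | zero =>
    intro g s C hs hLB hUB ε hε
    refine ⟨(), ?_⟩
    let h : DiamondVertex 0 → ℝ := fun v => bif (v : Bool) then 1 else 0
    have hh : EdgeLip 0 h := by
      intro e
      show |(0 : ℝ) - 1| ≤ 1
      simp
    have h1 := hLB h hh (diamondSrc 0 ()) (diamondTgt 0 ())
    have h2 : |h (diamondSrc 0 ()) - h (diamondTgt 0 ())| = 1 := by
      show |(0 : ℝ) - 1| = 1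
      simp
    rw [h2, mul_one] at h1
    have h3 : s ^ 2 ≤ ‖g (diamondSrc 0 ()) - g (diamondTgt 0 ())‖ ^ 2 :=
      pow_le_pow_left₀ hs.le h1 2
    simp only [Nat.cast_zero, zero_div, add_zero, mul_one]
    linarith
  | succ k ih =>
    intro g s C hs hLB hUB ε hε
    let g' : DiamondVertex k → E.X := fun v => g (Sum.inl v)
    have hLB' : ∀ h, EdgeLip k h → ∀ u v, (2 * s) * |h u - h v| ≤ ‖g' u - g' v‖ := by
      intro h hh u v
      have h1 := hLB (liftFn h) (liftFn_edgeLip h hh) (Sum.inl u) (Sum.inl v)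
      have h2 : liftFn h (Sum.inl u) - liftFn h (Sum.inl v) = 2 * (h u - h v) := by
        show 2 * h u - 2 * h v = _
        ring
      rw [h2, abs_mul, abs_of_pos (by norm_num : (0 : ℝ) < 2)] at h1
      calc 2 * s * |h u - h v| = s * (2 * |h u - h v|) := by ring
        _ ≤ _ := h1
    -- half edges
    have hhalf0 : ∀ (e : DiamondEdge k) (i : ℕ),
        ‖g (Sum.inl (diamondSrc k e)) - g (Sum.inr (e, i))‖ ≤ C := fun e i => hUB (e, i, false)
    have hhalf1 : ∀ (e : DiamondEdge k) (i : ℕ),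
        ‖g (Sum.inr (e, i)) - g (Sum.inl (diamondTgt k e))‖ ≤ C := fun e i => hUB (e, i, true)
    have hUB' : ∀ e, ‖g' (diamondSrc k e) - g' (diamondTgt k e)‖ ≤ 2 * C := by
      intro e
      have h1 := hhalf0 e 0
      have h2 := hhalf1 e 0
      have h3 := norm_add_le (g (Sum.inl (diamondSrc k e)) - g (Sum.inr (e, 0)))
        (g (Sum.inr (e, 0)) - g (Sum.inl (diamondTgt k e)))
      rw [sub_add_sub_cancel] at h3
      show ‖g (Sum.inl (diamondSrc k e)) - g (Sum.inl (diamondTgt k e))‖ ≤ 2 * C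
      linarith
    -- apply the induction hypothesis
    set ε' : ℝ := min ε (s ^ 2) with hε'def
    have hε'0 : 0 < ε' := lt_min hε (by positivity)
    have hε'1 : ε' ≤ ε := min_le_left _ _
    have hε'2 : ε' ≤ s ^ 2 := min_le_right _ _
    obtain ⟨e, he⟩ := ih g' (2 * s) (2 * C) (by positivity) hLB' hUB' ε' hε'0
    set p := g' (diamondSrc k e) with hp
    set q := g' (diamondTgt k e) with hq
    set u : E.X := (1 / 2 : ℝ) • (q - p) with hu
    have hun : ‖u‖ = ‖q - p‖ / 2 := by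
      rw [hu, norm_smul, Real.norm_of_nonneg (by norm_num)]
      ring
    have hk0 : (0 : ℝ) ≤ k := Nat.cast_nonneg k
    have hqp : ‖p - q‖ = ‖q - p‖ := norm_sub_rev _ _
    have hUsq : s ^ 2 * (1 + (k : ℝ) / 4) - ε' / 4 ≤ ‖u‖ ^ 2 := by
      rw [hun]
      rw [hqp] at he
      nlinarith
    have hupos : 0 < ‖u‖ := by
      by_contra hcon
      have h0 : ‖u‖ = 0 := le_antisymm (not_lt.1 hcon) (norm_nonneg _)
      rw [h0] at hUsq
      have : 0 < s ^ 2 := by positivity
      nlinarith [mul_nonneg this.le hk0]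
    have hC0 : 0 ≤ C := (norm_nonneg _).trans (hhalf0 e 0)
    have huC : ‖u‖ ≤ C := by
      rw [hun, ← hqp]
      have := hUB' e
      linarith
    -- the midpoints
    set c : E.X := (1 / 2 : ℝ) • (p + q) with hc
    let m : ℕ → E.X := fun i => g (Sum.inr (e, i)) - c
    have hm1 : ∀ i, ‖u + m i‖ = ‖g (Sum.inl (diamondSrc k e)) - g (Sum.inr (e, i))‖ := by
      intro i
      rw [← norm_neg]
      congr 1
      have hpdef : g (Sum.inl (diamondSrc k e)) = p := rfl
      simp only [m, hpdef, hu, hc]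
      module
    have hm2 : ∀ i, ‖u - m i‖ = ‖g (Sum.inr (e, i)) - g (Sum.inl (diamondTgt k e))‖ := by
      intro i
      rw [← norm_neg]
      congr 1
      have hqdef : g (Sum.inl (diamondTgt k e)) = q := rfl
      simp only [m, hqdef, hu, hc]
      module
    have hmb : ∀ i, ‖m i‖ ≤ C + ‖u‖ := by
      intro i
      have h1 : m i = (u + m i) - u := by abel
      rw [h1]
      refine (norm_sub_le _ _).trans ?_
      rw [hm1]
      have := hhalf0 e i
      linarith
    have hsep : ∀ i i', i ≠ i' → 2 * s ≤ ‖m i - m i'‖ := by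
      intro i i' hne
      have h1 := hLB (spike e i i') (spike_edgeLip e i i') (Sum.inr (e, i)) (Sum.inr (e, i'))
      rw [spike_left, spike_right e i i' hne] at h1
      have h2 : |(1 : ℝ) - -1| = 2 := by norm_num
      rw [h2] at h1
      have h3 : m i - m i' = g (Sum.inr (e, i)) - g (Sum.inr (e, i')) := by
        simp only [m]; abel
      rw [h3]
      linarith
    set ε₂ : ℝ := min (s / 4) (ε / (4 * (C + s))) with hε₂
    have hε₂0 : 0 < ε₂ := lt_min (by positivity) (by positivity)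
    obtain ⟨i, hi⟩ := midpoint_step E hmax u hupos m (C + ‖u‖) hmb s hs hsep ε₂ hε₂0
    set Q := Real.sqrt (‖u‖ ^ 2 + s ^ 2 / 4) with hQ
    have hQ2 : Q ^ 2 = ‖u‖ ^ 2 + s ^ 2 / 4 := Real.sq_sqrt (by positivity)
    have hQ0 : 0 ≤ Q := Real.sqrt_nonneg _
    have hQs : s / 2 ≤ Q := by
      apply Real.le_sqrt_of_sq_le
      nlinarith [sq_nonneg ‖u‖]
    have hQC : Q ≤ C + s := by
      apply Real.sqrt_le_iff.2 ⟨by positivity, ?_⟩
      nlinarith [norm_nonneg u]
    have hε₂1 : ε₂ ≤ s / 4 := min_le_left _ _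
    have hε₂2 : ε₂ ≤ ε / (4 * (C + s)) := min_le_right _ _
    have hQε : Q - ε₂ ≥ 0 := by linarith
    have hprod : 2 * ε₂ * Q ≤ ε / 2 := by
      have h1 : ε₂ * (C + s) ≤ ε / 4 := by
        have hCs : 0 < C + s := by positivity
        calc ε₂ * (C + s) ≤ ε / (4 * (C + s)) * (C + s) := by gcongr
          _ = ε / 4 := by field_simp
      nlinarith
    have hsq : s ^ 2 * (1 + ((k + 1 : ℕ) : ℝ) / 4) - ε ≤ (Q - ε₂) ^ 2 := by
      push_cast
      nlinarith
    -- choose the half edge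
    rcases le_total ‖u + m i‖ ‖u - m i‖ with hle | hle
    · refine ⟨(e, i, true), ?_⟩
      rw [max_eq_right hle, hm2] at hi
      have h5 : (Q - ε₂) ^ 2 ≤ ‖g (Sum.inr (e, i)) - g (Sum.inl (diamondTgt k e))‖ ^ 2 :=
        pow_le_pow_left₀ hQε hi 2
      exact hsq.trans h5
    · refine ⟨(e, i, false), ?_⟩
      rw [max_eq_left hle, hm1] at hi
      have h5 : (Q - ε₂) ^ 2 ≤ ‖g (Sum.inl (diamondSrc k e)) - g (Sum.inr (e, i))‖ ^ 2 :=
        pow_le_pow_left₀ hQε hi 2
      exact hsq.trans h5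

theorem src_ne_tgt (k : ℕ) (e : DiamondEdge k) : diamondSrc k e ≠ diamondTgt k e := by
  cases k with
  | zero =>
    show (false : Bool) ≠ true
    simp
  | succ k =>
    obtain ⟨e, i, b⟩ := e
    cases b
    · show (Sum.inl (diamondSrc k e) : DiamondVertex k ⊕ (DiamondEdge k × ℕ)) ≠ Sum.inr (e, i)
      simp
    · show (Sum.inr (e, i) : DiamondVertex k ⊕ (DiamondEdge k × ℕ)) ≠ Sum.inl (diamondTgt k e)
      simp

theorem adj_edge (k : ℕ) (e : DiamondEdge k) :
    (diamondGraph k).Adj (diamondSrc k e) (diamondTgt k e) := by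
  rw [diamondGraph, SimpleGraph.fromRel_adj]
  exact ⟨src_ne_tgt k e, Or.inl ⟨e, rfl, rfl⟩⟩

theorem adj_cases {k : ℕ} {a b : DiamondVertex k} (h : (diamondGraph k).Adj a b) :
    ∃ e, (diamondSrc k e = a ∧ diamondTgt k e = b) ∨ (diamondSrc k e = b ∧ diamondTgt k e = a) := by
  rw [diamondGraph, SimpleGraph.fromRel_adj] at h
  rcases h.2 with ⟨e, h1⟩ | ⟨e, h1⟩
  · exact ⟨e, Or.inl h1⟩
  · exact ⟨e, Or.inr h1⟩

/-- Connectivity of the diamonds. -/
theorem reachable (k : ℕ) : ∀ u v : DiamondVertex k, (diamondGraph k).Reachable u v := by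
  induction k with
  | zero =>
    have h : (diamondGraph 0).Reachable (diamondSrc 0 ()) (diamondTgt 0 ()) :=
      (adj_edge 0 ()).reachable
    have h' : (diamondGraph 0).Reachable (false : Bool) (true : Bool) := h
    intro u v
    have hb : ∀ w : DiamondVertex 0, (diamondGraph 0).Reachable (false : Bool) w := by
      intro w
      cases (w : Bool)
      · exact SimpleGraph.Reachable.refl _
      · exact h'
    exact (hb u).symm.trans (hb v)
  | succ k ih =>
    -- half-edge adjacency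
    have hA : ∀ (e : DiamondEdge k) (i : ℕ), (diamondGraph (k + 1)).Reachable
        (Sum.inl (diamondSrc k e)) (Sum.inr (e, i)) := fun e i =>
      (adj_edge (k + 1) (e, i, false)).reachable
    have hB : ∀ (e : DiamondEdge k) (i : ℕ), (diamondGraph (k + 1)).Reachable
        (Sum.inr (e, i)) (Sum.inl (diamondTgt k e)) := fun e i =>
      (adj_edge (k + 1) (e, i, true)).reachable
    have hadj : ∀ a b : DiamondVertex k, (diamondGraph k).Adj a b →
        (diamondGraph (k + 1)).Reachable (Sum.inl a) (Sum.inl b) := by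
      intro a b hab
      obtain ⟨e, ⟨h1, h2⟩ | ⟨h1, h2⟩⟩ := adj_cases hab
      · subst h1; subst h2
        exact (hA e 0).trans (hB e 0)
      · subst h1; subst h2
        exact ((hA e 0).trans (hB e 0)).symm
    have hinl : ∀ a b : DiamondVertex k,
        (diamondGraph (k + 1)).Reachable (Sum.inl a) (Sum.inl b) := by
      intro a b
      obtain ⟨w⟩ := ih a b
      induction w with
      | nil => exact SimpleGraph.Reachable.refl _
      | cons h _ ih' => exact (hadj _ _ h).trans ih'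
    -- every vertex reaches some `inl`
    have hall : ∀ w : DiamondVertex (k + 1), ∃ a : DiamondVertex k,
        (diamondGraph (k + 1)).Reachable (Sum.inl a) w := by
      intro w
      rcases (w : DiamondVertex k ⊕ (DiamondEdge k × ℕ)) with a | ⟨e, i⟩
      · exact ⟨a, SimpleGraph.Reachable.refl _⟩
      · exact ⟨_, hA e i⟩
    intro u v
    obtain ⟨a, ha⟩ := hall u
    obtain ⟨b, hb⟩ := hall v
    exact ha.symm.trans ((hinl a b).trans hb)

/-- Edge-Lipschitz functions are `1`-Lipschitz along walks. -/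
theorem edgeLip_walk {k : ℕ} (h : DiamondVertex k → ℝ) (hh : EdgeLip k h)
    {u v : DiamondVertex k} (p : (diamondGraph k).Walk u v) : |h u - h v| ≤ (p.length : ℝ) := by
  induction p with
  | nil => simp
  | @cons a b c hadj w ih =>
    have h1 : |h a - h b| ≤ 1 := by
      obtain ⟨e, ⟨h1, h2⟩ | ⟨h1, h2⟩⟩ := adj_cases hadj
      · subst h1; subst h2; exact hh e
      · subst h1; subst h2
        rw [abs_sub_comm]; exact hh e
    have h3 := abs_sub_le (h a) (h b) (h c)
    rw [SimpleGraph.Walk.length_cons]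
    push_cast
    linarith

/-- Edge-Lipschitz functions are `1`-Lipschitz for the graph distance. -/
theorem edgeLip_dist {k : ℕ} (h : DiamondVertex k → ℝ) (hh : EdgeLip k h)
    (u v : DiamondVertex k) : |h u - h v| ≤ (diamondDist k u v : ℝ) := by
  obtain ⟨p, hp⟩ := (reachable k u v).exists_walk_length_eq_dist
  rw [diamondDist, ← hp]
  exact edgeLip_walk h hh p

/-- The lower bound for the distortion. -/
theorem diamond_bound (E : RealBanach)
    (hmax : ∀ t : ℝ, 0 < t → E.MaxMidpointModulusGE E.norm t (Real.sqrt (1 + t ^ 2 / 4) - 1))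
    (k : ℕ) (f : DiamondVertex k → E.X) (D : ℝ) (h : E.HasDistortionLE k f D) :
    1 + (k : ℝ) / 4 ≤ D ^ 2 := by
  obtain ⟨s, hs, hf⟩ := h
  have hLB : ∀ h, EdgeLip k h → ∀ u v, s * |h u - h v| ≤ ‖f u - f v‖ := by
    intro h hh u v
    calc s * |h u - h v| ≤ s * (diamondDist k u v : ℝ) := by
          gcongr
          exact edgeLip_dist h hh u v
      _ ≤ _ := (hf u v).1
  have hedge : ∀ e, ‖f (diamondSrc k e) - f (diamondTgt k e)‖ ≤ D * s := by
    intro e
    have h1 := (hf (diamondSrc k e) (diamondTgt k e)).2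
    have h2 : diamondDist k (diamondSrc k e) (diamondTgt k e) = 1 :=
      SimpleGraph.dist_eq_one_iff_adj.2 (adj_edge k e)
    rw [h2] at h1
    simpa using h1
  have hs2 : 0 < s ^ 2 := by positivity
  apply le_of_forall_pos_le_add
  intro ε hε
  obtain ⟨e, he⟩ := diamond_induction E hmax k f s (D * s) hs hLB hedge (ε * s ^ 2) (by positivity)
  have h1 := hedge e
  have h2 : ‖f (diamondSrc k e) - f (diamondTgt k e)‖ ^ 2 ≤ (D * s) ^ 2 :=
    pow_le_pow_left₀ (norm_nonneg _) h1 2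
  have h3 : s ^ 2 * (1 + (k : ℝ) / 4) ≤ s ^ 2 * (D ^ 2 + ε) := by
    have : s ^ 2 * (D ^ 2 + ε) = (D * s) ^ 2 + ε * s ^ 2 := by ring
    rw [this]
    linarith
  exact le_of_mul_le_mul_left h3 hs2

end Crest.Agent.Lib.DiamondBound
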