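import Mathlib

/-!
Tools for `ℓ²`-sums of Banach spaces: Pythagoras, separability, reflexivity, and a Minkowski-type
inequality for midpoint bounds.
-/

set_option autoImplicit false

namespace Crest.Agent.Lib.LpTools

open scoped ENNReal

section family

variable {E : ℕ → Type} [∀ k, NormedAddCommGroup (E k)] [∀ k, NormedSpace ℝ (E k)]

theorem hasSum_sq (z : lp E 2) : HasSum (fun k => ‖z k‖ ^ 2) (‖z‖ ^ 2) := by
  have := lp.hasSum_norm (p := 2) (by norm_num) z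
  simpa using this

theorem sum_sq_coord_le (z : lp E 2) (A : Finset ℕ) : ∑ k ∈ A, ‖z k‖ ^ 2 ≤ ‖z‖ ^ 2 :=
  sum_le_hasSum A (fun _ _ => by positivity) (hasSum_sq z)

theorem norm_coord_le (z : lp E 2) (k : ℕ) : ‖z k‖ ≤ ‖z‖ :=
  lp.norm_apply_le_norm (by norm_num) z k

/-- The coordinate map. -/
noncomputable def coord (k : ℕ) : lp E 2 →L[ℝ] E k :=
  LinearMap.mkContinuous
    { toFun := fun z => z k
      map_add' := by intros; rfl
      map_smul' := by intros; rfl } 1 (by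
      intro z
      simpa using norm_coord_le z k)

@[simp] theorem coord_apply (k : ℕ) (z : lp E 2) : coord (E := E) k z = z k := rfl

/-- The injection of a coordinate. -/
noncomputable def sing (k : ℕ) : E k →ₗᵢ[ℝ] lp E 2 where
  toFun := fun a => lp.single 2 k a
  map_add' := by intro a b; exact lp.single_add 2 k a b
  map_smul' := by intro c a; exact lp.single_smul 2 k c a
  norm_map' := fun a => lp.norm_single (by norm_num) k a

@[simp] theorem sing_apply (k : ℕ) (a : E k) : sing k a = lp.single 2 k a := rfl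

theorem coord_sing_self (k : ℕ) (a : E k) : (sing k a : lp E 2) k = a := by
  simp

theorem coord_sing_ne {k j : ℕ} (h : j ≠ k) (a : E k) : (sing k a : lp E 2) j = 0 := by
  simp [lp.single_apply, h]

theorem hasSum_sing (z : lp E 2) : HasSum (fun k => sing k (z k)) z :=
  lp.hasSum_single (by norm_num) z

theorem sum_sing_apply (A : Finset ℕ) (w : ∀ k, E k) (j : ℕ) :
    ((∑ k ∈ A, sing k (w k) : lp E 2) : ∀ k, E k) j = if j ∈ A then w j else 0 := by
  classical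
  rw [lp.coeFn_sum, Finset.sum_apply]
  by_cases hj : j ∈ A
  · rw [if_pos hj, Finset.sum_eq_single j]
    · simp
    · intro k _ hkj
      simp [lp.single_apply, hkj.symm]
    · intro h; exact absurd hj h
  · rw [if_neg hj]
    apply Finset.sum_eq_zero
    intro k hk
    have : j ≠ k := fun h => hj (h ▸ hk)
    simp [lp.single_apply, this]

/-- A Minkowski-type inequality for midpoints. -/
theorem midpoint_lp (z y : lp E 2) (t : ℝ)
    (h : ∀ k, Real.sqrt (‖z k‖ ^ 2 + t ^ 2 * ‖y k‖ ^ 2 / 4) ≤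
      (‖z k + t • y k‖ + ‖z k - t • y k‖) / 2) :
    Real.sqrt (‖z‖ ^ 2 + t ^ 2 * ‖y‖ ^ 2 / 4) ≤ (‖z + t • y‖ + ‖z - t • y‖) / 2 := by
  set A := ‖z + t • y‖ with hA
  set B := ‖z - t • y‖ with hB
  have hAB0 : 0 ≤ (A + B) / 2 := by positivity
  apply Real.sqrt_le_iff.2 ⟨hAB0, ?_⟩
  have hsum : HasSum (fun k => ‖z k‖ ^ 2 + t ^ 2 * ‖y k‖ ^ 2 / 4) (‖z‖ ^ 2 + t ^ 2 * ‖y‖ ^ 2 / 4) := by
    have h1 := (hasSum_sq y).mul_left (t ^ 2 / 4)
    have h2 := (hasSum_sq z).add h1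
    convert h2 using 1
    · funext k; ring
    · ring
  apply hasSum_le_of_sum_le hsum
  intro J
  -- finite part
  set D : ℕ → ℝ := fun k => Real.sqrt (‖z k‖ ^ 2 + t ^ 2 * ‖y k‖ ^ 2 / 4) with hD
  have hDsq : ∀ k, D k ^ 2 = ‖z k‖ ^ 2 + t ^ 2 * ‖y k‖ ^ 2 / 4 := fun k =>
    Real.sq_sqrt (by positivity)
  have hD0 : ∀ k, 0 ≤ D k := fun k => Real.sqrt_nonneg _
  rw [show ∑ k ∈ J, (‖z k‖ ^ 2 + t ^ 2 * ‖y k‖ ^ 2 / 4) = ∑ k ∈ J, D k ^ 2 from
    Finset.sum_congr rfl fun k _ => (hDsq k).symm]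
  set N := ∑ k ∈ J, D k ^ 2 with hN
  have hN0 : 0 ≤ N := Finset.sum_nonneg fun _ _ => sq_nonneg _
  have hAk : ∑ k ∈ J, ‖z k + t • y k‖ * D k ≤ A * Real.sqrt N := by
    have h1 := Real.sum_mul_le_sqrt_mul_sqrt J (fun k => ‖z k + t • y k‖) D
    refine h1.trans ?_
    gcongr
    apply Real.sqrt_le_iff.2 ⟨norm_nonneg _, ?_⟩
    exact sum_sq_coord_le (z + t • y) J
  have hBk : ∑ k ∈ J, ‖z k - t • y k‖ * D k ≤ B * Real.sqrt N := by
    have h1 := Real.sum_mul_le_sqrt_mul_sqrt J (fun k => ‖z k - t • y k‖) D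
    refine h1.trans ?_
    gcongr
    apply Real.sqrt_le_iff.2 ⟨norm_nonneg _, ?_⟩
    exact sum_sq_coord_le (z - t • y) J
  have hmain : 2 * N ≤ (A + B) * Real.sqrt N := by
    have h1 : ∑ k ∈ J, 2 * D k ^ 2 ≤ ∑ k ∈ J, (‖z k + t • y k‖ * D k + ‖z k - t • y k‖ * D k) := by
      apply Finset.sum_le_sum
      intro k _
      have := h k
      have h3 := hD0 k
      have h4 : 2 * D k ≤ ‖z k + t • y k‖ + ‖z k - t • y k‖ := by
        simp only [hD]; linarith
      nlinarith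
    rw [← Finset.mul_sum, Finset.sum_add_distrib] at h1
    nlinarith
  rcases hN0.eq_or_lt with h0 | hpos
  · rw [← h0]; positivity
  · have hs : 0 < Real.sqrt N := Real.sqrt_pos.2 hpos
    have h1 : 2 * Real.sqrt N ≤ A + B := by
      have h2 : 2 * (Real.sqrt N * Real.sqrt N) ≤ (A + B) * Real.sqrt N := by
        rw [Real.mul_self_sqrt hN0]; exact hmain
      have h3 : (2 * Real.sqrt N) * Real.sqrt N ≤ (A + B) * Real.sqrt N := by linarith
      exact le_of_mul_le_mul_right h3 hs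
    have h2 : N = Real.sqrt N ^ 2 := (Real.sq_sqrt hN0).symm
    rw [h2]
    have h3 : Real.sqrt N ≤ (A + B) / 2 := by linarith
    exact pow_le_pow_left₀ (Real.sqrt_nonneg _) h3 2

/-- Transfer of midpoint inequalities from the coordinates to the sum, for finitely many
constraints. -/
theorem midpoint_sum (x : lp E 2) (t : ℝ) (ht : 0 ≤ t) (η : ℝ) (hη : 0 < η)
    (hcomp : ∀ k, ∀ η' : ℝ, 0 < η' → ∃ (w : E k) (ι : Type) (_ : Fintype ι)
      (ψ : ι → StrongDual ℝ (E k)), ‖x k - w‖ ≤ η' ∧ ∀ y : E k, (∀ i, ψ i y = 0) →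
        Real.sqrt (‖w‖ ^ 2 + t ^ 2 * ‖y‖ ^ 2 / 4) ≤ (‖w + t • y‖ + ‖w - t • y‖) / 2) :
    ∃ (ι : Type) (_ : Fintype ι) (Ψ : ι → StrongDual ℝ (lp E 2)), ∀ y : lp E 2, (∀ i, Ψ i y = 0) →
      Real.sqrt (‖x‖ ^ 2 + t ^ 2 * ‖y‖ ^ 2 / 4) - η ≤ (‖x + t • y‖ + ‖x - t • y‖) / 2 := by
  classical
  have h1 : Filter.Tendsto (fun A : Finset ℕ => ∑ k ∈ A, sing k (x k)) Filter.atTop (nhds x) :=
    hasSum_sing x
  obtain ⟨K, hK⟩ := (h1.eventually (Metric.ball_mem_nhds x (by positivity : 0 < η / 8))).exists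
  have hK' : ‖x - ∑ k ∈ K, sing k (x k)‖ ≤ η / 8 := by
    rw [dist_comm, dist_eq_norm] at hK
    exact hK.le
  set η' : ℝ := η / (8 * ((K.card : ℝ) + 1)) with hη'
  have hη'0 : 0 < η' := by positivity
  have hη'K : (K.card : ℝ) * η' ≤ η / 8 := by
    rw [hη', show η / 8 = (((K.card : ℝ) + 1)) * (η / (8 * ((K.card : ℝ) + 1))) by field_simp]
    gcongr
    linarith
  choose w ι hι ψ hclose hψ using fun k => hcomp k η' hη'0
  let z : lp E 2 := ∑ k ∈ K, sing k (w k)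
  have hz : ∀ j, z j = if j ∈ K then w j else 0 := fun j => sum_sing_apply K w j
  have hxz : ‖x - z‖ ≤ η / 4 := by
    have h2 : x - z = (x - ∑ k ∈ K, sing k (x k)) + ∑ k ∈ K, sing k (x k - w k) := by
      simp only [z, map_sub, Finset.sum_sub_distrib]
      abel
    rw [h2]
    refine (norm_add_le _ _).trans ?_
    have h3 : ‖∑ k ∈ K, sing k (x k - w k)‖ ≤ η / 8 := by
      refine (norm_sum_le _ _).trans ?_
      calc ∑ k ∈ K, ‖sing k (x k - w k)‖ ≤ ∑ k ∈ K, η' := by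
            apply Finset.sum_le_sum
            intro k _
            rw [LinearIsometry.norm_map]
            exact hclose k
        _ = (K.card : ℝ) * η' := by simp
        _ ≤ η / 8 := hη'K
    linarith
  let J : Type := Σ k : K, ι k.1
  let Ψ : J → StrongDual ℝ (lp E 2) := fun i => (ψ i.1.1 i.2).comp (coord i.1.1)
  refine ⟨J, inferInstance, Ψ, fun y hy => ?_⟩
  have hy' : ∀ k ∈ K, ∀ i, ψ k i (y k) = 0 := by
    intro k hk i
    exact hy ⟨⟨k, hk⟩, i⟩
  have hmid : Real.sqrt (‖z‖ ^ 2 + t ^ 2 * ‖y‖ ^ 2 / 4) ≤ (‖z + t • y‖ + ‖z - t • y‖) / 2 := by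
    apply midpoint_lp
    intro k
    rw [hz k]
    by_cases hk : k ∈ K
    · rw [if_pos hk]
      exact hψ k (y k) (hy' k hk)
    · rw [if_neg hk]
      simp only [norm_zero, zero_add, zero_sub, norm_neg, norm_smul, Real.norm_of_nonneg ht]
      have h2 : Real.sqrt (0 ^ 2 + t ^ 2 * ‖y k‖ ^ 2 / 4) = t * ‖y k‖ / 2 := by
        rw [show (0 : ℝ) ^ 2 + t ^ 2 * ‖y k‖ ^ 2 / 4 = (t * ‖y k‖ / 2) ^ 2 by ring]
        exact Real.sqrt_sq (by positivity)
      rw [h2]
      have : 0 ≤ t * ‖y k‖ := by positivity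
      linarith
  have hlip : Real.sqrt (‖x‖ ^ 2 + t ^ 2 * ‖y‖ ^ 2 / 4) ≤
      Real.sqrt (‖z‖ ^ 2 + t ^ 2 * ‖y‖ ^ 2 / 4) + ‖x - z‖ := by
    set β := t ^ 2 * ‖y‖ ^ 2 / 4 with hβ
    have hβ0 : 0 ≤ β := by positivity
    set Q := Real.sqrt (‖z‖ ^ 2 + β) with hQ
    have hQ0 : 0 ≤ Q := Real.sqrt_nonneg _
    have hQ2 : Q ^ 2 = ‖z‖ ^ 2 + β := Real.sq_sqrt (by positivity)
    have hQ3 : ‖z‖ ≤ Q := Real.le_sqrt_of_sq_le (by linarith)
    have h3 : ‖x‖ ≤ ‖z‖ + ‖x - z‖ := by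
      have := norm_add_le z (x - z)
      simpa using this
    apply Real.sqrt_le_iff.2 ⟨by positivity, ?_⟩
    have h4 := norm_nonneg (x - z)
    have h5 := norm_nonneg x
    nlinarith [mul_nonneg hQ0 h4]
  have h4 : ‖z + t • y‖ ≤ ‖x + t • y‖ + ‖x - z‖ := by
    have : z + t • y = (x + t • y) - (x - z) := by abel
    rw [this]; exact norm_sub_le _ _
  have h5 : ‖z - t • y‖ ≤ ‖x - t • y‖ + ‖x - z‖ := by
    have : z - t • y = (x - t • y) - (x - z) := by abel
    rw [this]; exact norm_sub_le _ _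
  linarith

/-- Separability of the `ℓ²`-sum. -/
theorem separable_lp [∀ k, TopologicalSpace.SeparableSpace (E k)] :
    TopologicalSpace.SeparableSpace (lp E 2) := by
  classical
  have hD : ∀ k, ∃ D : Set (E k), D.Countable ∧ Dense D := fun k =>
    TopologicalSpace.exists_countable_dense (E k)
  choose D hDc hDd using hD
  let G : Set (lp E 2) := ⋃ k, (sing k) '' (D k)
  have hG : G.Countable := Set.countable_iUnion fun k => (hDc k).image _
  let Sp : Submodule ℝ (lp E 2) := (Submodule.span ℝ G).topologicalClosure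
  have hSp : TopologicalSpace.IsSeparable (Sp : Set (lp E 2)) := by
    have h1 : TopologicalSpace.IsSeparable G := hG.isSeparable
    exact (h1.span (R := ℝ)).closure
  have hsing : ∀ k (a : E k), sing k a ∈ Sp := by
    intro k a
    have h1 : a ∈ closure (D k) := (hDd k) a
    have h2 : IsClosed (Sp : Set (lp E 2)) := Submodule.isClosed_topologicalClosure _
    have h3 : sing k a ∈ closure ((sing k) '' (D k)) :=
      map_mem_closure (sing (E := E) k).continuous h1 (fun b hb => ⟨b, hb, rfl⟩)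
    refine closure_minimal ?_ h2 h3
    rintro _ ⟨b, hb, rfl⟩
    exact Submodule.le_topologicalClosure _ (Submodule.subset_span (Set.mem_iUnion.2 ⟨k, b, hb, rfl⟩))
  have hall : ∀ z : lp E 2, z ∈ Sp := by
    intro z
    have h1 := hasSum_sing z
    have h2 : IsClosed (Sp : Set (lp E 2)) := Submodule.isClosed_topologicalClosure _
    exact h2.mem_of_tendsto h1 (Filter.Eventually.of_forall fun A =>
      Submodule.sum_mem _ fun k _ => hsing k _)
  have : (Sp : Set (lp E 2)) = Set.univ := Set.eq_univ_of_forall hall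
  rw [this] at hSp
  exact TopologicalSpace.isSeparable_univ_iff.1 hSp

end family

/-- Reflexivity written without the double-dual map. -/
def Refl (X : Type*) [NormedAddCommGroup X] [NormedSpace ℝ X] : Prop :=
  ∀ Φ : StrongDual ℝ (StrongDual ℝ X), ∃ x : X, ∀ φ : StrongDual ℝ X, Φ φ = φ x

theorem surjective_of_refl {X : Type*} [NormedAddCommGroup X] [NormedSpace ℝ X] (h : Refl X) :
    Function.Surjective (NormedSpace.inclusionInDoubleDual ℝ X) := by
  intro Φ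
  obtain ⟨x, hx⟩ := h Φ
  refine ⟨x, ?_⟩
  ext φ
  rw [NormedSpace.dual_def, hx]

/-- Near-norming vectors for functionals. -/
theorem exists_near_norming {F : Type*} [NormedAddCommGroup F] [NormedSpace ℝ F]
    (ψ : StrongDual ℝ F) (r : ℝ) (hr : r < ‖ψ‖) : ∃ w : F, ‖w‖ ≤ 1 ∧ r < ψ w := by
  by_cases h0 : r < 0
  · exact ⟨0, by simp, by simpa using h0⟩
  · by_contra hcon
    push Not at hcon
    have hb : ∀ w : F, ‖w‖ = 1 → ‖ψ w‖ ≤ r := by
      intro w hw
      rw [Real.norm_eq_abs, abs_le]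
      constructor
      · have := hcon (-w) (by simpa using hw.le)
        simp only [map_neg] at this
        linarith
      · exact hcon w hw.le
    have := ContinuousLinearMap.opNorm_le_of_unit_norm (𝕜 := ℝ) (not_lt.1 h0) hb
    linarith

section reflexive

variable {E : ℕ → Type} [∀ k, NormedAddCommGroup (E k)] [∀ k, NormedSpace ℝ (E k)]

/-- Square-summability of the norms of the coordinate functionals. -/
theorem sum_sq_coord_functional_le (φ : StrongDual ℝ (lp E 2)) (A : Finset ℕ) :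
    ∑ k ∈ A, ‖φ.comp (sing (E := E) k).toContinuousLinearMap‖ ^ 2 ≤ ‖φ‖ ^ 2 := by
  classical
  set c : ℕ → ℝ := fun k => ‖φ.comp (sing (E := E) k).toContinuousLinearMap‖ with hc
  have hc0 : ∀ k, 0 ≤ c k := fun k => norm_nonneg _
  set N := ∑ k ∈ A, c k ^ 2 with hN
  have hN0 : 0 ≤ N := Finset.sum_nonneg fun _ _ => sq_nonneg _
  have key : ∀ δ : ℝ, 0 < δ → N - δ * ∑ k ∈ A, c k ≤ ‖φ‖ * Real.sqrt N := by
    intro δ hδ
    have hw : ∀ k, ∃ w : E k, ‖w‖ ≤ 1 ∧ c k - δ < (φ.comp (sing (E := E) k).toContinuousLinearMap) w :=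
      fun k => exists_near_norming _ _ (by simp only [hc]; linarith)
    choose w hw1 hw2 using hw
    let z : lp E 2 := ∑ k ∈ A, c k • sing k (w k)
    have hzk : ∀ j, z j = if j ∈ A then c j • w j else 0 := by
      intro j
      simp only [z]
      rw [lp.coeFn_sum, Finset.sum_apply]
      by_cases hj : j ∈ A
      · rw [if_pos hj, Finset.sum_eq_single j]
        · simp
        · intro k _ hkj
          simp [lp.single_apply, hkj.symm]
        · intro h; exact absurd hj h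
      · rw [if_neg hj]
        apply Finset.sum_eq_zero
        intro k hk
        have : j ≠ k := fun h => hj (h ▸ hk)
        simp [lp.single_apply, this]
    have hzn : ‖z‖ ≤ Real.sqrt N := by
      apply Real.le_sqrt_of_sq_le
      have hs := hasSum_sq z
      have hle : ∀ j, j ∉ A → ‖z j‖ ^ 2 = 0 := by
        intro j hj
        rw [hzk, if_neg hj]; simp
      have h2 : HasSum (fun j => ‖z j‖ ^ 2) (∑ j ∈ A, ‖z j‖ ^ 2) := hasSum_sum_of_ne_finset_zero hle
      rw [hs.unique h2]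
      apply Finset.sum_le_sum
      intro j hj
      rw [hzk, if_pos hj, norm_smul, mul_pow, Real.norm_of_nonneg (hc0 j)]
      have := hw1 j
      have h3 : ‖w j‖ ^ 2 ≤ 1 := pow_le_one₀ (norm_nonneg _) this
      nlinarith [sq_nonneg (c j)]
    have hφz : φ z = ∑ k ∈ A, c k * (φ.comp (sing (E := E) k).toContinuousLinearMap) (w k) := by
      simp only [z, map_sum, map_smul, smul_eq_mul]
      rfl
    have hlow : N - δ * ∑ k ∈ A, c k ≤ φ z := by
      rw [hφz, Finset.mul_sum, hN, ← Finset.sum_sub_distrib]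
      apply Finset.sum_le_sum
      intro k _
      have := hw2 k
      have h4 := hc0 k
      nlinarith
    calc N - δ * ∑ k ∈ A, c k ≤ φ z := hlow
      _ ≤ |φ z| := le_abs_self _
      _ = ‖φ z‖ := (Real.norm_eq_abs _).symm
      _ ≤ ‖φ‖ * ‖z‖ := φ.le_opNorm z
      _ ≤ ‖φ‖ * Real.sqrt N := by gcongr
  have key2 : N ≤ ‖φ‖ * Real.sqrt N := by
    apply le_of_forall_pos_le_add
    intro ε hε
    set T := ∑ k ∈ A, c k with hT
    have hT0 : 0 ≤ T := Finset.sum_nonneg fun k _ => hc0 k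
    have := key (ε / (T + 1)) (by positivity)
    have h5 : ε / (T + 1) * T ≤ ε := by
      rw [div_mul_eq_mul_div, div_le_iff₀ (by positivity)]
      nlinarith
    linarith
  rcases hN0.eq_or_lt with h0 | hpos
  · rw [← h0]; positivity
  · have hs : 0 < Real.sqrt N := Real.sqrt_pos.2 hpos
    have h1 : Real.sqrt N ≤ ‖φ‖ := by
      have h2 : Real.sqrt N * Real.sqrt N ≤ ‖φ‖ * Real.sqrt N := by
        rw [Real.mul_self_sqrt hN0]; exact key2
      exact le_of_mul_le_mul_right h2 hs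
    have h2 : N = Real.sqrt N ^ 2 := (Real.sq_sqrt hN0).symm
    rw [h2]
    exact pow_le_pow_left₀ (Real.sqrt_nonneg _) h1 2

/-- Every functional on the `ℓ²`-sum is almost carried by finitely many coordinates. -/
theorem exists_finset_tail (φ : StrongDual ℝ (lp E 2)) (ε : ℝ) (hε : 0 < ε) :
    ∃ A₀ : Finset ℕ, ∀ z : lp E 2,
      |φ z - ∑ k ∈ A₀, φ (sing k (z k))| ≤ ε * ‖z‖ := by
  classical
  set c : ℕ → ℝ := fun k => ‖φ.comp (sing (E := E) k).toContinuousLinearMap‖ with hc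
  have hsummable : Summable (fun k => c k ^ 2) :=
    summable_of_sum_le (fun _ => sq_nonneg _) (sum_sq_coord_functional_le φ)
  obtain ⟨A₀, hA₀⟩ := summable_iff_vanishing_norm.1 hsummable (ε ^ 2) (by positivity)
  refine ⟨A₀, fun z => ?_⟩
  -- the sum over coordinates converges
  have h1 : HasSum (fun k => φ (sing k (z k))) (φ z) :=
    (hasSum_sing z).mapL φ
  have h2 : Filter.Tendsto (fun B : Finset ℕ => ∑ k ∈ B \ A₀, φ (sing k (z k))
      + ∑ k ∈ B ∩ A₀, φ (sing k (z k)) - ∑ k ∈ A₀, φ (sing k (z k))) Filter.atTop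
      (nhds (φ z - ∑ k ∈ A₀, φ (sing k (z k)))) := by
    have h3 : ∀ B : Finset ℕ, ∑ k ∈ B \ A₀, φ (sing k (z k)) + ∑ k ∈ B ∩ A₀, φ (sing k (z k))
        = ∑ k ∈ B, φ (sing k (z k)) := fun B => by
      rw [add_comm]; exact Finset.sum_inter_add_sum_sdiff B A₀ _
    simp_rw [h3]
    exact h1.sub_const _
  have h3 : ∀ᶠ B : Finset ℕ in Filter.atTop,
      |∑ k ∈ B \ A₀, φ (sing k (z k)) + ∑ k ∈ B ∩ A₀, φ (sing k (z k))
        - ∑ k ∈ A₀, φ (sing k (z k))| ≤ ε * ‖z‖ := by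
    filter_upwards [Filter.eventually_ge_atTop A₀] with B hB
    have h4 : B ∩ A₀ = A₀ := Finset.inter_eq_right.2 hB
    rw [h4, add_sub_cancel_right]
    have h5 : |∑ k ∈ B \ A₀, φ (sing k (z k))| ≤ ∑ k ∈ B \ A₀, c k * ‖z k‖ := by
      refine (Finset.abs_sum_le_sum_abs _ _).trans ?_
      apply Finset.sum_le_sum
      intro k _
      rw [← Real.norm_eq_abs]
      exact (φ.comp (sing (E := E) k).toContinuousLinearMap).le_opNorm (z k)
    have h6 := Real.sum_mul_le_sqrt_mul_sqrt (B \ A₀) c (fun k => ‖z k‖)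
    have h7 : Real.sqrt (∑ k ∈ B \ A₀, c k ^ 2) ≤ ε := by
      apply Real.sqrt_le_iff.2 ⟨hε.le, ?_⟩
      have h8 := hA₀ (B \ A₀) Finset.sdiff_disjoint
      rw [Real.norm_of_nonneg (Finset.sum_nonneg fun _ _ => sq_nonneg _)] at h8
      exact h8.le
    have h8 : Real.sqrt (∑ k ∈ B \ A₀, ‖z k‖ ^ 2) ≤ ‖z‖ :=
      Real.sqrt_le_iff.2 ⟨norm_nonneg _, sum_sq_coord_le z _⟩
    refine h5.trans (h6.trans ?_)
    exact mul_le_mul h7 h8 (Real.sqrt_nonneg _) hε.le
  have h4 := h2.abs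
  exact le_of_tendsto h4 h3

/-- Reflexivity of `ℓ²`-sums. -/
theorem refl_lp (h : ∀ k, Refl (E k)) : Refl (lp E 2) := by
  classical
  intro Φ
  -- coordinate functionals
  let lift : ∀ k, StrongDual ℝ (E k) →L[ℝ] StrongDual ℝ (lp E 2) := fun k =>
    (ContinuousLinearMap.compL ℝ (lp E 2) (E k) ℝ).flip (coord k)
  have hlift : ∀ k (ψ : StrongDual ℝ (E k)) (z : lp E 2), lift k ψ z = ψ (z k) := fun _ _ _ => rfl
  have hx : ∀ k, ∃ x : E k, ∀ ψ : StrongDual ℝ (E k), Φ (lift k ψ) = ψ x :=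
    fun k => h k (Φ.comp (lift k))
  choose x hx using hx
  -- square summability
  have hsq : ∀ A : Finset ℕ, ∑ k ∈ A, ‖x k‖ ^ 2 ≤ ‖Φ‖ ^ 2 := by
    intro A
    set N := ∑ k ∈ A, ‖x k‖ ^ 2 with hN
    have hN0 : 0 ≤ N := Finset.sum_nonneg fun _ _ => sq_nonneg _
    have hd : ∀ k, ∃ ψ : StrongDual ℝ (E k), ‖ψ‖ ≤ 1 ∧ ψ (x k) = ‖x k‖ := fun k =>
      exists_dual_vector'' ℝ (x k)
    choose ψ hψ1 hψ2 using hd
    let θ : StrongDual ℝ (lp E 2) := ∑ k ∈ A, ‖x k‖ • lift k (ψ k)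
    have hθn : ‖θ‖ ≤ Real.sqrt N := by
      apply ContinuousLinearMap.opNorm_le_bound _ (Real.sqrt_nonneg _)
      intro z
      have hθz : θ z = ∑ k ∈ A, ‖x k‖ * ψ k (z k) := by
        simp only [θ, ContinuousLinearMap.sum_apply, ContinuousLinearMap.smul_apply, smul_eq_mul]
        rfl
      rw [hθz, Real.norm_eq_abs]
      refine (Finset.abs_sum_le_sum_abs _ _).trans ?_
      have h1 : ∀ k ∈ A, |‖x k‖ * ψ k (z k)| ≤ ‖x k‖ * ‖z k‖ := by
        intro k _
        rw [abs_mul, abs_norm]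
        gcongr
        rw [← Real.norm_eq_abs]
        calc ‖ψ k (z k)‖ ≤ ‖ψ k‖ * ‖z k‖ := (ψ k).le_opNorm _
          _ ≤ 1 * ‖z k‖ := by gcongr; exact hψ1 k
          _ = ‖z k‖ := one_mul _
      refine (Finset.sum_le_sum h1).trans ?_
      refine (Real.sum_mul_le_sqrt_mul_sqrt A _ _).trans ?_
      gcongr
      exact Real.sqrt_le_iff.2 ⟨norm_nonneg _, sum_sq_coord_le z A⟩
    have hΦθ : Φ θ = N := by
      simp only [θ, map_sum, map_smul, smul_eq_mul, hx, hψ2]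
      rw [hN]
      apply Finset.sum_congr rfl
      intro k _
      ring
    have h2 : N ≤ ‖Φ‖ * Real.sqrt N := by
      calc N = Φ θ := hΦθ.symm
        _ ≤ |Φ θ| := le_abs_self _
        _ = ‖Φ θ‖ := (Real.norm_eq_abs _).symm
        _ ≤ ‖Φ‖ * ‖θ‖ := Φ.le_opNorm θ
        _ ≤ ‖Φ‖ * Real.sqrt N := by gcongr
    rcases hN0.eq_or_lt with h0 | hpos
    · rw [← h0]; positivity
    · have hs : 0 < Real.sqrt N := Real.sqrt_pos.2 hpos
      have h1 : Real.sqrt N ≤ ‖Φ‖ := by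
        have h3 : Real.sqrt N * Real.sqrt N ≤ ‖Φ‖ * Real.sqrt N := by
          rw [Real.mul_self_sqrt hN0]; exact h2
        exact le_of_mul_le_mul_right h3 hs
      have h3 : N = Real.sqrt N ^ 2 := (Real.sq_sqrt hN0).symm
      rw [h3]
      exact pow_le_pow_left₀ (Real.sqrt_nonneg _) h1 2
  have hmem : Memℓp (fun k => x k) 2 := by
    apply memℓp_gen' (C := ‖Φ‖ ^ 2)
    intro A
    simpa using hsq A
  let X : lp E 2 := ⟨fun k => x k, hmem⟩
  refine ⟨X, fun φ => ?_⟩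
  apply eq_of_forall_dist_le
  intro ε hε
  set δ : ℝ := ε / (‖Φ‖ + ‖X‖ + 1) with hδ
  have hδ0 : 0 < δ := by positivity
  obtain ⟨A₀, hA₀⟩ := exists_finset_tail φ δ hδ0
  -- the truncated functional
  let φ₀ : StrongDual ℝ (lp E 2) :=
    ∑ k ∈ A₀, lift k (φ.comp (sing (E := E) k).toContinuousLinearMap)
  have hφ₀ : ∀ z, φ₀ z = ∑ k ∈ A₀, φ (sing k (z k)) := by
    intro z
    simp only [φ₀, ContinuousLinearMap.sum_apply]
    rfl
  have hdiff : ‖φ - φ₀‖ ≤ δ := by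
    apply ContinuousLinearMap.opNorm_le_bound _ hδ0.le
    intro z
    rw [ContinuousLinearMap.sub_apply, hφ₀, Real.norm_eq_abs]
    exact hA₀ z
  have hΦφ₀ : Φ φ₀ = ∑ k ∈ A₀, φ (sing k (x k)) := by
    simp only [φ₀, map_sum, hx]
    rfl
  have h1 : |Φ φ - Φ φ₀| ≤ ‖Φ‖ * δ := by
    rw [← map_sub, ← Real.norm_eq_abs]
    calc ‖Φ (φ - φ₀)‖ ≤ ‖Φ‖ * ‖φ - φ₀‖ := Φ.le_opNorm _
      _ ≤ ‖Φ‖ * δ := by gcongr
  have h2 : |φ X - ∑ k ∈ A₀, φ (sing k (x k))| ≤ δ * ‖X‖ := hA₀ X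
  rw [Real.dist_eq]
  rw [hΦφ₀] at h1
  have h3 : |Φ φ - φ X| ≤ |Φ φ - ∑ k ∈ A₀, φ (sing k (x k))|
      + |φ X - ∑ k ∈ A₀, φ (sing k (x k))| := by
    rw [abs_sub_comm (φ X)]
    exact abs_sub_le _ _ _
  have h4 : δ * (‖Φ‖ + ‖X‖ + 1) = ε := by
    rw [hδ]; field_simp
  nlinarith [norm_nonneg Φ, norm_nonneg X]

end reflexive

/-- A Banach space linearly homeomorphic to a Hilbert space is reflexive. -/
theorem refl_of_equiv_hilbert {H X : Type*} [NormedAddCommGroup H] [InnerProductSpace ℝ H]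
    [CompleteSpace H] [NormedAddCommGroup X] [NormedSpace ℝ X] (T : H ≃L[ℝ] X) : Refl X := by
  intro Φ
  let L : StrongDual ℝ H :=
    Φ.comp (((ContinuousLinearMap.compL ℝ X H ℝ).flip (T.symm : X →L[ℝ] H)).comp
      (innerSL ℝ : H →L[ℝ] H →L[ℝ] ℝ))
  let h : H := (InnerProductSpace.toDual ℝ H).symm L
  have hh : ∀ v : H, inner ℝ h v = L v := fun v => InnerProductSpace.toDual_symm_apply
  refine ⟨T h, fun φ => ?_⟩
  let ψ : StrongDual ℝ H := φ.comp (T : H →L[ℝ] X)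
  let v : H := (InnerProductSpace.toDual ℝ H).symm ψ
  have hv : ∀ w : H, inner ℝ v w = φ (T w) := fun w => InnerProductSpace.toDual_symm_apply
  have h1 : ((ContinuousLinearMap.compL ℝ X H ℝ).flip (T.symm : X →L[ℝ] H)).comp
      (innerSL ℝ : H →L[ℝ] H →L[ℝ] ℝ) v = φ := by
    ext z
    show inner ℝ v (T.symm z) = φ z
    rw [hv, T.apply_symm_apply]
  have h2 : L v = Φ φ := by
    show Φ (((ContinuousLinearMap.compL ℝ X H ℝ).flip (T.symm : X →L[ℝ] H)).comp
      (innerSL ℝ : H →L[ℝ] H →L[ℝ] ℝ) v) = Φ φ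
    rw [h1]
  rw [← h2, ← hh, real_inner_comm, hv]

end Crest.Agent.Lib.LpTools
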