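import Crest.Agent.Lib.TreeModels
import Crest.Agent.Lib.LpTools
import Crest.Agent.Lib.DiamondBound

/-!
An `ℓ²`-sum of truncated global tree spaces: a separable reflexive space with a strong asymptotic
midpoint inequality, with no equivalent asymptotically uniformly convex norm.
-/

set_option autoImplicit false

namespace Crest.Agent.Lib.ForestSpace

open Crest.AnalysisR Crest.AnalysisR.TreePotential Crest.Agent.Lib.TreeCore
open Crest.Agent.Lib.TreeSpace Crest.Agent.Lib.TreeModels Crest.Agent.Lib.LpTools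
open Crest.Agent.Lib.AsympGame Crest.Agent.Lib.DiamondBound
open scoped ENNReal

attribute [local instance] RealBanach.normed RealBanach.space

/-- Tests of the global model supported up to depth `k`. -/
def DepthTest (k : ℕ) : Type :=
  {f : List ℕ → ℝ // IsTest .global f ∧ ∀ s : List ℕ, k < s.length → f s = 0}

/-- The coordinate vectors. -/
noncomputable def depthCoord (k : ℕ) (s : List ℕ) : Linf (DepthTest k) :=
  ⟨fun f => f.1 s, memℓp_infty ⟨2, by
    rintro _ ⟨f, rfl⟩
    have key : ∀ (g : List ℕ → ℝ), (∀ u, abs (pathPotential g u) ≤ 1) → abs (g s) ≤ 2 := by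
      intro g hg
      cases s with
      | nil =>
        have h0 := hg []
        simp only [pathPotential] at h0
        linarith
      | cons a v =>
        have h1 := hg (a :: v)
        have h2 := hg v
        simp only [pathPotential] at h1
        rw [abs_le] at h1 h2 ⊢
        constructor <;> linarith [h1.1, h1.2, h2.1, h2.2]
    simpa [Real.norm_eq_abs] using key f.1 f.2.1.1⟩⟩

/-- The tree model of depth `k`. -/
noncomputable def depthModel (k : ℕ) : TreeModel (DepthTest k) where
  φ := Subtype.val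
  e := depthCoord k
  he := fun _ _ => rfl
  hpot := fun f s => f.2.1.1 s
  hneg := fun f => ⟨⟨fun r => - f.1 r, isTest_neg .global f.1 f.2.1, fun s hs => by
    simp [f.2.2 s hs]⟩, fun _ => rfl⟩
  hcomb := fun f g S hroot _ a c ha hc hac h h1 h2 h3 =>
    ⟨⟨h, isTest_combine .global f.1 g.1 f.2.1 g.2.1 S hroot a c ha hc hac h h1 h2 h3, by
      intro s hs
      by_cases hsS : s ∈ S
      · rw [h2 s hsS, f.2.2 s hs, mul_zero]
      · have := h3 s hsS
        rw [g.2.2 s hs, abs_zero, mul_zero] at this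
        exact abs_nonpos_iff.1 this⟩, rfl⟩
  hne := ⟨⟨fun _ => 0, isTest_zero .global, fun _ _ => rfl⟩⟩
  D := {s | s.length ≤ k}
  hδ := fun s hs => ⟨⟨delta s, isTest_delta .global s (Set.mem_univ s), by
    intro r hr
    have hrs : r ≠ s := by
      rintro rfl
      exact absurd hs (not_le.2 hr)
    simp [delta, hrs]⟩, fun _ => rfl⟩
  hdead := fun s hs f => f.2.2 s (not_le.1 hs)
  hchild := fun f v A => sum_sq_children_le .global f.1 f.2.1 v A

/-- Vertices up to depth `k`. -/
abbrev V (k : ℕ) : Type := {s : List ℕ // s.length ≤ k}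

/-- The Hilbert space on vertices up to depth `k`. -/
abbrev H (k : ℕ) : Type := lp (fun _ : V k => ℝ) 2

theorem test_sum_le (k : ℕ) (f : DepthTest k) (A : Finset (V k)) :
    ∑ v ∈ A, (f.1 v.1) ^ 2 ≤ 1 := by
  have h1 := f.2.1.2 (A.map (Function.Embedding.subtype _))
  rwa [Finset.sum_map] at h1

theorem test_memlp (k : ℕ) (f : DepthTest k) : Memℓp (fun v : V k => f.1 v.1) 2 := by
  apply memℓp_gen' (C := 1)
  intro A
  simpa using test_sum_le k f A

/-- A test as a vector of the Hilbert space. -/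
noncomputable def testVec (k : ℕ) (f : DepthTest k) : H k := ⟨fun v => f.1 v.1, test_memlp k f⟩

theorem norm_testVec_le (k : ℕ) (f : DepthTest k) : ‖testVec k f‖ ≤ 1 := by
  apply lp.norm_le_of_forall_sum_le (p := 2) (by norm_num) zero_le_one
  intro A
  simpa [testVec] using test_sum_le k f A

/-- The map from the Hilbert space to the functions on tests. -/
noncomputable def T (k : ℕ) : H k →L[ℝ] Linf (DepthTest k) :=
  LinearMap.mkContinuous
    { toFun := fun h => ⟨fun f => inner ℝ (testVec k f) h, memℓp_infty ⟨‖h‖, by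
        rintro _ ⟨f, rfl⟩
        calc ‖inner ℝ (testVec k f) h‖ ≤ ‖testVec k f‖ * ‖h‖ := norm_inner_le_norm _ _
          _ ≤ 1 * ‖h‖ := by gcongr; exact norm_testVec_le k f
          _ = ‖h‖ := one_mul _⟩⟩
      map_add' := by
        intro a b
        apply lp.ext
        funext f
        exact inner_add_right _ _ _
      map_smul' := by
        intro c a
        apply lp.ext
        funext f
        exact real_inner_smul_right _ _ _ } 1 (by
    intro h
    rw [one_mul]
    apply lp.norm_le_of_forall_le (norm_nonneg _)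
    intro f
    calc ‖inner ℝ (testVec k f) h‖ ≤ ‖testVec k f‖ * ‖h‖ := norm_inner_le_norm _ _
      _ ≤ 1 * ‖h‖ := by gcongr; exact norm_testVec_le k f
      _ = ‖h‖ := one_mul _)

theorem T_apply (k : ℕ) (h : H k) (f : DepthTest k) :
    (T k h : DepthTest k → ℝ) f = inner ℝ (testVec k f) h := rfl

theorem T_single (k : ℕ) (v : V k) (a : ℝ) :
    T k (lp.single 2 v a) = a • (depthModel k).e v.1 := by
  apply lp.ext
  funext f
  rw [T_apply, lp.inner_single_right]
  show inner ℝ (f.1 v.1) a = a * f.1 v.1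
  simp

theorem T_mem_Sp (k : ℕ) (h : H k) : T k h ∈ (depthModel k).Sp := by
  have h1 : HasSum (fun v => lp.single 2 v (h v)) h := lp.hasSum_single (by norm_num) h
  have h2 := h1.mapL (T k)
  have hcl : IsClosed ((depthModel k).Sp : Set (Linf (DepthTest k))) :=
    Submodule.isClosed_topologicalClosure _
  refine hcl.mem_of_tendsto h2 (Filter.Eventually.of_forall fun A => ?_)
  refine Submodule.sum_mem _ fun v _ => ?_
  rw [T_single]
  exact Submodule.smul_mem _ _ ((depthModel k).e_mem_Sp _)

/-- Crude estimate of path potentials in terms of the values. -/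
theorem abs_pot_le (g : List ℕ → ℝ) (k : ℕ) (c : ℝ) (hc : 0 ≤ c) (h1 : ∀ s, |g s| ≤ c)
    (h2 : ∀ s : List ℕ, k < s.length → g s = 0) :
    ∀ s, |pathPotential g s| ≤ c * ((min s.length k : ℕ) + 1)
  | [] => by
    simp only [pathPotential, List.length_nil, Nat.zero_min, Nat.cast_zero, zero_add, mul_one]
    exact h1 _
  | a :: v => by
    have ih := abs_pot_le g k c hc h1 h2 v
    simp only [pathPotential]
    by_cases hlen : k < (a :: v).length
    · rw [h2 _ hlen, add_zero]
      refine ih.trans ?_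
      gcongr
      simp
    · have hle : v.length + 1 ≤ k := by simpa using hlen
      have e1 : min v.length k = v.length := min_eq_left (by omega)
      have e2 : min (a :: v).length k = v.length + 1 := min_eq_left (by simpa using hle)
      rw [e1] at ih
      rw [e2]
      push_cast
      have h3 := abs_add_le (pathPotential g v) (g (a :: v))
      have h4 := h1 (a :: v)
      linarith

theorem norm_le_T (k : ℕ) (h : H k) : ‖h‖ ≤ ((k : ℝ) + 1) * ‖T k h‖ := by
  classical
  by_cases h0 : h = 0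
  · simp [h0]
  have hpos : 0 < ‖h‖ := norm_pos_iff.2 h0
  have hk : (0 : ℝ) < (k : ℝ) + 1 := by positivity
  set c : ℝ := (‖h‖ * ((k : ℝ) + 1))⁻¹ with hc
  have hc0 : 0 < c := by positivity
  let g : List ℕ → ℝ := fun s => if hs : s.length ≤ k then c * h ⟨s, hs⟩ else 0
  have hgv : ∀ v : V k, g v.1 = c * h v := by
    intro v
    simp only [g]
    rw [dif_pos v.2]
  have hg2 : ∀ s : List ℕ, k < s.length → g s = 0 := by
    intro s hs
    simp only [g]
    rw [dif_neg (not_le.2 hs)]
  have hck : c * ‖h‖ = ((k : ℝ) + 1)⁻¹ := by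
    rw [hc]; field_simp
  have hg1 : ∀ s, |g s| ≤ ((k : ℝ) + 1)⁻¹ := by
    intro s
    by_cases hs : s.length ≤ k
    · have := hgv ⟨s, hs⟩
      simp only at this
      rw [this, abs_mul, abs_of_pos hc0, ← hck]
      gcongr
      have h3 := lp.norm_apply_le_norm (p := 2) (by norm_num) h ⟨s, hs⟩
      simpa [Real.norm_eq_abs] using h3
    · rw [hg2 s (not_le.1 hs), abs_zero]
      positivity
  have hg3 : ∀ A : Finset (List ℕ), ∑ u ∈ A, g u ^ 2 ≤ 1 := by
    intro A
    have h4 : ∑ u ∈ A, g u ^ 2 = ∑ u ∈ A.filter (fun s : List ℕ => s.length ≤ k), g u ^ 2 := by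
      symm
      apply Finset.sum_filter_of_ne
      intro s _ hs
      by_contra hlen
      exact hs (by rw [hg2 s (not_le.1 hlen)]; simp)
    rw [h4, ← Finset.sum_subtype_eq_sum_filter]
    have h5 : ∀ v ∈ A.subtype (fun s : List ℕ => s.length ≤ k), g v.1 ^ 2 = c ^ 2 * ‖h v‖ ^ 2 := by
      intro v _
      rw [hgv v, mul_pow, Real.norm_eq_abs, sq_abs]
    rw [Finset.sum_congr rfl h5, ← Finset.mul_sum]
    have h6 := lp.sum_rpow_le_norm_rpow (p := 2) (by norm_num) h (A.subtype (fun s : List ℕ => s.length ≤ k))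
    have h7 : ∑ v ∈ A.subtype (fun s : List ℕ => s.length ≤ k), ‖h v‖ ^ 2 ≤ ‖h‖ ^ 2 := by
      simpa using h6
    have h8 : c ^ 2 * ‖h‖ ^ 2 = (((k : ℝ) + 1)⁻¹) ^ 2 := by
      rw [← hck]; ring
    have h9 : (((k : ℝ) + 1)⁻¹) ^ 2 ≤ 1 := by
      apply pow_le_one₀ (by positivity)
      rw [inv_le_one₀ hk]
      have : (0 : ℝ) ≤ k := Nat.cast_nonneg k
      linarith
    calc c ^ 2 * ∑ v ∈ A.subtype (fun s : List ℕ => s.length ≤ k), ‖h v‖ ^ 2 ≤ c ^ 2 * ‖h‖ ^ 2 := by gcongr
      _ ≤ 1 := by rw [h8]; exact h9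
  have hg4 : ∀ s, |pathPotential g s| ≤ 1 := by
    intro s
    have h3 := abs_pot_le g k _ (by positivity) hg1 hg2 s
    refine h3.trans ?_
    rw [inv_mul_le_iff₀ hk, mul_one]
    have : ((min s.length k : ℕ) : ℝ) ≤ k := by
      exact_mod_cast min_le_right _ _
    linarith
  let f : DepthTest k := ⟨g, ⟨hg4, hg3⟩, hg2⟩
  have hvec : testVec k f = c • h := by
    apply lp.ext
    funext v
    exact hgv v
  have hval : (T k h : DepthTest k → ℝ) f = c * ‖h‖ ^ 2 := by
    rw [T_apply, hvec, real_inner_smul_left, real_inner_self_eq_norm_sq]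
  have hle := lp.norm_apply_le_norm (p := ⊤) (by simp) (T k h) f
  rw [hval, Real.norm_of_nonneg (by positivity)] at hle
  have h10 : c * ‖h‖ ^ 2 = ‖h‖ * ((k : ℝ) + 1)⁻¹ := by
    rw [← hck]; ring
  rw [h10] at hle
  calc ‖h‖ = ((k : ℝ) + 1) * (‖h‖ * ((k : ℝ) + 1)⁻¹) := by field_simp
    _ ≤ ((k : ℝ) + 1) * ‖T k h‖ := by gcongr

instance depth_complete (k : ℕ) : CompleteSpace (depthModel k).Sp :=
  (Submodule.isClosed_topologicalClosure _).completeSpace_coe

/-- The map to the generated space. -/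
noncomputable def T' (k : ℕ) : H k →L[ℝ] (depthModel k).Sp :=
  (T k).codRestrict _ (T_mem_Sp k)

theorem T'_coe (k : ℕ) (h : H k) : ((T' k h : (depthModel k).Sp) : Linf (DepthTest k)) = T k h := rfl

theorem range_T_closed (k : ℕ) : IsClosed (Set.range (T k)) := by
  have hK : ∀ x, ‖x‖ ≤ (((k : ℝ) + 1).toNNReal : ℝ) * ‖(T k : H k →ₗ[ℝ] Linf (DepthTest k)) x‖ := by
    intro x
    rw [Real.coe_toNNReal _ (by positivity)]
    exact norm_le_T k x
  have h1 : AntilipschitzWith (((k : ℝ) + 1).toNNReal) (T k) :=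
    AntilipschitzWith.of_le_mul_dist (fun a b => by
      rw [dist_eq_norm, dist_eq_norm, ← map_sub]
      exact hK (a - b))
  exact h1.isClosed_range (T k).uniformContinuous

/-- Each generated space is linearly homeomorphic to a Hilbert space. -/
noncomputable def equivH (k : ℕ) : H k ≃L[ℝ] (depthModel k).Sp := by
  refine ContinuousLinearEquiv.ofBijective (T' k) ?_ ?_
  · rw [LinearMap.ker_eq_bot]
    intro a b hab
    have h1 : T k a = T k b := congrArg Subtype.val hab
    have h2 := norm_le_T k (a - b)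
    rw [map_sub, h1, sub_self, norm_zero, mul_zero] at h2
    exact sub_eq_zero.1 (norm_le_zero_iff.1 h2)
  · rw [LinearMap.range_eq_top]
    rintro ⟨z, hz⟩
    have hgen : ∀ w ∈ Submodule.span ℝ (Set.range (depthModel k).e), w ∈ Set.range (T k) := by
      intro w hw
      have hsub : Submodule.span ℝ (Set.range (depthModel k).e) ≤ LinearMap.range (T k : H k →ₗ[ℝ] Linf (DepthTest k)) := by
        rw [Submodule.span_le]
        rintro _ ⟨s, rfl⟩
        by_cases hs : s.length ≤ k
        · refine ⟨lp.single 2 ⟨s, hs⟩ (1 : ℝ), ?_⟩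
          show T k _ = _
          rw [T_single, one_smul]
        · refine ⟨0, ?_⟩
          rw [map_zero]
          apply lp.ext
          funext f
          exact (f.2.2 s (not_le.1 hs)).symm
      exact hsub hw
    have h2 : z ∈ Set.range (T k) :=
      closure_minimal hgen (range_T_closed k) hz
    obtain ⟨h, hh⟩ := h2
    exact ⟨h, Subtype.ext hh⟩

/-- The space. -/
abbrev ForestX : Type := lp (fun k : ℕ => ↥(depthModel k).Sp) 2

/-- The space as a `RealBanach` record. -/
noncomputable def forest : RealBanach := ⟨ForestX, inferInstance, inferInstance, inferInstance⟩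

theorem forest_reflexive : forest.IsReflexive :=
  surjective_of_refl (refl_lp fun k => refl_of_equiv_hilbert (equivH k))

theorem forest_separable : TopologicalSpace.SeparableSpace ForestX :=
  haveI : ∀ k, TopologicalSpace.SeparableSpace (depthModel k).Sp := fun k =>
    (depthModel k).separable_Sp
  separable_lp

theorem forest_no_auc : ∀ N : forest.X → ℝ, forest.IsEquivNorm N → ¬ forest.IsAUC N := by
  apply no_auc_of_game forest (1 / 2) 2 (by norm_num)
  intro K
  exact (depthModel (K + 1)).game_of_isometry forest (sing (E := fun k => ↥(depthModel k).Sp) (K + 1)) K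
    (fun v _ hv => hv)

/-- The main midpoint inequality. -/
theorem forest_midpoint (x : ForestX) (t : ℝ) (ht : 0 ≤ t) (η : ℝ) (hη : 0 < η) :
    ∃ F : Set ForestX, forest.IsCof F ∧ ∀ y ∈ F,
      Real.sqrt (‖x‖ ^ 2 + t ^ 2 * ‖y‖ ^ 2 / 4) - η ≤ (‖x + t • y‖ + ‖x - t • y‖) / 2 := by
  obtain ⟨ι, hι, Ψ, hΨ⟩ := midpoint_sum x t ht η hη (by
    intro k η' hη'
    obtain ⟨A, S, x₀, -, hroot, hcl, hx₀, hclose, hA⟩ :=
      (depthModel k).midpoint_approx (x k).2 η' hη'
    refine ⟨⟨x₀, (depthModel k).Spn_le_Sp _ hx₀⟩, A, inferInstance,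
      fun f => (ev f.1).comp (depthModel k).Sp.subtypeL, hclose, ?_⟩
    intro y hy
    have h2 : (y : Linf (DepthTest k)) ∈ (depthModel k).Spn Sᶜ := by
      refine hA _ y.2 ?_
      intro f hf
      exact hy ⟨f, hf⟩
    exact (depthModel k).core_sqrt S hroot hcl hx₀ h2 t ht)
  exact ⟨_, isCof_of_functionals forest Ψ, fun y hy => hΨ y hy⟩

theorem forest_midpoint_unit (t : ℝ) (ht : 0 < t) (x : ForestX) (hx : ‖x‖ = 1) (η : ℝ)
    (hη : 0 < η) : ∃ F : Set ForestX, forest.IsCof F ∧ ∀ y ∈ F, ‖y‖ = 1 →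
      Real.sqrt (1 + t ^ 2 / 4) - 1 - η ≤ (‖x + t • y‖ + ‖x - t • y‖) / 2 - 1 := by
  obtain ⟨F, hF, hF'⟩ := forest_midpoint x t ht.le η hη
  refine ⟨F, hF, fun y hy hy1 => ?_⟩
  have h1 := hF' y hy
  rw [hx, hy1] at h1
  have h5 : ((1:ℝ) ^ 2 + t ^ 2 * 1 ^ 2 / 4) = 1 + t ^ 2 / 4 := by ring
  rw [h5] at h1
  linarith

theorem forest_midpointGE (t : ℝ) (ht : 0 < t) :
    forest.MidpointModulusGE forest.norm t (Real.sqrt (1 + t ^ 2 / 4) - 1) :=
  fun x hx η hη => forest_midpoint_unit t ht x hx η hη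

theorem forest_maxGE (t : ℝ) (ht : 0 < t) :
    forest.MaxMidpointModulusGE forest.norm t (Real.sqrt (1 + t ^ 2 / 4) - 1) := by
  intro x hx η hη
  obtain ⟨F, hF, hF'⟩ := forest_midpointGE t ht x hx η hη
  refine ⟨F, hF, fun y hy hy1 => ?_⟩
  have h1 := hF' y hy hy1
  have h2 : forest.norm (x + t • y) ≤ max (forest.norm (x + t • y)) (forest.norm (x - t • y)) :=
    le_max_left _ _
  have h3 : forest.norm (x - t • y) ≤ max (forest.norm (x + t • y)) (forest.norm (x - t • y)) :=
    le_max_right _ _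
  linarith

end Crest.Agent.Lib.ForestSpace
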