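import Crest.Agent.Lib.DaugavetCore

/-!
Lower bounds for the asymptotic quantities in subspaces of `L¹` whose ball is totally bounded for
convergence in measure.
-/

set_option autoImplicit false

namespace Crest.Agent.Lib.L1Lower

open MeasureTheory Crest.AnalysisR Crest.AnalysisR.L1Subspace
open scoped ENNReal

attribute [local instance] RealBanach.normed RealBanach.space

set_option linter.unusedSectionVars false

variable {Ω : Type} [mΩ : MeasurableSpace Ω] {P : Measure Ω}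

/-- Integration against a bounded measurable function. -/
noncomputable def mulFunctional (σ : Ω → ℝ) (hσ : Measurable σ) (hb : ∀ ω, |σ ω| ≤ 1) :
    Lp ℝ 1 P →L[ℝ] ℝ :=
  have hint : ∀ f : Lp ℝ 1 P, Integrable (fun ω => σ ω * f ω) P := fun f =>
    (L1.integrable_coeFn f).bdd_mul (c := 1) hσ.aestronglyMeasurable
      (Filter.Eventually.of_forall fun ω => by rw [Real.norm_eq_abs]; exact hb ω)
  LinearMap.mkContinuous
    { toFun := fun f => ∫ ω, σ ω * f ω ∂P
      map_add' := by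
        intro f g
        rw [← integral_add (hint f) (hint g)]
        apply integral_congr_ae
        filter_upwards [Lp.coeFn_add f g] with ω hω
        rw [hω, Pi.add_apply]
        ring
      map_smul' := by
        intro c f
        simp only [RingHom.id_apply, smul_eq_mul]
        rw [← integral_const_mul]
        apply integral_congr_ae
        filter_upwards [Lp.coeFn_smul c f] with ω hω
        rw [hω, Pi.smul_apply, smul_eq_mul]
        ring } 1 (by
      intro f
      simp only [LinearMap.coe_mk, AddHom.coe_mk, one_mul]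
      rw [L1.norm_eq_integral_norm]
      refine (norm_integral_le_integral_norm _).trans ?_
      apply integral_mono (hint f).norm (L1.integrable_coeFn f).norm
      intro ω
      simp only [norm_mul, Real.norm_eq_abs]
      have := hb ω
      have h0 := abs_nonneg (f ω)
      nlinarith)

theorem mulFunctional_apply (σ : Ω → ℝ) (hσ : Measurable σ) (hb : ∀ ω, |σ ω| ≤ 1)
    (f : Lp ℝ 1 P) : mulFunctional (P := P) σ hσ hb f = ∫ ω, σ ω * f ω ∂P := rfl

/-- The sign of `g` as a bounded measurable function. -/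
noncomputable def sgn (g : Ω → ℝ) : Ω → ℝ := fun ω => if 0 ≤ g ω then 1 else -1

theorem measurable_sgn {g : Ω → ℝ} (hg : Measurable g) : Measurable (sgn g) :=
  Measurable.ite (measurableSet_le measurable_const hg) measurable_const measurable_const

theorem abs_sgn_le (g : Ω → ℝ) (ω : Ω) : |sgn g ω| ≤ 1 := by
  simp only [sgn]
  split_ifs <;> simp

theorem sgn_mul_self (g : Ω → ℝ) (ω : Ω) : sgn g ω * g ω = |g ω| := by
  simp only [sgn]
  split_ifs with h
  · rw [abs_of_nonneg h]; ring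
  · rw [abs_of_neg (not_le.1 h)]; ring

variable [IsProbabilityMeasure P]

/-- Half of the mass of unit vectors of a suitable finite-codimensional subspace lives on a small
set. -/
theorem exists_cof_mass (E : Submodule ℝ (Lp ℝ 1 P)) (hcl : IsClosed (E : Set (Lp ℝ 1 P)))
    (htb : UnitBallTotallyBoundedInMeasure P E) (ε : ℝ) (hε : 0 < ε) :
    ∃ F : Set E, (toRealBanach P E hcl).IsCof F ∧ ∀ y ∈ F, ‖(y : Lp ℝ 1 P)‖ = 1 →
      ∃ A : Set Ω, MeasurableSet A ∧ P A < ENNReal.ofReal ε ∧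
        1 / 2 - ε ≤ ∫ ω in A, |(y : Lp ℝ 1 P) ω| ∂P := by
  obtain ⟨s, hs1, hs2⟩ := htb ε hε
  have hgm : ∀ g : Lp ℝ 1 P, Measurable (g : Ω → ℝ) := fun g => (Lp.stronglyMeasurable g).measurable
  let ψ : s → ((toRealBanach P E hcl).X →L[ℝ] ℝ) := fun g =>
    (mulFunctional (P := P) (sgn (g.1 : Ω → ℝ)) (measurable_sgn (hgm g.1)) (abs_sgn_le _)).comp
      (E.subtypeL)
  refine ⟨_, Crest.Agent.Lib.AsympGame.isCof_of_functionals (toRealBanach P E hcl) ψ, ?_⟩
  intro y hy hy1
  obtain ⟨g, hgs, hdist⟩ := hs2 y.1 y.2 hy1.le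
  have hne : ({a : ℝ | 0 < a ∧ P {z | a < abs ((y.1 : Ω → ℝ) z - (g : Ω → ℝ) z)} < ENNReal.ofReal a}).Nonempty := by
    refine ⟨2, by norm_num, ?_⟩
    calc P _ ≤ 1 := prob_le_one
      _ < ENNReal.ofReal 2 := by
        rw [show (1:ℝ≥0∞) = ENNReal.ofReal 1 by simp]
        exact (ENNReal.ofReal_lt_ofReal_iff (by norm_num)).2 (by norm_num)
  obtain ⟨a, ⟨ha0, ha1⟩, haε⟩ := exists_lt_of_csInf_lt hne hdist
  set Y : Ω → ℝ := (y.1 : Ω → ℝ) with hY
  set G : Ω → ℝ := (g : Ω → ℝ) with hG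
  set A : Set Ω := {z | a < abs (Y z - G z)} with hA
  have hYm : Measurable Y := hgm _
  have hGm : Measurable G := hgm _
  have hAm : MeasurableSet A := measurableSet_lt measurable_const (hYm.sub hGm).abs
  have hYi : Integrable Y P := L1.integrable_coeFn _
  have hGi : Integrable G P := L1.integrable_coeFn _
  refine ⟨A, hAm, ha1.trans_le (ENNReal.ofReal_le_ofReal haε.le), ?_⟩
  -- vanishing of the functional
  have hψ : ∫ ω, sgn G ω * Y ω ∂P = 0 := hy ⟨g, hgs⟩
  have hσi : Integrable (fun ω => sgn G ω * Y ω) P :=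
    hYi.bdd_mul (c := 1) (measurable_sgn hGm).aestronglyMeasurable
      (Filter.Eventually.of_forall fun ω => by rw [Real.norm_eq_abs]; exact abs_sgn_le _ _)
  have hsplit := integral_add_compl hAm hσi
  rw [hψ] at hsplit
  -- first piece
  have hi1 : -∫ ω in A, |Y ω| ∂P ≤ ∫ ω in A, sgn G ω * Y ω ∂P := by
    rw [← integral_neg]
    apply setIntegral_mono hYi.abs.neg.integrableOn hσi.integrableOn
    intro ω
    have h1 := abs_sgn_le G ω
    have h2 : |sgn G ω * Y ω| ≤ |Y ω| := by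
      rw [abs_mul]
      have h0 := abs_nonneg (Y ω)
      nlinarith
    simpa using (neg_le_of_abs_le h2)
  -- second piece
  set p : ℝ := (P Aᶜ).toReal with hp
  have hp0 : 0 ≤ p := ENNReal.toReal_nonneg
  have hp1 : p ≤ 1 := by
    rw [hp]
    exact ENNReal.toReal_le_of_le_ofReal (by norm_num) (by simpa using prob_le_one)
  have hconst : ∫ ω in Aᶜ, a ∂P = a * p := by
    rw [setIntegral_const, smul_eq_mul, mul_comm]
    rfl
  have hi2 : (∫ ω in Aᶜ, |G ω| ∂P) - a * p ≤ ∫ ω in Aᶜ, sgn G ω * Y ω ∂P := by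
    rw [← hconst, ← integral_sub hGi.abs.integrableOn (integrable_const _)]
    apply setIntegral_mono_on (hGi.abs.integrableOn.sub (integrable_const _)) hσi.integrableOn
      hAm.compl
    intro ω hω
    have h1 : |Y ω - G ω| ≤ a := not_lt.1 hω
    have h2 := sgn_mul_self G ω
    have h3 : sgn G ω * Y ω = |G ω| + sgn G ω * (Y ω - G ω) := by
      rw [← h2]; ring
    have h4 : |sgn G ω * (Y ω - G ω)| ≤ a := by
      rw [abs_mul]
      have h5 := abs_sgn_le G ω
      have h0 := abs_nonneg (Y ω - G ω)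
      nlinarith
    have h6 := neg_le_of_abs_le h4
    simp only [Pi.sub_apply]
    linarith
  have hi3 : ∫ ω in Aᶜ, |Y ω| ∂P ≤ (∫ ω in Aᶜ, |G ω| ∂P) + a * p := by
    rw [← hconst, ← integral_add hGi.abs.integrableOn (integrable_const _)]
    apply setIntegral_mono_on hYi.abs.integrableOn (hGi.abs.integrableOn.add (integrable_const _))
      hAm.compl
    intro ω hω
    have h1 : |Y ω - G ω| ≤ a := not_lt.1 hω
    have h2 : |Y ω| ≤ |G ω| + |Y ω - G ω| := by
      have := abs_add_le (G ω) (Y ω - G ω)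
      simpa using this
    simp only [Pi.add_apply]
    linarith
  have htotal := integral_add_compl hAm hYi.abs
  have hnorm : ∫ ω, |Y ω| ∂P = 1 := by
    have := L1.norm_eq_integral_norm (y.1)
    rw [hy1] at this
    simpa [Real.norm_eq_abs] using this.symm
  rw [hnorm] at htotal
  have hap : a * p ≤ a := by nlinarith
  have : 1 / 2 - a ≤ ∫ ω in A, |Y ω| ∂P := by linarith
  linarith

/-- Absolute continuity of the integral. -/
theorem exists_small_setIntegral {X : Ω → ℝ} (hX : Integrable X P) (η : ℝ) (hη : 0 < η) :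
    ∃ δ : ℝ, 0 < δ ∧ ∀ A : Set Ω, P A < ENNReal.ofReal δ → ∫ ω in A, |X ω| ∂P ≤ η := by
  have h1 : ∫⁻ ω, ENNReal.ofReal |X ω| ∂P ≠ ∞ := hX.abs.lintegral_lt_top.ne
  obtain ⟨δ, hδ, hA⟩ := exists_pos_setLIntegral_lt_of_measure_lt h1
    (ε := ENNReal.ofReal η) (by simpa using hη)
  have hδ' : ∃ δ' : ℝ, 0 < δ' ∧ ENNReal.ofReal δ' ≤ δ := by
    by_cases htop : δ = ∞
    · exact ⟨1, one_pos, by simp [htop]⟩
    · refine ⟨δ.toReal, ENNReal.toReal_pos hδ.ne' htop, ?_⟩
      rw [ENNReal.ofReal_toReal htop]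
  obtain ⟨δ', hδ'0, hδ'le⟩ := hδ'
  refine ⟨δ', hδ'0, fun A hPA => ?_⟩
  have h2 := hA A (hPA.trans_le hδ'le)
  rw [integral_eq_lintegral_of_nonneg_ae (Filter.Eventually.of_forall fun _ => abs_nonneg _)
    hX.abs.aestronglyMeasurable.restrict]
  apply ENNReal.toReal_le_of_le_ofReal hη.le h2.le

/-- Lower bound for one norm. -/
theorem int_lower1 {X Y : Ω → ℝ} (hX : Integrable X P) (hY : Integrable Y P) (t : ℝ) (ht : 0 ≤ t)
    {A : Set Ω} (hA : MeasurableSet A) :
    (t * ∫ ω in A, |Y ω| ∂P - ∫ ω in A, |X ω| ∂P) + (∫ ω in Aᶜ, |X ω| ∂P - t * ∫ ω in Aᶜ, |Y ω| ∂P)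
      ≤ ∫ ω, |X ω + t * Y ω| ∂P := by
  have hi : Integrable (fun ω => |X ω + t * Y ω|) P := (hX.add (hY.const_mul t)).abs
  rw [← integral_add_compl hA hi]
  apply add_le_add
  · rw [← integral_const_mul, ← integral_sub (hY.abs.const_mul t).integrableOn hX.abs.integrableOn]
    apply setIntegral_mono ((hY.abs.const_mul t).integrableOn.sub hX.abs.integrableOn) hi.integrableOn
    intro ω
    have h1 : |t * Y ω| = t * |Y ω| := by rw [abs_mul, abs_of_nonneg ht]
    have h2 : |t * Y ω| ≤ |X ω + t * Y ω| + |X ω| := by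
      have := abs_sub (X ω + t * Y ω) (X ω)
      simpa using this
    simp only [Pi.sub_apply]
    linarith
  · rw [← integral_const_mul, ← integral_sub hX.abs.integrableOn (hY.abs.const_mul t).integrableOn]
    apply setIntegral_mono (hX.abs.integrableOn.sub (hY.abs.const_mul t).integrableOn) hi.integrableOn
    intro ω
    have h1 : |t * Y ω| = t * |Y ω| := by rw [abs_mul, abs_of_nonneg ht]
    have h2 : |X ω| ≤ |X ω + t * Y ω| + |t * Y ω| := by
      have := abs_sub (X ω + t * Y ω) (t * Y ω)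
      simpa using this
    simp only [Pi.sub_apply]
    linarith

/-- Lower bound for the sum of two norms. -/
theorem int_lower2 {X Y : Ω → ℝ} (hX : Integrable X P) (hY : Integrable Y P) (t : ℝ) (ht : 0 ≤ t)
    {A : Set Ω} (hA : MeasurableSet A) :
    2 * t * ∫ ω in A, |Y ω| ∂P + 2 * ∫ ω in Aᶜ, |X ω| ∂P
      ≤ ∫ ω, |X ω + t * Y ω| ∂P + ∫ ω, |X ω - t * Y ω| ∂P := by
  have hi1 : Integrable (fun ω => |X ω + t * Y ω|) P := (hX.add (hY.const_mul t)).abs
  have hi2 : Integrable (fun ω => |X ω - t * Y ω|) P := (hX.sub (hY.const_mul t)).abs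
  have hi12 : Integrable (fun ω => |X ω + t * Y ω| + |X ω - t * Y ω|) P := hi1.add hi2
  rw [← integral_add hi1 hi2, ← integral_add_compl hA hi12]
  apply add_le_add
  · rw [← integral_const_mul]
    apply setIntegral_mono (hY.abs.const_mul _).integrableOn hi12.integrableOn
    intro ω
    have h1 : |2 * (t * Y ω)| = 2 * t * |Y ω| := by
      rw [abs_mul, abs_mul, abs_of_nonneg ht]; norm_num; ring
    have h2 : |2 * (t * Y ω)| ≤ |X ω + t * Y ω| + |X ω - t * Y ω| := by
      have := abs_sub (X ω + t * Y ω) (X ω - t * Y ω)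
      have h3 : X ω + t * Y ω - (X ω - t * Y ω) = 2 * (t * Y ω) := by ring
      rwa [h3] at this
    simp only [Pi.add_apply]
    linarith
  · rw [← integral_const_mul]
    apply setIntegral_mono (hX.abs.const_mul _).integrableOn hi12.integrableOn
    intro ω
    have h1 : |2 * X ω| = 2 * |X ω| := by
      rw [abs_mul]; norm_num
    have h2 : |2 * X ω| ≤ |X ω + t * Y ω| + |X ω - t * Y ω| := by
      have := abs_add_le (X ω + t * Y ω) (X ω - t * Y ω)
      have h3 : X ω + t * Y ω + (X ω - t * Y ω) = 2 * X ω := by ring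
      rwa [h3] at this
    simp only [Pi.add_apply]
    linarith

/-- Norm of `x ± t y` as an integral. -/
theorem norm_add_smul_eq (x y : Lp ℝ 1 P) (t : ℝ) :
    ‖x + t • y‖ = ∫ ω, |x ω + t * y ω| ∂P := by
  rw [L1.norm_eq_integral_norm]
  apply integral_congr_ae
  filter_upwards [Lp.coeFn_add x (t • y), Lp.coeFn_smul t y] with ω h1 h2
  rw [h1, Pi.add_apply, h2, Pi.smul_apply, smul_eq_mul, Real.norm_eq_abs]

theorem norm_sub_smul_eq (x y : Lp ℝ 1 P) (t : ℝ) :
    ‖x - t • y‖ = ∫ ω, |x ω - t * y ω| ∂P := by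
  rw [L1.norm_eq_integral_norm]
  apply integral_congr_ae
  filter_upwards [Lp.coeFn_sub x (t • y), Lp.coeFn_smul t y] with ω h1 h2
  rw [h1, Pi.sub_apply, h2, Pi.smul_apply, smul_eq_mul, Real.norm_eq_abs]

theorem norm_eq_integral (x : Lp ℝ 1 P) : ∫ ω, |x ω| ∂P = ‖x‖ := by
  rw [L1.norm_eq_integral_norm]
  simp [Real.norm_eq_abs]

/-- The lower bound for the one-sided and averaged quantities. -/
theorem lower_bounds (E : Submodule ℝ (Lp ℝ 1 P)) (hcl : IsClosed (E : Set (Lp ℝ 1 P)))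
    (htb : UnitBallTotallyBoundedInMeasure P E) (x : E) (hx : ‖(x : Lp ℝ 1 P)‖ = 1) (t : ℝ)
    (ht : 0 < t) (η : ℝ) (hη : 0 < η) :
    ∃ F : Set E, (toRealBanach P E hcl).IsCof F ∧ ∀ y ∈ F, ‖(y : Lp ℝ 1 P)‖ = 1 →
      1 - η ≤ ‖(x : Lp ℝ 1 P) + t • (y : Lp ℝ 1 P)‖ ∧
      1 + t / 2 - η ≤ (‖(x : Lp ℝ 1 P) + t • (y : Lp ℝ 1 P)‖
        + ‖(x : Lp ℝ 1 P) - t • (y : Lp ℝ 1 P)‖) / 2 := by
  have hXi : Integrable (x.1 : Ω → ℝ) P := L1.integrable_coeFn _
  obtain ⟨δ, hδ, hsmall⟩ := exists_small_setIntegral hXi (η / 4) (by positivity)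
  set ε : ℝ := min δ (η / (4 * t)) with hεdef
  have hε : 0 < ε := lt_min hδ (by positivity)
  have hεt : t * ε ≤ η / 4 := by
    have : ε ≤ η / (4 * t) := min_le_right _ _
    calc t * ε ≤ t * (η / (4 * t)) := by gcongr
      _ = η / 4 := by field_simp
  obtain ⟨F, hF, hF'⟩ := exists_cof_mass E hcl htb ε hε
  refine ⟨F, hF, ?_⟩
  intro y hy hy1
  obtain ⟨A, hA, hPA, hmass⟩ := hF' y hy hy1
  have hYi : Integrable (y.1 : Ω → ℝ) P := L1.integrable_coeFn _
  have hξ : ∫ ω in A, |(x.1 : Ω → ℝ) ω| ∂P ≤ η / 4 :=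
    hsmall A (hPA.trans_le (ENNReal.ofReal_le_ofReal (min_le_left _ _)))
  have hxtot : ∫ ω in A, |(x.1 : Ω → ℝ) ω| ∂P + ∫ ω in Aᶜ, |(x.1 : Ω → ℝ) ω| ∂P = 1 := by
    rw [integral_add_compl hA hXi.abs, norm_eq_integral, hx]
  have hytot : ∫ ω in A, |(y.1 : Ω → ℝ) ω| ∂P + ∫ ω in Aᶜ, |(y.1 : Ω → ℝ) ω| ∂P = 1 := by
    rw [integral_add_compl hA hYi.abs, norm_eq_integral, hy1]
  have h1 := int_lower1 hXi hYi t ht.le hA
  have h2 := int_lower2 hXi hYi t ht.le hA
  rw [← norm_add_smul_eq] at h1 h2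
  rw [← norm_sub_smul_eq] at h2
  constructor
  · nlinarith
  · nlinarith

end Crest.Agent.Lib.L1Lower
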