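import Crest.Agent.Lib.QuadricFlowBase

/-!
# The isotopy of the quadric threefold: assembly
-/

open scoped ContDiff Topology NNReal
open Crest.GeometryTopology.Quadric

noncomputable section

namespace Crest.Agent.Lib.QuadricFlow

/-! ### Rotations -/

lemma rot_zero (z : C5) : rot 0 z = z := by
  ext j
  fin_cases j <;> simp [rot]

lemma rot_pi (z : C5) : rot Real.pi z = ![-z 0, -z 1, -z 2, -z 3, z 4] := by
  ext j
  fin_cases j <;> simp [rot]

lemma hasDerivAt_rot (θ : ℝ) (z : C5) : HasDerivAt (fun θ => rot θ z) (S0 (rot θ z)) θ := by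
  rw [hasDerivAt_pi]
  have hc := Real.hasDerivAt_cos θ
  have hs := Real.hasDerivAt_sin θ
  intro i
  fin_cases i
  · have := (hc.smul_const (z 0)).fun_add (hs.smul_const (z 1))
    simpa [rot, S0, so4mul] using this
  · have := (hs.neg.smul_const (z 0)).fun_add (hc.smul_const (z 1))
    simpa [rot, S0, so4mul, add_comm, neg_smul] using this
  · have := (hc.smul_const (z 2)).fun_add (hs.smul_const (z 3))
    simpa [rot, S0, so4mul] using this
  · have := (hs.neg.smul_const (z 2)).fun_add (hc.smul_const (z 3))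
    simpa [rot, S0, so4mul, add_comm, neg_smul] using this
  · simpa [rot, S0, so4mul] using hasDerivAt_const θ (z 4)

lemma smul_add_smul_re (a b : ℝ) (u v : ℂ) : (a • u + b • v).re = a * u.re + b * v.re := by simp
lemma smul_add_smul_im (a b : ℝ) (u v : ℂ) : (a • u + b • v).im = a * u.im + b * v.im := by simp

lemma rot_0 (θ : ℝ) (z : C5) : rot θ z 0 = Real.cos θ • z 0 + Real.sin θ • z 1 := rfl
lemma rot_1 (θ : ℝ) (z : C5) : rot θ z 1 = (-Real.sin θ) • z 0 + Real.cos θ • z 1 := rfl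
lemma rot_2 (θ : ℝ) (z : C5) : rot θ z 2 = Real.cos θ • z 2 + Real.sin θ • z 3 := rfl
lemma rot_3 (θ : ℝ) (z : C5) : rot θ z 3 = (-Real.sin θ) • z 2 + Real.cos θ • z 3 := rfl
lemma rot_4 (θ : ℝ) (z : C5) : rot θ z 4 = z 4 := rfl

lemma r2_rot (θ : ℝ) (z : C5) : r2 (rot θ z) = r2 z := by
  have h := Real.sin_sq_add_cos_sq θ
  simp only [r2, rot_0, rot_1, rot_2, rot_3, rot_4, smul_add_smul_re, smul_add_smul_im]
  linear_combination ((z 0).re ^ 2 + (z 1).re ^ 2 + (z 0).im ^ 2 + (z 1).im ^ 2 + (z 2).re ^ 2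
    + (z 3).re ^ 2 + (z 2).im ^ 2 + (z 3).im ^ 2) * h

lemma q1_rot (θ : ℝ) (z : C5) : q1 (rot θ z) = q1 z := by
  have h := Real.sin_sq_add_cos_sq θ
  simp only [q1, rot_0, rot_1, rot_2, rot_3, rot_4, smul_add_smul_re, smul_add_smul_im]
  linear_combination ((z 0).re ^ 2 + (z 1).re ^ 2 - (z 0).im ^ 2 - (z 1).im ^ 2 + (z 2).re ^ 2
    + (z 3).re ^ 2 - (z 2).im ^ 2 - (z 3).im ^ 2) * h

lemma q2_rot (θ : ℝ) (z : C5) : q2 (rot θ z) = q2 z := by
  have h := Real.sin_sq_add_cos_sq θ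
  simp only [q2, rot_0, rot_1, rot_2, rot_3, rot_4, smul_add_smul_re, smul_add_smul_im]
  linear_combination ((z 0).re * (z 0).im + (z 1).re * (z 1).im + (z 2).re * (z 2).im
    + (z 3).re * (z 3).im) * h

lemma rot_mem_cone (θ : ℝ) {z : C5} (hz : z ∈ unitCone) : rot θ z ∈ unitCone := by
  rw [mem_unitCone_iff] at hz ⊢
  rw [r2_rot, q1_rot, q2_rot]
  exact hz

lemma rot_smul (θ : ℝ) (c : ℂ) (z : C5) : rot θ (c • z) = c • rot θ z := by
  ext j
  fin_cases j <;> simp [rot] <;> ring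

lemma pp_rot_pi_01 (z : C5) : pp 0 1 (rot Real.pi z) = pp 0 1 z := by simp [pp, rot_pi]
lemma pp_rot_pi_02 (z : C5) : pp 0 2 (rot Real.pi z) = pp 0 2 z := by simp [pp, rot_pi]
lemma pp_rot_pi_03 (z : C5) : pp 0 3 (rot Real.pi z) = pp 0 3 z := by simp [pp, rot_pi]
lemma pp_rot_pi_12 (z : C5) : pp 1 2 (rot Real.pi z) = pp 1 2 z := by simp [pp, rot_pi]
lemma pp_rot_pi_13 (z : C5) : pp 1 3 (rot Real.pi z) = pp 1 3 z := by simp [pp, rot_pi]
lemma pp_rot_pi_23 (z : C5) : pp 2 3 (rot Real.pi z) = pp 2 3 z := by simp [pp, rot_pi]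

lemma piVec_rot_pi (z : C5) : piVec (rot Real.pi z) = piVec z := by
  simp only [piVec, pp_rot_pi_01, pp_rot_pi_02, pp_rot_pi_03, pp_rot_pi_12, pp_rot_pi_13,
    pp_rot_pi_23]

lemma piVec_smul {c : ℂ} (hc : ‖c‖ = 1) (z : C5) : piVec (c • z) = piVec z := by
  simp only [piVec, pp_smul hc]

lemma contDiff_rot_joint {f : ℝ → ℝ} (hf : ContDiff ℝ ∞ f) :
    ContDiff ℝ ∞ (fun q : ℝ × C5 => rot (f q.1) q.2) := by
  have hc : ContDiff ℝ ∞ (fun q : ℝ × C5 => Real.cos (f q.1)) :=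
    Real.contDiff_cos.comp (hf.comp contDiff_fst)
  have hs : ContDiff ℝ ∞ (fun q : ℝ × C5 => Real.sin (f q.1)) :=
    Real.contDiff_sin.comp (hf.comp contDiff_fst)
  have hz : ∀ j : Fin 5, ContDiff ℝ ∞ (fun q : ℝ × C5 => q.2 j) := fun j =>
    (contDiff_coord j).comp contDiff_snd
  refine contDiff_pi.2 fun j => ?_
  fin_cases j
  · exact (hc.smul (hz 0)).add (hs.smul (hz 1))
  · exact (hs.neg.smul (hz 0)).add (hc.smul (hz 1))
  · exact (hc.smul (hz 2)).add (hs.smul (hz 3))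
  · exact (hs.neg.smul (hz 2)).add (hc.smul (hz 3))
  · exact hz 4

/-! ### Time reparametrisations -/

/-- First half: the rotation angle. -/
def alphaT (t : ℝ) : ℝ := Real.pi * Real.smoothTransition (3 * t)

/-- Second half: the flow time (before scaling by `eps`). -/
def betaT (t : ℝ) : ℝ := Real.smoothTransition (3 * t - 2)

lemma contDiff_alphaT : ContDiff ℝ ∞ alphaT :=
  contDiff_const.mul (Real.smoothTransition.contDiff.comp (contDiff_const.mul contDiff_id))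

lemma contDiff_betaT : ContDiff ℝ ∞ betaT :=
  Real.smoothTransition.contDiff.comp ((contDiff_const.mul contDiff_id).sub contDiff_const)

lemma alphaT_zero : alphaT 0 = 0 := by simp [alphaT, Real.smoothTransition.zero]

lemma betaT_of_le {t : ℝ} (ht : t ≤ 2 / 3) : betaT t = 0 :=
  Real.smoothTransition.zero_of_nonpos (by linarith)

lemma alphaT_of_ge {t : ℝ} (ht : 1 / 3 ≤ t) : alphaT t = Real.pi := by
  rw [alphaT, Real.smoothTransition.one_of_one_le (by linarith), mul_one]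

lemma betaT_one : betaT 1 = 1 := Real.smoothTransition.one_of_one_le (by norm_num)

lemma tau_mem (t : ℝ) : eps * betaT t ∈ Set.Icc 0 eps := by
  have h0 : 0 ≤ betaT t := Real.smoothTransition.nonneg _
  have h1 : betaT t ≤ 1 := Real.smoothTransition.le_one _
  have he := eps_pos
  exact ⟨by positivity, by nlinarith⟩

/-- The lifted isotopy. -/
def PsiQ (q : ℝ × C5) : C5 := Fl (eps * betaT q.1, rot (alphaT q.1) q.2)

/-- The lifted Hamiltonian. -/
def HQ (q : ℝ × C5) : ℝ := deriv alphaT q.1 * K0 q.2 + eps * deriv betaT q.1 * KK q.2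

lemma contDiff_PsiQ : ContDiff ℝ ∞ PsiQ := by
  rw [contDiff_iff_contDiffAt]
  intro q
  have h1 : ContDiffAt ℝ ∞ Fl (eps * betaT q.1, rot (alphaT q.1) q.2) :=
    contDiffAt_Fl (abs_mem_T0 (tau_mem q.1)) _
  have h2 : ContDiff ℝ ∞ (fun q : ℝ × C5 => (eps * betaT q.1, rot (alphaT q.1) q.2)) :=
    (contDiff_const.mul (contDiff_betaT.comp contDiff_fst)).prodMk (contDiff_rot_joint contDiff_alphaT)
  exact h1.comp q h2.contDiffAt

lemma contDiff_K0 : ContDiff ℝ ∞ K0 := (contDiff_pp 0 1).add (contDiff_pp 2 3)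

lemma contDiff_KK : ContDiff ℝ ∞ KK := by
  have h01 := contDiff_pp 0 1
  have h02 := contDiff_pp 0 2
  have h03 := contDiff_pp 0 3
  have h12 := contDiff_pp 1 2
  have h13 := contDiff_pp 1 3
  have h23 := contDiff_pp 2 3
  have hconst : ContDiff ℝ ∞ (fun _ : C5 => (2 : ℝ)) := contDiff_const
  exact (((((h01.pow 2).sub (h23.pow 2)).sub (hconst.mul h02)).add
    ((hconst.mul h02).mul h03))).add ((hconst.mul h12).mul h13)

lemma contDiff_deriv_of_smooth {f : ℝ → ℝ} (hf : ContDiff ℝ ∞ f) : ContDiff ℝ ∞ (deriv f) :=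
  (contDiff_infty_iff_deriv.1 hf).2

lemma contDiff_HQ : ContDiff ℝ ∞ HQ := by
  have h1 := (contDiff_deriv_of_smooth contDiff_alphaT).comp (contDiff_fst (E := ℝ) (F := C5))
  have h2 := (contDiff_deriv_of_smooth contDiff_betaT).comp (contDiff_fst (E := ℝ) (F := C5))
  have h3 := contDiff_K0.comp (contDiff_snd (E := ℝ) (F := C5))
  have h4 := contDiff_KK.comp (contDiff_snd (E := ℝ) (F := C5))
  exact (h1.mul h3).add ((contDiff_const.mul h2).mul h4)

lemma K0_smul {c : ℂ} (hc : ‖c‖ = 1) (z : C5) : K0 (c • z) = K0 z := by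
  simp only [K0, pp_smul hc]

lemma KK_smul {c : ℂ} (hc : ‖c‖ = 1) (z : C5) : KK (c • z) = KK z := by
  simp only [KK, pp_smul hc]

lemma herm_smul_real (r : ℝ) (u w : C5) : herm (r • u) w = (r : ℂ) * herm u w := by
  simp [herm, Finset.mul_sum, mul_assoc]

lemma fderiv_HQ (t : ℝ) (y w : C5) :
    fderiv ℝ (fun x : C5 => HQ (t, x)) y w =
      deriv alphaT t * (2 * (herm (S0 y) w).im) + eps * deriv betaT t * (2 * (herm (X0 y) w).im) := by
  have h1 : HasFDerivAt K0 (fderiv ℝ K0 y) y :=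
    (contDiff_K0.differentiable (by simp) y).hasFDerivAt
  have h2 : HasFDerivAt KK (fderiv ℝ KK y) y :=
    (contDiff_KK.differentiable (by simp) y).hasFDerivAt
  have h3 : HasFDerivAt (fun x : C5 => deriv alphaT t * K0 x + (eps * deriv betaT t) * KK x)
      ((deriv alphaT t) • fderiv ℝ K0 y + (eps * deriv betaT t) • fderiv ℝ KK y) y :=
    (h1.const_mul _).fun_add (h2.const_mul _)
  have h4 : (fun x : C5 => HQ (t, x)) =
      fun x : C5 => deriv alphaT t * K0 x + (eps * deriv betaT t) * KK x := rfl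
  rw [h4]
  rw [h3.fderiv]
  simp [fderiv_K0_eq, fderiv_KK_eq]

lemma hamilton_aux (t : ℝ) {z : C5} (hz : z ∈ unitCone) (w : C5) :
    2 * (herm (deriv (fun s : ℝ => PsiQ (s, z)) t) w).im =
      fderiv ℝ (fun x : C5 => HQ (t, x)) (PsiQ (t, z)) w := by
  rw [fderiv_HQ]
  by_cases ht : t < 2 / 3
  · have hev : (fun s => PsiQ (s, z)) =ᶠ[𝓝 t] fun s => rot (alphaT s) z := by
      filter_upwards [Iio_mem_nhds ht] with s hs
      simp only [PsiQ]
      rw [betaT_of_le (le_of_lt hs), mul_zero, Fl_zero]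
    have hb : deriv betaT t = 0 := by
      have : betaT =ᶠ[𝓝 t] fun _ => 0 := by
        filter_upwards [Iio_mem_nhds ht] with s hs
        exact betaT_of_le (le_of_lt hs)
      rw [this.deriv_eq, deriv_const]
    have ha : HasDerivAt alphaT (deriv alphaT t) t :=
      (contDiff_alphaT.differentiable (by simp) t).hasDerivAt
    have hd : HasDerivAt (fun s => rot (alphaT s) z) (deriv alphaT t • S0 (rot (alphaT t) z)) t :=
      (hasDerivAt_rot (alphaT t) z).scomp t ha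
    rw [(hd.congr_of_eventuallyEq hev).deriv, hev.eq_of_nhds, hb, herm_smul_real]
    simp
    ring
  · have ht' : 2 / 3 ≤ t := not_lt.1 ht
    have ht1 : (1 / 3 : ℝ) < t := by linarith
    have hev : (fun s => PsiQ (s, z)) =ᶠ[𝓝 t] fun s => Fl (eps * betaT s, rot Real.pi z) := by
      filter_upwards [Ioi_mem_nhds ht1] with s hs
      simp only [PsiQ]
      rw [alphaT_of_ge (le_of_lt hs)]
    have ha : deriv alphaT t = 0 := by
      have : alphaT =ᶠ[𝓝 t] fun _ => Real.pi := by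
        filter_upwards [Ioi_mem_nhds ht1] with s hs
        exact alphaT_of_ge (le_of_lt hs)
      rw [this.deriv_eq, deriv_const]
    have hb : HasDerivAt betaT (deriv betaT t) t :=
      (contDiff_betaT.differentiable (by simp) t).hasDerivAt
    have hb2 : HasDerivAt (fun s => eps * betaT s) (eps * deriv betaT t) t := hb.const_mul eps
    have hd : HasDerivAt (fun s => Fl (eps * betaT s, rot Real.pi z))
        ((eps * deriv betaT t) • Xt (Fl (eps * betaT t, rot Real.pi z))) t :=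
      HasDerivAt.scomp (g₁ := fun τ => Fl (τ, rot Real.pi z))
        (g₁' := Xt (Fl (eps * betaT t, rot Real.pi z))) (h := fun s => eps * betaT s) t
        (Fl_deriv (abs_mem_T0 (tau_mem t)) (rot Real.pi z)) hb2
    have hcone : Fl (eps * betaT t, rot Real.pi z) ∈ unitCone :=
      Fl_mem_cone (abs_mem_T0 (tau_mem t)) (rot_mem_cone _ hz)
    rw [(hd.congr_of_eventuallyEq hev).deriv, hev.eq_of_nhds, ha, Xt_of_cone hcone, herm_smul_real]
    simp
    ring

/-- The Hamiltonian isotopy. -/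
def theLift : HamiltonianConeLift where
  Ψ := PsiQ
  H := HQ
  smooth_Ψ := contDiff_PsiQ
  smooth_H := contDiff_HQ
  mapsTo_cone := fun t z hz => Fl_mem_cone (abs_mem_T0 (tau_mem t)) (rot_mem_cone _ hz)
  compatible := fun t z _ c hc => by
    refine ⟨c, ?_⟩
    simp only [PsiQ]
    rw [rot_smul]
    exact Fl_smul (tau_mem t).1 (lt_of_le_of_lt (tau_mem t).2 eps_lt_T0) hc _
  start := fun z _ => by
    refine ⟨1, ?_⟩
    simp only [PsiQ]
    rw [betaT_of_le (by norm_num), alphaT_zero, mul_zero, Fl_zero, rot_zero, one_smul]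
  invariant := fun t z _ c hc => by
    simp only [HQ]
    rw [K0_smul hc, KK_smul hc]
  hamilton := fun t _ z hz w _ => hamilton_aux t hz w

lemma theLift_one (z : C5) : theLift.Ψ (1, z) = Fl (eps, rot Real.pi z) := by
  show PsiQ (1, z) = _
  simp only [PsiQ]
  rw [alphaT_of_ge (by norm_num), betaT_one, mul_one]

/-! ### The fixed lines -/

lemma piVec_mem_ball {y : C5} (hy : r2 y = 1) : piVec y ∈ Metric.closedBall (0 : Fin 6 → ℝ) 1 := by
  have key : ∀ a b : Fin 5, a ≠ b → |pp a b y| ≤ 1 := by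
    intro a b hab
    have h1 : ((y a).re ^ 2 + (y a).im ^ 2) + ((y b).re ^ 2 + (y b).im ^ 2) ≤ r2 y := by
      unfold r2
      have pos := fun x : ℝ => sq_nonneg x
      fin_cases a <;> fin_cases b <;> first | exact absurd rfl hab | skip
      all_goals
        simp only [Fin.zero_eta, Fin.mk_one, Fin.reduceFinMk]
        nlinarith [pos (y 0).re, pos (y 0).im, pos (y 1).re, pos (y 1).im, pos (y 2).re, pos (y 2).im,
          pos (y 3).re, pos (y 3).im, pos (y 4).re, pos (y 4).im]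
    rw [hy] at h1
    unfold pp
    rw [abs_le]
    constructor <;> nlinarith [sq_nonneg ((y a).im - (y b).re), sq_nonneg ((y a).re + (y b).im),
      sq_nonneg ((y a).im + (y b).re), sq_nonneg ((y a).re - (y b).im)]
  rw [mem_closedBall_zero_iff, pi_norm_le_iff_of_nonneg (by norm_num)]
  intro i
  rw [Real.norm_eq_abs]
  fin_cases i
  · exact key 0 1 (by decide)
  · exact key 0 2 (by decide)
  · exact key 0 3 (by decide)
  · exact key 1 2 (by decide)
  · exact key 1 3 (by decide)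
  · exact key 2 3 (by decide)

lemma norm_one_of_r2 {c : ℂ} {z : C5} (hz : r2 z = 1) (hc : r2 (c • z) = 1) : ‖c‖ = 1 := by
  have h1 : r2 (c • z) = (c.re ^ 2 + c.im ^ 2) * r2 z := by
    simp only [r2, Pi.smul_apply, smul_eq_mul, Complex.mul_re, Complex.mul_im]
    ring
  rw [hc, hz, mul_one] at h1
  have h2 : ‖c‖ ^ 2 = 1 := by
    rw [← Complex.normSq_eq_norm_sq, Complex.normSq_apply]
    nlinarith
  have h3 : 0 ≤ ‖c‖ := norm_nonneg _
  nlinarith

/-- The part of the squared norm in the first four coordinates. -/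
def r4 (z : C5) : ℝ :=
  ((z 0).re ^ 2 + (z 0).im ^ 2) + ((z 1).re ^ 2 + (z 1).im ^ 2) + ((z 2).re ^ 2 + (z 2).im ^ 2)
    + ((z 3).re ^ 2 + (z 3).im ^ 2)

lemma r2_eq_r4 (z : C5) : r2 z = r4 z + ((z 4).re ^ 2 + (z 4).im ^ 2) := rfl

lemma norm_sq_coord (w : ℂ) : ‖w‖ ^ 2 = w.re ^ 2 + w.im ^ 2 := by
  rw [← Complex.normSq_eq_norm_sq, Complex.normSq_apply]; ring

lemma X0_of_first_four_zero {u : C5} (h0 : u 0 = 0) (h1 : u 1 = 0) (h2 : u 2 = 0) (h3 : u 3 = 0) :
    X0 u = 0 := by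
  ext j
  fin_cases j <;> simp [X0, so4mul, h0, h1, h2, h3]

/-- No fixed point of the time-one map away from the surface `z₄ = 0`. -/
lemma off_plane {z : C5} (hz : z ∈ unitCone) (hfix : Fl (eps, rot Real.pi z) = z) : r4 z = 0 := by
  set x₀ := rot Real.pi z with hx₀
  have hx₀cone : x₀ ∈ unitCone := rot_mem_cone _ hz
  set A := Real.sqrt (r4 z) with hA
  have hr4 : 0 ≤ r4 z := by unfold r4; positivity
  have hAsq : A ^ 2 = r4 z := Real.sq_sqrt hr4
  have hA0 : 0 ≤ A := Real.sqrt_nonneg _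
  have hz2 : r2 z = 1 := ((mem_unitCone_iff z).1 hz).1
  -- the vector field is small along the orbit
  have hbound : ∀ τ ∈ Set.Ico (0 : ℝ) eps, ‖Xt (Fl (τ, x₀))‖ ≤ (LX : ℝ) * A := by
    intro τ hτ
    have hτ' : |τ| < T0 := abs_mem_T0 ⟨hτ.1, hτ.2.le⟩
    set y := Fl (τ, x₀) with hy
    have hy4 : y 4 = z 4 := Fl_four hτ' x₀
    have hyr : r2 y = 1 := by
      rw [hy, Fl_r2 hτ']
      exact ((mem_unitCone_iff x₀).1 hx₀cone).1
    have hyr4 : r4 y = r4 z := by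
      have h1 := r2_eq_r4 y
      have h2 := r2_eq_r4 z
      rw [hy4] at h1
      linarith
    let u₀ : C5 := ![0, 0, 0, 0, z 4]
    have hu₀ : Xt u₀ = 0 := by
      rw [Xt_eq, X0_of_first_four_zero (by rfl) (by rfl) (by rfl) (by rfl), smul_zero]
    have h1 : ‖Xt y‖ ≤ (LX : ℝ) * ‖y - u₀‖ := by
      have := lipX.dist_le_mul y u₀
      rwa [hu₀, dist_zero_right, dist_eq_norm] at this
    have h2 : ‖y - u₀‖ ≤ A := by
      rw [pi_norm_le_iff_of_nonneg hA0]
      have hcoord : ∀ w : ℂ, w.re ^ 2 + w.im ^ 2 ≤ r4 z → ‖w‖ ≤ A := by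
        intro w hw
        rw [← norm_sq_coord] at hw
        have := norm_nonneg w
        nlinarith
      intro j
      fin_cases j
      · apply hcoord
        simp [u₀]
        rw [← hyr4]
        unfold r4
        nlinarith [sq_nonneg (y 1).re, sq_nonneg (y 1).im, sq_nonneg (y 2).re, sq_nonneg (y 2).im,
          sq_nonneg (y 3).re, sq_nonneg (y 3).im]
      · apply hcoord
        simp [u₀]
        rw [← hyr4]
        unfold r4
        nlinarith [sq_nonneg (y 0).re, sq_nonneg (y 0).im, sq_nonneg (y 2).re, sq_nonneg (y 2).im,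
          sq_nonneg (y 3).re, sq_nonneg (y 3).im]
      · apply hcoord
        simp [u₀]
        rw [← hyr4]
        unfold r4
        nlinarith [sq_nonneg (y 0).re, sq_nonneg (y 0).im, sq_nonneg (y 1).re, sq_nonneg (y 1).im,
          sq_nonneg (y 3).re, sq_nonneg (y 3).im]
      · apply hcoord
        simp [u₀]
        rw [← hyr4]
        unfold r4
        nlinarith [sq_nonneg (y 0).re, sq_nonneg (y 0).im, sq_nonneg (y 1).re, sq_nonneg (y 1).im,
          sq_nonneg (y 2).re, sq_nonneg (y 2).im]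
      · simp [u₀, hy4, hA0]
    calc ‖Xt y‖ ≤ (LX : ℝ) * ‖y - u₀‖ := h1
      _ ≤ (LX : ℝ) * A := by gcongr
  -- mean value theorem
  have hderiv : ∀ τ ∈ Set.Icc (0 : ℝ) eps,
      HasDerivWithinAt (fun τ => Fl (τ, x₀)) (Xt (Fl (τ, x₀))) (Set.Icc 0 eps) τ := fun τ hτ =>
    (Fl_deriv (abs_mem_T0 hτ) x₀).hasDerivWithinAt
  have hmv := norm_image_sub_le_of_norm_deriv_le_segment' hderiv hbound eps ⟨eps_pos.le, le_rfl⟩
  simp only [hfix, Fl_zero, sub_zero] at hmv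
  have hD : ‖z - x₀‖ ≤ A / 3 := by
    refine hmv.trans ?_
    have h1 := eps_mul_LX
    have h2 := eps_pos
    nlinarith
  have hx0 : ∀ j : Fin 4, True := fun _ => trivial
  have hc0 : ‖2 * z 0‖ ≤ A / 3 := by
    have := (norm_le_pi_norm (z - x₀) 0).trans hD
    have h2 : (z - x₀) 0 = 2 * z 0 := by simp [hx₀, rot_pi]; ring
    rwa [h2] at this
  have hc1 : ‖2 * z 1‖ ≤ A / 3 := by
    have := (norm_le_pi_norm (z - x₀) 1).trans hD
    have h2 : (z - x₀) 1 = 2 * z 1 := by simp [hx₀, rot_pi]; ring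
    rwa [h2] at this
  have hc2 : ‖2 * z 2‖ ≤ A / 3 := by
    have := (norm_le_pi_norm (z - x₀) 2).trans hD
    have h2 : (z - x₀) 2 = 2 * z 2 := by simp [hx₀, rot_pi]; ring
    rwa [h2] at this
  have hc3 : ‖2 * z 3‖ ≤ A / 3 := by
    have := (norm_le_pi_norm (z - x₀) 3).trans hD
    have h2 : (z - x₀) 3 = 2 * z 3 := by simp [hx₀, rot_pi]; ring
    rwa [h2] at this
  have hsq : ∀ w : ℂ, ‖2 * w‖ ≤ A / 3 → w.re ^ 2 + w.im ^ 2 ≤ A ^ 2 / 36 := by
    intro w hw
    rw [← norm_sq_coord]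
    rw [norm_mul] at hw
    simp only [Complex.norm_ofNat] at hw
    have h0 := norm_nonneg w
    nlinarith
  have h0 := hsq _ hc0
  have h1 := hsq _ hc1
  have h2 := hsq _ hc2
  have h3 := hsq _ hc3
  have h4 : r4 z ≤ r4 z / 9 := by
    have : r4 z ≤ 4 * (A ^ 2 / 36) := by
      unfold r4
      linarith
    rw [hAsq] at this
    linarith
  linarith

lemma r4_eq_zero {z : C5} (h : r4 z = 0) : z 0 = 0 ∧ z 1 = 0 ∧ z 2 = 0 ∧ z 3 = 0 := by
  unfold r4 at h
  have hz : ∀ x : ℝ, x ^ 2 ≤ 0 → x = 0 := fun x hx =>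
    (pow_eq_zero_iff two_ne_zero).1 (le_antisymm hx (sq_nonneg x))
  have a0 := sq_nonneg (z 0).re
  have a1 := sq_nonneg (z 0).im
  have a2 := sq_nonneg (z 1).re
  have a3 := sq_nonneg (z 1).im
  have a4 := sq_nonneg (z 2).re
  have a5 := sq_nonneg (z 2).im
  have a6 := sq_nonneg (z 3).re
  have a7 := sq_nonneg (z 3).im
  refine ⟨Complex.ext (hz _ (by linarith)) (hz _ (by linarith)),
    Complex.ext (hz _ (by linarith)) (hz _ (by linarith)),
    Complex.ext (hz _ (by linarith)) (hz _ (by linarith)),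
    Complex.ext (hz _ (by linarith)) (hz _ (by linarith))⟩

/-- Fixed lines are among the three. -/
lemma fixed_classification {z : C5} (hz : z ∈ unitCone)
    (hfix : Fl (eps, rot Real.pi z) ∈ Submodule.span ℂ ({z} : Set C5)) :
    ∃ y s : ℝ, ((y = 0 ∧ s = 1) ∨ (y = Real.sqrt 3 / 2 ∧ s = -1 / 2) ∨
      (y = -(Real.sqrt 3 / 2) ∧ s = -1 / 2)) ∧
      Submodule.span ℂ ({z} : Set C5) = Submodule.span ℂ ({vv y s} : Set C5) := by
  obtain ⟨hz2, hzq1, hzq2⟩ := (mem_unitCone_iff z).1 hz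
  obtain ⟨c, hc⟩ := Submodule.mem_span_singleton.1 hfix
  set x₀ := rot Real.pi z with hx₀
  have hx₀cone : x₀ ∈ unitCone := rot_mem_cone _ hz
  have hT : |eps| < T0 := abs_mem_T0 ⟨eps_pos.le, le_rfl⟩
  have hr2 : r2 (c • z) = 1 := by
    rw [hc, Fl_r2 hT]
    exact ((mem_unitCone_iff x₀).1 hx₀cone).1
  have hcn : ‖c‖ = 1 := norm_one_of_r2 hz2 hr2
  -- the last coordinate vanishes
  have h4 : z 4 = 0 := by
    by_contra hne
    have h1 : c * z 4 = z 4 := by
      have h2 := congrFun hc 4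
      rw [Fl_four hT] at h2
      simpa [hx₀, rot_pi] using h2
    have h5 : c = 1 := by
      have : (c - 1) * z 4 = 0 := by rw [sub_mul, h1]; ring
      rcases mul_eq_zero.1 this with h | h
      · exact sub_eq_zero.1 h
      · exact absurd h hne
    rw [h5, one_smul] at hc
    obtain ⟨f0, f1, f2, f3⟩ := r4_eq_zero (off_plane hz hc.symm)
    simp only [q1, q2, r2, f0, f1, f2, f3] at hzq1 hzq2 hz2
    simp only [Complex.zero_re, Complex.zero_im] at hzq1 hzq2 hz2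
    have hq1 : (z 4).re ^ 2 - (z 4).im ^ 2 = 0 := by linarith
    have hrr : (z 4).re ^ 2 + (z 4).im ^ 2 = 1 := by linarith
    have hq2 : (z 4).re * (z 4).im = 0 := by linarith
    rcases mul_eq_zero.1 hq2 with h | h
    · rw [h] at hq1 hrr
      nlinarith
    · rw [h] at hq1 hrr
      nlinarith
  -- the reduced orbit is periodic
  have hYper : Yv (piVec z) = 0 := by
    have hS : ∀ τ ∈ Set.Icc (0 : ℝ) eps, piVec (Fl (τ, x₀)) ∈ Metric.closedBall (0 : Fin 6 → ℝ) 1 := by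
      intro τ hτ
      have hr : r2 (Fl (τ, x₀)) = 1 := by
        rw [Fl_r2 (abs_mem_T0 hτ)]
        exact ((mem_unitCone_iff x₀).1 hx₀cone).1
      exact piVec_mem_ball hr
    have hd : ∀ τ ∈ Set.Icc (0 : ℝ) eps,
        HasDerivAt (fun τ => piVec (Fl (τ, x₀))) (Yv (piVec (Fl (τ, x₀)))) τ := by
      intro τ hτ
      apply hasDerivAt_piVec
      rw [← Xt_of_cone (Fl_mem_cone (abs_mem_T0 hτ) hx₀cone)]
      exact Fl_deriv (abs_mem_T0 hτ) x₀
    have hper : piVec (Fl (eps, x₀)) = piVec (Fl (0, x₀)) := by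
      rw [← hc, piVec_smul hcn, Fl_zero, hx₀, piVec_rot_pi]
    have := no_small_orbit lipY eps_pos eps_mul_LY hd hS hper
    rwa [Fl_zero, hx₀, piVec_rot_pi] at this
  have hcases := equilibria hz h4 hYper
  have hs3 : Real.sqrt 3 ^ 2 = 3 := Real.sq_sqrt (by norm_num)
  have hz0 : z 0 ≠ 0 := by
    intro h0
    have : z = z 0 • vv (pp 0 2 z) (pp 0 3 z) := by
      apply eq_smul_vv hz2
      · rcases hcases with ⟨h1, h2⟩ | ⟨h1, h2⟩ | ⟨h1, h2⟩ <;> rw [h1, h2] <;> nlinarith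
      · rfl
      · rfl
    rw [h0, zero_smul] at this
    rw [this] at hz2
    simp [r2] at hz2
  refine ⟨pp 0 2 z, pp 0 3 z, hcases, ?_⟩
  have hz3 : z = z 0 • vv (pp 0 2 z) (pp 0 3 z) := by
    apply eq_smul_vv hz2
    · rcases hcases with ⟨h1, h2⟩ | ⟨h1, h2⟩ | ⟨h1, h2⟩ <;> rw [h1, h2] <;> nlinarith
    · rfl
    · rfl
  conv_lhs => rw [hz3]
  exact Submodule.span_singleton_smul_eq (IsUnit.mk0 _ hz0) _

/-! ### The three lines are fixed -/

/-- Points of the three lines. -/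
def xa (a : ℂ) (y s : ℝ) : C5 := a • vv y s

lemma xa_0 (a : ℂ) (y s : ℝ) : xa a y s 0 = a := by simp [xa, vv]
lemma xa_1 (a : ℂ) (y s : ℝ) : xa a y s 1 = 0 := by simp [xa, vv]
lemma xa_2 (a : ℂ) (y s : ℝ) : xa a y s 2 = a * -(Complex.I * y) := by simp [xa, vv]
lemma xa_3 (a : ℂ) (y s : ℝ) : xa a y s 3 = a * -(Complex.I * s) := by simp [xa, vv]
lemma xa_4 (a : ℂ) (y s : ℝ) : xa a y s 4 = 0 := by simp [xa, vv]

lemma xa_pp_01 (a : ℂ) (y s : ℝ) : pp 0 1 (xa a y s) = 0 := by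
  simp [pp, xa_0, xa_1]

lemma xa_pp_02 {a : ℂ} (ha : a.re ^ 2 + a.im ^ 2 = 1 / 2) (y s : ℝ) : pp 0 2 (xa a y s) = y := by
  simp only [pp, xa_0, xa_2]
  simp
  linear_combination (2 * y) * ha

lemma xa_pp_03 {a : ℂ} (ha : a.re ^ 2 + a.im ^ 2 = 1 / 2) (y s : ℝ) : pp 0 3 (xa a y s) = s := by
  simp only [pp, xa_0, xa_3]
  simp
  linear_combination (2 * s) * ha

lemma xa_pp_12 (a : ℂ) (y s : ℝ) : pp 1 2 (xa a y s) = 0 := by
  simp [pp, xa_1]

lemma xa_pp_13 (a : ℂ) (y s : ℝ) : pp 1 3 (xa a y s) = 0 := by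
  simp [pp, xa_1]

lemma xa_pp_23 (a : ℂ) (y s : ℝ) : pp 2 3 (xa a y s) = 0 := by
  simp only [pp, xa_2, xa_3]
  simp
  ring

lemma xa_mem_cone {a : ℂ} (ha : a.re ^ 2 + a.im ^ 2 = 1 / 2) {y s : ℝ} (hys : y ^ 2 + s ^ 2 = 1) :
    xa a y s ∈ unitCone := by
  rw [mem_unitCone_iff]
  simp only [r2, q1, q2, xa_0, xa_1, xa_2, xa_3, xa_4]
  simp
  refine ⟨?_, ?_, ?_⟩
  · have : a.re ^ 2 + a.im ^ 2 + ((a.im * y) ^ 2 + (a.re * y) ^ 2) + ((a.im * s) ^ 2 + (a.re * s) ^ 2) =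
        (a.re ^ 2 + a.im ^ 2) * (1 + (y ^ 2 + s ^ 2)) := by ring
    rw [this, ha, hys]
    norm_num
  · have : a.re ^ 2 - a.im ^ 2 + ((a.im * y) ^ 2 - (a.re * y) ^ 2) + ((a.im * s) ^ 2 - (a.re * s) ^ 2) =
        (a.re ^ 2 - a.im ^ 2) * (1 - (y ^ 2 + s ^ 2)) := by ring
    rw [this, hys]
    ring
  · linear_combination (-(a.re * a.im)) * hys

lemma X0_xa {a : ℂ} (ha : a.re ^ 2 + a.im ^ 2 = 1 / 2) {y s : ℝ}
    (E1 : y * y * (2 - 4 * s) = 2 - 2 * s) (E2 : y * (2 - 4 * s) * s = -(2 * y)) :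
    X0 (xa a y s) = (Complex.I * (y * (2 - 4 * s) : ℝ)) • xa a y s := by
  have E1' : (y : ℂ) * y * (2 - 4 * s) = 2 - 2 * s := by exact_mod_cast E1
  have E2' : (y : ℂ) * (2 - 4 * s) * s = -(2 * y) := by exact_mod_cast E2
  have hI : Complex.I * Complex.I = -1 := Complex.I_mul_I
  ext j
  fin_cases j
  · simp only [X0, xa_pp_01, xa_pp_02 ha, xa_pp_03 ha, xa_pp_12, xa_pp_13, xa_pp_23]
    simp [so4mul, xa_0, xa_1, xa_2, xa_3]
    ring
  · simp only [X0, xa_pp_01, xa_pp_02 ha, xa_pp_03 ha, xa_pp_12, xa_pp_13, xa_pp_23]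
    simp [so4mul, xa_0, xa_1, xa_2, xa_3]
  · simp only [X0, xa_pp_01, xa_pp_02 ha, xa_pp_03 ha, xa_pp_12, xa_pp_13, xa_pp_23]
    simp [so4mul, xa_0, xa_1, xa_2, xa_3]
    linear_combination (-(a : ℂ)) * E1' + (a * y * y * (2 - 4 * s)) * hI
  · simp only [X0, xa_pp_01, xa_pp_02 ha, xa_pp_03 ha, xa_pp_12, xa_pp_13, xa_pp_23]
    simp [so4mul, xa_0, xa_1, xa_2, xa_3]
    linear_combination (a : ℂ) * E2' - (a * y * s * (2 - 4 * s)) * hI
  · simp only [X0, xa_pp_01, xa_pp_02 ha, xa_pp_03 ha, xa_pp_12, xa_pp_13, xa_pp_23]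
    simp [so4mul, xa_4]

lemma r2_xa {a : ℂ} (ha : a.re ^ 2 + a.im ^ 2 = 1 / 2) {y s : ℝ} (hys : y ^ 2 + s ^ 2 = 1) :
    r2 (xa a y s) = 1 := ((mem_unitCone_iff _).1 (xa_mem_cone ha hys)).1

lemma Xt_xa {a : ℂ} (ha : a.re ^ 2 + a.im ^ 2 = 1 / 2) {y s : ℝ} (hys : y ^ 2 + s ^ 2 = 1)
    (E1 : y * y * (2 - 4 * s) = 2 - 2 * s) (E2 : y * (2 - 4 * s) * s = -(2 * y)) :
    Xt (xa a y s) = (Complex.I * (y * (2 - 4 * s) : ℝ)) • xa a y s := by
  rw [Xt_of_r2 (r2_xa ha hys), X0_xa ha E1 E2]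

lemma rot_pi_xa (a : ℂ) (y s : ℝ) : rot Real.pi (xa a y s) = xa (-a) y s := by
  rw [rot_pi]
  ext j
  fin_cases j <;> simp [xa_0, xa_1, xa_2, xa_3, xa_4]

/-- A number of squared modulus `1/2`. -/
def a0 : ℂ := ((Real.sqrt 2)⁻¹ : ℝ)

lemma a0_sq : a0.re ^ 2 + a0.im ^ 2 = 1 / 2 := by
  simp only [a0, Complex.ofReal_re, Complex.ofReal_im]
  rw [inv_pow, Real.sq_sqrt (by norm_num)]
  norm_num

lemma a0_ne : a0 ≠ 0 := by
  intro h
  have := a0_sq
  rw [h] at this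
  norm_num at this

lemma neg_sq {a : ℂ} (ha : a.re ^ 2 + a.im ^ 2 = 1 / 2) : (-a).re ^ 2 + (-a).im ^ 2 = 1 / 2 := by
  simpa using ha

lemma span_xa {a : ℂ} (ha : a ≠ 0) (y s : ℝ) :
    Submodule.span ℂ ({xa a y s} : Set C5) = Submodule.span ℂ ({vv y s} : Set C5) :=
  Submodule.span_singleton_smul_eq (IsUnit.mk0 _ ha) _

lemma Psi_xa {y s : ℝ} (hys : y ^ 2 + s ^ 2 = 1)
    (E1 : y * y * (2 - 4 * s) = 2 - 2 * s) (E2 : y * (2 - 4 * s) * s = -(2 * y)) :
    theLift.Ψ (1, xa a0 y s) =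
      (-Complex.exp (Complex.I * (y * (2 - 4 * s) : ℝ) * (eps : ℝ))) • xa a0 y s := by
  rw [theLift_one, rot_pi_xa]
  have h1 := Xt_xa (neg_sq a0_sq) hys E1 E2
  rw [Fl_of_eigen eps_pos.le eps_lt_T0 h1]
  ext j
  simp only [xa, Pi.smul_apply, smul_eq_mul]
  ring

lemma vv_mem_fixedLines {y s : ℝ} (hys : y ^ 2 + s ^ 2 = 1)
    (E1 : y * y * (2 - 4 * s) = 2 - 2 * s) (E2 : y * (2 - 4 * s) * s = -(2 * y)) :
    Submodule.span ℂ ({vv y s} : Set C5) ∈ fixedLines theLift := by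
  refine ⟨xa a0 y s, xa_mem_cone a0_sq hys, (span_xa a0_ne y s).symm, ?_⟩
  rw [Psi_xa hys E1 E2, xa]
  refine Submodule.smul_mem _ _ (Submodule.smul_mem _ _ (Submodule.mem_span_singleton_self _))

lemma span_vv_inj {y s y' s' : ℝ}
    (h : Submodule.span ℂ ({vv y s} : Set C5) = Submodule.span ℂ ({vv y' s'} : Set C5)) :
    y = y' ∧ s = s' := by
  have h1 : vv y s ∈ Submodule.span ℂ ({vv y' s'} : Set C5) := by
    rw [← h]; exact Submodule.mem_span_singleton_self _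
  obtain ⟨c, hc⟩ := Submodule.mem_span_singleton.1 h1
  have h0 := congrFun hc 0
  simp [vv] at h0
  subst h0
  have h2 := congrFun hc 2
  have h3 := congrFun hc 3
  simp [vv] at h2 h3
  exact ⟨h2.symm, h3.symm⟩

theorem fixedLines_eq :
    fixedLines theLift = {Submodule.span ℂ ({vv 0 1} : Set C5),
      Submodule.span ℂ ({vv (Real.sqrt 3 / 2) (-1 / 2)} : Set C5),
      Submodule.span ℂ ({vv (-(Real.sqrt 3 / 2)) (-1 / 2)} : Set C5)} := by
  have hs3 : Real.sqrt 3 ^ 2 = 3 := Real.sq_sqrt (by norm_num)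
  ext ℓ
  constructor
  · rintro ⟨z, hz, rfl, hfix⟩
    rw [theLift_one] at hfix
    obtain ⟨y, s, hcases, hspan⟩ := fixed_classification hz hfix
    rw [hspan]
    rcases hcases with ⟨rfl, rfl⟩ | ⟨rfl, rfl⟩ | ⟨rfl, rfl⟩
    · exact Or.inl rfl
    · exact Or.inr (Or.inl rfl)
    · exact Or.inr (Or.inr rfl)
  · rintro (rfl | rfl | rfl)
    · exact vv_mem_fixedLines (by norm_num) (by norm_num) (by norm_num)
    · exact vv_mem_fixedLines (by nlinarith) (by nlinarith) (by nlinarith)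
    · exact vv_mem_fixedLines (by nlinarith) (by nlinarith) (by nlinarith)

theorem ncard_fixedLines : (fixedLines theLift).ncard = 3 := by
  have hs3 : Real.sqrt 3 ^ 2 = 3 := Real.sq_sqrt (by norm_num)
  have hs0 : 0 < Real.sqrt 3 := Real.sqrt_pos.2 (by norm_num)
  rw [fixedLines_eq, Set.ncard_eq_three]
  refine ⟨_, _, _, ?_, ?_, ?_, rfl⟩
  · intro h
    have := (span_vv_inj h).2
    norm_num at this
  · intro h
    have := (span_vv_inj h).2
    norm_num at this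
  · intro h
    have := (span_vv_inj h).1
    linarith

/-! ### The degenerate fixed point -/

/-- The degenerate point. -/
def zstar : C5 := xa a0 0 1

/-- The neutral direction. -/
def e1 : C5 := ![0, 1, 0, 0, 0]

lemma Fl_neg_zstar : Fl (eps, rot Real.pi zstar) = (-1 : ℂ) • zstar := by
  have h1 := Xt_xa (neg_sq a0_sq) (y := 0) (s := 1) (by norm_num) (by norm_num) (by norm_num)
  rw [zstar, rot_pi_xa, Fl_of_eigen eps_pos.le eps_lt_T0 h1]
  ext j
  simp [xa]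

lemma norm_Xt_le (x : C5) : ‖Xt x‖ ≤ ‖X0 x‖ := by
  rw [Xt_eq, norm_smul, Real.norm_eq_abs, abs_of_nonneg (rho_nonneg _)]
  have := rho_le_one (r2 x)
  have h0 := norm_nonneg (X0 x)
  nlinarith

lemma a0_re : a0.re = (Real.sqrt 2)⁻¹ := Complex.ofReal_re _
lemma a0_im : a0.im = 0 := Complex.ofReal_im _

lemma rot_pi_0 (u : C5) : rot Real.pi u 0 = -u 0 := by rw [rot_pi]; rfl
lemma rot_pi_1 (u : C5) : rot Real.pi u 1 = -u 1 := by rw [rot_pi]; rfl
lemma rot_pi_2 (u : C5) : rot Real.pi u 2 = -u 2 := by rw [rot_pi]; rfl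
lemma rot_pi_3 (u : C5) : rot Real.pi u 3 = -u 3 := by rw [rot_pi]; rfl
lemma rot_pi_4 (u : C5) : rot Real.pi u 4 = u 4 := by rw [rot_pi]; rfl

lemma e1_0 : e1 0 = 0 := rfl
lemma e1_1 : e1 1 = 1 := rfl
lemma e1_2 : e1 2 = 0 := rfl
lemma e1_3 : e1 3 = 0 := rfl
lemma e1_4 : e1 4 = 0 := rfl

lemma zstar_0 : zstar 0 = a0 := xa_0 _ _ _
lemma zstar_1 : zstar 1 = 0 := xa_1 _ _ _
lemma zstar_2 : zstar 2 = 0 := by rw [zstar, xa_2]; simp
lemma zstar_3 : zstar 3 = -(a0 * Complex.I) := by rw [zstar, xa_3]; simp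
lemma zstar_4 : zstar 4 = 0 := xa_4 _ _ _

lemma t_sq : ((Real.sqrt 2)⁻¹) ^ 2 = (1 / 2 : ℝ) := by
  rw [inv_pow, Real.sq_sqrt (by norm_num)]
  norm_num

lemma t_le_one : (Real.sqrt 2)⁻¹ ≤ 1 := by
  apply inv_le_one_of_one_le₀
  exact Real.one_le_sqrt.2 (by norm_num)

lemma X0_bound (h : ℝ) : ‖X0 (rot Real.pi (zstar + (h : ℝ) • e1))‖ ≤ 4 * h ^ 2 := by
  set t := (Real.sqrt 2)⁻¹ with ht
  have ht0 : 0 ≤ t := by positivity
  have ht1 : t ≤ 1 := t_le_one
  have ht2 : t ^ 2 = 1 / 2 := t_sq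
  set x := rot Real.pi (zstar + (h : ℝ) • e1) with hx
  have x0 : x 0 = -a0 := by
    simp [hx, rot_pi_0, zstar_0, e1_0]
  have x1 : x 1 = -(h : ℂ) := by
    simp [hx, rot_pi_1, zstar_1, e1_1]
  have x2 : x 2 = 0 := by
    simp [hx, rot_pi_2, zstar_2, e1_2]
  have x3 : x 3 = a0 * Complex.I := by
    simp [hx, rot_pi_3, zstar_3, e1_3]
  have x4 : x 4 = 0 := by
    simp [hx, rot_pi_4, zstar_4, e1_4]
  have p01 : pp 0 1 x = 0 := by simp [pp, x0, x1, a0_im]
  have p02 : pp 0 2 x = 0 := by simp [pp, x0, x2]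
  have p03 : pp 0 3 x = 1 := by
    simp [pp, x0, x3, a0_re, a0_im]
    rw [← ht]
    nlinarith
  have p12 : pp 1 2 x = 0 := by simp [pp, x2]
  have p13 : pp 1 3 x = 2 * h * t := by
    simp [pp, x1, x3, a0_re, a0_im]
    rw [← ht]
    ring
  have p23 : pp 2 3 x = 0 := by simp [pp, x2]
  have hX : X0 x = ![0, 0, ((4 * t * h ^ 2 : ℝ) : ℂ), 0, 0] := by
    simp only [X0, p01, p02, p03, p12, p13, p23]
    ext j
    fin_cases j
    · simp [so4mul, x0, x1, x2, x3]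
    · simp [so4mul, x0, x1, x2, x3]
    · simp [so4mul, x0, x1, x2, x3]
      ring
    · simp [so4mul, x0, x1, x2, x3]
    · simp [so4mul]
  rw [hX, pi_norm_le_iff_of_nonneg (by positivity)]
  intro j
  have hh : 0 ≤ h ^ 2 := sq_nonneg h
  fin_cases j
  · simp; positivity
  · simp; positivity
  · show ‖((4 * t * h ^ 2 : ℝ) : ℂ)‖ ≤ 4 * h ^ 2
    rw [Complex.norm_real, Real.norm_eq_abs, abs_of_nonneg (by positivity)]
    nlinarith
  · simp; positivity
  · simp; positivity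

lemma Fl_near (h : ℝ) :
    ‖Fl (eps, rot Real.pi (zstar + (h : ℝ) • e1)) - rot Real.pi (zstar + (h : ℝ) • e1)‖ ≤
      6 * eps * h ^ 2 := by
  set x := rot Real.pi (zstar + (h : ℝ) • e1) with hx
  have hlip : LipschitzOnWith LX Xt Set.univ := lipX.lipschitzOnWith
  obtain ⟨m, hm0, hm1, -, hm2⟩ := orbit_bound (γ := fun τ => Fl (τ, x)) hlip eps_pos eps_mul_LX
    (fun τ hτ => Fl_deriv (abs_mem_T0 hτ) x) (fun _ _ => Set.mem_univ _)
  have h1 := hm1 eps ⟨eps_pos.le, le_rfl⟩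
  simp only [Fl_zero] at h1 hm2
  have h2 := X0_bound h
  rw [← hx] at h2
  have h3 := norm_Xt_le x
  have he := eps_pos
  have h4 : eps * ‖Xt x‖ ≤ eps * (4 * h ^ 2) := by
    gcongr
    exact h3.trans h2
  nlinarith

lemma hasDerivAt_line :
    HasDerivAt (fun h : ℝ => Fl (eps, rot Real.pi (zstar + (h : ℝ) • e1))) (-e1) 0 := by
  rw [hasDerivAt_iff_isLittleO_nhds_zero, Asymptotics.isLittleO_iff]
  intro c hc
  have he := eps_pos
  have hδ : 0 < c / (6 * eps + 1) := by positivity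
  filter_upwards [Metric.ball_mem_nhds (0 : ℝ) hδ] with h hh
  have hh' : |h| < c / (6 * eps + 1) := by simpa using hh
  have h1 := Fl_near h
  have hval : Fl (eps, rot Real.pi (zstar + ((0 : ℝ) + h) • e1)) -
      Fl (eps, rot Real.pi (zstar + (0 : ℝ) • e1)) - h • (-e1) =
      Fl (eps, rot Real.pi (zstar + (h : ℝ) • e1)) - rot Real.pi (zstar + (h : ℝ) • e1) := by
    rw [zero_smul, add_zero, zero_add, Fl_neg_zstar]
    ext j
    fin_cases j
    · simp [rot_pi_0, zstar_0, e1_0]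
    · simp [rot_pi_1, zstar_1, e1_1]
    · simp [rot_pi_2, zstar_2, e1_2]
    · simp [rot_pi_3, zstar_3, e1_3]
      ring
    · simp [rot_pi_4, zstar_4, e1_4]
  rw [hval]
  refine h1.trans ?_
  rw [Real.norm_eq_abs]
  have h2 : h ^ 2 = |h| * |h| := by rw [abs_mul_abs_self h]; ring
  rw [h2]
  have h3 : 0 ≤ |h| := abs_nonneg h
  rw [lt_div_iff₀ (by positivity)] at hh'
  nlinarith

lemma fderiv_line :
    fderiv ℝ (fun x : C5 => theLift.Ψ (1, x)) zstar e1 = -e1 := by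
  have hG : (fun x : C5 => theLift.Ψ (1, x)) = fun x : C5 => Fl (eps, rot Real.pi x) := by
    funext x
    exact theLift_one x
  have hsm : ContDiff ℝ ∞ (fun x : C5 => theLift.Ψ (1, x)) := by
    have h1 : ContDiff ℝ ∞ (fun x : C5 => ((1 : ℝ), x)) := contDiff_const.prodMk contDiff_id
    exact contDiff_PsiQ.comp h1
  have hd : HasFDerivAt (fun x : C5 => theLift.Ψ (1, x))
      (fderiv ℝ (fun x : C5 => theLift.Ψ (1, x)) zstar) zstar :=
    (hsm.differentiable (by simp) zstar).hasFDerivAt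
  have hl : HasDerivAt (fun h : ℝ => zstar + (h : ℝ) • e1) e1 0 := by
    have := ((hasDerivAt_id (0 : ℝ)).smul_const e1).const_add zstar
    simpa using this
  have hz0 : zstar + (0 : ℝ) • e1 = zstar := by simp
  have hd' : HasFDerivAt (fun x : C5 => theLift.Ψ (1, x))
      (fderiv ℝ (fun x : C5 => theLift.Ψ (1, x)) zstar) (zstar + (0 : ℝ) • e1) := by
    rw [hz0]; exact hd
  have hcomp := hd'.comp_hasDerivAt (0 : ℝ) hl
  have hline : ((fun x : C5 => theLift.Ψ (1, x)) ∘ fun h : ℝ => zstar + (h : ℝ) • e1) =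
      fun h : ℝ => Fl (eps, rot Real.pi (zstar + (h : ℝ) • e1)) := by
    funext h
    exact theLift_one _
  rw [hline] at hcomp
  exact hcomp.unique hasDerivAt_line

theorem hasDegenerate : HasDegenerateFixedPoint theLift := by
  refine ⟨zstar, xa_mem_cone a0_sq (by norm_num), (-1 : ℂ), ?_, e1, ?_, ?_, 0, ?_⟩
  · rw [theLift_one, Fl_neg_zstar]
  · constructor
    · simp [herm, Fin.sum_univ_five, e1, zstar, xa_1]
    · simp [Fin.sum_univ_five, e1, zstar, xa_1]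
  · intro r h
    have := congrFun h 1
    simp [e1, zstar, xa_1] at this
  · rw [fderiv_line]
    simp

end Crest.Agent.Lib.QuadricFlow
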