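import Mathlib

/-!
# Smooth dependence of ODE flows on time and initial point

For a `C^∞` globally Lipschitz vector field `X` on a Banach space `E`, with Lipschitz constant `L`,
we construct a map `Φ : ℝ × E → E` such that on `{|τ| L < 1} × E` it is `C^∞`, solves
`∂ₜ Φ(τ, x) = X (Φ (τ, x))` and `Φ (0, x) = x`.

The proof: the left-composition (Nemytskii) operator on `C(K, E)` is `C^n` if `X` is, and the implicit
function theorem in the Banach space `C([-1, 1], E)` applies to the integral equation.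
-/

open scoped ContDiff Topology NNReal
open Set

set_option linter.unusedSectionVars false

noncomputable section

namespace Crest.Agent.Lib.SmoothFlow

universe u

section Nemytskii

variable {K : Type*} [TopologicalSpace K] [CompactSpace K]
variable {E F : Type u} [NormedAddCommGroup E] [NormedSpace ℝ E] [NormedAddCommGroup F]
  [NormedSpace ℝ F]

/-- The pointwise application bilinear map on continuous functions. -/
def ptwise : C(K, E →L[ℝ] F) →L[ℝ] C(K, E) →L[ℝ] C(K, F) :=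
  LinearMap.mkContinuous₂
    (LinearMap.mk₂ ℝ (fun (A : C(K, E →L[ℝ] F)) (β : C(K, E)) =>
        (⟨fun t => A t (β t), by fun_prop⟩ : C(K, F)))
      (fun A A' β => by ext t; simp)
      (fun c A β => by ext t; simp)
      (fun A β β' => by ext t; simp)
      (fun c A β => by ext t; simp))
    1
    (fun A β => by
      rw [one_mul]
      refine (ContinuousMap.norm_le _ (by positivity)).2 fun t => ?_
      calc ‖A t (β t)‖ ≤ ‖A t‖ * ‖β t‖ := (A t).le_opNorm _
        _ ≤ ‖A‖ * ‖β‖ := by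
          gcongr
          · exact A.norm_coe_le_norm t
          · exact β.norm_coe_le_norm t)

@[simp] lemma ptwise_apply (A : C(K, E →L[ℝ] F)) (β : C(K, E)) (t : K) :
    ptwise A β t = A t (β t) := rfl

/-- The derivative of `f` as a continuous map. -/
def dmap (f : C(E, F)) (hf : ContDiff ℝ 1 f) : C(E, E →L[ℝ] F) :=
  ⟨fderiv ℝ f, hf.continuous_fderiv (by norm_num)⟩

lemma hasFDerivAt_comp (f : C(E, F)) (hf : ContDiff ℝ 1 f) (α : C(K, E)) :
    HasFDerivAt (fun a : C(K, E) => f.comp a) (ptwise ((dmap f hf).comp α)) α := by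
  rw [hasFDerivAt_iff_isLittleO_nhds_zero, Asymptotics.isLittleO_iff]
  intro ε hε
  have hcont : ContinuousAt (fun a : C(K, E) => (dmap f hf).comp a) α :=
    (ContinuousMap.continuous_postcomp (X := K) (dmap f hf)).continuousAt (x := α)
  have hcont' : ∃ δ > 0, ∀ {x : C(K, E)}, dist x α < δ →
      dist ((dmap f hf).comp x) ((dmap f hf).comp α) < ε :=
    Metric.continuousAt_iff.1 hcont ε hε
  obtain ⟨δ, hδ, hδ'⟩ := hcont'
  filter_upwards [Metric.ball_mem_nhds (0 : C(K, E)) hδ] with β hβ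
  refine (ContinuousMap.norm_le _ (by positivity)).2 fun t => ?_
  have hβ' : ‖β‖ < δ := by simpa using hβ
  -- mean value on the segment
  have hseg : Convex ℝ (segment ℝ (α t) (α t + β t)) := convex_segment _ _
  have hderiv : ∀ y ∈ segment ℝ (α t) (α t + β t),
      HasFDerivWithinAt f (fderiv ℝ f y) (segment ℝ (α t) (α t + β t)) y := fun y _ =>
    ((hf.differentiable (by norm_num)) y).hasFDerivAt.hasFDerivWithinAt
  have hbound : ∀ y ∈ segment ℝ (α t) (α t + β t),
      ‖fderiv ℝ f y - fderiv ℝ f (α t)‖ ≤ ε := by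
    intro y hy
    rw [segment_eq_image'] at hy
    obtain ⟨r, hr, rfl⟩ := hy
    have h1 : dist (α + r • β) α < δ := by
      rw [dist_eq_norm, add_sub_cancel_left, norm_smul]
      calc ‖r‖ * ‖β‖ ≤ 1 * ‖β‖ := by
            gcongr
            rw [Real.norm_eq_abs, abs_of_nonneg hr.1]; exact hr.2
        _ < δ := by rwa [one_mul]
    have h2 := hδ' h1
    have h3 : dist (((dmap f hf).comp (α + r • β)) t) (((dmap f hf).comp α) t) ≤
        dist ((dmap f hf).comp (α + r • β)) ((dmap f hf).comp α) :=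
      ContinuousMap.dist_apply_le_dist t
    have h4 := h3.trans h2.le
    rw [dist_eq_norm] at h4
    simpa [dmap, add_sub_cancel_left] using h4
  have h := hseg.norm_image_sub_le_of_norm_hasFDerivWithin_le' hderiv hbound
    (left_mem_segment ℝ _ _) (right_mem_segment ℝ _ _)
  have h4 : ‖f (α t + β t) - f (α t) - (fderiv ℝ f (α t)) (β t)‖ ≤ ε * ‖β t‖ := by
    simpa using h
  have h5 : ‖β t‖ ≤ ‖β‖ := β.norm_coe_le_norm t
  have h6 : ε * ‖β t‖ ≤ ε * ‖β‖ := by gcongr
  simpa [dmap] using h4.trans h6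

theorem contDiff_comp (n : ℕ) : ∀ {F : Type u} [NormedAddCommGroup F] [NormedSpace ℝ F]
    (f : C(E, F)), ContDiff ℝ n f → ContDiff ℝ n (fun a : C(K, E) => f.comp a) := by
  induction n with
  | zero =>
    intro F _ _ f _
    simpa using (ContinuousMap.continuous_postcomp (X := K) f)
  | succ n ih =>
    intro F _ _ f hf
    have hf' : ContDiff ℝ ((n : WithTop ℕ∞) + 1) f := by exact_mod_cast hf
    have hf1 : ContDiff ℝ 1 f := hf'.of_le (by simp)
    have hd : ContDiff ℝ n (dmap f hf1) := by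
      rw [contDiff_succ_iff_fderiv] at hf'
      have h0 : (⇑(dmap f hf1) : E → (E →L[ℝ] F)) = fderiv ℝ f := rfl
      rw [h0]
      exact hf'.2.2
    have := ih (dmap f hf1) hd
    have h2 : ContDiff ℝ n (fun α : C(K, E) => ptwise ((dmap f hf1).comp α)) := by
      have h3 : ContDiff ℝ n (ptwise (K := K) (E := E) (F := F)) :=
        ContinuousLinearMap.contDiff _
      exact h3.comp this
    have goal : ContDiff ℝ ((n : WithTop ℕ∞) + 1) (fun a : C(K, E) => f.comp a) := by
      rw [contDiff_succ_iff_hasFDerivAt]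
      exact ⟨fun α => ptwise ((dmap f hf1).comp α), h2, fun α => hasFDerivAt_comp f hf1 α⟩
    exact_mod_cast goal

theorem contDiff_comp_infty (f : C(E, F)) (hf : ContDiff ℝ ∞ f) :
    ContDiff ℝ ∞ (fun a : C(K, E) => f.comp a) := by
  rw [contDiff_infty] at hf ⊢
  intro n
  exact contDiff_comp n f (hf n)

omit [NormedSpace ℝ E] [NormedSpace ℝ F] in
lemma lipschitz_comp (f : C(E, F)) {L : ℝ≥0} (hL : LipschitzWith L f) :
    LipschitzWith L (fun a : C(K, E) => f.comp a) := by
  refine LipschitzWith.of_dist_le_mul fun a b => ?_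
  rw [ContinuousMap.dist_le (by positivity)]
  intro t
  exact (hL.dist_le_mul _ _).trans (by gcongr; exact ContinuousMap.dist_apply_le_dist t)

end Nemytskii

section Flow

variable {E : Type u} [NormedAddCommGroup E] [NormedSpace ℝ E]

/-- The time interval `[-1, 1]`, as a type. -/
abbrev IK : Type := Set.Icc (-1 : ℝ) 1

lemma neg_one_le_one_real : (-1 : ℝ) ≤ 1 := by norm_num

/-- Extension of a function on `[-1, 1]` to the line. -/
def extR (γ : C(IK, E)) : ℝ → E := Set.IccExtend neg_one_le_one_real γ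

lemma continuous_extR (γ : C(IK, E)) : Continuous (extR γ) := γ.continuous.Icc_extend'

lemma extR_of_mem (γ : C(IK, E)) {s : ℝ} (hs : s ∈ Icc (-1 : ℝ) 1) : extR γ s = γ ⟨s, hs⟩ :=
  Set.IccExtend_of_mem _ _ hs

lemma extR_add (γ γ' : C(IK, E)) (s : ℝ) : extR (γ + γ') s = extR γ s + extR γ' s := rfl

lemma extR_smul (c : ℝ) (γ : C(IK, E)) (s : ℝ) : extR (c • γ) s = c • extR γ s := rfl

variable [CompleteSpace E]

lemma norm_integral_extR_le (γ : C(IK, E)) (s : IK) : ‖∫ r in (0 : ℝ)..(s : ℝ), extR γ r‖ ≤ ‖γ‖ := by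
  have h1 : ∀ r ∈ Set.uIoc (0 : ℝ) (s : ℝ), ‖extR γ r‖ ≤ ‖γ‖ := fun r _ => γ.norm_coe_le_norm _
  have h2 := intervalIntegral.norm_integral_le_of_norm_le_const h1
  refine h2.trans ?_
  have h3 : |(s : ℝ) - 0| ≤ 1 := by
    rw [sub_zero, abs_le]
    exact ⟨s.2.1, s.2.2⟩
  calc ‖γ‖ * |(s : ℝ) - 0| ≤ ‖γ‖ * 1 := by gcongr
    _ = ‖γ‖ := mul_one _

/-- The Volterra integral operator on `C([-1, 1], E)`. -/
def intOp : C(IK, E) →L[ℝ] C(IK, E) :=
  LinearMap.mkContinuous
    { toFun := fun γ => ⟨fun s => ∫ r in (0 : ℝ)..(s : ℝ), extR γ r,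
        (intervalIntegral.continuous_primitive
          (fun a b => (continuous_extR γ).intervalIntegrable a b) 0).comp continuous_subtype_val⟩
      map_add' := fun γ γ' => by
        ext s
        simp only [ContinuousMap.coe_mk, ContinuousMap.add_apply, extR_add]
        exact intervalIntegral.integral_add ((continuous_extR γ).intervalIntegrable _ _)
          ((continuous_extR γ').intervalIntegrable _ _)
      map_smul' := fun c γ => by
        ext s
        simp only [ContinuousMap.coe_mk, ContinuousMap.smul_apply, extR_smul, RingHom.id_apply]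
        exact intervalIntegral.integral_smul c _ }
    1
    (fun γ => by
      rw [one_mul]
      refine (ContinuousMap.norm_le _ (norm_nonneg _)).2 fun s => ?_
      exact norm_integral_extR_le γ s)

lemma intOp_apply (γ : C(IK, E)) (s : IK) : intOp γ s = ∫ r in (0 : ℝ)..(s : ℝ), extR γ r := rfl

lemma norm_intOp_le (γ : C(IK, E)) : ‖intOp γ‖ ≤ ‖γ‖ :=
  (ContinuousMap.norm_le _ (norm_nonneg _)).2 fun s => norm_integral_extR_le γ s

/-- Constants as a continuous linear map. -/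
def constCLM : E →L[ℝ] C(IK, E) :=
  LinearMap.mkContinuous
    { toFun := fun x => ContinuousMap.const IK x
      map_add' := fun _ _ => rfl
      map_smul' := fun _ _ => rfl }
    1
    (fun x => by
      rw [one_mul]
      refine (ContinuousMap.norm_le _ (norm_nonneg _)).2 fun _ => le_rfl)

@[simp] lemma constCLM_apply (x : E) (s : IK) : constCLM x s = x := rfl

variable (X : C(E, E))

/-- The integral equation `α(s) = x + τ ∫₀ˢ X(α(r)) dr` as a zero of a map on a Banach space. -/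
def eqG (q : (ℝ × E) × C(IK, E)) : C(IK, E) :=
  q.2 - constCLM q.1.2 - q.1.1 • intOp (X.comp q.2)

lemma eqG_eq_zero_iff {τ : ℝ} {x : E} {α : C(IK, E)} :
    eqG X ((τ, x), α) = 0 ↔ ∀ s : IK, α s = x + τ • ∫ r in (0 : ℝ)..(s : ℝ), extR (X.comp α) r := by
  constructor
  · intro h s
    have := congrArg (fun γ : C(IK, E) => γ s) h
    simp only [eqG, ContinuousMap.sub_apply, ContinuousMap.smul_apply, constCLM_apply,
      ContinuousMap.zero_apply, intOp_apply] at this
    rw [sub_sub, sub_eq_zero] at this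
    exact this
  · intro h
    ext s
    simp only [eqG, ContinuousMap.sub_apply, ContinuousMap.smul_apply, constCLM_apply,
      ContinuousMap.zero_apply, intOp_apply]
    rw [h s]
    abel

variable {X} {L : ℝ≥0}

lemma eqG_unique (hL : LipschitzWith L X) {τ : ℝ} (hτ : |τ| * L < 1) {x : E} {α β : C(IK, E)}
    (hα : eqG X ((τ, x), α) = 0) (hβ : eqG X ((τ, x), β) = 0) : α = β := by
  have h1 : α - β = τ • intOp (X.comp α - X.comp β) := by
    have h2 : eqG X ((τ, x), α) - eqG X ((τ, x), β) = 0 := by rw [hα, hβ, sub_zero]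
    simp only [eqG] at h2
    rw [map_sub, smul_sub]
    rw [← sub_eq_zero]
    rw [← h2]
    abel
  have h3 : ‖α - β‖ ≤ |τ| * L * ‖α - β‖ := by
    calc ‖α - β‖ = ‖τ • intOp (X.comp α - X.comp β)‖ := by rw [← h1]
      _ = |τ| * ‖intOp (X.comp α - X.comp β)‖ := by rw [norm_smul, Real.norm_eq_abs]
      _ ≤ |τ| * ‖X.comp α - X.comp β‖ := by gcongr; exact norm_intOp_le _
      _ ≤ |τ| * (L * ‖α - β‖) := by
        gcongr
        have := (lipschitz_comp (K := IK) X hL).dist_le_mul α β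
        simpa [dist_eq_norm] using this
      _ = |τ| * L * ‖α - β‖ := by ring
  have h4 : ‖α - β‖ = 0 := by
    by_contra hne
    have hpos : 0 < ‖α - β‖ := lt_of_le_of_ne (norm_nonneg _) (Ne.symm hne)
    nlinarith
  exact sub_eq_zero.1 (norm_eq_zero.1 h4)

lemma eqG_exists (hL : LipschitzWith L X) {τ : ℝ} (hτ : |τ| * L < 1) (x : E) :
    ∃ α : C(IK, E), eqG X ((τ, x), α) = 0 := by
  have hK : ‖τ‖₊ * L < 1 := by
    rw [← NNReal.coe_lt_coe]
    simpa using hτ
  let T : C(IK, E) → C(IK, E) := fun α => constCLM x + τ • intOp (X.comp α)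
  have hT : ContractingWith (‖τ‖₊ * L) T := by
    refine ⟨hK, LipschitzWith.of_dist_le_mul fun α β => ?_⟩
    rw [dist_eq_norm, dist_eq_norm]
    have : T α - T β = τ • intOp (X.comp α - X.comp β) := by
      simp only [T, map_sub, smul_sub]
      abel
    rw [this, norm_smul]
    simp only [NNReal.coe_mul, coe_nnnorm]
    calc ‖τ‖ * ‖intOp (X.comp α - X.comp β)‖ ≤ ‖τ‖ * ‖X.comp α - X.comp β‖ := by
          gcongr; exact norm_intOp_le _
      _ ≤ ‖τ‖ * (L * ‖α - β‖) := by
        gcongr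
        have := (lipschitz_comp (K := IK) X hL).dist_le_mul α β
        simpa [dist_eq_norm] using this
      _ = ‖τ‖ * L * ‖α - β‖ := by ring
  refine ⟨hT.fixedPoint T, ?_⟩
  have hfix : T (hT.fixedPoint T) = hT.fixedPoint T := hT.fixedPoint_isFixedPt
  simp only [eqG]
  rw [sub_sub, sub_eq_zero]
  exact hfix.symm

variable (X) in
/-- The solution of the integral equation (junk unless `|τ| L < 1`). -/
def sol (q : ℝ × E) : C(IK, E) := Classical.epsilon fun α => eqG X (q, α) = 0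

lemma eqG_sol (hL : LipschitzWith L X) {τ : ℝ} (hτ : |τ| * L < 1) (x : E) :
    eqG X ((τ, x), sol X (τ, x)) = 0 :=
  Classical.epsilon_spec (eqG_exists hL hτ x)

lemma contDiff_eqG (hX : ContDiff ℝ ∞ X) : ContDiff ℝ ∞ (eqG X) := by
  have h1 : ContDiff ℝ ∞ (fun q : (ℝ × E) × C(IK, E) => X.comp q.2) :=
    (contDiff_comp_infty (K := IK) X hX).comp contDiff_snd
  have h2 : ContDiff ℝ ∞ (fun q : (ℝ × E) × C(IK, E) => intOp (X.comp q.2)) :=
    (ContinuousLinearMap.contDiff (intOp (E := E))).comp h1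
  have h3 : ContDiff ℝ ∞ (fun q : (ℝ × E) × C(IK, E) => constCLM q.1.2) :=
    (ContinuousLinearMap.contDiff (constCLM (E := E))).comp (contDiff_snd.comp contDiff_fst)
  have h4 : ContDiff ℝ ∞ (fun q : (ℝ × E) × C(IK, E) => q.1.1 • intOp (X.comp q.2)) :=
    (contDiff_fst.comp contDiff_fst).smul h2
  exact (contDiff_snd.sub h3).sub h4

lemma isInvertible_partial (hX : ContDiff ℝ ∞ X) (hL : LipschitzWith L X) {τ : ℝ}
    (hτ : |τ| * L < 1) (x : E) (α : C(IK, E)) :
    (fderiv ℝ (eqG X) ((τ, x), α) ∘L ContinuousLinearMap.inr ℝ (ℝ × E) C(IK, E)).IsInvertible := by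
  have hX1 : ContDiff ℝ 1 X := hX.of_le (by exact_mod_cast le_top)
  set D : C(IK, E) →L[ℝ] C(IK, E) := ptwise ((dmap X hX1).comp α) with hD
  have hD1 : HasFDerivAt (fun a : C(IK, E) => X.comp a) D α := hasFDerivAt_comp X hX1 α
  have hD2 : ‖D‖ ≤ L := hD1.le_of_lipschitz (lipschitz_comp X hL)
  set A : C(IK, E) →L[ℝ] C(IK, E) := τ • (intOp ∘L D) with hA
  have hAnorm : ‖A‖ < 1 := by
    have h1 : ‖A‖ ≤ |τ| * L := by
      refine ContinuousLinearMap.opNorm_le_bound _ (by positivity) fun γ => ?_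
      calc ‖A γ‖ = |τ| * ‖intOp (D γ)‖ := by
            simp only [hA, smul_apply, ContinuousLinearMap.comp_apply,
              norm_smul, Real.norm_eq_abs]
        _ ≤ |τ| * ‖D γ‖ := by gcongr; exact norm_intOp_le _
        _ ≤ |τ| * (‖D‖ * ‖γ‖) := by gcongr; exact D.le_opNorm γ
        _ ≤ |τ| * (L * ‖γ‖) := by gcongr
        _ = |τ| * L * ‖γ‖ := by ring
    exact h1.trans_lt hτ
  have hcomp : HasFDerivAt (fun a : C(IK, E) => eqG X ((τ, x), a))
      (ContinuousLinearMap.id ℝ C(IK, E) - A) α := by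
    have h1 : HasFDerivAt (fun a : C(IK, E) => intOp (X.comp a)) (intOp ∘L D) α :=
      (intOp (E := E)).hasFDerivAt.comp α hD1
    have h2 : HasFDerivAt (fun a : C(IK, E) => τ • intOp (X.comp a)) A α := h1.const_smul τ
    have h3 : HasFDerivAt (fun a : C(IK, E) => a - constCLM x)
        (ContinuousLinearMap.id ℝ C(IK, E)) α := (hasFDerivAt_id α).sub_const _
    exact h3.sub h2
  have hdiff : HasFDerivAt (eqG X) (fderiv ℝ (eqG X) ((τ, x), α)) ((τ, x), α) :=
    ((contDiff_eqG hX).differentiable (by simp) _).hasFDerivAt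
  have hcomp2 : HasFDerivAt (fun a : C(IK, E) => eqG X ((τ, x), a))
      (fderiv ℝ (eqG X) ((τ, x), α) ∘L ContinuousLinearMap.inr ℝ (ℝ × E) C(IK, E)) α :=
    hdiff.comp α (hasFDerivAt_prodMk_right (τ, x) α)
  rw [hcomp2.unique hcomp]
  obtain ⟨u, hu⟩ := isUnit_one_sub_of_norm_lt_one (R := C(IK, E) →L[ℝ] C(IK, E)) (x := A) hAnorm
  have hu' : (u : C(IK, E) →L[ℝ] C(IK, E)) = ContinuousLinearMap.id ℝ C(IK, E) - A := hu
  rw [← hu']
  refine ContinuousLinearMap.IsInvertible.of_inverse (g := ((u⁻¹ : (C(IK, E) →L[ℝ] C(IK, E))ˣ) : _))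
    ?_ ?_
  · exact u.mul_inv
  · exact u.inv_mul

/-- The solution of the integral equation depends smoothly on `(τ, x)`. -/
theorem contDiffAt_sol (hX : ContDiff ℝ ∞ X) (hL : LipschitzWith L X) {τ : ℝ} (hτ : |τ| * L < 1)
    (x : E) : ContDiffAt ℝ ∞ (sol X) (τ, x) := by
  have hcd : ContDiffAt ℝ ∞ (eqG X) ((τ, x), sol X (τ, x)) := (contDiff_eqG hX).contDiffAt
  have hinv := isInvertible_partial hX hL hτ x (sol X (τ, x))
  have hne : (∞ : WithTop ℕ∞) ≠ 0 := by simp
  have h1 := hcd.contDiffAt_implicitFunction hne hinv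
  have h2 := hcd.eventually_apply_implicitFunction hne hinv
  have h3 : ∀ᶠ q : ℝ × E in 𝓝 (τ, x), |q.1| * L < 1 := by
    have hc : Continuous (fun q : ℝ × E => |q.1| * (L : ℝ)) := by fun_prop
    exact hc.continuousAt.eventually (gt_mem_nhds hτ)
  refine h1.congr_of_eventuallyEq ?_
  filter_upwards [h2, h3] with q hq hq3
  rw [eqG_sol hL hτ x] at hq
  exact eqG_unique hL hq3 (eqG_sol hL hq3 q.2) hq

/-- The flow map. -/
def flow (X : C(E, E)) (q : ℝ × E) : E := sol X q ⟨1, by norm_num⟩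

/-- Joint smoothness of the flow on `{|τ| L < 1} × E`. -/
theorem contDiffAt_flow (hX : ContDiff ℝ ∞ X) (hL : LipschitzWith L X) {τ : ℝ} (hτ : |τ| * L < 1)
    (x : E) : ContDiffAt ℝ ∞ (flow X) (τ, x) := by
  have h1 := contDiffAt_sol hX hL hτ x
  have h2 : ContDiff ℝ ∞ (ContinuousMap.evalCLM ℝ (⟨1, by norm_num⟩ : IK) : C(IK, E) →L[ℝ] E) :=
    ContinuousLinearMap.contDiff _
  exact h2.contDiffAt.comp (τ, x) h1

theorem flow_zero (hL : LipschitzWith L X) (x : E) : flow X (0, x) = x := by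
  have h0 : |(0 : ℝ)| * (L : ℝ) < 1 := by simp
  have h := ((eqG_eq_zero_iff X).1 (eqG_sol hL h0 x)) ⟨1, by norm_num⟩
  simpa [flow] using h

lemma extR_comp (a : C(IK, E)) (q : ℝ) : extR (X.comp a) q = X (extR a q) := rfl

/-- The primitive built from a solution. -/
def primF (X : C(E, E)) (τ₁ : ℝ) (x : E) (a : C(IK, E)) (p : ℝ) : E :=
  x + τ₁ • ∫ r in (0 : ℝ)..p, extR (X.comp a) r

lemma hasDerivAt_primF (τ₁ : ℝ) (x : E) (a : C(IK, E)) (p : ℝ) :
    HasDerivAt (primF X τ₁ x a) (τ₁ • extR (X.comp a) p) p := by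
  have hc : Continuous (extR (X.comp a)) := continuous_extR _
  have h := intervalIntegral.integral_hasDerivAt_right (hc.intervalIntegrable 0 p)
    (hc.stronglyMeasurableAtFilter _ _) hc.continuousAt
  exact (h.const_smul τ₁).const_add x

lemma continuous_primF (τ₁ : ℝ) (x : E) (a : C(IK, E)) : Continuous (primF X τ₁ x a) :=
  continuous_iff_continuousAt.2 fun p => (hasDerivAt_primF τ₁ x a p).continuousAt

/-- Rescaling: on `|s| ≤ τ₁` the flow is a reparametrised solution. -/
lemma flow_eq_primF (hL : LipschitzWith L X) {τ₁ : ℝ} (hτ₁ : 0 < τ₁) (hτ₁L : τ₁ * L < 1) (x : E)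
    {s : ℝ} (hs : |s| ≤ τ₁) :
    flow X (s, x) = primF X τ₁ x (sol X (τ₁, x)) (s / τ₁) := by
  have habs : |τ₁| * (L : ℝ) < 1 := by rwa [abs_of_pos hτ₁]
  set a := sol X (τ₁, x) with ha
  have hsol := (eqG_eq_zero_iff X).1 (eqG_sol hL habs x)
  have hsL : |s| * (L : ℝ) < 1 := lt_of_le_of_lt (by gcongr) hτ₁L
  set c := s / τ₁ with hc
  have hc1 : |c| ≤ 1 := by
    rw [hc, abs_div, abs_of_pos hτ₁]
    exact (div_le_one hτ₁).2 hs
  have hcτ : τ₁ * c = s := by rw [hc]; field_simp
  have hmem : ∀ r : IK, (r : ℝ) * c ∈ Icc (-1 : ℝ) 1 := by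
    intro r
    have h1 : |(r : ℝ)| ≤ 1 := abs_le.2 ⟨r.2.1, r.2.2⟩
    have h2 : |(r : ℝ) * c| ≤ 1 := by
      rw [abs_mul]
      calc |(r : ℝ)| * |c| ≤ 1 * 1 := by gcongr
        _ = 1 := by norm_num
    exact abs_le.1 h2
  let β : C(IK, E) := ⟨fun r => primF X τ₁ x a ((r : ℝ) * c),
    (continuous_primF τ₁ x a).comp (continuous_subtype_val.mul continuous_const)⟩
  have hβa : ∀ (r : IK), β r = a ⟨(r : ℝ) * c, hmem r⟩ := by
    intro r
    exact (hsol ⟨(r : ℝ) * c, hmem r⟩).symm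
  have hβ : eqG X ((s, x), β) = 0 := by
    rw [eqG_eq_zero_iff]
    intro r
    have h1 : (∫ q in (0 : ℝ)..(r : ℝ), extR (X.comp β) q) =
        ∫ q in (0 : ℝ)..(r : ℝ), extR (X.comp a) (q * c) := by
      refine intervalIntegral.integral_congr fun q hq => ?_
      have hq1 : q ∈ Icc (-1 : ℝ) 1 := by
        have h2 : Set.uIcc (0 : ℝ) (r : ℝ) ⊆ Icc (-1 : ℝ) 1 := by
          apply Set.uIcc_subset_Icc
          · simp
          · exact r.2
        exact h2 hq
      simp only [extR_comp]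
      congr 1
      rw [extR_of_mem β hq1, hβa ⟨q, hq1⟩, extR_of_mem a (hmem ⟨q, hq1⟩)]
    rw [h1]
    have h2 := intervalIntegral.smul_integral_comp_mul_right (a := (0 : ℝ)) (b := (r : ℝ))
      (extR (X.comp a)) c
    rw [← hcτ, mul_smul, h2, zero_mul]
    rfl
  have h2 := eqG_unique hL hsL (eqG_sol hL hsL x) hβ
  simp only [flow]
  rw [h2]
  show primF X τ₁ x a ((1 : ℝ) * c) = _
  rw [one_mul]

/-- The flow solves the ODE. -/
theorem hasDerivAt_flow (hL : LipschitzWith L X) {τ : ℝ} (hτ : |τ| * L < 1) (x : E) :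
    HasDerivAt (fun s => flow X (s, x)) (X (flow X (τ, x))) τ := by
  obtain ⟨τ₁, hτ₁, hτ₁L, hlt⟩ : ∃ τ₁ : ℝ, 0 < τ₁ ∧ τ₁ * L < 1 ∧ |τ| < τ₁ := by
    set δ := (1 - |τ| * L) / (2 * (L + 1)) with hδ
    have hL0 : (0 : ℝ) ≤ L := L.2
    have h1 : 0 < 1 - |τ| * (L : ℝ) := by linarith
    have hδ0 : 0 < δ := by positivity
    refine ⟨|τ| + δ, by positivity, ?_, by linarith⟩
    have h2 : δ * L ≤ (1 - |τ| * L) / 2 := by
      rw [hδ, div_mul_eq_mul_div, div_le_iff₀ (by positivity)]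
      nlinarith
    nlinarith
  have habs : |τ₁| * (L : ℝ) < 1 := by rwa [abs_of_pos hτ₁]
  set a := sol X (τ₁, x) with ha
  have hsol := (eqG_eq_zero_iff X).1 (eqG_sol hL habs x)
  have hev : (fun s => flow X (s, x)) =ᶠ[𝓝 τ] fun s => primF X τ₁ x a (s / τ₁) := by
    have : ∀ᶠ s in 𝓝 τ, |s| < τ₁ := continuous_abs.continuousAt.eventually (gt_mem_nhds hlt)
    filter_upwards [this] with s hs
    exact flow_eq_primF hL hτ₁ hτ₁L x hs.le
  refine HasDerivAt.congr_of_eventuallyEq ?_ hev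
  have h1 : HasDerivAt (fun s : ℝ => s / τ₁) (1 / τ₁) τ := (hasDerivAt_id τ).div_const τ₁
  have h2 := (hasDerivAt_primF (X := X) τ₁ x a (τ / τ₁)).scomp τ h1
  have hval : X (flow X (τ, x)) = extR (X.comp a) (τ / τ₁) := by
    rw [flow_eq_primF hL hτ₁ hτ₁L x hlt.le, extR_comp]
    congr 1
    have hm : τ / τ₁ ∈ Icc (-1 : ℝ) 1 := by
      have : |τ / τ₁| ≤ 1 := by
        rw [abs_div, abs_of_pos hτ₁]
        exact (div_le_one hτ₁).2 hlt.le
      exact abs_le.1 this
    rw [extR_of_mem a hm]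
    exact (hsol ⟨τ / τ₁, hm⟩).symm
  rw [hval]
  have h3 : (1 / τ₁) • τ₁ • extR (X.comp a) (τ / τ₁) = extR (X.comp a) (τ / τ₁) := by
    rw [smul_smul, one_div, inv_mul_cancel₀ hτ₁.ne', one_smul]
  rw [h3] at h2
  exact h2

end Flow

end Crest.Agent.Lib.SmoothFlow
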