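import Crest.Prelude.Def_QuadricHamiltonian
import Crest.Agent.Lib.SmoothFlow

/-!
# An explicit Hamiltonian isotopy of the quadric threefold with exactly three fixed points

Collective Hamiltonian: with `p_ab(z) = 2 Im (z_a conj z_b)` for `a, b ≤ 3`, take
`K = p01² - p23² - 2 p02 + 2 p02 p03 + 2 p12 p13`. On the quadric surface `z₄ = 0`, which is
`S² × S²` with `u = (p01 + p23, p02 - p13, p03 + p12)`, `v = (p01 - p23, p02 + p13, p03 - p12)`, this is
`u₁v₁ - u₂(1 - v₃) - v₂(1 - u₃)`: a function with exactly three critical points.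
The time-one map of the isotopy is the short flow of `K` after `diag(-1,-1,-1,-1,1)`.
-/

open scoped ContDiff Topology NNReal
open Crest.GeometryTopology.Quadric

noncomputable section

namespace Crest.Agent.Lib.QuadricFlow

abbrev C5 : Type := Fin 5 → ℂ

/-- `p_ab(z) = 2 Im (z_a conj z_b)`. -/
def pp (a b : Fin 5) (z : C5) : ℝ := 2 * ((z a).im * (z b).re - (z a).re * (z b).im)

/-- A real antisymmetric matrix on the first four coordinates acting on `z`. -/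
def so4mul (c01 c02 c03 c12 c13 c23 : ℝ) (z : C5) : C5 :=
  ![c01 • z 1 + c02 • z 2 + c03 • z 3,
    -c01 • z 0 + c12 • z 2 + c13 • z 3,
    -c02 • z 0 - c12 • z 1 + c23 • z 3,
    -c03 • z 0 - c13 • z 1 - c23 • z 2,
    0]

/-- The Hamiltonian vector field of `K` on flat `ℂ⁵`. -/
def X0 (z : C5) : C5 :=
  so4mul (2 * pp 0 1 z) (2 * pp 0 3 z - 2) (2 * pp 0 2 z) (2 * pp 1 3 z) (2 * pp 1 2 z)
    (-2 * pp 2 3 z) z

/-- The collective Hamiltonian. -/
def KK (z : C5) : ℝ :=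
  pp 0 1 z ^ 2 - pp 2 3 z ^ 2 - 2 * pp 0 2 z + 2 * pp 0 2 z * pp 0 3 z + 2 * pp 1 2 z * pp 1 3 z

/-- The generator of the rotation. -/
def S0 (z : C5) : C5 := so4mul 1 0 0 0 0 1 z

/-- Its Hamiltonian. -/
def K0 (z : C5) : ℝ := pp 0 1 z + pp 2 3 z

/-- Rotation by `θ` in the planes `(0, 1)` and `(2, 3)`. -/
def rot (θ : ℝ) (z : C5) : C5 :=
  ![Real.cos θ • z 0 + Real.sin θ • z 1,
    -Real.sin θ • z 0 + Real.cos θ • z 1,
    Real.cos θ • z 2 + Real.sin θ • z 3,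
    -Real.sin θ • z 2 + Real.cos θ • z 3,
    z 4]

/-! ### Derivatives of the quadratic functions -/

/-- Real part of the `j`-th coordinate, as a continuous linear map. -/
def reL (j : Fin 5) : C5 →L[ℝ] ℝ :=
  Complex.reCLM ∘L (ContinuousLinearMap.proj j : C5 →L[ℝ] ℂ)

/-- Imaginary part of the `j`-th coordinate, as a continuous linear map. -/
def imL (j : Fin 5) : C5 →L[ℝ] ℝ :=
  Complex.imCLM ∘L (ContinuousLinearMap.proj j : C5 →L[ℝ] ℂ)

@[simp] lemma reL_apply (j : Fin 5) (z : C5) : reL j z = (z j).re := rfl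
@[simp] lemma imL_apply (j : Fin 5) (z : C5) : imL j z = (z j).im := rfl

/-- The differential of `p_ab` at `z`. -/
def ppD (a b : Fin 5) (z : C5) : C5 →L[ℝ] ℝ :=
  (2 : ℝ) • ((z a).im • reL b + (z b).re • imL a - ((z a).re • imL b + (z b).im • reL a))

lemma ppD_apply (a b : Fin 5) (z w : C5) :
    ppD a b z w =
      2 * ((z a).im * (w b).re + (z b).re * (w a).im - ((z a).re * (w b).im + (z b).im * (w a).re)) := by
  simp [ppD]

lemma hasFDerivAt_pp (a b : Fin 5) (z : C5) : HasFDerivAt (pp a b) (ppD a b z) z := by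
  have h1 : HasFDerivAt (fun z : C5 => (z a).im * (z b).re)
      ((z a).im • reL b + (z b).re • imL a) z :=
    ((imL a).hasFDerivAt (x := z)).mul ((reL b).hasFDerivAt (x := z))
  have h2 : HasFDerivAt (fun z : C5 => (z a).re * (z b).im)
      ((z a).re • imL b + (z b).im • reL a) z :=
    ((reL a).hasFDerivAt (x := z)).mul ((imL b).hasFDerivAt (x := z))
  exact (h1.sub h2).const_mul 2

lemma contDiff_pp (a b : Fin 5) : ContDiff ℝ ∞ (pp a b) := by
  unfold pp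
  have hre : ∀ j : Fin 5, ContDiff ℝ ∞ (fun z : C5 => (z j).re) := fun j => (reL j).contDiff
  have him : ∀ j : Fin 5, ContDiff ℝ ∞ (fun z : C5 => (z j).im) := fun j => (imL j).contDiff
  exact contDiff_const.mul (((him a).mul (hre b)).sub ((hre a).mul (him b)))

/-! ### Hamilton's identity -/

lemma herm_im_so4mul (c01 c02 c03 c12 c13 c23 : ℝ) (z w : C5) :
    2 * (herm (so4mul c01 c02 c03 c12 c13 c23 z) w).im =
      c01 * ppD 0 1 z w + c02 * ppD 0 2 z w + c03 * ppD 0 3 z w + c12 * ppD 1 2 z w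
        + c13 * ppD 1 3 z w + c23 * ppD 2 3 z w := by
  simp only [ppD_apply, herm, so4mul, Fin.sum_univ_five]
  simp
  ring

lemma hasFDerivAt_KK (z : C5) :
    HasFDerivAt KK
      ((2 * pp 0 1 z) • ppD 0 1 z + (2 * pp 0 3 z - 2) • ppD 0 2 z + (2 * pp 0 2 z) • ppD 0 3 z
        + (2 * pp 1 3 z) • ppD 1 2 z + (2 * pp 1 2 z) • ppD 1 3 z + (-2 * pp 2 3 z) • ppD 2 3 z) z := by
  have h01 := hasFDerivAt_pp 0 1 z
  have h02 := hasFDerivAt_pp 0 2 z
  have h03 := hasFDerivAt_pp 0 3 z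
  have h12 := hasFDerivAt_pp 1 2 z
  have h13 := hasFDerivAt_pp 1 3 z
  have h23 := hasFDerivAt_pp 2 3 z
  have h := ((((h01.pow 2).sub (h23.pow 2)).sub (h02.const_mul 2)).add
    ((h02.const_mul 2).mul h03)).add ((h12.const_mul 2).mul h13)
  refine h.congr_fderiv ?_
  ext w
  simp
  ring

lemma fderiv_KK_eq (z w : C5) : fderiv ℝ KK z w = 2 * (herm (X0 z) w).im := by
  rw [(hasFDerivAt_KK z).fderiv, X0, herm_im_so4mul]
  simp

lemma hasFDerivAt_K0 (z : C5) : HasFDerivAt K0 (ppD 0 1 z + ppD 2 3 z) z :=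
  (hasFDerivAt_pp 0 1 z).add (hasFDerivAt_pp 2 3 z)

lemma fderiv_K0_eq (z w : C5) : fderiv ℝ K0 z w = 2 * (herm (S0 z) w).im := by
  rw [(hasFDerivAt_K0 z).fderiv, S0, herm_im_so4mul]
  simp

/-! ### Invariants of the cone -/

/-- The squared norm. -/
def r2 (z : C5) : ℝ :=
  ((z 0).re ^ 2 + (z 0).im ^ 2) + ((z 1).re ^ 2 + (z 1).im ^ 2) + ((z 2).re ^ 2 + (z 2).im ^ 2)
    + ((z 3).re ^ 2 + (z 3).im ^ 2) + ((z 4).re ^ 2 + (z 4).im ^ 2)

/-- Real part of `∑ z_j²`. -/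
def q1 (z : C5) : ℝ :=
  ((z 0).re ^ 2 - (z 0).im ^ 2) + ((z 1).re ^ 2 - (z 1).im ^ 2) + ((z 2).re ^ 2 - (z 2).im ^ 2)
    + ((z 3).re ^ 2 - (z 3).im ^ 2) + ((z 4).re ^ 2 - (z 4).im ^ 2)

/-- Half of the imaginary part of `∑ z_j²`. -/
def q2 (z : C5) : ℝ :=
  (z 0).re * (z 0).im + (z 1).re * (z 1).im + (z 2).re * (z 2).im + (z 3).re * (z 3).im
    + (z 4).re * (z 4).im

lemma mem_unitCone_iff (z : C5) : z ∈ unitCone ↔ r2 z = 1 ∧ q1 z = 0 ∧ q2 z = 0 := by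
  simp only [unitCone, Set.mem_ofPred_eq, herm, Fin.sum_univ_five, r2, q1, q2, Complex.ext_iff]
  simp [pow_two]
  constructor
  · rintro ⟨⟨h1, -⟩, h2, h3⟩
    refine ⟨by nlinarith, by nlinarith, by nlinarith⟩
  · rintro ⟨h1, h2, h3⟩
    refine ⟨⟨by nlinarith, by ring⟩, by nlinarith, by nlinarith⟩

/-- Differential of `r2`. -/
def r2D (z : C5) : C5 →L[ℝ] ℝ :=
  (2 * (z 0).re) • reL 0 + (2 * (z 0).im) • imL 0 + (2 * (z 1).re) • reL 1 + (2 * (z 1).im) • imL 1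
    + (2 * (z 2).re) • reL 2 + (2 * (z 2).im) • imL 2 + (2 * (z 3).re) • reL 3 + (2 * (z 3).im) • imL 3
    + (2 * (z 4).re) • reL 4 + (2 * (z 4).im) • imL 4

/-- Differential of `q1`. -/
def q1D (z : C5) : C5 →L[ℝ] ℝ :=
  (2 * (z 0).re) • reL 0 - (2 * (z 0).im) • imL 0 + (2 * (z 1).re) • reL 1 - (2 * (z 1).im) • imL 1
    + (2 * (z 2).re) • reL 2 - (2 * (z 2).im) • imL 2 + (2 * (z 3).re) • reL 3 - (2 * (z 3).im) • imL 3
    + (2 * (z 4).re) • reL 4 - (2 * (z 4).im) • imL 4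

/-- Differential of `q2`. -/
def q2D (z : C5) : C5 →L[ℝ] ℝ :=
  (z 0).im • reL 0 + (z 0).re • imL 0 + (z 1).im • reL 1 + (z 1).re • imL 1
    + (z 2).im • reL 2 + (z 2).re • imL 2 + (z 3).im • reL 3 + (z 3).re • imL 3
    + (z 4).im • reL 4 + (z 4).re • imL 4

lemma hasFDerivAt_re_sq (j : Fin 5) (z : C5) :
    HasFDerivAt (fun z : C5 => (z j).re ^ 2) ((2 * (z j).re) • reL j) z := by
  have := ((reL j).hasFDerivAt (x := z)).pow 2
  refine this.congr_fderiv ?_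
  ext w
  simp

lemma hasFDerivAt_im_sq (j : Fin 5) (z : C5) :
    HasFDerivAt (fun z : C5 => (z j).im ^ 2) ((2 * (z j).im) • imL j) z := by
  have := ((imL j).hasFDerivAt (x := z)).pow 2
  refine this.congr_fderiv ?_
  ext w
  simp

lemma hasFDerivAt_r2 (z : C5) : HasFDerivAt r2 (r2D z) z := by
  have h := (((((hasFDerivAt_re_sq 0 z).add (hasFDerivAt_im_sq 0 z)).add
    ((hasFDerivAt_re_sq 1 z).add (hasFDerivAt_im_sq 1 z))).add
    ((hasFDerivAt_re_sq 2 z).add (hasFDerivAt_im_sq 2 z))).add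
    ((hasFDerivAt_re_sq 3 z).add (hasFDerivAt_im_sq 3 z))).add
    ((hasFDerivAt_re_sq 4 z).add (hasFDerivAt_im_sq 4 z))
  refine h.congr_fderiv ?_
  ext w
  simp [r2D]
  ring

lemma hasFDerivAt_q1 (z : C5) : HasFDerivAt q1 (q1D z) z := by
  have h := (((((hasFDerivAt_re_sq 0 z).sub (hasFDerivAt_im_sq 0 z)).add
    ((hasFDerivAt_re_sq 1 z).sub (hasFDerivAt_im_sq 1 z))).add
    ((hasFDerivAt_re_sq 2 z).sub (hasFDerivAt_im_sq 2 z))).add
    ((hasFDerivAt_re_sq 3 z).sub (hasFDerivAt_im_sq 3 z))).add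
    ((hasFDerivAt_re_sq 4 z).sub (hasFDerivAt_im_sq 4 z))
  refine h.congr_fderiv ?_
  ext w
  simp [q1D]
  ring

lemma hasFDerivAt_re_im (j : Fin 5) (z : C5) :
    HasFDerivAt (fun z : C5 => (z j).re * (z j).im) ((z j).re • imL j + (z j).im • reL j) z :=
  ((reL j).hasFDerivAt (x := z)).mul ((imL j).hasFDerivAt (x := z))

lemma hasFDerivAt_q2 (z : C5) : HasFDerivAt q2 (q2D z) z := by
  have h := ((((hasFDerivAt_re_im 0 z).add (hasFDerivAt_re_im 1 z)).add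
    (hasFDerivAt_re_im 2 z)).add (hasFDerivAt_re_im 3 z)).add (hasFDerivAt_re_im 4 z)
  refine h.congr_fderiv ?_
  ext w
  simp [q2D]
  ring

lemma r2D_so4mul (c01 c02 c03 c12 c13 c23 : ℝ) (z : C5) :
    r2D z (so4mul c01 c02 c03 c12 c13 c23 z) = 0 := by
  simp [r2D, so4mul]
  ring

lemma q1D_so4mul (c01 c02 c03 c12 c13 c23 : ℝ) (z : C5) :
    q1D z (so4mul c01 c02 c03 c12 c13 c23 z) = 0 := by
  simp [q1D, so4mul]
  ring

lemma q2D_so4mul (c01 c02 c03 c12 c13 c23 : ℝ) (z : C5) :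
    q2D z (so4mul c01 c02 c03 c12 c13 c23 z) = 0 := by
  simp [q2D, so4mul]
  ring

lemma so4mul_four (c01 c02 c03 c12 c13 c23 : ℝ) (z : C5) :
    so4mul c01 c02 c03 c12 c13 c23 z 4 = 0 := rfl

/-- The cut-off function. -/
def rho (r : ℝ) : ℝ := Real.smoothTransition (3 - r)

lemma rho_one : rho 1 = 1 := by
  unfold rho
  exact Real.smoothTransition.one_of_one_le (by norm_num)

lemma rho_of_three_le {r : ℝ} (hr : 3 ≤ r) : rho r = 0 := by
  unfold rho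
  exact Real.smoothTransition.zero_of_nonpos (by linarith)

lemma rho_nonneg (r : ℝ) : 0 ≤ rho r := Real.smoothTransition.nonneg _
lemma rho_le_one (r : ℝ) : rho r ≤ 1 := Real.smoothTransition.le_one _

/-- The cut-off vector field. -/
def Xt (z : C5) : C5 := rho (r2 z) • X0 z

lemma contDiff_r2 : ContDiff ℝ ∞ r2 := by
  have hre : ∀ j : Fin 5, ContDiff ℝ ∞ (fun z : C5 => (z j).re) := fun j => (reL j).contDiff
  have him : ∀ j : Fin 5, ContDiff ℝ ∞ (fun z : C5 => (z j).im) := fun j => (imL j).contDiff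
  unfold r2
  exact (((((hre 0).pow 2).add ((him 0).pow 2)).add (((hre 1).pow 2).add ((him 1).pow 2))).add
    (((hre 2).pow 2).add ((him 2).pow 2))).add (((hre 3).pow 2).add ((him 3).pow 2)) |>.add
    (((hre 4).pow 2).add ((him 4).pow 2))

lemma contDiff_rho : ContDiff ℝ ∞ rho :=
  Real.smoothTransition.contDiff.comp (contDiff_const.sub contDiff_id)

lemma contDiff_coord (j : Fin 5) : ContDiff ℝ ∞ (fun z : C5 => z j) :=
  (ContinuousLinearMap.proj j : C5 →L[ℝ] ℂ).contDiff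

lemma contDiff_X0 : ContDiff ℝ ∞ X0 := by
  have h01 := contDiff_pp 0 1
  have h02 := contDiff_pp 0 2
  have h03 := contDiff_pp 0 3
  have h12 := contDiff_pp 1 2
  have h13 := contDiff_pp 1 3
  have h23 := contDiff_pp 2 3
  have hc := contDiff_coord
  have hconst : ContDiff ℝ ∞ (fun _ : C5 => (2 : ℝ)) := contDiff_const
  have hc01 := hconst.mul h01
  have hc02 := (hconst.mul h03).sub hconst
  have hc03 := hconst.mul h02
  have hc12 := hconst.mul h13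
  have hc13 := hconst.mul h12
  have hc23 := (contDiff_const (c := (-2 : ℝ))).mul h23
  refine contDiff_pi.2 fun j => ?_
  fin_cases j
  · exact ((hc01.smul (hc 1)).add (hc02.smul (hc 2))).add (hc03.smul (hc 3))
  · exact ((hc01.neg.smul (hc 0)).add (hc12.smul (hc 2))).add (hc13.smul (hc 3))
  · exact ((hc02.neg.smul (hc 0)).sub (hc12.smul (hc 1))).add (hc23.smul (hc 3))
  · exact ((hc03.neg.smul (hc 0)).sub (hc13.smul (hc 1))).sub (hc23.smul (hc 2))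
  · exact contDiff_const

lemma contDiff_Xt : ContDiff ℝ ∞ Xt :=
  (contDiff_rho.comp contDiff_r2).smul contDiff_X0

lemma hasCompactSupport_Xt : HasCompactSupport Xt := by
  refine HasCompactSupport.intro (isCompact_closedBall (0 : C5) 2) fun z hz => ?_
  have h3 : 3 ≤ r2 z := by
    by_contra hlt
    push Not at hlt
    apply hz
    rw [mem_closedBall_zero_iff, pi_norm_le_iff_of_nonneg (by norm_num)]
    intro j
    have hsq : ‖z j‖ ^ 2 = (z j).re ^ 2 + (z j).im ^ 2 := by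
      rw [← Complex.normSq_eq_norm_sq, Complex.normSq_apply]; ring
    have hr : (z j).re ^ 2 + (z j).im ^ 2 ≤ r2 z := by
      unfold r2
      fin_cases j <;> simp <;> nlinarith [sq_nonneg (z 0).re, sq_nonneg (z 0).im, sq_nonneg (z 1).re,
        sq_nonneg (z 1).im, sq_nonneg (z 2).re, sq_nonneg (z 2).im, sq_nonneg (z 3).re,
        sq_nonneg (z 3).im, sq_nonneg (z 4).re, sq_nonneg (z 4).im]
    have h0 : 0 ≤ ‖z j‖ := norm_nonneg _
    nlinarith
  simp [Xt, rho_of_three_le h3]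

lemma exists_lipschitz_Xt : ∃ L : ℝ≥0, LipschitzWith L Xt :=
  ContDiff.lipschitzWith_of_hasCompactSupport hasCompactSupport_Xt contDiff_Xt (by simp)

/-! ### The flow -/

/-- The vector field as a continuous map. -/
def XtC : C(C5, C5) := ⟨Xt, contDiff_Xt.continuous⟩

/-- Its Lipschitz constant. -/
def LX : ℝ≥0 := Classical.choose exists_lipschitz_Xt

lemma lipX : LipschitzWith LX Xt := Classical.choose_spec exists_lipschitz_Xt

/-- The time of existence. -/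
def T0 : ℝ := 1 / ((LX : ℝ) + 1)

lemma T0_pos : 0 < T0 := by
  unfold T0
  have : (0 : ℝ) ≤ LX := LX.2
  positivity

lemma abs_mul_LX_lt {s : ℝ} (hs : |s| < T0) : |s| * (LX : ℝ) < 1 := by
  have h0 : (0 : ℝ) ≤ LX := LX.2
  unfold T0 at hs
  rw [lt_div_iff₀ (by positivity)] at hs
  nlinarith [abs_nonneg s]

/-- The flow of the cut-off vector field. -/
def Fl (q : ℝ × C5) : C5 := SmoothFlow.flow XtC q

lemma Fl_zero (x : C5) : Fl (0, x) = x := SmoothFlow.flow_zero (X := XtC) lipX x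

lemma Fl_deriv {s : ℝ} (hs : |s| < T0) (x : C5) :
    HasDerivAt (fun τ => Fl (τ, x)) (Xt (Fl (s, x))) s :=
  SmoothFlow.hasDerivAt_flow (X := XtC) lipX (abs_mul_LX_lt hs) x

lemma contDiffAt_Fl {s : ℝ} (hs : |s| < T0) (x : C5) : ContDiffAt ℝ ∞ Fl (s, x) :=
  SmoothFlow.contDiffAt_flow (X := XtC) contDiff_Xt lipX (abs_mul_LX_lt hs) x

lemma Fl_conserved (g : C5 → ℝ) (g' : C5 → C5 →L[ℝ] ℝ) (hg : ∀ y, HasFDerivAt g (g' y) y)
    (h0 : ∀ y, g' y (Xt y) = 0) {s : ℝ} (hs : |s| < T0) (x : C5) : g (Fl (s, x)) = g x := by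
  have hU : IsOpen (Set.Ioo (-T0) T0) := isOpen_Ioo
  have hconn : IsPreconnected (Set.Ioo (-T0) T0) := isPreconnected_Ioo
  have hmem : ∀ τ ∈ Set.Ioo (-T0) T0, |τ| < T0 := fun τ hτ => abs_lt.2 hτ
  have hd : ∀ τ ∈ Set.Ioo (-T0) T0,
      HasDerivAt (fun τ => g (Fl (τ, x))) 0 τ := by
    intro τ hτ
    have h1 := (hg (Fl (τ, x))).comp_hasDerivAt τ (Fl_deriv (hmem τ hτ) x)
    rw [h0] at h1
    exact h1
  have h1 := hU.is_const_of_deriv_eq_zero hconn
    (fun τ hτ => (hd τ hτ).differentiableAt.differentiableWithinAt)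
    (fun τ hτ => (hd τ hτ).deriv) (abs_lt.1 hs) (x := s) (y := 0)
    (⟨by linarith [T0_pos], T0_pos⟩ : (0 : ℝ) ∈ Set.Ioo (-T0) T0)
  rw [h1, Fl_zero]

lemma Xt_eq (y : C5) : Xt y = rho (r2 y) • X0 y := rfl

lemma Fl_r2 {s : ℝ} (hs : |s| < T0) (x : C5) : r2 (Fl (s, x)) = r2 x :=
  Fl_conserved r2 r2D hasFDerivAt_r2 (fun y => by
    rw [Xt_eq, map_smul, X0, r2D_so4mul, smul_zero]) hs x

lemma Fl_q1 {s : ℝ} (hs : |s| < T0) (x : C5) : q1 (Fl (s, x)) = q1 x :=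
  Fl_conserved q1 q1D hasFDerivAt_q1 (fun y => by
    rw [Xt_eq, map_smul, X0, q1D_so4mul, smul_zero]) hs x

lemma Fl_q2 {s : ℝ} (hs : |s| < T0) (x : C5) : q2 (Fl (s, x)) = q2 x :=
  Fl_conserved q2 q2D hasFDerivAt_q2 (fun y => by
    rw [Xt_eq, map_smul, X0, q2D_so4mul, smul_zero]) hs x

lemma Fl_four {s : ℝ} (hs : |s| < T0) (x : C5) : Fl (s, x) 4 = x 4 := by
  have h1 : (Fl (s, x) 4).re = (x 4).re :=
    Fl_conserved (fun y => (y 4).re) (fun _ => reL 4) (fun y => (reL 4).hasFDerivAt)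
      (fun y => by
        simp [Xt_eq, X0, so4mul_four]) hs x
  have h2 : (Fl (s, x) 4).im = (x 4).im :=
    Fl_conserved (fun y => (y 4).im) (fun _ => imL 4) (fun y => (imL 4).hasFDerivAt)
      (fun y => by
        simp [Xt_eq, X0, so4mul_four]) hs x
  exact Complex.ext h1 h2

lemma Fl_mem_cone {s : ℝ} (hs : |s| < T0) {z : C5} (hz : z ∈ unitCone) : Fl (s, z) ∈ unitCone := by
  rw [mem_unitCone_iff] at hz ⊢
  rw [Fl_r2 hs, Fl_q1 hs, Fl_q2 hs]
  exact hz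

lemma Xt_of_r2 {y : C5} (hy : r2 y = 1) : Xt y = X0 y := by
  rw [Xt_eq, hy, rho_one, one_smul]

lemma Xt_of_cone {y : C5} (hy : y ∈ unitCone) : Xt y = X0 y :=
  Xt_of_r2 ((mem_unitCone_iff y).1 hy).1

/-! ### Equivariance under unit scalars -/

lemma normSq_of_norm_one {c : ℂ} (hc : ‖c‖ = 1) : c.re ^ 2 + c.im ^ 2 = 1 := by
  have := Complex.normSq_eq_norm_sq c
  rw [hc, Complex.normSq_apply] at this
  nlinarith

lemma pp_smul {c : ℂ} (hc : ‖c‖ = 1) (a b : Fin 5) (z : C5) : pp a b (c • z) = pp a b z := by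
  have h := normSq_of_norm_one hc
  simp only [pp, Pi.smul_apply, smul_eq_mul, Complex.mul_re, Complex.mul_im]
  have : ((c.re * (z a).im + c.im * (z a).re) * (c.re * (z b).re - c.im * (z b).im) -
      (c.re * (z a).re - c.im * (z a).im) * (c.re * (z b).im + c.im * (z b).re)) =
      (c.re ^ 2 + c.im ^ 2) * ((z a).im * (z b).re - (z a).re * (z b).im) := by ring
  rw [this, h, one_mul]

lemma r2_smul {c : ℂ} (hc : ‖c‖ = 1) (z : C5) : r2 (c • z) = r2 z := by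
  have h := normSq_of_norm_one hc
  simp only [r2, Pi.smul_apply, smul_eq_mul, Complex.mul_re, Complex.mul_im]
  have : ∀ a b : ℝ, (c.re * a - c.im * b) ^ 2 + (c.re * b + c.im * a) ^ 2 =
      (c.re ^ 2 + c.im ^ 2) * (a ^ 2 + b ^ 2) := by intro a b; ring
  rw [this, this, this, this, this, h]
  ring

lemma so4mul_smul (c01 c02 c03 c12 c13 c23 : ℝ) (c : ℂ) (z : C5) :
    so4mul c01 c02 c03 c12 c13 c23 (c • z) = c • so4mul c01 c02 c03 c12 c13 c23 z := by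
  ext j
  fin_cases j <;> simp [so4mul] <;> ring

lemma X0_smul {c : ℂ} (hc : ‖c‖ = 1) (z : C5) : X0 (c • z) = c • X0 z := by
  simp only [X0, pp_smul hc, so4mul_smul]

lemma Xt_smul {c : ℂ} (hc : ‖c‖ = 1) (z : C5) : Xt (c • z) = c • Xt z := by
  rw [Xt_eq, Xt_eq, r2_smul hc, X0_smul hc, smul_comm]

/-! ### Uniqueness -/

lemma Fl_unique {s : ℝ} (hs0 : 0 ≤ s) (hs : s < T0) {x : C5} {g : ℝ → C5}
    (hg : ∀ τ ∈ Set.Icc (0 : ℝ) s, HasDerivAt g (Xt (g τ)) τ) (h0 : g 0 = x) :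
    Fl (s, x) = g s := by
  have hmem : ∀ τ ∈ Set.Icc (0 : ℝ) s, |τ| < T0 := by
    intro τ hτ
    rw [abs_of_nonneg hτ.1]
    exact lt_of_le_of_lt hτ.2 hs
  have hv : ∀ t : ℝ, LipschitzWith LX ((fun _ : ℝ => Xt) t) := fun _ => lipX
  have h := ODE_solution_unique (v := fun _ => Xt) (K := LX) (f := fun τ => Fl (τ, x)) (g := g)
    (a := 0) (b := s) hv
    (fun τ hτ => (Fl_deriv (hmem τ hτ) x).continuousAt.continuousWithinAt)
    (fun τ hτ => (Fl_deriv (hmem τ ⟨hτ.1, hτ.2.le⟩) x).hasDerivWithinAt)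
    (fun τ hτ => (hg τ hτ).continuousAt.continuousWithinAt)
    (fun τ hτ => (hg τ ⟨hτ.1, hτ.2.le⟩).hasDerivWithinAt)
    (by simp [Fl_zero, h0])
  exact h ⟨hs0, le_rfl⟩

lemma Fl_smul {s : ℝ} (hs0 : 0 ≤ s) (hs : s < T0) {c : ℂ} (hc : ‖c‖ = 1) (x : C5) :
    Fl (s, c • x) = c • Fl (s, x) := by
  refine Fl_unique hs0 hs (g := fun τ => c • Fl (τ, x)) (fun τ hτ => ?_) (by simp [Fl_zero])
  have hτ' : |τ| < T0 := by
    rw [abs_of_nonneg hτ.1]
    exact lt_of_le_of_lt hτ.2 hs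
  have := (Fl_deriv hτ' x).const_smul c
  rw [Xt_smul hc]
  exact this

/-- If `Xt x = (I λ) • x` then the flow line stays on the complex line. -/
lemma Fl_of_eigen {s : ℝ} (hs0 : 0 ≤ s) (hs : s < T0) {x : C5} {lam : ℝ}
    (hx : Xt x = (Complex.I * lam) • x) :
    Fl (s, x) = Complex.exp (Complex.I * lam * s) • x := by
  refine Fl_unique hs0 hs (g := fun τ => Complex.exp (Complex.I * lam * τ) • x) (fun τ _ => ?_)
    (by simp)
  have hc : ‖Complex.exp (Complex.I * lam * τ)‖ = 1 := by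
    have : Complex.I * (lam : ℂ) * (τ : ℂ) = ((lam * τ : ℝ) : ℂ) * Complex.I := by
      push_cast; ring
    rw [this, Complex.norm_exp_ofReal_mul_I]
  rw [Xt_smul hc, hx]
  have h1 : HasDerivAt (fun τ : ℝ => Complex.I * (lam : ℂ) * (τ : ℂ)) (Complex.I * lam) τ := by
    have := ((hasDerivAt_id τ).ofReal_comp).const_mul (Complex.I * (lam : ℂ))
    simpa using this
  have h2 : HasDerivAt (fun τ : ℝ => Complex.exp (Complex.I * lam * τ))
      (Complex.exp (Complex.I * lam * τ) * (Complex.I * lam)) τ := h1.cexp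
  have h3 := h2.smul_const x
  rw [smul_smul]
  exact h3

/-! ### A quantitative orbit bound -/

section Orbit

variable {V : Type*} [NormedAddCommGroup V] [NormedSpace ℝ V]

lemma orbit_bound {Y : V → V} {S : Set V} {L' : ℝ≥0} (hY : LipschitzOnWith L' Y S) {γ : ℝ → V}
    {ε : ℝ} (hε : 0 < ε) (hεL : ε * L' ≤ 1 / 3)
    (hγ : ∀ s ∈ Set.Icc (0 : ℝ) ε, HasDerivAt γ (Y (γ s)) s)
    (hS : ∀ s ∈ Set.Icc (0 : ℝ) ε, γ s ∈ S) :
    ∃ m : ℝ, 0 ≤ m ∧ (∀ s ∈ Set.Icc (0 : ℝ) ε, ‖γ s - γ 0‖ ≤ m) ∧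
      (∀ s ∈ Set.Icc (0 : ℝ) ε, ‖γ s - γ 0 - s • Y (γ 0)‖ ≤ (L' : ℝ) * m * s) ∧
      2 / 3 * m ≤ ε * ‖Y (γ 0)‖ := by
  have h0mem : (0 : ℝ) ∈ Set.Icc (0 : ℝ) ε := ⟨le_rfl, hε.le⟩
  have hcont : ContinuousOn γ (Set.Icc 0 ε) :=
    fun s hs => (hγ s hs).continuousAt.continuousWithinAt
  have hcont2 : ContinuousOn (fun s => ‖γ s - γ 0‖) (Set.Icc 0 ε) :=
    (hcont.sub continuousOn_const).norm
  obtain ⟨s₀, hs₀, hmax⟩ := isCompact_Icc.exists_isMaxOn ⟨0, h0mem⟩ hcont2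
  set m := ‖γ s₀ - γ 0‖ with hm
  have hmle : ∀ s ∈ Set.Icc (0 : ℝ) ε, ‖γ s - γ 0‖ ≤ m := fun s hs => hmax hs
  have hL0 : (0 : ℝ) ≤ L' := L'.2
  have hm0 : 0 ≤ m := norm_nonneg _
  have hkey : ∀ s ∈ Set.Icc (0 : ℝ) ε, ‖γ s - γ 0 - s • Y (γ 0)‖ ≤ (L' : ℝ) * m * s := by
    intro s hs
    have hd : ∀ x ∈ Set.Icc (0 : ℝ) ε,
        HasDerivWithinAt (fun s => γ s - s • Y (γ 0)) (Y (γ x) - Y (γ 0)) (Set.Icc 0 ε) x := by
      intro x hx
      have h1 := (hγ x hx).sub ((hasDerivAt_id x).smul_const (Y (γ 0)))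
      simp only [id, one_smul] at h1
      exact h1.hasDerivWithinAt
    have hb : ∀ x ∈ Set.Ico (0 : ℝ) ε, ‖Y (γ x) - Y (γ 0)‖ ≤ (L' : ℝ) * m := by
      intro x hx
      have hx' : x ∈ Set.Icc (0 : ℝ) ε := ⟨hx.1, hx.2.le⟩
      have h2 := hY.dist_le_mul (γ x) (hS x hx') (γ 0) (hS 0 h0mem)
      rw [dist_eq_norm, dist_eq_norm] at h2
      exact h2.trans (by gcongr; exact hmle x hx')
    have h3 := norm_image_sub_le_of_norm_deriv_le_segment' hd hb s hs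
    simp only [zero_smul, sub_zero] at h3
    rwa [sub_right_comm] at h3
  refine ⟨m, hm0, hmle, hkey, ?_⟩
  have h4 := hkey s₀ hs₀
  have h5 : m ≤ ‖γ s₀ - γ 0 - s₀ • Y (γ 0)‖ + ‖s₀ • Y (γ 0)‖ := by
    rw [hm]
    have := norm_add_le (γ s₀ - γ 0 - s₀ • Y (γ 0)) (s₀ • Y (γ 0))
    simpa using this
  have h6 : ‖s₀ • Y (γ 0)‖ ≤ ε * ‖Y (γ 0)‖ := by
    rw [norm_smul, Real.norm_eq_abs, abs_of_nonneg hs₀.1]
    gcongr
    exact hs₀.2
  have h7 : (L' : ℝ) * m * s₀ ≤ 1 / 3 * m := by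
    have : (L' : ℝ) * s₀ ≤ 1 / 3 := by
      calc (L' : ℝ) * s₀ ≤ L' * ε := by gcongr; exact hs₀.2
        _ = ε * L' := mul_comm _ _
        _ ≤ 1 / 3 := hεL
    nlinarith
  linarith

lemma no_small_orbit {Y : V → V} {S : Set V} {L' : ℝ≥0} (hY : LipschitzOnWith L' Y S) {γ : ℝ → V}
    {ε : ℝ} (hε : 0 < ε) (hεL : ε * L' ≤ 1 / 3)
    (hγ : ∀ s ∈ Set.Icc (0 : ℝ) ε, HasDerivAt γ (Y (γ s)) s)
    (hS : ∀ s ∈ Set.Icc (0 : ℝ) ε, γ s ∈ S) (hper : γ ε = γ 0) : Y (γ 0) = 0 := by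
  obtain ⟨m, hm0, -, hkey, hbound⟩ := orbit_bound hY hε hεL hγ hS
  have h1 := hkey ε ⟨hε.le, le_rfl⟩
  rw [hper, sub_self, zero_sub, norm_neg, norm_smul, Real.norm_eq_abs, abs_of_pos hε] at h1
  have h2 : (L' : ℝ) * m * ε ≤ 1 / 3 * m := by
    have : (L' : ℝ) * ε ≤ 1 / 3 := by rw [mul_comm]; exact hεL
    nlinarith
  have h3 : ε * ‖Y (γ 0)‖ ≤ 0 := by nlinarith
  have h4 : ‖Y (γ 0)‖ ≤ 0 := by
    by_contra hne
    push Not at hne
    nlinarith [mul_pos hε hne]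
  exact norm_le_zero_iff.1 h4

end Orbit

/-! ### The reduced dynamics -/

/-- The six quadratic functions. -/
def piVec (z : C5) : Fin 6 → ℝ :=
  ![pp 0 1 z, pp 0 2 z, pp 0 3 z, pp 1 2 z, pp 1 3 z, pp 2 3 z]

/-- The reduced vector field. -/
def Yv (q : Fin 6 → ℝ) : Fin 6 → ℝ :=
  ![2 * q 3,
    2 * q 0 * (q 3 - q 4) - 2 * q 5 * (q 1 + q 2),
    2 * q 0 * (q 4 - q 3) + 2 * q 5 * (q 2 + q 1 - 1),
    2 * q 0 * (q 2 - q 1 - 1) - 2 * q 5 * (q 3 + q 4),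
    2 * q 0 * (q 1 - q 2) + 2 * q 5 * (q 4 + q 3),
    2 * q 2 - 2 * q 2 ^ 2 - 2 * q 4 ^ 2 + 2 * q 1 ^ 2 + 2 * q 3 ^ 2]

lemma ppD_X0_01 (z : C5) : ppD 0 1 z (X0 z) = Yv (piVec z) 0 := by
  simp [ppD_apply, X0, so4mul, Yv, piVec, pp]
  ring

lemma ppD_X0_02 (z : C5) : ppD 0 2 z (X0 z) = Yv (piVec z) 1 := by
  simp [ppD_apply, X0, so4mul, Yv, piVec, pp]
  ring

lemma ppD_X0_03 (z : C5) : ppD 0 3 z (X0 z) = Yv (piVec z) 2 := by
  simp [ppD_apply, X0, so4mul, Yv, piVec, pp]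
  ring

lemma ppD_X0_12 (z : C5) : ppD 1 2 z (X0 z) = Yv (piVec z) 3 := by
  simp [ppD_apply, X0, so4mul, Yv, piVec, pp]
  ring

lemma ppD_X0_13 (z : C5) : ppD 1 3 z (X0 z) = Yv (piVec z) 4 := by
  simp [ppD_apply, X0, so4mul, Yv, piVec, pp]
  ring

lemma ppD_X0_23 (z : C5) : ppD 2 3 z (X0 z) = Yv (piVec z) 5 := by
  simp [ppD_apply, X0, so4mul, Yv, piVec, pp]
  ring

lemma hasDerivAt_piVec {y : ℝ → C5} {s : ℝ} (hy : HasDerivAt y (X0 (y s)) s) :
    HasDerivAt (fun τ => piVec (y τ)) (Yv (piVec (y s))) s := by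
  rw [hasDerivAt_pi]
  intro i
  fin_cases i
  · have := (hasFDerivAt_pp 0 1 (y s)).comp_hasDerivAt s hy
    rw [ppD_X0_01] at this
    exact this
  · have := (hasFDerivAt_pp 0 2 (y s)).comp_hasDerivAt s hy
    rw [ppD_X0_02] at this
    exact this
  · have := (hasFDerivAt_pp 0 3 (y s)).comp_hasDerivAt s hy
    rw [ppD_X0_03] at this
    exact this
  · have := (hasFDerivAt_pp 1 2 (y s)).comp_hasDerivAt s hy
    rw [ppD_X0_12] at this
    exact this
  · have := (hasFDerivAt_pp 1 3 (y s)).comp_hasDerivAt s hy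
    rw [ppD_X0_13] at this
    exact this
  · have := (hasFDerivAt_pp 2 3 (y s)).comp_hasDerivAt s hy
    rw [ppD_X0_23] at this
    exact this

lemma contDiff_Yv : ContDiff ℝ ∞ Yv := by
  have hq : ∀ i : Fin 6, ContDiff ℝ ∞ (fun q : Fin 6 → ℝ => q i) := fun i =>
    (ContinuousLinearMap.proj i : (Fin 6 → ℝ) →L[ℝ] ℝ).contDiff
  refine contDiff_pi.2 fun j => ?_
  fin_cases j
  · exact contDiff_const.mul (hq 3)
  · exact ((contDiff_const.mul (hq 0)).mul ((hq 3).sub (hq 4))).sub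
      ((contDiff_const.mul (hq 5)).mul ((hq 1).add (hq 2)))
  · exact ((contDiff_const.mul (hq 0)).mul ((hq 4).sub (hq 3))).add
      ((contDiff_const.mul (hq 5)).mul (((hq 2).add (hq 1)).sub contDiff_const))
  · exact ((contDiff_const.mul (hq 0)).mul (((hq 2).sub (hq 1)).sub contDiff_const)).sub
      ((contDiff_const.mul (hq 5)).mul ((hq 3).add (hq 4)))
  · exact ((contDiff_const.mul (hq 0)).mul ((hq 1).sub (hq 2))).add
      ((contDiff_const.mul (hq 5)).mul ((hq 4).add (hq 3)))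
  · exact (((((contDiff_const.mul (hq 2)).sub (contDiff_const.mul ((hq 2).pow 2))).sub
      (contDiff_const.mul ((hq 4).pow 2))).add (contDiff_const.mul ((hq 1).pow 2)))).add
      (contDiff_const.mul ((hq 3).pow 2))

lemma exists_lipschitzOn_Yv :
    ∃ L' : ℝ≥0, LipschitzOnWith L' Yv (Metric.closedBall (0 : Fin 6 → ℝ) 1) := by
  have h : LocallyLipschitz Yv := (contDiff_Yv.of_le (by exact_mod_cast le_top)).locallyLipschitz
  exact h.locallyLipschitzOn.exists_lipschitzOnWith_of_compact (isCompact_closedBall _ _)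

/-- The Lipschitz constant of the reduced field on the unit ball. -/
def LY : ℝ≥0 := Classical.choose exists_lipschitzOn_Yv

lemma lipY : LipschitzOnWith LY Yv (Metric.closedBall (0 : Fin 6 → ℝ) 1) :=
  Classical.choose_spec exists_lipschitzOn_Yv

/-- The small time of the flow that is used. -/
def eps : ℝ := 1 / (3 * ((LX : ℝ) + LY + 1))

lemma eps_pos : 0 < eps := by
  unfold eps
  have h1 : (0 : ℝ) ≤ LX := LX.2
  have h2 : (0 : ℝ) ≤ LY := LY.2
  positivity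

lemma eps_mul_add : eps * ((LX : ℝ) + LY + 1) = 1 / 3 := by
  unfold eps
  have h1 : (0 : ℝ) ≤ LX := LX.2
  have h2 : (0 : ℝ) ≤ LY := LY.2
  field_simp

lemma eps_mul_LX : eps * LX ≤ 1 / 3 := by
  have h1 : (0 : ℝ) ≤ LX := LX.2
  have h2 : (0 : ℝ) ≤ LY := LY.2
  have := eps_mul_add
  have := eps_pos
  nlinarith

lemma eps_mul_LY : eps * LY ≤ 1 / 3 := by
  have h1 : (0 : ℝ) ≤ LX := LX.2
  have h2 : (0 : ℝ) ≤ LY := LY.2
  have := eps_mul_add
  have := eps_pos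
  nlinarith

lemma eps_lt_T0 : eps < T0 := by
  unfold T0
  rw [lt_div_iff₀ (by have h1 : (0 : ℝ) ≤ LX := LX.2; positivity)]
  have h1 : (0 : ℝ) ≤ LX := LX.2
  have h2 : (0 : ℝ) ≤ LY := LY.2
  have := eps_mul_add
  have := eps_pos
  nlinarith

lemma abs_mem_T0 {s : ℝ} (hs : s ∈ Set.Icc 0 eps) : |s| < T0 := by
  rw [abs_of_nonneg hs.1]
  exact lt_of_le_of_lt hs.2 eps_lt_T0

/-! ### The equilibria of the reduced dynamics -/

lemma plucker (z : C5) :
    pp 0 1 z * pp 2 3 z - pp 0 2 z * pp 1 3 z + pp 0 3 z * pp 1 2 z = 0 := by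
  simp only [pp]
  ring

lemma sum_pp_sq {z : C5} (h4 : z 4 = 0) :
    pp 0 1 z ^ 2 + pp 0 2 z ^ 2 + pp 0 3 z ^ 2 + pp 1 2 z ^ 2 + pp 1 3 z ^ 2 + pp 2 3 z ^ 2 =
      r2 z ^ 2 - q1 z ^ 2 - 4 * q2 z ^ 2 := by
  simp only [pp, r2, q1, q2, h4]
  simp
  ring

lemma equilibria {z : C5} (hz : z ∈ unitCone) (h4 : z 4 = 0) (hY : Yv (piVec z) = 0) :
    (pp 0 2 z = 0 ∧ pp 0 3 z = 1) ∨ (pp 0 2 z = Real.sqrt 3 / 2 ∧ pp 0 3 z = -1 / 2) ∨
      (pp 0 2 z = -(Real.sqrt 3 / 2) ∧ pp 0 3 z = -1 / 2) := by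
  obtain ⟨h1, h2, h3⟩ := (mem_unitCone_iff z).1 hz
  have hsum := sum_pp_sq h4
  rw [h1, h2, h3] at hsum
  have hpl := plucker z
  have h0 : Yv (piVec z) 0 = 0 := by rw [hY]; rfl
  have h1' : Yv (piVec z) 1 = 0 := by rw [hY]; rfl
  have h2' : Yv (piVec z) 2 = 0 := by rw [hY]; rfl
  have h3' : Yv (piVec z) 3 = 0 := by rw [hY]; rfl
  have h4' : Yv (piVec z) 4 = 0 := by rw [hY]; rfl
  have h5' : Yv (piVec z) 5 = 0 := by rw [hY]; rfl
  simp [Yv, piVec] at h0 h1' h2' h3' h4' h5'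
  generalize pp 0 1 z = a at *
  generalize pp 0 2 z = b at *
  generalize pp 0 3 z = c at *
  generalize pp 1 2 z = d at *
  generalize pp 1 3 z = e at *
  generalize pp 2 3 z = f at *
  have hd : d = 0 := by linarith
  subst hd
  have hf : f = 0 := by nlinarith
  subst hf
  have ha : a = 0 := by nlinarith
  subst ha
  have hbe : b * e = 0 := by linarith
  have hs3 : Real.sqrt 3 ^ 2 = 3 := Real.sq_sqrt (by norm_num)
  have he : e = 0 := by
    rcases mul_eq_zero.1 hbe with hb | he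
    · subst hb
      have hc1 : c = 1 := by nlinarith
      subst hc1
      nlinarith
    · exact he
  subst he
  have hc : (c - 1) * (2 * c + 1) = 0 := by nlinarith
  rcases mul_eq_zero.1 hc with hc1 | hc1
  · left
    have hc2 : c = 1 := by linarith
    subst hc2
    refine ⟨?_, rfl⟩
    nlinarith
  · right
    have hc2 : c = -1 / 2 := by linarith
    subst hc2
    have hb2 : (b - Real.sqrt 3 / 2) * (b + Real.sqrt 3 / 2) = 0 := by nlinarith
    rcases mul_eq_zero.1 hb2 with hb3 | hb3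
    · left
      exact ⟨by linarith, rfl⟩
    · right
      exact ⟨by linarith, rfl⟩

/-- The three lines are spanned by these vectors. -/
def vv (y s : ℝ) : C5 := ![1, 0, -(Complex.I * y), -(Complex.I * s), 0]

lemma eq_smul_vv {z : C5} (hz : r2 z = 1) {y s : ℝ} (hys : y ^ 2 + s ^ 2 = 1) (h2 : pp 0 2 z = y)
    (h3 : pp 0 3 z = s) : z = z 0 • vv y s := by
  have hid : ((z 2).re - y * (z 0).im) ^ 2 + ((z 2).im + y * (z 0).re) ^ 2 +
      ((z 3).re - s * (z 0).im) ^ 2 + ((z 3).im + s * (z 0).re) ^ 2 +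
      (z 1).re ^ 2 + (z 1).im ^ 2 + (z 4).re ^ 2 + (z 4).im ^ 2 =
      r2 z + (y ^ 2 + s ^ 2 - 1) * ((z 0).re ^ 2 + (z 0).im ^ 2) - y * pp 0 2 z - s * pp 0 3 z := by
    simp only [r2, pp]
    ring
  rw [hz, hys, h2, h3] at hid
  have hzero : ((z 2).re - y * (z 0).im) ^ 2 + ((z 2).im + y * (z 0).re) ^ 2 +
      ((z 3).re - s * (z 0).im) ^ 2 + ((z 3).im + s * (z 0).re) ^ 2 +
      (z 1).re ^ 2 + (z 1).im ^ 2 + (z 4).re ^ 2 + (z 4).im ^ 2 = 0 := by
    rw [hid]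
    nlinarith
  have pos := fun x : ℝ => sq_nonneg x
  have e1 : (z 2).re - y * (z 0).im = 0 := by
    nlinarith [pos ((z 2).re - y * (z 0).im), pos ((z 2).im + y * (z 0).re),
      pos ((z 3).re - s * (z 0).im), pos ((z 3).im + s * (z 0).re), pos (z 1).re, pos (z 1).im,
      pos (z 4).re, pos (z 4).im]
  have e2 : (z 2).im + y * (z 0).re = 0 := by
    nlinarith [pos ((z 2).re - y * (z 0).im), pos ((z 2).im + y * (z 0).re),
      pos ((z 3).re - s * (z 0).im), pos ((z 3).im + s * (z 0).re), pos (z 1).re, pos (z 1).im,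
      pos (z 4).re, pos (z 4).im]
  have e3 : (z 3).re - s * (z 0).im = 0 := by
    nlinarith [pos ((z 2).re - y * (z 0).im), pos ((z 2).im + y * (z 0).re),
      pos ((z 3).re - s * (z 0).im), pos ((z 3).im + s * (z 0).re), pos (z 1).re, pos (z 1).im,
      pos (z 4).re, pos (z 4).im]
  have e4 : (z 3).im + s * (z 0).re = 0 := by
    nlinarith [pos ((z 2).re - y * (z 0).im), pos ((z 2).im + y * (z 0).re),
      pos ((z 3).re - s * (z 0).im), pos ((z 3).im + s * (z 0).re), pos (z 1).re, pos (z 1).im,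
      pos (z 4).re, pos (z 4).im]
  have e5 : (z 1).re = 0 := by
    nlinarith [pos ((z 2).re - y * (z 0).im), pos ((z 2).im + y * (z 0).re),
      pos ((z 3).re - s * (z 0).im), pos ((z 3).im + s * (z 0).re), pos (z 1).re, pos (z 1).im,
      pos (z 4).re, pos (z 4).im]
  have e6 : (z 1).im = 0 := by
    nlinarith [pos ((z 2).re - y * (z 0).im), pos ((z 2).im + y * (z 0).re),
      pos ((z 3).re - s * (z 0).im), pos ((z 3).im + s * (z 0).re), pos (z 1).re, pos (z 1).im,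
      pos (z 4).re, pos (z 4).im]
  have e7 : (z 4).re = 0 := by
    nlinarith [pos ((z 2).re - y * (z 0).im), pos ((z 2).im + y * (z 0).re),
      pos ((z 3).re - s * (z 0).im), pos ((z 3).im + s * (z 0).re), pos (z 1).re, pos (z 1).im,
      pos (z 4).re, pos (z 4).im]
  have e8 : (z 4).im = 0 := by
    nlinarith [pos ((z 2).re - y * (z 0).im), pos ((z 2).im + y * (z 0).re),
      pos ((z 3).re - s * (z 0).im), pos ((z 3).im + s * (z 0).re), pos (z 1).re, pos (z 1).im,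
      pos (z 4).re, pos (z 4).im]
  ext j
  fin_cases j
  · simp [vv]
  · simp [vv, Complex.ext_iff, e5, e6]
  · simp [vv, Complex.ext_iff]
    constructor <;> linarith
  · simp [vv, Complex.ext_iff]
    constructor <;> linarith
  · simp [vv, Complex.ext_iff, e7, e8]

end Crest.Agent.Lib.QuadricFlow
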