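import Crest.Agent.Lib.RuledPatch

set_option autoImplicit false

open MeasureTheory Measure
open scoped ENNReal RealInnerProductSpace

namespace Crest.Agent.Lib.RuledCover

open Crest.Agent.Lib.CylArea

/-- The grid cell `gcell r q`, closed and thickened by `t`. -/
def bigBox (r : ℝ) (q : ℤ × ℤ) (t : ℝ) : Set E2 :=
  {x | x 0 ∈ Set.Icc ((q.1 : ℝ) * r - t) ((q.1 : ℝ) * r + r + t) ∧
    x 1 ∈ Set.Icc ((q.2 : ℝ) * r - t) ((q.2 : ℝ) * r + r + t)}

lemma mem_bigBox_of_near {r t : ℝ} {q : ℤ × ℤ} {p y : E2} (hp : p ∈ gcell r q)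
    (h : ‖y - p‖ ≤ t) : y ∈ bigBox r q t := by
  have h0 := (abs_coord_le_norm (y - p) 0).trans h
  have h1 := (abs_coord_le_norm (y - p) 1).trans h
  simp only [PiLp.sub_apply] at h0 h1
  obtain ⟨a0, b0⟩ := abs_le.1 h0
  obtain ⟨a1, b1⟩ := abs_le.1 h1
  exact ⟨⟨by linarith [hp.1.1], by linarith [hp.1.2]⟩, ⟨by linarith [hp.2.1], by linarith [hp.2.2]⟩⟩

lemma bigBox_near {r t τ : ℝ} {q : ℤ × ℤ} {y y' : E2} (hy : y ∈ bigBox r q t)
    (h : ‖y' - y‖ ≤ τ) : y' ∈ bigBox r q (t + τ) := by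
  have h0 := (abs_coord_le_norm (y' - y) 0).trans h
  have h1 := (abs_coord_le_norm (y' - y) 1).trans h
  simp only [PiLp.sub_apply] at h0 h1
  obtain ⟨a0, b0⟩ := abs_le.1 h0
  obtain ⟨a1, b1⟩ := abs_le.1 h1
  exact ⟨⟨by linarith [hy.1.1], by linarith [hy.1.2]⟩, ⟨by linarith [hy.2.1], by linarith [hy.2.2]⟩⟩

lemma bigBox_dist {r t : ℝ} {q : ℤ × ℤ} {p y : E2} (hp : p ∈ gcell r q)
    (hy : y ∈ bigBox r q t) : ‖y - p‖ ≤ 2 * (r + t) := by
  have h1 : |y 0 - p 0| ≤ r + t := by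
    rw [abs_le]; constructor <;> linarith [hp.1.1, hp.1.2, hy.1.1, hy.1.2]
  have h2 : |y 1 - p 1| ≤ r + t := by
    rw [abs_le]; constructor <;> linarith [hp.2.1, hp.2.2, hy.2.1, hy.2.2]
  have := norm_le_abs_add_abs (y - p)
  simp only [PiLp.sub_apply] at this
  linarith

lemma volume_bigBox (r t : ℝ) (hr : 0 < r) (ht : 0 ≤ t) (q : ℤ × ℤ) :
    volume (bigBox r q t) = ENNReal.ofReal ((r + 2 * t) ^ 2) := by
  have := volume_box_closed ((q.1 : ℝ) * r - t) ((q.1 : ℝ) * r + r + t) ((q.2 : ℝ) * r - t)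
    ((q.2 : ℝ) * r + r + t) (by linarith) (by linarith)
  rw [show ((q.1 : ℝ) * r + r + t - ((q.1 : ℝ) * r - t)) * ((q.2 : ℝ) * r + r + t - ((q.2 : ℝ) * r - t))
    = (r + 2 * t) ^ 2 by ring] at this
  exact this

/-- Only finitely many lattice points lie in a thickened cell. -/
lemma exists_latt_index (r t w θ : ℝ) (hw : 0 < w) (q : ℤ × ℤ) (p₀ : E2) (hp : p₀ ∈ gcell r q) :
    ∃ Z : Finset (ℤ × ℤ), ∀ z, z ∈ Z ↔ latt p₀ θ w z ∈ bigBox r q t := by
  obtain ⟨N, hN⟩ := exists_nat_gt (|2 * (r + t)| / w)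
  rw [div_lt_iff₀ hw] at hN
  have hfin : {z : ℤ × ℤ | latt p₀ θ w z ∈ bigBox r q t}.Finite := by
    apply Set.Finite.subset (Set.finite_Icc ((-(N : ℤ), -(N : ℤ)) : ℤ × ℤ) ((N : ℤ), (N : ℤ)))
    intro z hz
    have hd := (bigBox_dist hp hz).trans (le_abs_self _)
    have key : ∀ (a : ℤ) (τ : E2), ‖τ‖ = 1 → inner ℝ (latt p₀ θ w z - p₀) τ = a * w →
        -(N : ℤ) ≤ a ∧ a ≤ (N : ℤ) := by
      intro a τ hτ he
      have h1 := abs_real_inner_le_norm (latt p₀ θ w z - p₀) τ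
      rw [he, hτ, mul_one, abs_mul, abs_of_pos hw] at h1
      have h2 : |(a : ℝ)| * w < N * w := lt_of_le_of_lt (h1.trans hd) hN
      have h3 : |(a : ℝ)| < N := lt_of_mul_lt_mul_right h2 hw.le
      obtain ⟨h4, h5⟩ := abs_lt.1 h3
      have h6 : -(N : ℤ) < a := by exact_mod_cast h4
      have h7 : a < (N : ℤ) := by exact_mod_cast h5
      constructor <;> omega
    have e1 : inner ℝ (latt p₀ θ w z - p₀) (tau1 θ) = z.1 * w := by
      have : latt p₀ θ w z - p₀ = ((z.1 : ℝ) * w) • tau1 θ + ((z.2 : ℝ) * w) • tau2 θ := by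
        simp only [latt]; abel
      rw [this, inner_add_left, inner_smul_left, inner_smul_left, inner_tau1_self, inner_tau21]
      simp
    have e2 : inner ℝ (latt p₀ θ w z - p₀) (tau2 θ) = z.2 * w := by
      have : latt p₀ θ w z - p₀ = ((z.1 : ℝ) * w) • tau1 θ + ((z.2 : ℝ) * w) • tau2 θ := by
        simp only [latt]; abel
      rw [this, inner_add_left, inner_smul_left, inner_smul_left, inner_tau2_self, inner_tau12]
      simp
    have b1 := key z.1 _ (norm_tau1 θ) e1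
    have b2 := key z.2 _ (norm_tau2 θ) e2
    exact ⟨⟨b1.1, b2.1⟩, ⟨b1.2, b2.2⟩⟩
  refine ⟨hfin.toFinset, fun z => ?_⟩
  simp

/-- The number of lattice cells used by one patch. -/
lemma card_latt_bound (r t w θ : ℝ) (hr : 0 < r) (ht : 0 ≤ t) (hw : 0 < w) (q : ℤ × ℤ) (p₀ : E2)
    (Z : Finset (ℤ × ℤ)) (hZ : ∀ z, z ∈ Z ↔ latt p₀ θ w z ∈ bigBox r q t) :
    (Z.card : ℝ) * w ^ 2 ≤ (r + 2 * t + 4 * w) ^ 2 := by
  have h := card_mul_le_volume p₀ θ w hw Z (bigBox r q (t + 2 * w)) (by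
    intro z hz x hx y hy
    apply bigBox_near ((hZ z).1 hz)
    have e : latt p₀ θ w z + x • tau1 θ + y • tau2 θ - latt p₀ θ w z = x • tau1 θ + y • tau2 θ := by
      abel
    rw [e]
    calc ‖x • tau1 θ + y • tau2 θ‖ ≤ ‖x • tau1 θ‖ + ‖y • tau2 θ‖ := norm_add_le _ _
      _ = |x| + |y| := by
          rw [norm_smul, norm_smul, norm_tau1, norm_tau2, Real.norm_eq_abs, Real.norm_eq_abs]
          ring
      _ ≤ 2 * w := by
          rw [abs_of_nonneg hx.1, abs_of_nonneg hy.1]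
          linarith [hx.2, hy.2])
  rw [volume_bigBox r _ hr (by positivity)] at h
  rw [← ENNReal.ofReal_natCast, ← ENNReal.ofReal_mul (by positivity),
    ENNReal.ofReal_le_ofReal_iff (by positivity)] at h
  calc (Z.card : ℝ) * w ^ 2 ≤ (r + 2 * (t + 2 * w)) ^ 2 := h
    _ = (r + 2 * t + 4 * w) ^ 2 := by ring

end Crest.Agent.Lib.RuledCover
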