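import Crest.Agent.Lib.CylArea

/-!
# The brick lemma and rotated frames for traceless planar linear maps

* `brick_int`: for reals `a b` with `0 ≤ a b < 1`, translates of the unit square by the lattice
  generated by `(1, b)`, `(a, 1)` cover the plane.
* `exists_frame`: a traceless linear map of the plane has zero diagonal in a suitable rotated frame.
-/

set_option autoImplicit false

open MeasureTheory Measure
open scoped ENNReal RealInnerProductSpace

namespace Crest.Agent.Lib.RuledCover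

open Crest.Agent.Lib.CylArea

/-- Discrete intermediate value argument: lattice translates of the unit square cover the plane. -/
theorem brick_int (a b : ℝ) (hab : 0 ≤ a * b) (hab1 : a * b < 1) (ξ ζ : ℝ) :
    ∃ i j : ℤ, ξ - i - a * j ∈ Set.Icc (0 : ℝ) 1 ∧ ζ - b * i - j ∈ Set.Icc (0 : ℝ) 1 := by
  -- the rounding map
  set I : ℤ → ℤ := fun j => ⌊ξ - a * j⌋ with hI
  set f : ℤ → ℝ := fun j => ζ - b * (I j : ℝ) - j with hf
  have hfloor : ∀ j : ℤ, (I j : ℝ) ≤ ξ - a * j ∧ ξ - a * j < (I j : ℝ) + 1 := fun j =>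
    ⟨Int.floor_le _, Int.lt_floor_add_one _⟩
  -- monotonicity: `f` decreases by at most one per step
  have hstep : ∀ j : ℤ, f j ≤ f (j + 1) + 1 := by
    intro j
    have key : b * ((I (j + 1) : ℝ) - I j) ≤ 0 := by
      rcases lt_trichotomy b 0 with hb | hb | hb
      · have ha : a ≤ 0 := by
          by_contra hc
          push Not at hc
          nlinarith
        have : I j ≤ I (j + 1) := by
          apply Int.floor_le_floor
          push_cast
          nlinarith
        have : (I j : ℝ) ≤ I (j + 1) := by exact_mod_cast this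
        nlinarith
      · simp [hb]
      · have ha : 0 ≤ a := by
          by_contra hc
          push Not at hc
          nlinarith
        have : I (j + 1) ≤ I j := by
          apply Int.floor_le_floor
          push_cast
          nlinarith
        have : (I (j + 1) : ℝ) ≤ I j := by exact_mod_cast this
        nlinarith
    simp only [hf]
    push_cast
    nlinarith
  -- linear bound on `f`
  have hbd : ∀ j : ℤ, |f j - (ζ - b * ξ - (1 - a * b) * j)| ≤ |b| := by
    intro j
    have h1 := (hfloor j).1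
    have h2 := (hfloor j).2
    have e : f j - (ζ - b * ξ - (1 - a * b) * j) = b * ((ξ - a * j) - I j) := by
      simp only [hf]; ring
    rw [e, abs_mul]
    have h3 : |(ξ - a * j) - (I j : ℝ)| ≤ 1 := by
      rw [abs_le]; constructor <;> linarith
    nlinarith [abs_nonneg b]
  have hpos : 0 < 1 - a * b := by linarith
  -- existence of a point with `f ≥ 0`, and an upper bound
  obtain ⟨j0, hj0⟩ : ∃ j : ℤ, 0 ≤ f j := by
    obtain ⟨n, hn⟩ := exists_nat_gt ((|b| + |ζ - b * ξ|) / (1 - a * b))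
    refine ⟨-(n : ℤ), ?_⟩
    have h := abs_le.1 (hbd (-(n : ℤ)))
    rw [div_lt_iff₀ hpos] at hn
    have h4 := le_abs_self (ζ - b * ξ)
    have h5 := neg_abs_le (ζ - b * ξ)
    push_cast at h ⊢
    nlinarith [h.1, h.2]
  obtain ⟨B, hB⟩ : ∃ B : ℤ, ∀ j : ℤ, 0 ≤ f j → j ≤ B := by
    obtain ⟨n, hn⟩ := exists_nat_gt ((|b| + |ζ - b * ξ|) / (1 - a * b))
    refine ⟨n, fun j hj => ?_⟩
    by_contra hc
    push Not at hc
    have hc' : (n : ℝ) < j := by exact_mod_cast hc
    have h := abs_le.1 (hbd j)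
    rw [div_lt_iff₀ hpos] at hn
    have h4 := le_abs_self (ζ - b * ξ)
    have h5 := neg_abs_le (ζ - b * ξ)
    nlinarith [h.1, h.2]
  obtain ⟨j, hj, hjmax⟩ := Int.exists_greatest_of_bdd (P := fun j => 0 ≤ f j) ⟨B, hB⟩ ⟨j0, hj0⟩
  refine ⟨I j, j, ?_, ?_⟩
  · have h1 := (hfloor j).1
    have h2 := (hfloor j).2
    constructor <;> linarith
  · have hlt : f (j + 1) < 0 := by
      by_contra hc
      push Not at hc
      have := hjmax (j + 1) hc
      omega
    have := hstep j
    constructor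
    · exact hj
    · simp only [hf] at hj hlt this ⊢
      linarith

/-- Scaled version of the brick lemma. -/
theorem brick_scaled (a b : ℝ) (hab : 0 ≤ a * b) (hab1 : a * b < 1) (w : ℝ) (hw : 0 < w)
    (x y : ℝ) :
    ∃ i j : ℤ, (x - i * w) + a * (y - j * w) ∈ Set.Icc (0 : ℝ) w ∧
      (y - j * w) + b * (x - i * w) ∈ Set.Icc (0 : ℝ) w := by
  obtain ⟨i, j, h1, h2⟩ := brick_int a b hab hab1 ((x + a * y) / w) ((y + b * x) / w)
  refine ⟨i, j, ?_, ?_⟩
  · have e : (x - i * w) + a * (y - j * w) = w * ((x + a * y) / w - i - a * j) := by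
      field_simp; ring
    rw [e]
    constructor
    · exact mul_nonneg hw.le h1.1
    · nlinarith [h1.2]
  · have e : (y - j * w) + b * (x - i * w) = w * ((y + b * x) / w - b * i - j) := by
      field_simp; ring
    rw [e]
    constructor
    · exact mul_nonneg hw.le h2.1
    · nlinarith [h2.2]

/-- Solving the brick system gives bounded offsets. -/
lemma brick_offset_bound (a b c0 K w u v : ℝ) (hc0 : 0 < c0) (hc : a * b ≤ 1 - c0)
    (ha : |a| ≤ K) (hb : |b| ≤ K) (hw : 0 < w)
    (h1 : u + a * v ∈ Set.Icc (0 : ℝ) w) (h2 : v + b * u ∈ Set.Icc (0 : ℝ) w) :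
    |u| ≤ (1 + K) * w / c0 ∧ |v| ≤ (1 + K) * w / c0 := by
  have hK : 0 ≤ K := le_trans (abs_nonneg a) ha
  have hpos : c0 ≤ 1 - a * b := by linarith
  have e1 : (1 - a * b) * u = (u + a * v) - a * (v + b * u) := by ring
  have e2 : (1 - a * b) * v = (v + b * u) - b * (u + a * v) := by ring
  have habs : ∀ (X Y t : ℝ), X ∈ Set.Icc (0 : ℝ) w → Y ∈ Set.Icc (0 : ℝ) w → |t| ≤ K →
      |X - t * Y| ≤ (1 + K) * w := by
    intro X Y t hX hY ht
    have h3 : |t * Y| ≤ K * w := by
      rw [abs_mul, abs_of_nonneg hY.1]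
      exact mul_le_mul ht hY.2 hY.1 hK
    have h4 : |X| ≤ w := by rw [abs_of_nonneg hX.1]; exact hX.2
    calc |X - t * Y| ≤ |X| + |t * Y| := abs_sub _ _
      _ ≤ w + K * w := add_le_add h4 h3
      _ = (1 + K) * w := by ring
  have hu := habs _ _ a h1 h2 ha
  have hv := habs _ _ b h2 h1 hb
  rw [← e1, abs_mul] at hu
  rw [← e2, abs_mul] at hv
  have hpos' : 0 < 1 - a * b := by linarith
  rw [abs_of_pos hpos'] at hu hv
  constructor
  · rw [le_div_iff₀ hc0]
    have : |u| * c0 ≤ |u| * (1 - a * b) := mul_le_mul_of_nonneg_left hpos (abs_nonneg _)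
    linarith [mul_comm (1 - a * b) |u|]
  · rw [le_div_iff₀ hc0]
    have : |v| * c0 ≤ |v| * (1 - a * b) := mul_le_mul_of_nonneg_left hpos (abs_nonneg _)
    linarith [mul_comm (1 - a * b) |v|]

/-- First vector of the rotated frame. -/
noncomputable def tau1 (θ : ℝ) : E2 := !₂[Real.cos θ, Real.sin θ]
/-- Second vector of the rotated frame. -/
noncomputable def tau2 (θ : ℝ) : E2 := !₂[-Real.sin θ, Real.cos θ]

@[simp] lemma tau1_zero (θ : ℝ) : tau1 θ 0 = Real.cos θ := by simp [tau1]
@[simp] lemma tau1_one (θ : ℝ) : tau1 θ 1 = Real.sin θ := by simp [tau1]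
@[simp] lemma tau2_zero (θ : ℝ) : tau2 θ 0 = -Real.sin θ := by simp [tau2]
@[simp] lemma tau2_one (θ : ℝ) : tau2 θ 1 = Real.cos θ := by simp [tau2]

lemma inner_E2 (x y : E2) : inner ℝ x y = x 0 * y 0 + x 1 * y 1 := by
  simp [PiLp.inner_apply, Fin.sum_univ_two]; ring

lemma norm_sq_E2 (x : E2) : ‖x‖ ^ 2 = x 0 ^ 2 + x 1 ^ 2 := by
  rw [EuclideanSpace.norm_sq_eq]; simp [Fin.sum_univ_two]

lemma ext_E2 {x y : E2} (h0 : x 0 = y 0) (h1 : x 1 = y 1) : x = y := by
  ext i; fin_cases i
  · exact h0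
  · exact h1

lemma norm_tau1 (θ : ℝ) : ‖tau1 θ‖ = 1 := by
  have : ‖tau1 θ‖ ^ 2 = 1 := by
    rw [norm_sq_E2]; simp [Real.cos_sq_add_sin_sq]
  nlinarith [norm_nonneg (tau1 θ), sq_nonneg (‖tau1 θ‖ - 1), sq_nonneg (‖tau1 θ‖ + 1)]

lemma norm_tau2 (θ : ℝ) : ‖tau2 θ‖ = 1 := by
  have : ‖tau2 θ‖ ^ 2 = 1 := by
    rw [norm_sq_E2]; simp [Real.sin_sq_add_cos_sq]
  nlinarith [norm_nonneg (tau2 θ), sq_nonneg (‖tau2 θ‖ - 1), sq_nonneg (‖tau2 θ‖ + 1)]

lemma inner_tau12 (θ : ℝ) : inner ℝ (tau1 θ) (tau2 θ) = 0 := by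
  rw [inner_E2]; simp; ring

/-- Entries of a linear map of the plane. -/
lemma apply_entries (A : E2 →ₗ[ℝ] E2) (x : E2) :
    A x = x 0 • A (EuclideanSpace.single 0 1) + x 1 • A (EuclideanSpace.single 1 1) := by
  have : x = x 0 • (EuclideanSpace.single 0 1 : E2) + x 1 • (EuclideanSpace.single 1 1 : E2) := by
    ext i; fin_cases i <;> simp
  conv_lhs => rw [this]
  simp

lemma trace_det_entries (A : E2 →ₗ[ℝ] E2) :
    LinearMap.trace ℝ _ A = A (EuclideanSpace.single 0 1) 0 + A (EuclideanSpace.single 1 1) 1 ∧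
    LinearMap.det A = A (EuclideanSpace.single 0 1) 0 * A (EuclideanSpace.single 1 1) 1
      - A (EuclideanSpace.single 1 1) 0 * A (EuclideanSpace.single 0 1) 1 := by
  let b := (EuclideanSpace.basisFun (Fin 2) ℝ).toBasis
  have hM : ∀ i j, LinearMap.toMatrix b b A i j = A (EuclideanSpace.single j 1) i := by
    intro i j
    simp [LinearMap.toMatrix_apply, b]
  constructor
  · rw [LinearMap.trace_eq_matrix_trace ℝ b, Matrix.trace_fin_two, hM, hM]
  · rw [← LinearMap.det_toMatrix b, Matrix.det_fin_two, hM, hM, hM, hM]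

/-- A traceless linear map of the plane has zero diagonal in a suitable rotated frame. -/
theorem exists_frame (A : E2 →ₗ[ℝ] E2) (htr : LinearMap.trace ℝ _ A = 0) :
    ∃ θ α β : ℝ, A (tau1 θ) = β • tau2 θ ∧ A (tau2 θ) = α • tau1 θ ∧ LinearMap.det A = -(α * β) := by
  obtain ⟨h1, h2⟩ := trace_det_entries A
  set a := A (EuclideanSpace.single 0 1) 0 with ha
  set b := A (EuclideanSpace.single 1 1) 0 with hb
  set c := A (EuclideanSpace.single 0 1) 1 with hc
  set d := A (EuclideanSpace.single 1 1) 1 with hd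
  have hda : d = -a := by rw [htr] at h1; linarith
  have happly : ∀ x : E2, A x 0 = a * x 0 + b * x 1 ∧ A x 1 = c * x 0 + d * x 1 := by
    intro x
    rw [apply_entries A x]
    simp only [PiLp.add_apply, PiLp.smul_apply, smul_eq_mul]
    constructor <;> ring
  -- intermediate value theorem for the quadratic form
  let q : ℝ → ℝ := fun θ => a * (Real.cos θ ^ 2 - Real.sin θ ^ 2)
    + (b + c) * (Real.sin θ * Real.cos θ)
  have hq : Continuous q := by fun_prop
  have hq0 : q 0 = a := by simp [q]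
  have hqpi : q (Real.pi / 2) = -a := by simp [q]
  obtain ⟨θ, -, hθ⟩ : ∃ θ ∈ Set.uIcc 0 (Real.pi / 2), q θ = 0 := by
    have := intermediate_value_uIcc (a := 0) (b := Real.pi / 2) hq.continuousOn
    have h0 : (0 : ℝ) ∈ Set.uIcc (q 0) (q (Real.pi / 2)) := by
      rw [hq0, hqpi]
      rcases le_total a 0 with h | h
      · rw [Set.uIcc_of_le (by linarith)]; constructor <;> linarith
      · rw [Set.uIcc_of_ge (by linarith)]; constructor <;> linarith
    exact this h0
  set C := Real.cos θ with hC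
  set S := Real.sin θ with hS
  have hCS : C ^ 2 + S ^ 2 = 1 := Real.cos_sq_add_sin_sq θ
  simp only [q] at hθ
  rw [← hC, ← hS] at hθ
  -- off-diagonal entries in the rotated frame
  refine ⟨θ, C * (-(a * S) + b * C) + S * (-(c * S) + d * C),
    -S * (a * C + b * S) + C * (c * C + d * S), ?_, ?_, ?_⟩
  · apply ext_E2
    · rw [(happly _).1, PiLp.smul_apply, tau1_zero, tau1_one, tau2_zero, smul_eq_mul, ← hC, ← hS, hda]
      linear_combination C * hθ - (a * C + b * S) * hCS
    · rw [(happly _).2, PiLp.smul_apply, tau1_zero, tau1_one, tau2_one, smul_eq_mul, ← hC, ← hS, hda]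
      linear_combination S * hθ - (c * C + (-a) * S) * hCS
  · apply ext_E2
    · rw [(happly _).1, PiLp.smul_apply, tau2_zero, tau2_one, tau1_zero, smul_eq_mul, ← hC, ← hS, hda]
      linear_combination S * hθ - (-a * S + b * C) * hCS
    · rw [(happly _).2, PiLp.smul_apply, tau2_zero, tau2_one, tau1_one, smul_eq_mul, ← hC, ← hS, hda]
      linear_combination -C * hθ - (-c * S + (-a) * C) * hCS

  · rw [h2, hda]
    linear_combination (-(a * (C ^ 2 - S ^ 2) + (b + c) * (S * C))) * hθ
      - (a * (-a) - b * c) * (C ^ 2 + S ^ 2 + 1) * hCS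

end Crest.Agent.Lib.RuledCover
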