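import Crest.Agent.Lib.RuledBox

set_option autoImplicit false

open MeasureTheory Measure
open scoped ENNReal RealInnerProductSpace

namespace Crest.Agent.Lib.RuledCover

open Crest.Agent.Lib.CylArea

/-- The cost density. -/
noncomputable def costJ (h : ℝ) (g : E2) : ℝ := 1 / Real.sqrt (1 + (g 0) ^ 2 + h ^ 2 * (g 1) ^ 2)

lemma costJ_cont (h : ℝ) : Continuous (costJ h) := by
  unfold costJ
  apply Continuous.div continuous_const
  · fun_prop
  · intro g
    have : 0 < 1 + (g 0) ^ 2 + h ^ 2 * (g 1) ^ 2 := by positivity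
    exact (Real.sqrt_pos.2 this).ne'

lemma costJ_nonneg (h : ℝ) (g : E2) : 0 ≤ costJ h g := by
  unfold costJ; positivity

lemma costJ_le_one (h : ℝ) (g : E2) : costJ h g ≤ 1 := by
  unfold costJ
  rw [div_le_one (Real.sqrt_pos.2 (by positivity))]
  rw [Real.one_le_sqrt]
  nlinarith [sq_nonneg (g 0), mul_nonneg (sq_nonneg h) (sq_nonneg (g 1))]

/-- Elementary inequality for the final parameter choice. -/
lemma one_add_pow_four_le (x : ℝ) (h0 : 0 ≤ x) (h1 : x ≤ 1) : (1 + x) ^ 4 ≤ 1 + 15 * x := by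
  have h2 : x ^ 2 ≤ x := by nlinarith
  have h3 : x ^ 3 ≤ x := by nlinarith
  have h4 : x ^ 4 ≤ x := by nlinarith [sq_nonneg x, sq_nonneg (x ^ 2)]
  nlinarith

/-- Patch-level statement: all constants fixed, one grid cell, one frozen point. -/
theorem patch_cover (V : E2 → E2) (A : E2 →ₗ[ℝ] E2) (θ α β : ℝ)
    (h1 : A (tau1 θ) = β • tau2 θ) (h2 : A (tau2 θ) = α • tau1 θ)
    (L M₀ c0 η w r t ω : ℝ) (hL : 0 < L) (hc0 : 0 < c0) (hαβ0 : 0 ≤ α * β)
    (hαβ1 : L ^ 2 * (α * β) ≤ 1 - c0) (hα : |α| ≤ M₀) (hβ : |β| ≤ M₀)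
    (hη : 0 ≤ η) (hw : 0 < w) (ht : t = 2 * ((1 + L * M₀) / c0) * w) (q : ℤ × ℤ)
    (p₀ p : E2) (hp : p ∈ gcell r q)
    (he : ‖V p - V p₀ - A (p - p₀)‖ ≤ ω) (hω : L * ω ≤ η * w) (s : ℝ) (hs : |s| ≤ L) :
    ∃ z : ℤ × ℤ, latt p₀ θ w z ∈ bigBox r q t ∧
      ∃ x ∈ Set.Icc (0 : ℝ) 1, ∃ y ∈ Set.Icc (0 : ℝ) 1,
        p + s • V p =
          (latt p₀ θ w z - (η * w) • (tau1 θ + tau2 θ)) + x • (((1 + 2 * η) * w) • tau1 θ)
            + y • (((1 + 2 * η) * w) • tau2 θ) + s • (V p₀ + A (latt p₀ θ w z - p₀)) := by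
  have hs2 : s ^ 2 ≤ L ^ 2 := by
    rw [← sq_abs s]
    exact pow_le_pow_left₀ (abs_nonneg s) hs 2
  have hab0 : 0 ≤ (s * α) * (s * β) := by
    have : (s * α) * (s * β) = s ^ 2 * (α * β) := by ring
    rw [this]; positivity
  have hab1 : (s * α) * (s * β) ≤ 1 - c0 := by
    have : (s * α) * (s * β) = s ^ 2 * (α * β) := by ring
    rw [this]
    exact (mul_le_mul_of_nonneg_right hs2 hαβ0).trans hαβ1
  have hM₀ : 0 ≤ M₀ := (abs_nonneg α).trans hα
  have hKa : |s * α| ≤ L * M₀ := by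
    rw [abs_mul]; exact mul_le_mul hs hα (abs_nonneg _) hL.le
  have hKb : |s * β| ≤ L * M₀ := by
    rw [abs_mul]; exact mul_le_mul hs hβ (abs_nonneg _) hL.le
  have hee : |s| * ‖V p - V p₀ - A (p - p₀)‖ ≤ η * w := by
    have h3 : 0 ≤ ω := (norm_nonneg _).trans he
    calc |s| * ‖V p - V p₀ - A (p - p₀)‖ ≤ L * ω := mul_le_mul hs he (norm_nonneg _) hL.le
      _ ≤ η * w := hω
  obtain ⟨z, hz, x, hx, y, hy, hxy⟩ := brick_cover A θ α β h1 h2 s c0 (L * M₀) hab0 hc0 hab1 hKa hKb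
    η w hη hw p₀ p (V p₀) (V p - V p₀ - A (p - p₀)) hee
  refine ⟨z, ?_, x, hx, y, hy, ?_⟩
  · apply mem_bigBox_of_near hp
    rw [norm_sub_rev, ht]
    calc ‖p - latt p₀ θ w z‖ ≤ 2 * ((1 + L * M₀) * w / c0) := hz
      _ = 2 * ((1 + L * M₀) / c0) * w := by ring
  · rw [← hxy]
    congr 2
    abel

/-- **Main covering theorem** (the statement of S0326). -/
theorem ruled_cover
    (D : Set E2) (hD : IsCompact D)
    (V : E2 → E2) (U : Set E2)
    (hU : IsOpen U) (hDU : D ⊆ U) (hV : ContDiffOn ℝ 1 V U) (L h : ℝ) (hL : 0 < L)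
    (htr : ∀ p ∈ D, LinearMap.trace ℝ _ (fderiv ℝ V p).toLinearMap = 0)
    (hdet : ∀ p ∈ D, -(L ^ 2)⁻¹ < LinearMap.det (fderiv ℝ V p).toLinearMap ∧
      LinearMap.det (fderiv ℝ V p).toLinearMap ≤ 0)
    (ε : ℝ) (hε : 0 < ε) :
    ∃ (k : ℕ) (c a b g : Fin k → E2),
      (∀ i, a i ≠ 0 ∧ ‖b i‖ = ‖a i‖ ∧ inner ℝ (a i) (b i) = 0) ∧
      {z : ℝ × E2 | ∃ p ∈ D, abs z.1 ≤ L ∧ z.2 = p + z.1 • V p} ⊆
        ⋃ i, {z : ℝ × E2 | ∃ x ∈ Set.Icc (0 : ℝ) 1, ∃ y ∈ Set.Icc (0 : ℝ) 1,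
          z.2 = c i + x • a i + y • b i + z.1 • g i} ∧
      ∑ i, ‖a i‖ ^ 2 / Real.sqrt (1 + (g i 0) ^ 2 + h ^ 2 * (g i 1) ^ 2) ≤
        (∫ p in D, 1 / Real.sqrt (1 + (V p 0) ^ 2 + h ^ 2 * (V p 1) ^ 2)) + ε := by
  classical
  rcases D.eq_empty_or_nonempty with rfl | hne
  · refine ⟨0, Fin.elim0, Fin.elim0, Fin.elim0, Fin.elim0, fun i => i.elim0, ?_, ?_⟩
    · rintro z ⟨p, hp, -⟩
      exact hp.elim
    · simp only [Finset.univ_eq_empty, Finset.sum_empty, Measure.restrict_empty, integral_zero_measure,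
        zero_add]
      exact hε.le
  set f : E2 → ℝ := fun p => costJ h (V p) with hf
  have hfeq : (∫ p in D, 1 / Real.sqrt (1 + (V p 0) ^ 2 + h ^ 2 * (V p 1) ^ 2)) = ∫ p in D, f p := rfl
  have hVU : ContinuousOn V U := hV.continuousOn
  have hVc : ContinuousOn V D := hVU.mono hDU
  have hfc : ContinuousOn f D := (costJ_cont h).comp_continuousOn hVc
  -- compact neighbourhood
  obtain ⟨δ₀, hδ₀, hth⟩ := hD.exists_cthickening_subset_open hU hDU
  set K := Metric.cthickening δ₀ D with hKdef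
  have hK : IsCompact K := hD.cthickening
  have hDK : D ⊆ K := Metric.self_subset_cthickening D
  have hDVU : ContinuousOn (fderiv ℝ V) U := hV.continuousOn_fderiv_of_isOpen hU le_rfl
  have hDVK : ContinuousOn (fderiv ℝ V) K := hDVU.mono hth
  obtain ⟨M₁, hM₁⟩ := hK.exists_bound_of_continuousOn hDVK
  set M₀ := max M₁ 0 with hM₀def
  have hM₀0 : 0 ≤ M₀ := le_max_right _ _
  have hM₀ : ∀ x ∈ K, ‖fderiv ℝ V x‖ ≤ M₀ := fun x hx => (hM₁ x hx).trans (le_max_left _ _)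
  obtain ⟨M₂, hM₂⟩ := hD.exists_bound_of_continuousOn hVc
  -- lower bound for the determinant
  have hdetc : ContinuousOn (fun p => LinearMap.det (fderiv ℝ V p).toLinearMap) D :=
    ContinuousLinearMap.continuous_det.comp_continuousOn (hDVU.mono hDU)
  obtain ⟨pm, hpm, hmin⟩ := hD.exists_isMinOn hne hdetc
  set dm := LinearMap.det (fderiv ℝ V pm).toLinearMap with hdm
  set c0 := 1 + L ^ 2 * dm with hc0def
  have hL2 : 0 < L ^ 2 := by positivity
  have hc0 : 0 < c0 := by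
    have := (hdet pm hpm).1
    rw [neg_lt_iff_pos_add] at this
    have h3 : 0 < L ^ 2 * (dm + (L ^ 2)⁻¹) := mul_pos hL2 this
    rw [mul_add, mul_inv_cancel₀ hL2.ne'] at h3
    rw [hc0def]; linarith
  -- parameters
  set vD := volume.real D with hvD
  have hvD0 : 0 ≤ vD := measureReal_nonneg
  set I₀ := ∫ p in D, f p with hI₀
  have hfint : IntegrableOn f D := hfc.integrableOn_compact hD
  have hI₀0 : 0 ≤ I₀ := integral_nonneg (fun p => costJ_nonneg h (V p))
  have hI₀v : I₀ ≤ vD := by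
    have hconst : IntegrableOn (fun _ : E2 => (1 : ℝ)) D :=
      integrableOn_const hD.measure_lt_top.ne
    have := setIntegral_mono_on hfint hconst hD.isClosed.measurableSet
      (fun p _ => costJ_le_one h (V p))
    simpa [hvD] using this
  set lam := ε / (2 * (vD + ε + 1)) with hlam
  have hlam0 : 0 < lam := by positivity
  set x₀ := min 1 (lam / 15) with hx₀
  have hx₀0 : 0 < x₀ := lt_min one_pos (by positivity)
  have hx₀1 : x₀ ≤ 1 := min_le_left _ _
  have hx₀2 : 15 * x₀ ≤ lam := by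
    have := min_le_right 1 (lam / 15)
    linarith
  set C₂ := 2 * ((1 + L * M₀) / c0) with hC₂
  have hC₂0 : 0 < C₂ := by positivity
  set C₃ := 2 * C₂ + 4 with hC₃
  have hC₃0 : 0 < C₃ := by positivity
  set η := x₀ / 2 with hη
  have hη0 : 0 < η := by positivity
  set κ := x₀ / C₃ with hκ
  have hκ0 : 0 < κ := by positivity
  have hκC : C₂ * κ ≤ 1 := by
    rw [hκ, mul_div_assoc', div_le_one hC₃0]
    nlinarith
  set εR := min 1 (ε / 4) with hεR
  have hεR0 : 0 < εR := lt_min one_pos (by positivity)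
  set ε₁ := ε / (4 * (vD + 1)) with hε₁
  have hε₁0 : 0 < ε₁ := by positivity
  -- scales
  obtain ⟨rR, hrR, hRiem⟩ := riemann_grid D hD f hfc (fun p => costJ_le_one h (V p))
    (fun p => costJ_nonneg h (V p)) εR hεR0
  set ω := η * κ / (2 * L) with hω
  have hω0 : 0 < ω := by positivity
  have hucDV := hK.uniformContinuousOn_of_continuous hDVK
  rw [Metric.uniformContinuousOn_iff] at hucDV
  obtain ⟨δω, hδω, hucDV⟩ := hucDV ω hω0
  have hBall : IsCompact (Metric.closedBall (0 : E2) (M₂ + 4 * M₀)) := isCompact_closedBall _ _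
  have hucJ := hBall.uniformContinuousOn_of_continuous (costJ_cont h).continuousOn
  rw [Metric.uniformContinuousOn_iff] at hucJ
  obtain ⟨δJ, hδJ, hucJ⟩ := hucJ ε₁ hε₁0
  set r := min (min rR (δ₀ / 2)) (min (δω / 4) (min 1 (δJ / (8 * (M₀ + 1))))) with hr
  have hr0 : 0 < r := by
    refine lt_min (lt_min hrR (by positivity)) (lt_min (by positivity) (lt_min one_pos ?_))
    positivity
  have hr1 : r ≤ rR := (min_le_left _ _).trans (min_le_left _ _)
  have hr2 : 2 * r ≤ δ₀ := by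
    have : r ≤ δ₀ / 2 := (min_le_left _ _).trans (min_le_right _ _)
    linarith
  have hr3 : 2 * r < δω := by
    have : r ≤ δω / 4 := (min_le_right _ _).trans (min_le_left _ _)
    linarith
  have hr4 : r ≤ 1 := (min_le_right _ _).trans ((min_le_right _ _).trans (min_le_left _ _))
  have hr5 : 4 * M₀ * r < δJ := by
    have h3 : r ≤ δJ / (8 * (M₀ + 1)) :=
      (min_le_right _ _).trans ((min_le_right _ _).trans (min_le_right _ _))
    rw [le_div_iff₀ (by positivity)] at h3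
    nlinarith
  set w := κ * r with hw
  have hw0 : 0 < w := by positivity
  set t := C₂ * w with ht
  have ht0 : 0 ≤ t := by positivity
  have htr' : t ≤ r := by
    rw [ht, hw, ← mul_assoc]
    nlinarith
  -- the grid
  obtain ⟨I, hI⟩ := exists_grid_index D hD.isBounded r hr0
  have hPex : ∀ q, ∃ p, q ∈ I → p ∈ gcell r q ∩ D := by
    intro q
    by_cases hq : q ∈ I
    · obtain ⟨p, hp⟩ := (hI q).1 hq
      exact ⟨p, fun _ => hp⟩
    · exact ⟨0, fun h' => absurd h' hq⟩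
  choose P hP using hPex
  have hFr : ∀ q, ∃ θ α β : ℝ, q ∈ I →
      ((fderiv ℝ V (P q)).toLinearMap (tau1 θ) = β • tau2 θ ∧
       (fderiv ℝ V (P q)).toLinearMap (tau2 θ) = α • tau1 θ ∧
       LinearMap.det (fderiv ℝ V (P q)).toLinearMap = -(α * β)) := by
    intro q
    by_cases hq : q ∈ I
    · obtain ⟨θ, α, β, h1, h2, h3⟩ := exists_frame _ (htr (P q) (hP q hq).2)
      exact ⟨θ, α, β, fun _ => ⟨h1, h2, h3⟩⟩
    · exact ⟨0, 0, 0, fun h' => absurd h' hq⟩
  choose θ α β hFr using hFr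
  have hZex : ∀ q, ∃ Z : Finset (ℤ × ℤ), q ∈ I →
      ∀ z, z ∈ Z ↔ latt (P q) (θ q) w z ∈ bigBox r q t := by
    intro q
    by_cases hq : q ∈ I
    · obtain ⟨Z, hZ⟩ := exists_latt_index r t w (θ q) hw0 q (P q) (hP q hq).1
      exact ⟨Z, fun _ => hZ⟩
    · exact ⟨∅, fun h' => absurd h' hq⟩
  choose Z hZ using hZex
  -- the family of cylinders
  set S := I.sigma Z with hS
  let eq := S.equivFin
  let lat : (Σ _ : ℤ × ℤ, ℤ × ℤ) → E2 := fun x => latt (P x.1) (θ x.1) w x.2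
  let gf : (Σ _ : ℤ × ℤ, ℤ × ℤ) → E2 := fun x =>
    V (P x.1) + (fderiv ℝ V (P x.1)).toLinearMap (lat x - P x.1)
  let side := (1 + 2 * η) * w
  have hside : 0 < side := by positivity
  refine ⟨S.card,
    fun i => lat (eq.symm i).1 - (η * w) • (tau1 (θ (eq.symm i).1.1) + tau2 (θ (eq.symm i).1.1)),
    fun i => side • tau1 (θ (eq.symm i).1.1),
    fun i => side • tau2 (θ (eq.symm i).1.1),
    fun i => gf (eq.symm i).1, ?_, ?_, ?_⟩
  · -- squares
    intro i
    refine ⟨?_, ?_, ?_⟩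
    · intro h0
      have := congrArg norm h0
      rw [norm_smul, norm_tau1, norm_zero, mul_one, Real.norm_eq_abs, abs_of_pos hside] at this
      exact hside.ne' this
    · rw [norm_smul, norm_smul, norm_tau1, norm_tau2]
    · rw [inner_smul_left, inner_smul_right, inner_tau12]; simp
  · -- covering
    rintro ⟨s, ξ⟩ ⟨p, hp, hs, hξ⟩
    simp only at hs hξ
    set q : ℤ × ℤ := (⌊p 0 / r⌋, ⌊p 1 / r⌋) with hq
    have hpq : p ∈ gcell r q := mem_gcell_floor r hr0 p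
    have hqI : q ∈ I := (hI q).2 ⟨p, hpq, hp⟩
    obtain ⟨hPq1, hPqD⟩ := hP q hqI
    obtain ⟨hf1, hf2, hf3⟩ := hFr q hqI
    have hPK : P q ∈ K := hDK hPqD
    -- frame coefficients are bounded
    have hαb : |α q| ≤ M₀ := by
      have h3 : ‖(fderiv ℝ V (P q)) (tau2 (θ q))‖ ≤ ‖fderiv ℝ V (P q)‖ * ‖tau2 (θ q)‖ :=
        ContinuousLinearMap.le_opNorm _ _
      have h4 : (fderiv ℝ V (P q)) (tau2 (θ q)) = α q • tau1 (θ q) := hf2
      rw [h4, norm_smul, norm_tau1, norm_tau2, mul_one, mul_one, Real.norm_eq_abs] at h3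
      exact h3.trans (hM₀ _ hPK)
    have hβb : |β q| ≤ M₀ := by
      have h3 : ‖(fderiv ℝ V (P q)) (tau1 (θ q))‖ ≤ ‖fderiv ℝ V (P q)‖ * ‖tau1 (θ q)‖ :=
        ContinuousLinearMap.le_opNorm _ _
      have h4 : (fderiv ℝ V (P q)) (tau1 (θ q)) = β q • tau2 (θ q) := hf1
      rw [h4, norm_smul, norm_tau1, norm_tau2, mul_one, mul_one, Real.norm_eq_abs] at h3
      exact h3.trans (hM₀ _ hPK)
    have hαβ0 : 0 ≤ α q * β q := by
      have := (hdet _ hPqD).2
      rw [hf3] at this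
      linarith
    have hαβ1 : L ^ 2 * (α q * β q) ≤ 1 - c0 := by
      have h3 : dm ≤ LinearMap.det (fderiv ℝ V (P q)).toLinearMap := hmin hPqD
      rw [hf3] at h3
      rw [hc0def]
      nlinarith
    -- the mean value estimate
    have hpP : ‖p - P q‖ ≤ 2 * r := gcell_dist r q hpq hPq1
    have hball : ∀ x ∈ Metric.closedBall (P q) (2 * r), x ∈ K := by
      intro x hx
      apply Metric.mem_cthickening_of_dist_le x (P q) δ₀ D hPqD
      exact (Metric.mem_closedBall.1 hx).trans hr2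
    have hmv : ‖V p - V (P q) - (fderiv ℝ V (P q)) (p - P q)‖ ≤ ω * ‖p - P q‖ := by
      apply Convex.norm_image_sub_le_of_norm_fderiv_le' (𝕜 := ℝ)
        (s := Metric.closedBall (P q) (2 * r))
      · intro x hx
        exact (hV.contDiffAt (hU.mem_nhds (hth (hball x hx)))).differentiableAt one_ne_zero
      · intro x hx
        have h3 : dist x (P q) < δω := lt_of_le_of_lt (Metric.mem_closedBall.1 hx) hr3
        have := hucDV x (hball x hx) (P q) hPK h3
        rw [dist_eq_norm] at this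
        exact this.le
      · exact convex_closedBall _ _
      · exact Metric.mem_closedBall_self (by positivity)
      · rw [Metric.mem_closedBall, dist_eq_norm]; exact hpP
    have hmv2 : ‖V p - V (P q) - (fderiv ℝ V (P q)).toLinearMap (p - P q)‖ ≤ ω * (2 * r) :=
      hmv.trans (mul_le_mul_of_nonneg_left hpP hω0.le)
    have hωr : L * (ω * (2 * r)) ≤ η * w := by
      rw [hω, hw]
      apply le_of_eq
      field_simp
    obtain ⟨z, hz, x, hx, y, hy, hxy⟩ := patch_cover V (fderiv ℝ V (P q)).toLinearMap (θ q) (α q) (β q)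
      hf1 hf2 L M₀ c0 η w r t (ω * (2 * r)) hL hc0 hαβ0 hαβ1 hαb hβb hη0.le hw0 rfl q (P q) p hpq hmv2
      hωr s hs
    have hzZ : z ∈ Z q := (hZ q hqI z).2 hz
    have hmem : (⟨q, z⟩ : Σ _ : ℤ × ℤ, ℤ × ℤ) ∈ S := Finset.mem_sigma.2 ⟨hqI, hzZ⟩
    rw [Set.mem_iUnion]
    refine ⟨eq ⟨⟨q, z⟩, hmem⟩, x, hx, y, hy, ?_⟩
    simp only [Equiv.symm_apply_apply]
    rw [hξ, hxy]
  · -- the cost
    have hcost : ∀ i : Fin S.card,
        ‖side • tau1 (θ (eq.symm i).1.1)‖ ^ 2 /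
          Real.sqrt (1 + (gf (eq.symm i).1 0) ^ 2 + h ^ 2 * (gf (eq.symm i).1 1) ^ 2)
        = (fun x : (Σ _ : ℤ × ℤ, ℤ × ℤ) => side ^ 2 * costJ h (gf x)) (eq.symm i).1 := by
      intro i
      rw [norm_smul, norm_tau1, mul_one, Real.norm_eq_abs, abs_of_pos hside]
      simp only [costJ]
      ring
    simp only [hcost]
    rw [Equiv.sum_comp eq.symm (fun y : S => (fun x : (Σ _ : ℤ × ℤ, ℤ × ℤ) =>
      side ^ 2 * costJ h (gf x)) y.1)]
    rw [Finset.sum_coe_sort S (fun x : (Σ _ : ℤ × ℤ, ℤ × ℤ) => side ^ 2 * costJ h (gf x))]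
    rw [hS, Finset.sum_sigma]
    -- cost of one patch
    have hpatch : ∀ q ∈ I, ∑ z ∈ Z q, side ^ 2 * costJ h (gf ⟨q, z⟩)
        ≤ (1 + x₀) ^ 4 * (r ^ 2 * f (P q) + ε₁ * r ^ 2) := by
      intro q hq
      obtain ⟨hPq1, hPqD⟩ := hP q hq
      have hPK : P q ∈ K := hDK hPqD
      have hterm : ∀ z ∈ Z q, costJ h (gf ⟨q, z⟩) ≤ f (P q) + ε₁ := by
        intro z hz
        have hzb : latt (P q) (θ q) w z ∈ bigBox r q t := (hZ q hq z).1 hz
        have hd : ‖latt (P q) (θ q) w z - P q‖ ≤ 4 * r := by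
          have := bigBox_dist hPq1 hzb
          linarith
        have hg : ‖gf ⟨q, z⟩ - V (P q)‖ ≤ 4 * M₀ * r := by
          have e : gf ⟨q, z⟩ - V (P q) = (fderiv ℝ V (P q)) (latt (P q) (θ q) w z - P q) := by
            simp only [gf, lat, ContinuousLinearMap.coe_coe]; abel
          rw [e]
          calc ‖(fderiv ℝ V (P q)) (latt (P q) (θ q) w z - P q)‖
              ≤ ‖fderiv ℝ V (P q)‖ * ‖latt (P q) (θ q) w z - P q‖ :=
                ContinuousLinearMap.le_opNorm _ _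
            _ ≤ M₀ * (4 * r) := mul_le_mul (hM₀ _ hPK) hd (norm_nonneg _) hM₀0
            _ = 4 * M₀ * r := by ring
        have hV1 : ‖V (P q)‖ ≤ M₂ := hM₂ _ hPqD
        have hM₂0 : 0 ≤ M₂ := (norm_nonneg _).trans hV1
        have hb1 : V (P q) ∈ Metric.closedBall (0 : E2) (M₂ + 4 * M₀) := by
          rw [mem_closedBall_zero_iff]; linarith
        have hb2 : gf ⟨q, z⟩ ∈ Metric.closedBall (0 : E2) (M₂ + 4 * M₀) := by
          rw [mem_closedBall_zero_iff]
          have h3 : ‖gf ⟨q, z⟩‖ ≤ ‖gf ⟨q, z⟩ - V (P q)‖ + ‖V (P q)‖ := norm_le_norm_sub_add _ _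
          nlinarith
        have hdd : dist (gf ⟨q, z⟩) (V (P q)) < δJ := by
          rw [dist_eq_norm]; linarith
        have := hucJ _ hb2 _ hb1 hdd
        rw [Real.dist_eq] at this
        have h5 := (abs_lt.1 this).2
        simp only [hf]
        linarith
      have hcard := card_latt_bound r t w (θ q) hr0 ht0 hw0 q (P q) (Z q) (hZ q hq)
      have hrw : r + 2 * t + 4 * w = (1 + x₀) * r := by
        rw [ht, hw]
        have : C₃ * κ = x₀ := by rw [hκ]; field_simp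
        have h6 : (2 * C₂ + 4) * (κ * r) = x₀ * r := by rw [← hC₃, ← mul_assoc, this]
        linarith
      rw [hrw] at hcard
      have hfp : 0 ≤ f (P q) + ε₁ := add_nonneg (costJ_nonneg h _) hε₁0.le
      calc ∑ z ∈ Z q, side ^ 2 * costJ h (gf ⟨q, z⟩)
          ≤ ∑ z ∈ Z q, side ^ 2 * (f (P q) + ε₁) :=
            Finset.sum_le_sum (fun z hz => mul_le_mul_of_nonneg_left (hterm z hz) (by positivity))
        _ = (Z q).card * side ^ 2 * (f (P q) + ε₁) := by
            rw [Finset.sum_const, nsmul_eq_mul]; ring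
        _ = (1 + x₀) ^ 2 * ((Z q).card * w ^ 2) * (f (P q) + ε₁) := by
            have : side = (1 + x₀) * w := by
              simp only [side, hη]; ring
            rw [this]; ring
        _ ≤ (1 + x₀) ^ 2 * (((1 + x₀) * r) ^ 2) * (f (P q) + ε₁) := by
            apply mul_le_mul_of_nonneg_right _ hfp
            exact mul_le_mul_of_nonneg_left hcard (by positivity)
        _ = (1 + x₀) ^ 4 * (r ^ 2 * f (P q) + ε₁ * r ^ 2) := by ring
    obtain ⟨hR1, hR2⟩ := hRiem r hr0 hr1 I hI P hP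
    rw [hfeq]
    have hsum1 : ∑ q ∈ I, ∑ z ∈ Z q, side ^ 2 * costJ h (gf ⟨q, z⟩)
        ≤ (1 + x₀) ^ 4 * (∑ q ∈ I, r ^ 2 * f (P q) + ε₁ * ∑ q ∈ I, r ^ 2) := by
      calc ∑ q ∈ I, ∑ z ∈ Z q, side ^ 2 * costJ h (gf ⟨q, z⟩)
          ≤ ∑ q ∈ I, (1 + x₀) ^ 4 * (r ^ 2 * f (P q) + ε₁ * r ^ 2) := Finset.sum_le_sum hpatch
        _ = _ := by
            rw [← Finset.mul_sum, Finset.sum_add_distrib,
              ← Finset.mul_sum I (fun _ => r ^ 2) ε₁]
    set X := ∑ q ∈ I, r ^ 2 * f (P q) + ε₁ * ∑ q ∈ I, r ^ 2 with hX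
    have hX0 : 0 ≤ X := by
      apply add_nonneg
      · exact Finset.sum_nonneg (fun q _ => mul_nonneg (by positivity) (costJ_nonneg h _))
      · exact mul_nonneg hε₁0.le (Finset.sum_nonneg (fun q _ => by positivity))
    have hεR1 : εR ≤ 1 := min_le_left _ _
    have hεR2 : εR ≤ ε / 4 := min_le_right _ _
    have hXle : X ≤ I₀ + ε / 2 := by
      have h3 : ε₁ * ∑ q ∈ I, r ^ 2 ≤ ε₁ * (vD + 1) :=
        mul_le_mul_of_nonneg_left (hR2.trans (by linarith)) hε₁0.le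
      have h4 : ε₁ * (vD + 1) = ε / 4 := by
        rw [hε₁]; field_simp
      linarith
    have hpow : (1 + x₀) ^ 4 ≤ 1 + lam := by
      have := one_add_pow_four_le x₀ hx₀0.le hx₀1
      linarith
    have hlamX : lam * X ≤ ε / 2 := by
      have h3 : X ≤ vD + ε + 1 := by linarith
      calc lam * X ≤ lam * (vD + ε + 1) := mul_le_mul_of_nonneg_left h3 hlam0.le
        _ = ε / 2 := by rw [hlam]; field_simp
    calc _ ≤ (1 + x₀) ^ 4 * X := hsum1
      _ ≤ (1 + lam) * X := mul_le_mul_of_nonneg_right hpow hX0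
      _ = X + lam * X := by ring
      _ ≤ I₀ + ε := by linarith

end Crest.Agent.Lib.RuledCover
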