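import Crest.Agent.Lib.RuledMain

/-!
# From sheared square cylinders in `ℝ × ℝ²` to genuine cylinders with open bases in `ℝ³` (S0329)
-/

set_option autoImplicit false

open MeasureTheory Measure
open scoped ENNReal RealInnerProductSpace

namespace Crest.Agent.Lib.RuledOpen

open Crest.Agent.Lib.CylArea Crest.Agent.Lib.RuledCover

/-- `ℝ³`. -/
abbrev E3 := EuclideanSpace ℝ (Fin 3)

lemma inner_E3 (x y : E3) : inner ℝ x y = x 0 * y 0 + x 1 * y 1 + x 2 * y 2 := by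
  simp [PiLp.inner_apply, Fin.sum_univ_three]; ring

lemma norm_sq_E3 (x : E3) : ‖x‖ ^ 2 = x 0 ^ 2 + x 1 ^ 2 + x 2 ^ 2 := by
  rw [EuclideanSpace.norm_sq_eq]; simp [Fin.sum_univ_three]

lemma ext_E3 {x y : E3} (h0 : x 0 = y 0) (h1 : x 1 = y 1) (h2 : x 2 = y 2) : x = y := by
  ext i; fin_cases i
  · exact h0
  · exact h1
  · exact h2

/-- The cylinder direction for velocity `g`. -/
noncomputable def dvec (h : ℝ) (g : E2) : E3 := !₂[1, g 0, h * g 1]

/-- The length of the cylinder direction. -/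
noncomputable def nrm (h : ℝ) (g : E2) : ℝ := Real.sqrt (1 + (g 0) ^ 2 + h ^ 2 * (g 1) ^ 2)

/-- The unit direction. -/
noncomputable def uvec (h : ℝ) (g : E2) : E3 := (1 / nrm h g) • dvec h g

/-- The plane `x = 0` with anisotropic scale. -/
noncomputable def psi0 (h : ℝ) (ζ : E2) : E3 := !₂[0, ζ 0, h * ζ 1]

/-- Orthogonal projection along `u`. -/
noncomputable def prj (u y : E3) : E3 := y - (inner ℝ y u) • u

/-- Oblique projection along the direction to the parameter plane. -/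
noncomputable def xi (h : ℝ) (g : E2) (y : E3) : E2 := !₂[y 1 - y 0 * g 0, y 2 / h - y 0 * g 1]

lemma nrm_sq (h : ℝ) (g : E2) : nrm h g ^ 2 = 1 + (g 0) ^ 2 + h ^ 2 * (g 1) ^ 2 :=
  Real.sq_sqrt (by positivity)

lemma nrm_pos (h : ℝ) (g : E2) : 0 < nrm h g := Real.sqrt_pos.2 (by positivity)

lemma norm_dvec_sq (h : ℝ) (g : E2) : ‖dvec h g‖ ^ 2 = nrm h g ^ 2 := by
  rw [norm_sq_E3, nrm_sq]
  simp [dvec]
  ring

lemma norm_uvec (h : ℝ) (g : E2) : ‖uvec h g‖ = 1 := by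
  have h1 : ‖dvec h g‖ = nrm h g := by
    have := norm_dvec_sq h g
    exact (pow_left_inj₀ (norm_nonneg _) (nrm_pos h g).le two_ne_zero).1 this
  rw [uvec, norm_smul, h1, Real.norm_eq_abs, abs_of_pos (by have := nrm_pos h g; positivity)]
  have := (nrm_pos h g).ne'
  field_simp

lemma inner_prj_uvec (u y : E3) (hu : ‖u‖ = 1) : inner ℝ (prj u y) u = 0 := by
  rw [prj, inner_sub_left, inner_smul_left, real_inner_self_eq_norm_sq, hu]
  simp

lemma xi_psi0 (h : ℝ) (hh : 0 < h) (g ζ : E2) : xi h g (psi0 h ζ) = ζ := by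
  apply ext_E2
  · simp [xi, psi0]
  · simp [xi, psi0]
    field_simp

lemma decomp_xi (h : ℝ) (hh : 0 < h) (g : E2) (y : E3) :
    y = y 0 • dvec h g + psi0 h (xi h g y) := by
  apply ext_E3
  · simp [dvec, psi0]
  · simp [dvec, psi0, xi]
  · simp [dvec, psi0, xi]
    field_simp
    ring

lemma xi_sub_smul_dvec (h : ℝ) (hh : 0 < h) (g : E2) (y : E3) (τ : ℝ) :
    xi h g (y - τ • dvec h g) = xi h g y := by
  apply ext_E2
  · simp [xi, dvec]; ring
  · simp [xi, dvec]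
    field_simp
    ring

/-- The linear-in-`y` projection along the unit direction removes multiples of the direction. -/
lemma prj_eq_sub_smul_dvec (h : ℝ) (g : E2) (y : E3) :
    prj (uvec h g) y = y - ((inner ℝ y (dvec h g)) / nrm h g ^ 2) • dvec h g := by
  rw [prj, uvec, inner_smul_right, smul_smul]
  congr 2
  have := (nrm_pos h g).ne'
  field_simp

lemma xi_prj_psi0 (h : ℝ) (hh : 0 < h) (g ζ : E2) : xi h g (prj (uvec h g) (psi0 h ζ)) = ζ := by
  rw [prj_eq_sub_smul_dvec, xi_sub_smul_dvec h hh, xi_psi0 h hh]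

/-- On the plane `u^⊥` the maps `prj ∘ psi0` and `xi` are inverse. -/
lemma prj_psi0_xi (h : ℝ) (hh : 0 < h) (g : E2) (y : E3) (hy : inner ℝ y (uvec h g) = 0) :
    prj (uvec h g) (psi0 h (xi h g y)) = y := by
  have h1 := decomp_xi h hh g y
  set ζ := xi h g y
  have h2 : psi0 h ζ = y - y 0 • dvec h g := eq_sub_of_add_eq' h1.symm
  have hn := (nrm_pos h g).ne'
  have hd : dvec h g = (nrm h g) • uvec h g := by
    rw [uvec, smul_smul]
    field_simp
    simp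
  have hduu : inner ℝ (uvec h g) (uvec h g) = 1 := by
    rw [real_inner_self_eq_norm_sq, norm_uvec]; norm_num
  have h3 : inner ℝ (psi0 h ζ) (uvec h g) = - (y 0 * nrm h g) := by
    rw [h2, inner_sub_left, hy, inner_smul_left, hd, inner_smul_left, hduu]
    simp
  rw [prj, h3, h2, hd]
  module

/-- Expansion in an orthogonal pair of equal length in the plane. -/
lemma expand_square (a b : E2) (ha : a ≠ 0) (hab : inner ℝ a b = 0) (hn : ‖b‖ = ‖a‖) (ζ : E2) :
    ζ = (inner ℝ ζ a / ‖a‖ ^ 2) • a + (inner ℝ ζ b / ‖a‖ ^ 2) • b := by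
  have hpos : 0 < ‖a‖ ^ 2 := by have := norm_pos_iff.2 ha; positivity
  have hA : ‖a‖ ^ 2 = a 0 ^ 2 + a 1 ^ 2 := norm_sq_E2 a
  have hB : ‖a‖ ^ 2 = b 0 ^ 2 + b 1 ^ 2 := by rw [← hn]; exact norm_sq_E2 b
  have hI : a 0 * b 0 + a 1 * b 1 = 0 := by rw [← inner_E2]; exact hab
  have hne : a 0 ^ 2 + a 1 ^ 2 ≠ 0 := by rw [← hA]; exact hpos.ne'
  -- `b = ± (-a₁, a₀)` gives the needed 2×2 identities
  have h1 : a 0 ^ 2 + b 0 ^ 2 = a 0 ^ 2 + a 1 ^ 2 := by
    -- from orthogonality: (a₀b₀)² = (a₁b₁)²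
    have h2 : (a 0 * b 0) ^ 2 = (a 1 * b 1) ^ 2 := by
      have : a 0 * b 0 = -(a 1 * b 1) := by linarith
      rw [this]; ring
    have h3 : (a 0 ^ 2 + a 1 ^ 2) * (b 0 ^ 2 - a 1 ^ 2) = 0 := by
      have h4 : b 1 ^ 2 = a 0 ^ 2 + a 1 ^ 2 - b 0 ^ 2 := by linarith
      have h5 : a 0 ^ 2 * b 0 ^ 2 = a 1 ^ 2 * (a 0 ^ 2 + a 1 ^ 2 - b 0 ^ 2) := by
        rw [← h4]; nlinarith
      nlinarith
    have h6 : b 0 ^ 2 - a 1 ^ 2 = 0 := by
      rcases mul_eq_zero.1 h3 with h | h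
      · exact absurd h hne
      · exact h
    linarith
  have h7 : b 0 ^ 2 = a 1 ^ 2 := by linarith
  have h8 : b 1 ^ 2 = a 0 ^ 2 := by linarith
  have h9 : a 0 * a 1 + b 0 * b 1 = 0 := by
    -- multiply by `a₀² + a₁²` and use orthogonality
    have : (a 0 ^ 2 + a 1 ^ 2) * (a 0 * a 1 + b 0 * b 1) = 0 := by
      have e : (a 0 ^ 2 + a 1 ^ 2) * (a 0 * a 1 + b 0 * b 1)
          = a 0 * a 1 * (a 0 ^ 2 + a 1 ^ 2) + (a 0 * b 0) * (a 0 * b 1) + (a 1 * b 1) * (a 1 * b 0) := by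
        ring
      have e1 : a 0 * b 0 = -(a 1 * b 1) := by linarith
      rw [e, e1]
      have e2 : a 0 * a 1 * (a 0 ^ 2 + a 1 ^ 2) + -(a 1 * b 1) * (a 0 * b 1) + a 1 * b 1 * (a 1 * b 0)
          = a 0 * a 1 * (a 0 ^ 2 + a 1 ^ 2) - a 0 * a 1 * b 1 ^ 2 + a 1 ^ 2 * (b 0 * b 1) := by ring
      rw [e2, h8]
      have e3 : a 1 ^ 2 * (b 0 * b 1) = a 1 * b 0 * (a 1 * b 1) := by ring
      have e4 : a 1 * b 1 = -(a 0 * b 0) := by linarith
      rw [e3, e4]
      have e5 : a 1 * b 0 * -(a 0 * b 0) = - (a 0 * a 1 * b 0 ^ 2) := by ring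
      rw [e5, h7]
      ring
    rcases mul_eq_zero.1 this with h | h
    · exact absurd h hne
    · exact h
  apply ext_E2
  · simp only [inner_E2, PiLp.add_apply, PiLp.smul_apply, smul_eq_mul]
    rw [hA]
    field_simp
    linear_combination (-(ζ 0)) * h1 + (-(ζ 1)) * h9
  · simp only [inner_E2, PiLp.add_apply, PiLp.smul_apply, smul_eq_mul]
    rw [hA]
    field_simp
    have h10 : a 1 ^ 2 + b 1 ^ 2 = a 0 ^ 2 + a 1 ^ 2 := by linarith
    linear_combination (-(ζ 1)) * h10 + (-(ζ 0)) * h9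

/-- The Gram identity for the projection of planar vectors. -/
lemma gram_prj_identity (A1 A2 B1 B2 D1 D2 N : ℝ) (hN : N = 1 + D1 ^ 2 + D2 ^ 2) :
    ((A1 ^ 2 + A2 ^ 2) - (A1 * D1 + A2 * D2) ^ 2 / N) *
      ((B1 ^ 2 + B2 ^ 2) - (B1 * D1 + B2 * D2) ^ 2 / N)
      - ((A1 * B1 + A2 * B2) - (A1 * D1 + A2 * D2) * (B1 * D1 + B2 * D2) / N) ^ 2
      = (A1 * B2 - A2 * B1) ^ 2 / N := by
  have hN0 : N ≠ 0 := by rw [hN]; positivity
  field_simp
  rw [hN]
  ring

/-- The area of the projected image of a square. -/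
lemma gramSqrt_prj (h : ℝ) (hh : 0 < h) (g a b : E2) (hab : inner ℝ a b = 0) (hn : ‖b‖ = ‖a‖) :
    gramSqrt (prj (uvec h g) (psi0 h a)) (prj (uvec h g) (psi0 h b)) =
      h * (‖a‖ ^ 2 / nrm h g) := by
  have hnp := nrm_pos h g
  have hnn := nrm_sq h g
  set N := nrm h g ^ 2 with hN
  have hN0 : N ≠ 0 := by positivity
  have hinner : ∀ x y : E3, inner ℝ (prj (uvec h g) x) (prj (uvec h g) y)
      = inner ℝ x y - inner ℝ x (dvec h g) * inner ℝ y (dvec h g) / N := by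
    intro x y
    rw [prj_eq_sub_smul_dvec, prj_eq_sub_smul_dvec, inner_sub_left, inner_sub_right, inner_sub_right,
      inner_smul_left, inner_smul_right, inner_smul_left, inner_smul_right,
      real_inner_self_eq_norm_sq, norm_dvec_sq, real_inner_comm y (dvec h g)]
    simp only [conj_trivial, ← hN]
    field_simp
    ring
  have hI1 : ∀ ζ : E2, inner ℝ (psi0 h ζ) (dvec h g) = ζ 0 * g 0 + (h * ζ 1) * (h * g 1) := by
    intro ζ
    rw [inner_E3]; simp [psi0, dvec]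
  have hI2 : ∀ ζ ζ' : E2, inner ℝ (psi0 h ζ) (psi0 h ζ') = ζ 0 * ζ' 0 + (h * ζ 1) * (h * ζ' 1) := by
    intro ζ ζ'
    rw [inner_E3]; simp [psi0]
  have hGram : ‖prj (uvec h g) (psi0 h a)‖ ^ 2 * ‖prj (uvec h g) (psi0 h b)‖ ^ 2
      - (inner ℝ (prj (uvec h g) (psi0 h a)) (prj (uvec h g) (psi0 h b))) ^ 2
      = (h * (‖a‖ ^ 2 / nrm h g)) ^ 2 := by
    rw [← real_inner_self_eq_norm_sq, ← real_inner_self_eq_norm_sq, hinner, hinner, hinner]
    rw [hI1, hI1, hI2, hI2, hI2]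
    have key := gram_prj_identity (a 0) (h * a 1) (b 0) (h * b 1) (g 0) (h * g 1) N
      (by rw [hnn]; ring)
    have e1 : a 0 * a 0 + h * a 1 * (h * a 1) = a 0 ^ 2 + (h * a 1) ^ 2 := by ring
    have e2 : b 0 * b 0 + h * b 1 * (h * b 1) = b 0 ^ 2 + (h * b 1) ^ 2 := by ring
    rw [e1, e2]
    have e3 : ∀ x y : ℝ, x * y / N = x * y / N := fun _ _ => rfl
    have e4 : (a 0 * g 0 + h * a 1 * (h * g 1)) * (a 0 * g 0 + h * a 1 * (h * g 1)) / N
        = (a 0 * g 0 + h * a 1 * (h * g 1)) ^ 2 / N := by ring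
    have e5 : (b 0 * g 0 + h * b 1 * (h * g 1)) * (b 0 * g 0 + h * b 1 * (h * g 1)) / N
        = (b 0 * g 0 + h * b 1 * (h * g 1)) ^ 2 / N := by ring
    rw [e4, e5, key]
    -- Lagrange's identity
    have hL : (a 0 * b 1 - a 1 * b 0) ^ 2 = ‖a‖ ^ 2 * ‖a‖ ^ 2 := by
      have h1 : ‖a‖ ^ 2 = a 0 ^ 2 + a 1 ^ 2 := norm_sq_E2 a
      have h2 : ‖a‖ ^ 2 = b 0 ^ 2 + b 1 ^ 2 := by rw [← hn]; exact norm_sq_E2 b
      have h3 : a 0 * b 0 + a 1 * b 1 = 0 := by rw [← inner_E2]; exact hab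
      calc (a 0 * b 1 - a 1 * b 0) ^ 2
          = (a 0 ^ 2 + a 1 ^ 2) * (b 0 ^ 2 + b 1 ^ 2) - (a 0 * b 0 + a 1 * b 1) ^ 2 := by ring
        _ = ‖a‖ ^ 2 * ‖a‖ ^ 2 := by rw [h3, ← h1, ← h2]; ring
    have e6 : (a 0 * (h * b 1) - h * a 1 * b 0) ^ 2 = h ^ 2 * (a 0 * b 1 - a 1 * b 0) ^ 2 := by ring
    rw [e6, hL, mul_pow, div_pow, ← hN]
    ring
  rw [gramSqrt, hGram, Real.sqrt_sq]
  positivity

lemma prj_psi0_lin (h : ℝ) (u : E3) (c a b : E2) (s t : ℝ) :
    prj u (psi0 h (c + s • a + t • b)) =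
      prj u (psi0 h c) + s • prj u (psi0 h a) + t • prj u (psi0 h b) := by
  have hlin : psi0 h (c + s • a + t • b) = psi0 h c + s • psi0 h a + t • psi0 h b := by
    apply ext_E3
    · simp [psi0]
    · simp [psi0]
    · simp [psi0]; ring
  rw [hlin]
  simp only [prj, inner_add_left, inner_smul_left, conj_trivial]
  module

lemma continuous_xi (h : ℝ) (g : E2) : Continuous (xi h g) := by
  unfold xi
  apply (PiLp.continuous_toLp 2 _).comp
  apply continuous_pi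
  intro i
  fin_cases i
  · simp; fun_prop
  · simp; fun_prop

/-- The open set over the enlarged square. -/
def openO (h κ : ℝ) (c a b g : E2) : Set E3 :=
  {y | inner ℝ (xi h g y - c) a / ‖a‖ ^ 2 ∈ Set.Ioo (-κ) (1 + κ) ∧
    inner ℝ (xi h g y - c) b / ‖a‖ ^ 2 ∈ Set.Ioo (-κ) (1 + κ)}

lemma isOpen_openO (h κ : ℝ) (c a b g : E2) : IsOpen (openO h κ c a b g) := by
  have hc := continuous_xi h g
  apply IsOpen.inter
  · exact isOpen_Ioo.preimage (Continuous.div_const (Continuous.inner (hc.sub continuous_const)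
      continuous_const) _)
  · exact isOpen_Ioo.preimage (Continuous.div_const (Continuous.inner (hc.sub continuous_const)
      continuous_const) _)

/-- The open enlarged box of parameters. -/
def parBox (κ : ℝ) : Set E2 := {s | s 0 ∈ Set.Ioo (-κ) (1 + κ) ∧ s 1 ∈ Set.Ioo (-κ) (1 + κ)}

lemma base_eq_image (h κ : ℝ) (hh : 0 < h) (c a b g : E2) (ha : a ≠ 0) (hab : inner ℝ a b = 0)
    (hn : ‖b‖ = ‖a‖) :
    openO h κ c a b g ∩ {x | inner ℝ x (uvec h g) = 0} =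
      (fun s : E2 => prj (uvec h g) (psi0 h c) + s 0 • prj (uvec h g) (psi0 h a)
        + s 1 • prj (uvec h g) (psi0 h b)) '' parBox κ := by
  have hpos : 0 < ‖a‖ ^ 2 := by have := norm_pos_iff.2 ha; positivity
  ext y
  constructor
  · rintro ⟨⟨h1, h2⟩, hy⟩
    refine ⟨!₂[inner ℝ (xi h g y - c) a / ‖a‖ ^ 2, inner ℝ (xi h g y - c) b / ‖a‖ ^ 2], ?_, ?_⟩
    · simpa [parBox] using ⟨h1, h2⟩
    · have h3 := expand_square a b ha hab hn (xi h g y - c)
      have h4 : xi h g y = c + (inner ℝ (xi h g y - c) a / ‖a‖ ^ 2) • a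
          + (inner ℝ (xi h g y - c) b / ‖a‖ ^ 2) • b := by
        rw [add_assoc, ← h3]; abel
      have h5 := prj_psi0_xi h hh g y hy
      rw [h4, prj_psi0_lin] at h5
      simpa using h5
  · rintro ⟨s, hs, rfl⟩
    have e := prj_psi0_lin h (uvec h g) c a b (s 0) (s 1)
    simp only
    rw [← e]
    have hx := xi_prj_psi0 h hh g (c + s 0 • a + s 1 • b)
    refine ⟨⟨?_, ?_⟩, ?_⟩
    · rw [hx]
      have : inner ℝ (c + s 0 • a + s 1 • b - c) a / ‖a‖ ^ 2 = s 0 := by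
        have e1 : c + s 0 • a + s 1 • b - c = s 0 • a + s 1 • b := by abel
        rw [e1, inner_add_left, inner_smul_left, inner_smul_left, real_inner_self_eq_norm_sq,
          real_inner_comm, hab]
        simp
        field_simp
      rw [this]
      exact hs.1
    · rw [hx]
      have : inner ℝ (c + s 0 • a + s 1 • b - c) b / ‖a‖ ^ 2 = s 1 := by
        have e1 : c + s 0 • a + s 1 • b - c = s 0 • a + s 1 • b := by abel
        rw [e1, inner_add_left, inner_smul_left, inner_smul_left, real_inner_self_eq_norm_sq,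
          hab, hn]
        simp
        field_simp
      rw [this]
      exact hs.2
    · exact inner_prj_uvec _ _ (norm_uvec h g)

/-- **S0329**: cylinders with bounded relatively open bases. -/
theorem open_cover
    (h M : ℝ) (hh : 0 < h) (hM : 0 < M) (D : Set E2) (hD : IsCompact D)
    (V : E2 → E2) (U : Set E2)
    (hU : IsOpen U) (hDU : D ⊆ U) (hV : ContDiffOn ℝ 1 V U)
    (htr : ∀ p ∈ D, LinearMap.trace ℝ _ (fderiv ℝ V p).toLinearMap = 0)
    (hdet : ∀ p ∈ D, -(M ^ 2)⁻¹ < LinearMap.det (fderiv ℝ V p).toLinearMap ∧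
      LinearMap.det (fderiv ℝ V p).toLinearMap < 0)
    (ε : ℝ) (hε : 0 < ε) :
    ∃ (k : ℕ) (u : Fin k → E3) (B : Fin k → Set E3),
      (∀ i, ‖u i‖ = 1) ∧
      (∀ i, Bornology.IsBounded (B i) ∧ ∃ O : Set E3, IsOpen O ∧
        B i = O ∩ {x | inner ℝ x (u i) = 0}) ∧
      {z : E3 | ∃ p ∈ D, ∃ x : ℝ, abs x ≤ M ∧
          z = !₂[x, p 0 + x * V p 0, h * (p 1 + x * V p 1)]} ⊆
        ⋃ i, {z : E3 | ∃ y ∈ B i, ∃ τ : ℝ, z = y + τ • u i} ∧
      ∑ i, (μHE[2] (B i)).toReal ≤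
        h * (∫ p in D, 1 / Real.sqrt (1 + (V p 0) ^ 2 + h ^ 2 * (V p 1) ^ 2)) + ε := by
  set I₀ := ∫ p in D, 1 / Real.sqrt (1 + (V p 0) ^ 2 + h ^ 2 * (V p 1) ^ 2) with hI₀
  have hI₀0 : 0 ≤ I₀ := integral_nonneg (fun p => by positivity)
  set ε' := min 1 (ε / (2 * h)) with hε'
  have hε'0 : 0 < ε' := lt_min one_pos (by positivity)
  set κ := min 1 (ε / (16 * h * (I₀ + 1))) with hκ
  have hκ0 : 0 < κ := lt_min one_pos (by positivity)
  have hκ1 : κ ≤ 1 := min_le_left _ _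
  obtain ⟨k, c, a, b, g, hsq, hcov, hcost⟩ := ruled_cover D hD V U hU hDU hV M h hM htr
    (fun p hp => ⟨(hdet p hp).1, (hdet p hp).2.le⟩) ε' hε'0
  refine ⟨k, fun i => uvec h (g i),
    fun i => openO h κ (c i) (a i) (b i) (g i) ∩ {x | inner ℝ x (uvec h (g i)) = 0},
    fun i => norm_uvec h (g i), ?_, ?_, ?_⟩
  · intro i
    refine ⟨?_, _, isOpen_openO h κ (c i) (a i) (b i) (g i), rfl⟩
    change Bornology.IsBounded (openO h κ (c i) (a i) (b i) (g i) ∩
      {x | inner ℝ x (uvec h (g i)) = 0})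
    rw [base_eq_image h κ hh _ _ _ _ (hsq i).1 (hsq i).2.2 (hsq i).2.1]
    rw [isBounded_iff_forall_norm_le]
    refine ⟨‖prj (uvec h (g i)) (psi0 h (c i))‖ + (1 + κ) * ‖prj (uvec h (g i)) (psi0 h (a i))‖
      + (1 + κ) * ‖prj (uvec h (g i)) (psi0 h (b i))‖, ?_⟩
    rintro _ ⟨s, hs, rfl⟩
    have hbd : ∀ t : ℝ, t ∈ Set.Ioo (-κ) (1 + κ) → |t| ≤ 1 + κ := by
      intro t ht
      rw [abs_le]; constructor <;> linarith [ht.1, ht.2]
    refine (norm_add₃_le).trans ?_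
    rw [norm_smul, norm_smul, Real.norm_eq_abs, Real.norm_eq_abs]
    gcongr
    · exact hbd _ hs.1
    · exact hbd _ hs.2
  · rintro z ⟨p, hp, x, hx, rfl⟩
    have hmem : ((x, p + x • V p) : ℝ × E2) ∈
        {z : ℝ × E2 | ∃ p ∈ D, abs z.1 ≤ M ∧ z.2 = p + z.1 • V p} := ⟨p, hp, hx, rfl⟩
    have := hcov hmem
    rw [Set.mem_iUnion] at this
    obtain ⟨i, s, hs, t, ht, hst⟩ := this
    simp only at hst
    rw [Set.mem_iUnion]
    refine ⟨i, ?_⟩
    obtain ⟨ha, hn, hab⟩ := hsq i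
    set ζ := c i + s • a i + t • b i with hζ
    have hpos : 0 < ‖a i‖ ^ 2 := by have := norm_pos_iff.2 ha; positivity
    refine ⟨prj (uvec h (g i)) (psi0 h ζ), ⟨⟨?_, ?_⟩, ?_⟩,
      inner ℝ (psi0 h ζ) (uvec h (g i)) + x * nrm h (g i), ?_⟩
    · change inner ℝ (xi h (g i) (prj (uvec h (g i)) (psi0 h ζ)) - c i) (a i) / ‖a i‖ ^ 2 ∈ _
      rw [xi_prj_psi0 h hh]
      have : inner ℝ (ζ - c i) (a i) / ‖a i‖ ^ 2 = s := by
        have e1 : ζ - c i = s • a i + t • b i := by rw [hζ]; abel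
        rw [e1, inner_add_left, inner_smul_left, inner_smul_left, real_inner_self_eq_norm_sq,
          real_inner_comm, hab]
        simp
        field_simp
      rw [this]
      exact ⟨by linarith [hs.1], by linarith [hs.2]⟩
    · change inner ℝ (xi h (g i) (prj (uvec h (g i)) (psi0 h ζ)) - c i) (b i) / ‖a i‖ ^ 2 ∈ _
      rw [xi_prj_psi0 h hh]
      have : inner ℝ (ζ - c i) (b i) / ‖a i‖ ^ 2 = t := by
        have e1 : ζ - c i = s • a i + t • b i := by rw [hζ]; abel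
        rw [e1, inner_add_left, inner_smul_left, inner_smul_left, real_inner_self_eq_norm_sq,
          hab, hn]
        simp
        field_simp
      rw [this]
      exact ⟨by linarith [ht.1], by linarith [ht.2]⟩
    · exact inner_prj_uvec _ _ (norm_uvec h (g i))
    · have hnn := (nrm_pos h (g i)).ne'
      have hd : dvec h (g i) = (nrm h (g i)) • uvec h (g i) := by
        rw [uvec, smul_smul]
        field_simp
        simp
      have h1 : (!₂[x, p 0 + x * V p 0, h * (p 1 + x * V p 1)] : E3)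
          = psi0 h ζ + x • dvec h (g i) := by
        have e0 := congrArg (fun v : E2 => v 0) hst
        have e1 := congrArg (fun v : E2 => v 1) hst
        simp only [PiLp.add_apply, PiLp.smul_apply, smul_eq_mul, hζ] at e0 e1
        apply ext_E3
        · simp [psi0, dvec]
        · simp [psi0, dvec, hζ]
          linarith
        · simp [psi0, dvec, hζ]
          rw [e1]
          ring
      rw [h1, prj, hd]
      module
  · -- cost
    have harea : ∀ i, (μHE[2] (openO h κ (c i) (a i) (b i) (g i) ∩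
        {x | inner ℝ x (uvec h (g i)) = 0})).toReal =
        (1 + 2 * κ) ^ 2 * h * (‖a i‖ ^ 2 / nrm h (g i)) := by
      intro i
      obtain ⟨ha, hn, hab⟩ := hsq i
      rw [base_eq_image h κ hh _ _ _ _ ha hab hn, mu_image_plane, gramSqrt_prj h hh _ _ _ hab hn]
      have hvol : volume (parBox κ) = ENNReal.ofReal ((1 + 2 * κ) ^ 2) := by
        have := volume_box_open (-κ) (1 + κ) (-κ) (1 + κ) (by linarith)
        rw [show (1 + κ - -κ) * (1 + κ - -κ) = (1 + 2 * κ) ^ 2 by ring] at this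
        exact this
      rw [hvol, ENNReal.toReal_mul, ENNReal.toReal_ofReal, ENNReal.toReal_ofReal (by positivity)]
      · ring
      · have := nrm_pos h (g i)
        positivity
    rw [Finset.sum_congr rfl (fun i _ => harea i)]
    have hsum : ∑ i, (1 + 2 * κ) ^ 2 * h * (‖a i‖ ^ 2 / nrm h (g i))
        = (1 + 2 * κ) ^ 2 * h * ∑ i, ‖a i‖ ^ 2 / nrm h (g i) := by
      rw [Finset.mul_sum]
    rw [hsum]
    have hle : ∑ i, ‖a i‖ ^ 2 / nrm h (g i) ≤ I₀ + ε' := hcost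
    have hκ2 : (1 + 2 * κ) ^ 2 ≤ 1 + 8 * κ := by nlinarith
    have hε1 : ε' ≤ 1 := min_le_left _ _
    have hε2 : ε' ≤ ε / (2 * h) := min_le_right _ _
    have hε3 : h * ε' ≤ ε / 2 := by
      calc h * ε' ≤ h * (ε / (2 * h)) := mul_le_mul_of_nonneg_left hε2 hh.le
        _ = ε / 2 := by field_simp
    have hκ3 : κ ≤ ε / (16 * h * (I₀ + 1)) := min_le_right _ _
    have hκ4 : 8 * κ * (h * (I₀ + 1)) ≤ ε / 2 := by
      calc 8 * κ * (h * (I₀ + 1)) ≤ 8 * (ε / (16 * h * (I₀ + 1))) * (h * (I₀ + 1)) := by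
            apply mul_le_mul_of_nonneg_right _ (by positivity)
            linarith
        _ = ε / 2 := by field_simp; ring
    have hXle : h * ∑ i, ‖a i‖ ^ 2 / nrm h (g i) ≤ h * (I₀ + ε') :=
      mul_le_mul_of_nonneg_left hle hh.le
    have hX0 : 0 ≤ h * ∑ i, ‖a i‖ ^ 2 / nrm h (g i) := by
      apply mul_nonneg hh.le
      apply Finset.sum_nonneg
      intro i _
      have := nrm_pos h (g i)
      positivity
    calc (1 + 2 * κ) ^ 2 * h * ∑ i, ‖a i‖ ^ 2 / nrm h (g i)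
        = (1 + 2 * κ) ^ 2 * (h * ∑ i, ‖a i‖ ^ 2 / nrm h (g i)) := by ring
      _ ≤ (1 + 8 * κ) * (h * (I₀ + ε')) := by
          apply mul_le_mul hκ2 hXle hX0 (by positivity)
      _ = h * I₀ + h * ε' + 8 * κ * (h * (I₀ + ε')) := by ring
      _ ≤ h * I₀ + ε / 2 + 8 * κ * (h * (I₀ + 1)) := by
          have : 8 * κ * (h * (I₀ + ε')) ≤ 8 * κ * (h * (I₀ + 1)) := by
            apply mul_le_mul_of_nonneg_left _ (by positivity)
            apply mul_le_mul_of_nonneg_left _ hh.le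
            linarith
          linarith
      _ ≤ h * I₀ + ε := by linarith

end Crest.Agent.Lib.RuledOpen
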