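import Crest.Agent.Lib.RuledBrick

set_option autoImplicit false

open MeasureTheory Measure
open scoped ENNReal RealInnerProductSpace

namespace Crest.Agent.Lib.RuledCover

open Crest.Agent.Lib.CylArea

/-- Frame expansion. -/
lemma frame_decomp (θ : ℝ) (x : E2) :
    x = (inner ℝ x (tau1 θ)) • tau1 θ + (inner ℝ x (tau2 θ)) • tau2 θ := by
  have hCS := Real.cos_sq_add_sin_sq θ
  apply ext_E2
  · simp only [inner_E2, PiLp.add_apply, PiLp.smul_apply, tau1_zero, tau1_one, tau2_zero, tau2_one,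
      smul_eq_mul]
    linear_combination (-x 0) * hCS
  · simp only [inner_E2, PiLp.add_apply, PiLp.smul_apply, tau1_zero, tau1_one, tau2_zero, tau2_one,
      smul_eq_mul]
    linear_combination (-x 1) * hCS

lemma inner_tau1_self (θ : ℝ) : inner ℝ (tau1 θ) (tau1 θ) = 1 := by
  rw [real_inner_self_eq_norm_sq, norm_tau1]; norm_num

lemma inner_tau2_self (θ : ℝ) : inner ℝ (tau2 θ) (tau2 θ) = 1 := by
  rw [real_inner_self_eq_norm_sq, norm_tau2]; norm_num

lemma inner_tau21 (θ : ℝ) : inner ℝ (tau2 θ) (tau1 θ) = 0 := by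
  rw [real_inner_comm]; exact inner_tau12 θ

/-- Lattice points of the rotated square grid of side `w` based at `p₀`. -/
noncomputable def latt (p₀ : E2) (θ w : ℝ) (q : ℤ × ℤ) : E2 :=
  p₀ + ((q.1 : ℝ) * w) • tau1 θ + ((q.2 : ℝ) * w) • tau2 θ

lemma inner_latt_sub1 (p₀ p : E2) (θ w : ℝ) (q : ℤ × ℤ) :
    inner ℝ (p - latt p₀ θ w q) (tau1 θ) = inner ℝ (p - p₀) (tau1 θ) - q.1 * w := by
  have : p - latt p₀ θ w q = (p - p₀) - ((q.1 : ℝ) * w) • tau1 θ - ((q.2 : ℝ) * w) • tau2 θ := by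
    simp only [latt]; abel
  rw [this, inner_sub_left, inner_sub_left, inner_smul_left, inner_smul_left, inner_tau1_self,
    inner_tau21]
  simp

lemma inner_latt_sub2 (p₀ p : E2) (θ w : ℝ) (q : ℤ × ℤ) :
    inner ℝ (p - latt p₀ θ w q) (tau2 θ) = inner ℝ (p - p₀) (tau2 θ) - q.2 * w := by
  have : p - latt p₀ θ w q = (p - p₀) - ((q.1 : ℝ) * w) • tau1 θ - ((q.2 : ℝ) * w) • tau2 θ := by
    simp only [latt]; abel
  rw [this, inner_sub_left, inner_sub_left, inner_smul_left, inner_smul_left, inner_tau2_self,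
    inner_tau12]
  simp

/-- **The brick cover.** Every point of the frozen affine ruling, perturbed by a small error `e`,
lies in some enlarged translated lattice cell at time `s`. -/
theorem brick_cover (A : E2 →ₗ[ℝ] E2) (θ α β : ℝ) (h1 : A (tau1 θ) = β • tau2 θ)
    (h2 : A (tau2 θ) = α • tau1 θ) (s c0 K : ℝ) (hab0 : 0 ≤ (s * α) * (s * β))
    (hc0 : 0 < c0) (hab1 : (s * α) * (s * β) ≤ 1 - c0)
    (hKa : |s * α| ≤ K) (hKb : |s * β| ≤ K)
    (η w : ℝ) (hη : 0 ≤ η) (hw : 0 < w) (p₀ p v₀ e : E2) (he : |s| * ‖e‖ ≤ η * w) :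
    ∃ q : ℤ × ℤ, ‖p - latt p₀ θ w q‖ ≤ 2 * ((1 + K) * w / c0) ∧
      ∃ x ∈ Set.Icc (0 : ℝ) 1, ∃ y ∈ Set.Icc (0 : ℝ) 1,
        p + s • (v₀ + A (p - p₀) + e) =
          (latt p₀ θ w q - (η * w) • (tau1 θ + tau2 θ)) + x • (((1 + 2 * η) * w) • tau1 θ)
            + y • (((1 + 2 * η) * w) • tau2 θ) + s • (v₀ + A (latt p₀ θ w q - p₀)) := by
  have hab1' : (s * α) * (s * β) < 1 := by linarith
  obtain ⟨i, j, hX, hY⟩ := brick_scaled (s * α) (s * β) hab0 hab1' w hw
    (inner ℝ (p - p₀) (tau1 θ)) (inner ℝ (p - p₀) (tau2 θ))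
  set q : ℤ × ℤ := (i, j) with hq
  set φ := latt p₀ θ w q with hφ
  set u := inner ℝ (p - φ) (tau1 θ) with hu
  set v := inner ℝ (p - φ) (tau2 θ) with hv
  have hu' : u = inner ℝ (p - p₀) (tau1 θ) - i * w := by
    rw [hu, hφ, inner_latt_sub1]
  have hv' : v = inner ℝ (p - p₀) (tau2 θ) - j * w := by
    rw [hv, hφ, inner_latt_sub2]
  rw [← hu', ← hv'] at hX hY
  obtain ⟨hu2, hv2⟩ := brick_offset_bound _ _ c0 K w u v hc0 hab1 hKa hKb hw hX hY
  refine ⟨q, ?_, ?_⟩
  · have hdec := frame_decomp θ (p - φ)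
    rw [← hu, ← hv] at hdec
    rw [hdec]
    calc ‖u • tau1 θ + v • tau2 θ‖ ≤ ‖u • tau1 θ‖ + ‖v • tau2 θ‖ := norm_add_le _ _
      _ = |u| + |v| := by
          rw [norm_smul, norm_smul, norm_tau1, norm_tau2, Real.norm_eq_abs, Real.norm_eq_abs]
          ring
      _ ≤ 2 * ((1 + K) * w / c0) := by linarith
  · -- the error coordinates
    set e1 := inner ℝ e (tau1 θ) with he1
    set e2 := inner ℝ e (tau2 θ) with he2
    have hedec := frame_decomp θ e
    rw [← he1, ← he2] at hedec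
    have hse1 : |s * e1| ≤ η * w := by
      have : |e1| ≤ ‖e‖ := by
        have := abs_real_inner_le_norm e (tau1 θ)
        rwa [norm_tau1, mul_one] at this
      rw [abs_mul]
      exact le_trans (mul_le_mul_of_nonneg_left this (abs_nonneg s)) he
    have hse2 : |s * e2| ≤ η * w := by
      have : |e2| ≤ ‖e‖ := by
        have := abs_real_inner_le_norm e (tau2 θ)
        rwa [norm_tau2, mul_one] at this
      rw [abs_mul]
      exact le_trans (mul_le_mul_of_nonneg_left this (abs_nonneg s)) he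
    obtain ⟨h3, h4⟩ := abs_le.1 hse1
    obtain ⟨h5, h6⟩ := abs_le.1 hse2
    have hdenom : 0 < (1 + 2 * η) * w := by positivity
    set x := (u + s * α * v + s * e1 + η * w) / ((1 + 2 * η) * w) with hx
    set y := (v + s * β * u + s * e2 + η * w) / ((1 + 2 * η) * w) with hy
    have hxe : x * ((1 + 2 * η) * w) = u + s * α * v + s * e1 + η * w := by
      rw [hx]; field_simp
    have hye : y * ((1 + 2 * η) * w) = v + s * β * u + s * e2 + η * w := by
      rw [hy]; field_simp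
    refine ⟨x, ⟨?_, ?_⟩, y, ⟨?_, ?_⟩, ?_⟩
    · apply div_nonneg _ hdenom.le
      have := hX.1
      linarith
    · rw [div_le_one hdenom]
      have := hX.2
      nlinarith
    · apply div_nonneg _ hdenom.le
      have := hY.1
      linarith
    · rw [div_le_one hdenom]
      have := hY.2
      nlinarith
    · have hdec := frame_decomp θ (p - φ)
      rw [← hu, ← hv] at hdec
      have hA : A (p - φ) = (u * β) • tau2 θ + (v * α) • tau1 θ := by
        rw [hdec, map_add, map_smul, map_smul, h1, h2, smul_smul, smul_smul]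
      have hAsplit : A (p - p₀) = A (p - φ) + A (φ - p₀) := by
        rw [← map_add]; congr 1; abel
      have hp : p = φ + u • tau1 θ + v • tau2 θ := by
        have : p = φ + (p - φ) := by abel
        rw [add_assoc, ← hdec]
        exact this
      have hx2 : x • (((1 + 2 * η) * w) • tau1 θ) = (u + s * α * v + s * e1 + η * w) • tau1 θ := by
        rw [smul_smul, hxe]
      have hy2 : y • (((1 + 2 * η) * w) • tau2 θ) = (v + s * β * u + s * e2 + η * w) • tau2 θ := by
        rw [smul_smul, hye]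
      rw [hx2, hy2, hAsplit, hA, hedec]
      generalize A (φ - p₀) = Aφ at *
      conv_lhs => rw [hp]
      module

/-- Frame isometry: volumes are preserved. -/
lemma volume_frame_image (p₀ : E2) (θ : ℝ) (S : Set E2) :
    volume ((fun x : E2 => p₀ + x 0 • tau1 θ + x 1 • tau2 θ) '' S) = volume S := by
  have h := mu_image_plane p₀ (tau1 θ) (tau2 θ) S
  rw [EuclideanSpace.euclideanHausdorffMeasure_eq_volume] at h
  rw [h]
  have : gramSqrt (tau1 θ) (tau2 θ) = 1 := by
    simp [gramSqrt, norm_tau1, norm_tau2, inner_tau12]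
  rw [this]; simp

/-- Counting lattice cells by their total volume. -/
theorem card_mul_le_volume (p₀ : E2) (θ w : ℝ) (hw : 0 < w) (I : Finset (ℤ × ℤ)) (B : Set E2)
    (hB : ∀ q ∈ I, ∀ x ∈ Set.Ico (0 : ℝ) w, ∀ y ∈ Set.Ico (0 : ℝ) w,
      latt p₀ θ w q + x • tau1 θ + y • tau2 θ ∈ B) :
    (I.card : ℝ≥0∞) * ENNReal.ofReal (w ^ 2) ≤ volume B := by
  let cellb : ℤ × ℤ → Set E2 := fun q =>
    {y : E2 | y 0 ∈ Set.Ico ((q.1 : ℝ) * w) ((q.1 : ℝ) * w + w) ∧
      y 1 ∈ Set.Ico ((q.2 : ℝ) * w) ((q.2 : ℝ) * w + w)}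
  have hvol : ∀ q, volume (cellb q) = ENNReal.ofReal (w ^ 2) := by
    intro q
    have := volume_box_Ico ((q.1 : ℝ) * w) ((q.1 : ℝ) * w + w) ((q.2 : ℝ) * w) ((q.2 : ℝ) * w + w)
      (by linarith)
    rw [show ((q.1 : ℝ) * w + w - (q.1 : ℝ) * w) * ((q.2 : ℝ) * w + w - (q.2 : ℝ) * w) = w ^ 2 by
      ring] at this
    exact this
  have hmeas : ∀ q, MeasurableSet (cellb q) := by
    intro q
    apply MeasurableSet.inter
    · exact (measurableSet_Ico).preimage (by fun_prop)
    · exact (measurableSet_Ico).preimage (by fun_prop)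
  have hint : ∀ (a b : ℤ) (t : ℝ), t ∈ Set.Ico ((a : ℝ) * w) ((a : ℝ) * w + w) →
      t ∈ Set.Ico ((b : ℝ) * w) ((b : ℝ) * w + w) → a = b := by
    intro a b t h1 h2
    have h3 : (a : ℝ) < b + 1 := by
      by_contra hc
      push Not at hc
      nlinarith [h1.1, h2.2]
    have h4 : (b : ℝ) < a + 1 := by
      by_contra hc
      push Not at hc
      nlinarith [h1.2, h2.1]
    have h5 : a < b + 1 := by exact_mod_cast h3
    have h6 : b < a + 1 := by exact_mod_cast h4
    omega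
  have hdisj : Set.PairwiseDisjoint (↑I : Set (ℤ × ℤ)) cellb := by
    intro q _ q' _ hne
    rw [Function.onFun, Set.disjoint_left]
    intro y hy hy'
    apply hne
    exact Prod.ext (hint _ _ _ hy.1 hy'.1) (hint _ _ _ hy.2 hy'.2)
  have hU : volume (⋃ q ∈ I, cellb q) = (I.card : ℝ≥0∞) * ENNReal.ofReal (w ^ 2) := by
    rw [measure_biUnion_finset hdisj (fun q _ => hmeas q)]
    simp [hvol]
  rw [← hU, ← volume_frame_image p₀ θ]
  apply measure_mono
  rintro _ ⟨y, hy, rfl⟩
  simp only [Set.mem_iUnion] at hy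
  obtain ⟨q, hq, hy⟩ := hy
  have hy0 := hy.1
  have hy1 := hy.2
  have := hB q hq (y 0 - (q.1 : ℝ) * w) ⟨by linarith [hy0.1], by linarith [hy0.2]⟩
    (y 1 - (q.2 : ℝ) * w) ⟨by linarith [hy1.1], by linarith [hy1.2]⟩
  convert this using 1
  simp only [latt]
  module

/-- Half-open axis-parallel grid squares of side `r`. -/
def gcell (r : ℝ) (q : ℤ × ℤ) : Set E2 :=
  {x | x 0 ∈ Set.Ico ((q.1 : ℝ) * r) ((q.1 : ℝ) * r + r) ∧
    x 1 ∈ Set.Ico ((q.2 : ℝ) * r) ((q.2 : ℝ) * r + r)}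

lemma gcell_measurable (r : ℝ) (q : ℤ × ℤ) : MeasurableSet (gcell r q) := by
  apply MeasurableSet.inter
  · exact (measurableSet_Ico).preimage (by fun_prop)
  · exact (measurableSet_Ico).preimage (by fun_prop)

lemma gcell_volume (r : ℝ) (hr : 0 < r) (q : ℤ × ℤ) :
    volume (gcell r q) = ENNReal.ofReal (r ^ 2) := by
  have := volume_box_Ico ((q.1 : ℝ) * r) ((q.1 : ℝ) * r + r) ((q.2 : ℝ) * r) ((q.2 : ℝ) * r + r)
    (by linarith)
  rw [show ((q.1 : ℝ) * r + r - (q.1 : ℝ) * r) * ((q.2 : ℝ) * r + r - (q.2 : ℝ) * r) = r ^ 2 by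
    ring] at this
  exact this

lemma gcell_real_volume (r : ℝ) (hr : 0 < r) (q : ℤ × ℤ) :
    volume.real (gcell r q) = r ^ 2 := by
  rw [Measure.real, gcell_volume r hr, ENNReal.toReal_ofReal (by positivity)]

lemma gcell_disjoint (r : ℝ) (hr : 0 < r) (q q' : ℤ × ℤ) (hne : q ≠ q') :
    Disjoint (gcell r q) (gcell r q') := by
  have hint : ∀ (a b : ℤ) (t : ℝ), t ∈ Set.Ico ((a : ℝ) * r) ((a : ℝ) * r + r) →
      t ∈ Set.Ico ((b : ℝ) * r) ((b : ℝ) * r + r) → a = b := by
    intro a b t h1 h2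
    have h3 : (a : ℝ) < b + 1 := by
      by_contra hc
      push Not at hc
      nlinarith [h1.1, h2.2]
    have h4 : (b : ℝ) < a + 1 := by
      by_contra hc
      push Not at hc
      nlinarith [h1.2, h2.1]
    have h5 : a < b + 1 := by exact_mod_cast h3
    have h6 : b < a + 1 := by exact_mod_cast h4
    omega
  rw [Set.disjoint_left]
  intro y hy hy'
  apply hne
  exact Prod.ext (hint _ _ _ hy.1 hy'.1) (hint _ _ _ hy.2 hy'.2)

lemma mem_gcell_floor (r : ℝ) (hr : 0 < r) (x : E2) :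
    x ∈ gcell r (⌊x 0 / r⌋, ⌊x 1 / r⌋) := by
  have key : ∀ t : ℝ, t ∈ Set.Ico ((⌊t / r⌋ : ℝ) * r) ((⌊t / r⌋ : ℝ) * r + r) := by
    intro t
    have h1 := Int.floor_le (t / r)
    have h2 := Int.lt_floor_add_one (t / r)
    rw [le_div_iff₀ hr] at h1
    rw [div_lt_iff₀ hr] at h2
    exact ⟨h1, by linarith⟩
  exact ⟨key _, key _⟩

lemma norm_le_abs_add_abs (x : E2) : ‖x‖ ≤ |x 0| + |x 1| := by
  have h : ‖x‖ ^ 2 ≤ (|x 0| + |x 1|) ^ 2 := by
    rw [norm_sq_E2]
    nlinarith [sq_abs (x 0), sq_abs (x 1), abs_nonneg (x 0), abs_nonneg (x 1),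
      mul_nonneg (abs_nonneg (x 0)) (abs_nonneg (x 1))]
  exact le_of_pow_le_pow_left₀ two_ne_zero (by positivity) h

lemma abs_coord_le_norm (x : E2) (i : Fin 2) : |x i| ≤ ‖x‖ := by
  exact PiLp.norm_apply_le x i

lemma gcell_dist (r : ℝ) (q : ℤ × ℤ) {x y : E2} (hx : x ∈ gcell r q) (hy : y ∈ gcell r q) :
    ‖x - y‖ ≤ 2 * r := by
  have h1 : |x 0 - y 0| ≤ r := by
    rw [abs_le]; constructor <;> linarith [hx.1.1, hx.1.2, hy.1.1, hy.1.2]
  have h2 : |x 1 - y 1| ≤ r := by
    rw [abs_le]; constructor <;> linarith [hx.2.1, hx.2.2, hy.2.1, hy.2.2]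
  have := norm_le_abs_add_abs (x - y)
  simp only [PiLp.sub_apply] at this
  linarith

/-- The finite index set of grid cells meeting a bounded set. -/
lemma exists_grid_index (D : Set E2) (hD : Bornology.IsBounded D) (r : ℝ) (hr : 0 < r) :
    ∃ I : Finset (ℤ × ℤ), ∀ q, q ∈ I ↔ (gcell r q ∩ D).Nonempty := by
  obtain ⟨R, hR⟩ := hD.exists_norm_le
  obtain ⟨N, hN⟩ := exists_nat_gt (|R| / r + 1)
  have hfin : {q : ℤ × ℤ | (gcell r q ∩ D).Nonempty}.Finite := by
    apply Set.Finite.subset (Set.finite_Icc ((-(N : ℤ), -(N : ℤ)) : ℤ × ℤ) ((N : ℤ), (N : ℤ)))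
    rintro q ⟨x, hx, hxD⟩
    have hxn := (hR x hxD).trans (le_abs_self R)
    have hN' : |R| / r + 1 < N := hN
    have hN2 : |R| + r < N * r := by
      have := (div_add_one hr.ne').symm ▸ hN'
      rwa [div_lt_iff₀ hr] at this
    have bound : ∀ (a : ℤ) (t : ℝ), |t| ≤ ‖x‖ → t ∈ Set.Ico ((a : ℝ) * r) ((a : ℝ) * r + r) →
        -(N : ℤ) ≤ a ∧ a ≤ (N : ℤ) := by
      intro a t ht hmem
      obtain ⟨h1, h2⟩ := abs_le.1 (ht.trans hxn)
      have h3 : (a : ℝ) * r < N * r := by linarith [hmem.1]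
      have h4 : -(N : ℝ) * r < a * r := by nlinarith [hmem.2]
      have h5 : (a : ℝ) < N := lt_of_mul_lt_mul_right h3 hr.le
      have h6 : -(N : ℝ) < a := lt_of_mul_lt_mul_right h4 hr.le
      constructor
      · have : -(N : ℤ) < a := by exact_mod_cast h6
        omega
      · have : a < (N : ℤ) := by exact_mod_cast h5
        omega
    have b1 := bound q.1 (x 0) (abs_coord_le_norm x 0) hx.1
    have b2 := bound q.2 (x 1) (abs_coord_le_norm x 1) hx.2
    exact ⟨⟨b1.1, b2.1⟩, ⟨b1.2, b2.2⟩⟩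
  refine ⟨hfin.toFinset, fun q => ?_⟩
  simp

/-- Riemann upper sums over grid cells of a continuous function with values in `[0,1]` on a
compact set. -/
theorem riemann_grid (D : Set E2) (hD : IsCompact D) (f : E2 → ℝ) (hf : ContinuousOn f D)
    (hf1 : ∀ x, f x ≤ 1) (hf0 : ∀ x, 0 ≤ f x) (ε : ℝ) (hε : 0 < ε) :
    ∃ r₀ : ℝ, 0 < r₀ ∧ ∀ r : ℝ, 0 < r → r ≤ r₀ → ∀ (I : Finset (ℤ × ℤ)),
      (∀ q, q ∈ I ↔ (gcell r q ∩ D).Nonempty) → ∀ P : ℤ × ℤ → E2, (∀ q ∈ I, P q ∈ gcell r q ∩ D) →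
      ∑ q ∈ I, r ^ 2 * f (P q) ≤ (∫ x in D, f x) + ε ∧
      ∑ q ∈ I, r ^ 2 ≤ volume.real D + ε := by
  have hvolD : volume D < ⊤ := hD.measure_lt_top
  set vD := volume.real D with hvD
  have hvD0 : 0 ≤ vD := measureReal_nonneg
  -- parameters
  set ε₃ := ε / 2 with hε₃
  have hε₃0 : 0 < ε₃ := by positivity
  set ε₂ := ε / (2 * (vD + 1)) with hε₂
  have hε₂0 : 0 < ε₂ := by positivity
  have hε₂v : ε₂ * vD ≤ ε / 2 := by
    rw [hε₂, div_mul_eq_mul_div, div_le_iff₀ (by positivity)]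
    nlinarith
  -- outer regularity
  obtain ⟨W, hDW, hWo, hWv⟩ := D.exists_isOpen_lt_add (μ := volume) hvolD.ne
    (ENNReal.ofReal_pos.2 hε₃0).ne'
  obtain ⟨δ₁, hδ₁, hth⟩ := hD.exists_thickening_subset_open hWo hDW
  -- uniform continuity
  have huc := hD.uniformContinuousOn_of_continuous hf
  rw [Metric.uniformContinuousOn_iff] at huc
  obtain ⟨δ₂, hδ₂, huc⟩ := huc ε₂ hε₂0
  refine ⟨min δ₁ δ₂ / 4, by positivity, fun r hr hr0 I hI P hP => ?_⟩
  have hr1 : 2 * r < δ₁ := by
    have : min δ₁ δ₂ ≤ δ₁ := min_le_left _ _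
    linarith
  have hr2 : 2 * r < δ₂ := by
    have : min δ₁ δ₂ ≤ δ₂ := min_le_right _ _
    linarith
  -- every used cell lies in W
  have hcellW : ∀ q ∈ I, gcell r q ⊆ W := by
    intro q hq y hy
    apply hth
    rw [Metric.mem_thickening_iff]
    refine ⟨P q, (hP q hq).2, ?_⟩
    rw [dist_eq_norm]
    exact lt_of_le_of_lt (gcell_dist r q hy (hP q hq).1) hr1
  have hdisj : ∀ q ∈ I, ∀ q' ∈ I, q ≠ q' → Disjoint (gcell r q) (gcell r q') :=
    fun q _ q' _ h => gcell_disjoint r hr q q' h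
  -- `D` is covered
  have hDcov : D = ⋃ q ∈ I, (gcell r q ∩ D) := by
    ext x
    simp only [Set.mem_iUnion, Set.mem_inter_iff, exists_prop]
    constructor
    · intro hx
      refine ⟨(⌊x 0 / r⌋, ⌊x 1 / r⌋), ?_, mem_gcell_floor r hr x, hx⟩
      rw [hI]
      exact ⟨x, mem_gcell_floor r hr x, hx⟩
    · rintro ⟨q, _, _, hx⟩
      exact hx
  have hpd1 : Set.PairwiseDisjoint (↑I : Set (ℤ × ℤ)) (fun q => gcell r q ∩ D) := by
    intro q hq q' hq' hne
    exact (hdisj q hq q' hq' hne).mono Set.inter_subset_left Set.inter_subset_left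
  have hmeasQD : ∀ q, MeasurableSet (gcell r q ∩ D) :=
    fun q => (gcell_measurable r q).inter hD.isClosed.measurableSet
  have hfint : IntegrableOn f D := hf.integrableOn_compact hD
  have hfintQ : ∀ q, IntegrableOn f (gcell r q ∩ D) :=
    fun q => hfint.mono_set Set.inter_subset_right
  have hfinQ : ∀ q, volume (gcell r q ∩ D) < ⊤ :=
    fun q => (measure_mono Set.inter_subset_right).trans_lt hvolD
  have hfinQd : ∀ q, volume (gcell r q \ D) < ⊤ := by
    intro q
    refine (measure_mono Set.sdiff_subset).trans_lt ?_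
    rw [gcell_volume r hr]; exact ENNReal.ofReal_lt_top
  -- sum of integrals is the integral over D
  have hsumint : ∑ q ∈ I, ∫ x in gcell r q ∩ D, f x = ∫ x in D, f x := by
    conv_rhs => rw [hDcov]
    rw [integral_biUnion_finset I (fun q _ => hmeasQD q) hpd1 (fun q _ => hfintQ q)]
  have hsumvol : ∑ q ∈ I, volume.real (gcell r q ∩ D) = vD := by
    rw [hvD]
    conv_rhs => rw [hDcov]
    rw [measureReal_biUnion_finset hpd1 (fun q _ => hmeasQD q)
      (fun q _ => (hfinQ q).ne)]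
  -- the part outside `D`
  have hsumout : ∑ q ∈ I, volume.real (gcell r q \ D) ≤ ε₃ := by
    have hpd2 : Set.PairwiseDisjoint (↑I : Set (ℤ × ℤ)) (fun q => gcell r q \ D) := by
      intro q hq q' hq' hne
      exact (hdisj q hq q' hq' hne).mono Set.sdiff_subset Set.sdiff_subset
    rw [← measureReal_biUnion_finset hpd2
      (fun q _ => (gcell_measurable r q).diff hD.isClosed.measurableSet) (fun q _ => (hfinQd q).ne)]
    have hsub : (⋃ q ∈ I, (gcell r q \ D)) ⊆ W \ D := by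
      intro x hx
      simp only [Set.mem_iUnion, exists_prop] at hx
      obtain ⟨q, hq, hx1, hx2⟩ := hx
      exact ⟨hcellW q hq hx1, hx2⟩
    have hWD : volume (W \ D) ≤ ENNReal.ofReal ε₃ := by
      rw [measure_sdiff hDW hD.isClosed.measurableSet.nullMeasurableSet hvolD.ne]
      rw [tsub_le_iff_right, add_comm]
      exact hWv.le
    rw [Measure.real]
    apply ENNReal.toReal_le_of_le_ofReal hε₃0.le
    exact (measure_mono hsub).trans hWD
  -- split of each cell's volume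
  have hsplit : ∀ q, r ^ 2 = volume.real (gcell r q ∩ D) + volume.real (gcell r q \ D) := by
    intro q
    rw [← gcell_real_volume r hr q]
    rw [measureReal_inter_add_sdiff (μ := volume) (s := gcell r q) (t := D) hD.isClosed.measurableSet
      (by rw [gcell_volume r hr]; exact ENNReal.ofReal_ne_top)]
  constructor
  · have hterm : ∀ q ∈ I, r ^ 2 * f (P q) ≤ (∫ x in gcell r q ∩ D, f x)
        + ε₂ * volume.real (gcell r q ∩ D) + volume.real (gcell r q \ D) := by
      intro q hq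
      have hPq := hP q hq
      have h1 : volume.real (gcell r q ∩ D) * f (P q) ≤ (∫ x in gcell r q ∩ D, f x)
          + ε₂ * volume.real (gcell r q ∩ D) := by
        have h2 : ∫ x in gcell r q ∩ D, (f (P q) - ε₂) ≤ ∫ x in gcell r q ∩ D, f x := by
          apply setIntegral_mono_on _ (hfintQ q) (hmeasQD q)
          · intro x hx
            have hdist : dist (P q) x < δ₂ := by
              rw [dist_eq_norm]
              exact lt_of_le_of_lt (gcell_dist r q hPq.1 hx.1) hr2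
            have := huc (P q) hPq.2 x hx.2 hdist
            rw [Real.dist_eq] at this
            linarith [(abs_lt.1 this).2]
          · exact integrableOn_const (hfinQ q).ne
        rw [setIntegral_const, smul_eq_mul] at h2
        nlinarith
      have h3 : volume.real (gcell r q \ D) * f (P q) ≤ volume.real (gcell r q \ D) := by
        have : 0 ≤ volume.real (gcell r q \ D) := measureReal_nonneg
        nlinarith [hf1 (P q)]
      have h4 := hsplit q
      calc r ^ 2 * f (P q) = volume.real (gcell r q ∩ D) * f (P q)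
            + volume.real (gcell r q \ D) * f (P q) := by rw [h4]; ring
        _ ≤ _ := by linarith
    calc ∑ q ∈ I, r ^ 2 * f (P q)
        ≤ ∑ q ∈ I, ((∫ x in gcell r q ∩ D, f x) + ε₂ * volume.real (gcell r q ∩ D)
            + volume.real (gcell r q \ D)) := Finset.sum_le_sum hterm
      _ = (∫ x in D, f x) + ε₂ * vD + ∑ q ∈ I, volume.real (gcell r q \ D) := by
          rw [Finset.sum_add_distrib, Finset.sum_add_distrib, hsumint, ← Finset.mul_sum, hsumvol]
      _ ≤ (∫ x in D, f x) + ε := by linarith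
  · calc ∑ q ∈ I, r ^ 2
        = ∑ q ∈ I, (volume.real (gcell r q ∩ D) + volume.real (gcell r q \ D)) :=
          Finset.sum_congr rfl (fun q _ => hsplit q)
      _ = vD + ∑ q ∈ I, volume.real (gcell r q \ D) := by
          rw [Finset.sum_add_distrib, hsumvol]
      _ ≤ vD + ε := by linarith

end Crest.Agent.Lib.RuledCover
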