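import Mathlib
import Crest.Prelude.Def_PolyominoGame

/-!
Generic soundness of a strategy certificate for the Maker-Breaker Snaky game.

A certificate is a family `node : ℕ → NodeRec` of proof nodes, a node describing either a finished
position (Maker's stones contain a copy of Snaky, with an explicit witness) or Maker's next move
together with the children for Breaker's replies.  Each node records the set `M` of stones and the
"zone" `Z`, the set of cells which the subtree plays.  Replies which are not listed only go to the default child,
whose zone is covered by the list of the explicit replies.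
-/

set_option autoImplicit false

namespace Crest.Agent.Lib.SnakyCert

open Crest.CombinatoricsR.PolyominoGame

/-- Decode a cell index into a board cell, with a fixed width `W` and offset `off`. -/
def dec (W : ℕ) (c : ℕ) : ℤ × ℤ :=
  (((c % W : ℕ) : ℤ) - ((W / 2 : ℕ) : ℤ), ((c / W : ℕ) : ℤ) - ((W / 2 : ℕ) : ℤ))

theorem dec_inj {W : ℕ} {a b : ℕ} (h : dec W a = dec W b) : a = b := by
  simp only [dec, Prod.mk.injEq, sub_left_inj, Nat.cast_inj] at h
  rw [← Nat.mod_add_div a W, ← Nat.mod_add_div b W, h.1, h.2]

structure NodeRec where
  /-- is this a finished position? -/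
  term : Bool
  /-- stones -/
  M : ℕ
  /-- zone -/
  Z : ℕ
  /-- number of stones -/
  d : ℕ
  /-- Maker's next move -/
  m : ℕ
  /-- default child -/
  dflt : ℕ
  /-- explicit replies: cell and child -/
  reps : List (ℕ × ℕ)
  /-- witness of a finished position: (swap?, e1 negative?, e2 negative?, tx, ty) -/
  wsw : Bool
  we1 : Bool
  we2 : Bool
  wx : ℕ
  wy : ℕ

/-- The cells of `snaky`, as a list. -/
def snakyL : List (ℕ × ℕ) := [(0, 0), (1, 0), (2, 0), (3, 0), (3, 1), (4, 1)]

/-- One coordinate of the witness map. -/
def wcoord (neg : Bool) (t a : ℕ) : ℕ := if neg then t - a else t + a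

/-- The check that a single snaky cell `(a,b)` lies in the mask. -/
def wCell (W : ℕ) (n : NodeRec) (p : ℕ × ℕ) : Bool :=
  let u := if n.wsw then p.2 else p.1
  let v := if n.wsw then p.1 else p.2
  let x := wcoord n.we1 n.wx u
  let y := wcoord n.we2 n.wy v
  (if n.we1 then Nat.ble u n.wx else true) && (if n.we2 then Nat.ble v n.wy else true) &&
  Nat.blt x W && n.M.testBit (x + W * y)

/-- Check that a list of (reply, child) pairs is fine. -/
def repsOK (node : ℕ → NodeRec) (cnt M' Z d : ℕ) : List (ℕ × ℕ) → Bool
  | [] => true
  | (r, c) :: t =>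
    Nat.blt c cnt && Nat.beq (node c).M M' && Nat.beq (node c).d (d + 1) &&
      Nat.beq ((node c).Z &&& Z) (node c).Z && !((node c).Z.testBit r) &&
      repsOK node cnt M' Z d t

/-- mask of a list of replies -/
def repsMask : List (ℕ × ℕ) → ℕ
  | [] => 0
  | (r, _) :: t => (1 <<< r) ||| repsMask t

/-- Local check of one node of the certificate. -/
def okNode (W : ℕ) (node : ℕ → NodeRec) (cnt i : ℕ) : Bool :=
  let n := node i
  if n.term then snakyL.all (wCell W n)
  else
    let M' := n.M ||| (1 <<< n.m)
    let cd := node n.dflt
    Nat.ble n.d 20 && n.Z.testBit n.m && !(n.M.testBit n.m) &&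
    Nat.blt n.dflt cnt && Nat.beq cd.M M' && Nat.beq cd.d (n.d + 1) &&
    Nat.beq (cd.Z &&& n.Z) cd.Z && Nat.beq (cd.Z &&& repsMask n.reps) cd.Z &&
    repsOK node cnt M' n.Z n.d n.reps

/-- Next node after a reply. -/
noncomputable def step (W : ℕ) (node : ℕ → NodeRec) (i : ℕ) (x : ℤ × ℤ) : ℕ :=
  if (node i).term then i else
    match (node i).reps.find? (fun rc => decide (dec W rc.1 = x)) with
    | some rc => rc.2
    | none => (node i).dflt

/-- Node reached after a list of replies. -/
noncomputable def walk (W : ℕ) (node : ℕ → NodeRec) (root : ℕ) (l : List (ℤ × ℤ)) : ℕ :=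
  l.foldl (step W node) root

/-- The first coordinate of a fresh cell for Maker, after the replies `l`. -/
def fx (W : ℕ) (l : List (ℤ × ℤ)) : ℤ :=
  W + l.length + (l.map (fun p => |p.1|)).sum

/-- Maker's policy. -/
noncomputable def policy (W : ℕ) (node : ℕ → NodeRec) (root : ℕ) (l : List (ℤ × ℤ)) : ℤ × ℤ :=
  let i := walk W node root l
  if (node i).term then (fx W l, 0) else dec W (node i).m

theorem walk_snoc (W : ℕ) (node : ℕ → NodeRec) (root : ℕ) (l : List (ℤ × ℤ)) (x : ℤ × ℤ) :
    walk W node root (l ++ [x]) = step W node (walk W node root l) x := by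
  simp [walk, List.foldl_append]

theorem repl_succ (b : ℕ → ℤ × ℤ) (k : ℕ) :
    (List.range (k + 1)).map b = (List.range k).map b ++ [b k] := by
  simp [List.range_succ]

theorem fx_lt (W : ℕ) (b : ℕ → ℤ × ℤ) {j k : ℕ} (h : j < k) :
    fx W ((List.range j).map b) < fx W ((List.range k).map b) := by
  induction k with
  | zero => omega
  | succ k ih =>
    have hk : fx W ((List.range k).map b) < fx W ((List.range (k+1)).map b) := by
      rw [repl_succ]
      simp only [fx, List.length_append, List.length_cons, List.length_nil, List.map_append,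
        List.sum_append, List.map_cons, List.map_nil, List.sum_cons, List.sum_nil]
      have := abs_nonneg (b k).1
      push_cast
      linarith
    rcases Nat.lt_succ_iff_lt_or_eq.mp h with h' | h'
    · exact (ih h').trans hk
    · subst h'; exact hk

theorem abs_le_fx (W : ℕ) (b : ℕ → ℤ × ℤ) {j k : ℕ} (h : j < k) :
    |(b j).1| < fx W ((List.range k).map b) := by
  induction k with
  | zero => omega
  | succ k ih =>
    rcases Nat.lt_succ_iff_lt_or_eq.mp h with h' | h'
    · exact (ih h').trans (fx_lt W b (Nat.lt_succ_self k))
    · subst h'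
      rw [repl_succ]
      simp only [fx, List.length_append, List.length_cons, List.length_nil, List.map_append,
        List.sum_append, List.map_cons, List.map_nil, List.sum_cons, List.sum_nil]
      have h1 : (0:ℤ) ≤ ((List.range j).map b |>.map (fun p => |p.1|)).sum := by
        apply List.sum_nonneg
        intro x hx
        simp only [List.mem_map] at hx
        obtain ⟨a, _, rfl⟩ := hx
        exact abs_nonneg _
      push_cast
      have : (0:ℤ) ≤ (W:ℤ) := Int.natCast_nonneg W
      have : (0:ℤ) ≤ (((List.range j).map b).length : ℤ) := Int.natCast_nonneg _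
      linarith

theorem dec_fst_lt (W : ℕ) (hW : 0 < W) (c : ℕ) : (dec W c).1 < W := by
  have h1 : c % W < W := Nat.mod_lt _ hW
  simp only [dec]
  have : (0:ℤ) ≤ ((W / 2 : ℕ) : ℤ) := Int.natCast_nonneg _
  have h2 : ((c % W : ℕ) : ℤ) < (W:ℤ) := by exact_mod_cast h1
  linarith

theorem dec_fst_ne_fx (W : ℕ) (hW : 0 < W) (c : ℕ) (l : List (ℤ × ℤ)) : (dec W c).1 ≠ fx W l := by
  have h := dec_fst_lt W hW c
  have h1 : (0:ℤ) ≤ (l.map (fun p => |p.1|)).sum := by
    apply List.sum_nonneg
    intro x hx
    simp only [List.mem_map] at hx
    obtain ⟨a, _, rfl⟩ := hx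
    exact abs_nonneg _
  have h2 : (0:ℤ) ≤ (l.length : ℤ) := Int.natCast_nonneg _
  simp only [fx]
  intro he
  rw [he] at h
  linarith

section Sound

variable (W : ℕ) (node : ℕ → NodeRec) (cnt root : ℕ)

/-- Unfolding of `repsOK`: for a listed reply the child is fine. -/
theorem repsOK_mem {M' Z d : ℕ} {l : List (ℕ × ℕ)} (h : repsOK node cnt M' Z d l = true)
    {r c : ℕ} (hm : (r, c) ∈ l) :
    c < cnt ∧ (node c).M = M' ∧ (node c).d = d + 1 ∧ (node c).Z &&& Z = (node c).Z ∧
      (node c).Z.testBit r = false := by
  induction l with
  | nil => simp at hm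
  | cons hd t ih =>
    obtain ⟨r0, c0⟩ := hd
    simp only [repsOK, Bool.and_eq_true, Nat.blt_eq, Nat.beq_eq,
      Bool.not_eq_true'] at h
    obtain ⟨⟨⟨⟨⟨h1, h2⟩, h3⟩, h4⟩, h5⟩, h6⟩ := h
    rcases List.mem_cons.mp hm with h' | h'
    · obtain ⟨rfl, rfl⟩ := Prod.mk.inj h'
      exact ⟨h1, h2, h3, h4, h5⟩
    · exact ih h6 h'

/-- A bit of the mask of a list of replies comes from a listed reply. -/
theorem repsMask_testBit {l : List (ℕ × ℕ)} {z : ℕ} (h : (repsMask l).testBit z = true) :
    ∃ c, (z, c) ∈ l := by
  induction l with
  | nil => simp [repsMask] at h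
  | cons hd t ih =>
    obtain ⟨r0, c0⟩ := hd
    simp only [repsMask, Nat.testBit_or, Bool.or_eq_true] at h
    rcases h with h | h
    · rw [Nat.one_shiftLeft, Nat.testBit_two_pow] at h
      have : r0 = z := by simpa using h
      subst this
      exact ⟨c0, List.mem_cons_self⟩
    · obtain ⟨c, hc⟩ := ih h
      exact ⟨c, List.mem_cons_of_mem _ hc⟩

theorem land_self_testBit {a b z : ℕ} (h : a &&& b = a) (hz : a.testBit z = true) :
    b.testBit z = true := by
  have : (a &&& b).testBit z = true := by rw [h]; exact hz
  rw [Nat.testBit_and] at this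
  simp only [Bool.and_eq_true] at this
  exact this.2

/-- Invariant of the walk. -/
structure Inv (b : ℕ → ℤ × ℤ) (k : ℕ) : Prop where
  lt : walk W node root ((List.range k).map b) < cnt
  stones : ∀ c, (node (walk W node root ((List.range k).map b))).M.testBit c = true →
    ∃ j, j < k ∧ policy W node root ((List.range j).map b) = dec W c
  nonterm : (node (walk W node root ((List.range k).map b))).term = false →
    (node (walk W node root ((List.range k).map b))).d = k ∧
    ∀ j, j < k → ∃ c, (node (walk W node root ((List.range k).map b))).M.testBit c = true ∧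
      policy W node root ((List.range j).map b) = dec W c
  zone : (node (walk W node root ((List.range k).map b))).term = false →
    ∀ c, (node (walk W node root ((List.range k).map b))).Z.testBit c = true →
      ∀ j, j < k → b j ≠ dec W c

theorem Inv.of_eq {b : ℕ → ℤ × ℤ} {k c : ℕ} (hc : walk W node root ((List.range k).map b) = c)
    (h1 : c < cnt)
    (h2 : ∀ z, (node c).M.testBit z = true →
      ∃ j, j < k ∧ policy W node root ((List.range j).map b) = dec W z)
    (h3 : (node c).term = false → (node c).d = k ∧
      ∀ j, j < k → ∃ z, (node c).M.testBit z = true ∧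
        policy W node root ((List.range j).map b) = dec W z)
    (h4 : (node c).term = false → ∀ z, (node c).Z.testBit z = true →
      ∀ j, j < k → b j ≠ dec W z) : Inv W node cnt root b k :=
  ⟨by rw [hc]; exact h1, by rw [hc]; exact h2, by rw [hc]; exact h3, by rw [hc]; exact h4⟩

variable (hok : ∀ i, i < cnt → okNode W node cnt i = true)
  (hroot : root < cnt) (hM : (node root).M = 0) (hd : (node root).d = 0)

include hok hroot hM hd in
theorem inv_all (b : ℕ → ℤ × ℤ) (k : ℕ) : Inv W node cnt root b k := by
  induction k with
  | zero =>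
    refine Inv.of_eq W node cnt root (c := root) (by simp [walk]) hroot ?_ ?_ ?_
    · intro c hc
      rw [hM] at hc
      simp at hc
    · intro _
      exact ⟨hd, fun j hj => absurd hj (Nat.not_lt_zero _)⟩
    · intro _ c _ j hj
      exact absurd hj (Nat.not_lt_zero _)
  | succ k ih =>
    set i := walk W node root ((List.range k).map b) with hi
    have hw : walk W node root ((List.range (k+1)).map b) = step W node i (b k) := by
      rw [repl_succ, walk_snoc]
    have hpol : policy W node root ((List.range k).map b) =
        if (node i).term then (fx W ((List.range k).map b), 0) else dec W (node i).m := rfl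
    have hchk := hok i ih.lt
    by_cases ht : (node i).term = true
    · -- terminal: stay
      have hs : step W node i (b k) = i := by simp [step, ht]
      refine Inv.of_eq W node cnt root (hw.trans hs) ih.lt ?_ ?_ ?_
      · intro c hc
        obtain ⟨j, hj, h⟩ := ih.stones c hc
        exact ⟨j, Nat.lt_succ_of_lt hj, h⟩
      · intro h; rw [ht] at h; exact absurd h (by simp)
      · intro h; rw [ht] at h; exact absurd h (by simp)
    · have ht' : (node i).term = false := by simpa using ht
      simp only [okNode, ht', Bool.false_eq_true, if_false, Bool.and_eq_true, Nat.ble_eq,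
        Nat.blt_eq, Nat.beq_eq, Bool.not_eq_true'] at hchk
      obtain ⟨⟨⟨⟨⟨⟨⟨⟨hdle, hmZ⟩, hmM⟩, hdlt⟩, hdM⟩, hdd⟩, hdZ⟩, hdR⟩, hreps⟩ := hchk
      have hnt := ih.nonterm ht'
      have hzo := ih.zone ht'
      -- stones of the child
      have stones_c : ∀ c, (node c).M = (node i).M ||| (1 <<< (node i).m) →
          ∀ z, (node c).M.testBit z = true →
            ∃ j, j < k + 1 ∧ policy W node root ((List.range j).map b) = dec W z := by
        intro c hc z hz
        rw [hc, Nat.testBit_or, Bool.or_eq_true] at hz
        rcases hz with hz | hz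
        · obtain ⟨j, hj, h⟩ := ih.stones z hz
          exact ⟨j, Nat.lt_succ_of_lt hj, h⟩
        · rw [Nat.one_shiftLeft, Nat.testBit_two_pow] at hz
          have hzm : (node i).m = z := by simpa using hz
          refine ⟨k, Nat.lt_succ_self k, ?_⟩
          rw [hpol, if_neg ht, hzm]
      have nonterm_c : ∀ c, (node c).M = (node i).M ||| (1 <<< (node i).m) →
          (node c).d = (node i).d + 1 →
          (node c).d = k + 1 ∧ ∀ j, j < k + 1 → ∃ z, (node c).M.testBit z = true ∧
            policy W node root ((List.range j).map b) = dec W z := by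
        intro c hc hcd
        refine ⟨by rw [hcd, hnt.1], ?_⟩
        intro j hj
        rcases Nat.lt_succ_iff_lt_or_eq.mp hj with hj' | hj'
        · obtain ⟨z, hz, h⟩ := hnt.2 j hj'
          refine ⟨z, ?_, h⟩
          rw [hc, Nat.testBit_or, hz]; simp
        · subst hj'
          refine ⟨(node i).m, ?_, ?_⟩
          · rw [hc, Nat.testBit_or, Nat.one_shiftLeft, Nat.testBit_two_pow]; simp
          · rw [hpol, if_neg ht]
      -- now the two cases of the reply
      rcases hfind : (node i).reps.find? (fun rc => decide (dec W rc.1 = b k)) with _ | rc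
      · -- default child
        have hs : step W node i (b k) = (node i).dflt := by
          simp [step, ht', hfind]
        refine Inv.of_eq W node cnt root (hw.trans hs) hdlt (stones_c _ hdM) (fun _ => nonterm_c _ hdM hdd) ?_
        intro _ z hz j hj
        rcases Nat.lt_succ_iff_lt_or_eq.mp hj with hj' | hj'
        · exact hzo z (land_self_testBit hdZ hz) j hj'
        · subst hj'
          intro he
          obtain ⟨c, hc⟩ := repsMask_testBit (land_self_testBit hdR hz)
          have := List.find?_eq_none.mp hfind (z, c) hc
          simp only [decide_eq_true_eq] at this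
          exact this he.symm
      · -- explicit reply
        have hs : step W node i (b k) = rc.2 := by
          simp [step, ht', hfind]
        have hmem := List.mem_of_find?_eq_some hfind
        have hcond := List.find?_some hfind
        simp only [decide_eq_true_eq] at hcond
        obtain ⟨r, c⟩ := rc
        obtain ⟨hclt, hcM, hcd, hcZ, hcr⟩ := repsOK_mem node cnt hreps hmem
        refine Inv.of_eq W node cnt root (hw.trans hs) hclt (stones_c _ hcM) (fun _ => nonterm_c _ hcM hcd) ?_
        intro _ z hz j hj
        rcases Nat.lt_succ_iff_lt_or_eq.mp hj with hj' | hj'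
        · exact hzo z (land_self_testBit hcZ hz) j hj'
        · subst hj'
          intro he
          have : z = r := dec_inj (he.symm.trans hcond.symm)
          subst this
          simp only at hz
          rw [hz] at hcr
          exact absurd hcr (by simp)

end Sound

/-- A terminal node gives a copy of Snaky in the set of cells with a set bit. -/
theorem term_copy (W : ℕ) (hW : 0 < W) (n : NodeRec) (X : Set (ℤ × ℤ))
    (hX : ∀ c, n.M.testBit c = true → dec W c ∈ X)
    (h : snakyL.all (wCell W n) = true) : ContainsCopy X := by
  -- the generic cell lemma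
  have key : ∀ p ∈ snakyL,
      (( (n.wx : ℤ) - ((W / 2 : ℕ) : ℤ) + (if n.we1 then -1 else 1 : ℤ) * ((if n.wsw then p.2 else p.1 : ℕ) : ℤ),
         (n.wy : ℤ) - ((W / 2 : ℕ) : ℤ) + (if n.we2 then -1 else 1 : ℤ) * ((if n.wsw then p.1 else p.2 : ℕ) : ℤ)) ∈ X) := by
    intro p hp
    have hc := List.all_eq_true.mp h p hp
    simp only [wCell, Bool.and_eq_true, Nat.blt_eq] at hc
    obtain ⟨⟨⟨h1, h2⟩, h3⟩, h4⟩ := hc
    have := hX _ h4
    have hd : dec W (wcoord n.we1 n.wx (if n.wsw then p.2 else p.1) +
        W * wcoord n.we2 n.wy (if n.wsw then p.1 else p.2)) =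
        (((wcoord n.we1 n.wx (if n.wsw then p.2 else p.1) : ℕ) : ℤ) - ((W / 2 : ℕ) : ℤ),
         ((wcoord n.we2 n.wy (if n.wsw then p.1 else p.2) : ℕ) : ℤ) - ((W / 2 : ℕ) : ℤ)) := by
      simp only [dec]
      rw [Nat.add_mul_mod_self_left, Nat.mod_eq_of_lt h3, Nat.add_mul_div_left _ _ hW,
        Nat.div_eq_of_lt h3, Nat.zero_add]
    rw [hd] at this
    convert this using 2
    · by_cases he : n.we1
      · simp only [he, if_true] at h1 ⊢
        simp only [wcoord, if_true]
        have h1' : (if n.wsw then p.2 else p.1) ≤ n.wx := by simpa using h1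
        rw [Nat.cast_sub h1']
        ring
      · simp only [he, Bool.false_eq_true, if_false]
        simp only [wcoord, Bool.false_eq_true, if_false]
        push_cast
        ring
    · by_cases he : n.we2
      · simp only [he, if_true] at h2 ⊢
        simp only [wcoord, if_true]
        have h2' : (if n.wsw then p.1 else p.2) ≤ n.wy := by simpa using h2
        rw [Nat.cast_sub h2']
        ring
      · simp only [he, Bool.false_eq_true, if_false]
        simp only [wcoord, Bool.false_eq_true, if_false]
        push_cast
        ring
  refine ⟨((n.wx : ℤ) - ((W / 2 : ℕ) : ℤ), (n.wy : ℤ) - ((W / 2 : ℕ) : ℤ)),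
    (if n.we1 then -1 else 1 : ℤ), (if n.we2 then -1 else 1 : ℤ), ?_, ?_, ?_⟩
  · by_cases he : n.we1 <;> simp [he]
  · by_cases he : n.we2 <;> simp [he]
  · have hs : ∀ p ∈ snaky, ∃ q ∈ snakyL, ((q.1 : ℤ), (q.2 : ℤ)) = p := by
      intro p hp
      simp only [snaky, Finset.mem_insert, Finset.mem_singleton] at hp
      rcases hp with rfl | rfl | rfl | rfl | rfl | rfl
      · exact ⟨(0, 0), by simp [snakyL], rfl⟩
      · exact ⟨(1, 0), by simp [snakyL], rfl⟩
      · exact ⟨(2, 0), by simp [snakyL], rfl⟩
      · exact ⟨(3, 0), by simp [snakyL], rfl⟩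
      · exact ⟨(3, 1), by simp [snakyL], rfl⟩
      · exact ⟨(4, 1), by simp [snakyL], rfl⟩
    by_cases hsw : n.wsw
    · right
      intro p hp
      obtain ⟨q, hq, rfl⟩ := hs p hp
      have := key q hq
      simpa [hsw] using this
    · left
      intro p hp
      obtain ⟨q, hq, rfl⟩ := hs p hp
      have := key q hq
      simpa [hsw] using this

/-- Main soundness theorem. -/
theorem sound (W : ℕ) (hW : 0 < W) (node : ℕ → NodeRec) (cnt root : ℕ)
    (hok : ∀ i, i < cnt → okNode W node cnt i = true)
    (hroot : root < cnt) (hM : (node root).M = 0) (hd : (node root).d = 0) :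
    ∃ σ : List (ℤ × ℤ) → ℤ × ℤ, ∀ b : ℕ → ℤ × ℤ,
      (∀ k : ℕ, k < 20 →
        (∀ j : ℕ, j ≤ k → b k ≠ makerClaim σ b j) ∧
        (∀ j : ℕ, j < k → b k ≠ b j)) →
      (∀ k : ℕ, k ≤ 20 →
        (∀ j : ℕ, j < k → makerClaim σ b k ≠ makerClaim σ b j) ∧
        (∀ j : ℕ, j < k → makerClaim σ b k ≠ b j)) ∧
      ContainsCopy {c | ∃ j : ℕ, j ≤ 20 ∧ c = makerClaim σ b j} := by
  refine ⟨policy W node root, fun b _ => ⟨?_, ?_⟩⟩
  · intro k _
    have hI := inv_all W node cnt root hok hroot hM hd b k
    have hc : makerClaim (policy W node root) b k = policy W node root ((List.range k).map b) := rfl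
    set i := walk W node root ((List.range k).map b) with hi
    have hpol : policy W node root ((List.range k).map b) =
        if (node i).term then (fx W ((List.range k).map b), 0) else dec W (node i).m := rfl
    by_cases ht : (node i).term = true
    · -- fresh cell
      have hfresh : makerClaim (policy W node root) b k = (fx W ((List.range k).map b), 0) := by
        rw [hc, hpol, if_pos ht]
      constructor
      · intro j hj
        rw [hfresh]
        have hcj : makerClaim (policy W node root) b j = policy W node root ((List.range j).map b) := rfl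
        rw [hcj]
        have hpj : policy W node root ((List.range j).map b) =
            if (node (walk W node root ((List.range j).map b))).term then
              (fx W ((List.range j).map b), 0)
            else dec W (node (walk W node root ((List.range j).map b))).m := rfl
        rw [hpj]
        split_ifs with htj
        · intro he
          have := congrArg Prod.fst he
          simp only at this
          exact absurd this (ne_of_gt (fx_lt W b hj))
        · intro he
          have := congrArg Prod.fst he
          simp only at this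
          exact dec_fst_ne_fx W hW _ _ this.symm
      · intro j hj
        rw [hfresh]
        intro he
        have h1 := abs_le_fx W b hj
        rw [← he] at h1
        simp only at h1
        exact absurd (le_abs_self (fx W ((List.range k).map b))) (not_le.mpr h1)
    · have ht' : (node i).term = false := by simpa using ht
      have hchk := hok i hI.lt
      simp only [okNode, ht', Bool.false_eq_true, if_false, Bool.and_eq_true, Nat.ble_eq,
        Nat.blt_eq, Nat.beq_eq, Bool.not_eq_true'] at hchk
      obtain ⟨⟨⟨⟨⟨⟨⟨⟨hdle, hmZ⟩, hmM⟩, hdlt⟩, hdM⟩, hdd⟩, hdZ⟩, hdR⟩, hreps⟩ := hchk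
      have hclaim : makerClaim (policy W node root) b k = dec W (node i).m := by
        rw [hc, hpol, if_neg ht]
      constructor
      · intro j hj
        rw [hclaim]
        obtain ⟨c, hcb, he⟩ := (hI.nonterm ht').2 j hj
        have hcj : makerClaim (policy W node root) b j = policy W node root ((List.range j).map b) := rfl
        rw [hcj, he]
        intro h
        have := dec_inj h
        subst this
        rw [hmM] at hcb
        exact absurd hcb (by simp)
      · intro j hj
        rw [hclaim]
        exact fun he => hI.zone ht' _ hmZ j hj he.symm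
  · -- the copy
    have hI := inv_all W node cnt root hok hroot hM hd b 21
    set i := walk W node root ((List.range 21).map b) with hi
    have ht : (node i).term = true := by
      by_contra hnt
      have ht' : (node i).term = false := by simpa using hnt
      have hchk := hok i hI.lt
      simp only [okNode, ht', Bool.false_eq_true, if_false, Bool.and_eq_true, Nat.ble_eq,
        Nat.blt_eq, Nat.beq_eq, Bool.not_eq_true'] at hchk
      obtain ⟨⟨⟨⟨⟨⟨⟨⟨hdle, _⟩, _⟩, _⟩, _⟩, _⟩, _⟩, _⟩, _⟩ := hchk
      have h2 : (node i).d = 21 := (hI.nonterm ht').1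
      omega
    have hchk := hok i hI.lt
    simp only [okNode, ht, if_true] at hchk
    refine term_copy W hW (node i) _ ?_ hchk
    intro c hc
    obtain ⟨j, hj, h⟩ := hI.stones c hc
    exact ⟨j, by omega, h.symm⟩

end Crest.Agent.Lib.SnakyCert
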