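import Crest.Agent.Lib.SnakyCert
import Crest.Agent.Lib.SnakyBase

/-!
Soundness of the fast check of `SnakyBase`.
-/

set_option autoImplicit false

namespace Crest.Agent.Lib.SnakyFast

open Crest.Agent.Lib.SnakyCert

local macro "M225!" : term => `(nat_lit 0x1FFFFFFFFFFFFFFFFFFFFFFFFFFFFFFFFFFFFFFFFFFFFFFFFFFFFFFFF)
local macro "M230!" : term => `(nat_lit 0x3FFFFFFFFFFFFFFFFFFFFFFFFFFFFFFFFFFFFFFFFFFFFFFFFFFFFFFFFF)
local macro "F455!" : term => `(nat_lit 0x7FFFFFFFFFFFFFFFFFFFFFFFFFFFFFFFFFFFFFFFFFFFFFFFFFFFFFFFFFFFFFFFFFFFFFFFFFFFFFFFFFFFFFFFFFFFFFFFFFFFFFFFFFFFFFFFFF)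
local macro "ZMASK!" : term => `(nat_lit 0x7FFFFFFFFFFFFFFFFFFFFFFFFFFFFFFFFFFFFFFFFFFFFFFFFFFFFFFFC000000000000000000000000000000000000000000000000000000000)
local macro "TOP!" : term => `(nat_lit 0x4000000000000000000000000000000000000000000000000000000000)
local macro "TWO!" : term => `(nat_lit 0x4000000000000000000000000000000000000000000000000000000001)
local macro "LIM!" : term => `(nat_lit 0x29FFFFFFFFFFFFFFFFFFFFFFFFFFFFFFFFFFFFFFFFFFFFFFFFFFFFFFFF)
local macro "P225!" : term => `(nat_lit 0x200000000000000000000000000000000000000000000000000000000)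
local macro "M70!" : term => `(nat_lit 0x3FFFFFFFFFFFFFFFFF)
local macro "M65!" : term => `(nat_lit 0x1FFFFFFFFFFFFFFFF)
local macro "TABLE!" : term => `(nat_lit 0x688001000200060005400000000000F0003684000800100060009400000000000780186840018002000400094000000000001801E688001800100020005400000000000C000F)


noncomputable section

/-! ### Decoding of the records -/

def fM (x : Nat) : Nat := Nat.land x M225!

def fd (x : Nat) : Nat := Nat.shiftRight (Nat.land x M230!) (nat_lit 225)

def fZ (x : Nat) : Nat := Nat.land (Nat.shiftRight x (nat_lit 230)) M225!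

def fmm (x : Nat) : Nat := Nat.land (Nat.shiftRight x (nat_lit 455)) (nat_lit 255)

def fc0 (x : Nat) : Nat := Nat.land (Nat.shiftRight x (nat_lit 463)) (nat_lit 0xFFFFF)

def fcount (x : Nat) : Nat := Nat.land (Nat.shiftRight x (nat_lit 504)) (nat_lit 255)

def fstart (x : Nat) : Nat := Nat.land (Nat.shiftRight x (nat_lit 483)) (nat_lit 0x1FFFFF)

def fo (x : Nat) : Nat := Nat.land (Nat.shiftRight x (nat_lit 463)) (nat_lit 7)

def fpos (x : Nat) : Nat := Nat.land (Nat.shiftRight x (nat_lit 466)) (nat_lit 255)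

/-- The list of replies, from the bits of the table -/
def repList : Nat → Nat → List (ℕ × ℕ) :=
  Nat.rec (fun _ => []) (fun _ ih e =>
    (Nat.land e (nat_lit 255), Nat.land (Nat.shiftRight e (nat_lit 8)) (nat_lit 0xFFFFFF)) ::
      ih (Nat.shiftRight e (nat_lit 32)))

/-- The node decoded -/
def mkNode (T R : NT) (i : Nat) : NodeRec where
  term := Nat.beq (fmm (rawAt T i)) 255
  M := fM (rawAt T i)
  Z := fZ (rawAt T i)
  d := fd (rawAt T i)
  m := fmm (rawAt T i)
  dflt := fc0 (rawAt T i)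
  reps := repList (fcount (rawAt T i)) (repAt R (fstart (rawAt T i)))
  wsw := (fo (rawAt T i)).testBit 0
  we1 := (fo (rawAt T i)).testBit 1
  we2 := (fo (rawAt T i)).testBit 2
  wx := fpos (rawAt T i) % 15 +
    (if (fo (rawAt T i)).testBit 1 then (if (fo (rawAt T i)).testBit 0 then 1 else 4) else 0)
  wy := fpos (rawAt T i) / 15 +
    (if (fo (rawAt T i)).testBit 2 then (if (fo (rawAt T i)).testBit 0 then 4 else 1) else 0)

/-! ### The constants -/

theorem c_M225 : (M225! : Nat) = 2 ^ 225 - 1 := by decide +kernel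

theorem c_M230 : (M230! : Nat) = 2 ^ 230 - 1 := by decide +kernel

theorem c_F455 : (F455! : Nat) = 2 ^ 455 - 1 := by decide +kernel

theorem c_ZMASK : (ZMASK! : Nat) = (2 ^ 225 - 1) <<< 230 := by decide +kernel

theorem c_TOP : (TOP! : Nat) = 2 ^ 230 := by decide +kernel

theorem c_TWO : (TWO! : Nat) = 2 ^ 230 + 1 := by decide +kernel

theorem c_LIM : (LIM! : Nat) = 21 * 2 ^ 225 - 1 := by decide +kernel

theorem c_P225 : (P225! : Nat) = 2 ^ 225 := by decide +kernel

theorem c_M65 : (M65! : Nat) = 2 ^ 65 - 1 := by decide +kernel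

theorem tb_M225 (a i : Nat) : (Nat.land a M225!).testBit i = (a.testBit i && decide (i < 225)) := by
  have : Nat.land a M225! = a &&& (2 ^ 225 - 1) := by rw [c_M225]; rfl
  rw [this, Nat.testBit_and, Nat.testBit_two_pow_sub_one]

theorem tb_M230 (a i : Nat) : (Nat.land a M230!).testBit i = (a.testBit i && decide (i < 230)) := by
  have : Nat.land a M230! = a &&& (2 ^ 230 - 1) := by rw [c_M230]; rfl
  rw [this, Nat.testBit_and, Nat.testBit_two_pow_sub_one]

theorem tb_F455 (a i : Nat) : (Nat.land a F455!).testBit i = (a.testBit i && decide (i < 455)) := by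
  have : Nat.land a F455! = a &&& (2 ^ 455 - 1) := by rw [c_F455]; rfl
  rw [this, Nat.testBit_and, Nat.testBit_two_pow_sub_one]

theorem tb_ZMASK (a j : Nat) :
    (Nat.land a ZMASK!).testBit j = (a.testBit j && decide (230 ≤ j ∧ j < 455)) := by
  have : Nat.land a ZMASK! = a &&& ((2 ^ 225 - 1) <<< 230) := by rw [c_ZMASK]; rfl
  rw [this, Nat.testBit_and, Nat.testBit_shiftLeft, Nat.testBit_two_pow_sub_one]
  congr 1
  by_cases h : 230 ≤ j
  · by_cases h2 : j < 455
    · have h3 : j - 230 < 225 := by omega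
      simp [h, h2, h3]
    · have h3 : ¬ j - 230 < 225 := by omega
      simp [h, h2, h3]
  · simp [h]

theorem tb_fM (x i : Nat) : (fM x).testBit i = (x.testBit i && decide (i < 225)) := tb_M225 x i

theorem tb_fZ (x i : Nat) : (fZ x).testBit i = (x.testBit (230 + i) && decide (i < 225)) := by
  have : fZ x = Nat.land (x >>> 230) M225! := rfl
  rw [this, tb_M225, Nat.testBit_shiftRight]

theorem fd_eq (x : Nat) : fd x = (x % 2 ^ 230) / 2 ^ 225 := by
  have : fd x = (x &&& (2 ^ 230 - 1)) >>> 225 := by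
    have h : fd x = (Nat.land x M230!) >>> 225 := rfl
    rw [h, c_M230]; rfl
  rw [this, Nat.and_two_pow_sub_one_eq_mod, Nat.shiftRight_eq_div_pow]

/-! ### Children -/

/-- Bits of `y` where the mask holds. -/
theorem edge_bits {y Md C : Nat} (h : (y ^^^ Md) &&& C = 0) {i : Nat} (hC : C.testBit i = true) :
    y.testBit i = Md.testBit i := by
  have h1 : ((y ^^^ Md) &&& C).testBit i = false := by rw [h]; simp
  rw [Nat.testBit_and, Nat.testBit_xor, hC] at h1
  simp only [Bool.and_true, bne_eq_false_iff_eq] at h1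
  exact h1

theorem bits_of_land {a b : Nat} (h : (a ^^^ b) &&& b = 0) {k : Nat} (hb : b.testBit k = true) :
    a.testBit k = true := by
  have := edge_bits h hb
  rw [this, hb]

/-- The expected low part of a child. -/
def mdOf (x m : Nat) : Nat := ((x % 2 ^ 230) ||| (1 <<< m)) + 2 ^ 225

section Edge

variable {x m : Nat}

theorem mdOf_facts (hm : m < 225) (hd : x % 2 ^ 230 ≤ 21 * 2 ^ 225 - 1) :
    mdOf x m < 2 ^ 230 ∧ mdOf x m / 2 ^ 225 = (x % 2 ^ 230) / 2 ^ 225 + 1 ∧
      mdOf x m % 2 ^ 225 = ((x % 2 ^ 230) ||| (1 <<< m)) % 2 ^ 225 := by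
  set A := (x % 2 ^ 230) ||| (1 <<< m) with hA
  have hm2 : (1 <<< m) / 2 ^ 225 = 0 := by
    rw [Nat.one_shiftLeft]
    exact Nat.div_eq_of_lt (Nat.pow_lt_pow_right (by norm_num) hm)
  have hdiv : A / 2 ^ 225 = (x % 2 ^ 230) / 2 ^ 225 := by
    rw [← Nat.shiftRight_eq_div_pow, hA, Nat.shiftRight_or_distrib, Nat.shiftRight_eq_div_pow,
      Nat.shiftRight_eq_div_pow, hm2, Nat.or_zero]
  have hle : (x % 2 ^ 230) / 2 ^ 225 ≤ 20 := by
    have : (x % 2 ^ 230) / 2 ^ 225 < 21 := by
      apply Nat.div_lt_of_lt_mul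
      have h2 : (0:ℕ) < 2 ^ 225 := by positivity
      have h3 : 2 ^ 225 * 21 = 21 * 2 ^ 225 := Nat.mul_comm _ _
      omega
    omega
  have hA21 : A < 21 * 2 ^ 225 := by
    have h1 := Nat.div_add_mod A (2 ^ 225)
    have h2 : A % 2 ^ 225 < 2 ^ 225 := Nat.mod_lt _ (by positivity)
    rw [hdiv] at h1
    have h3 : 2 ^ 225 * ((x % 2 ^ 230) / 2 ^ 225) ≤ 2 ^ 225 * 20 := Nat.mul_le_mul_left _ hle
    have h4 : (2:ℕ) ^ 225 * 20 = 20 * 2 ^ 225 := Nat.mul_comm _ _
    have h5 : (21:ℕ) * 2 ^ 225 = 20 * 2 ^ 225 + 2 ^ 225 := by ring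
    omega
  refine ⟨?_, ?_, ?_⟩
  · have e : (2:ℕ) ^ 230 = 32 * 2 ^ 225 := by norm_num
    show A + 2 ^ 225 < 2 ^ 230
    rw [e]
    have h5 : (21:ℕ) * 2 ^ 225 = 20 * 2 ^ 225 + 2 ^ 225 := by ring
    have h6 : (32:ℕ) * 2 ^ 225 = 30 * 2 ^ 225 + 2 * 2 ^ 225 := by ring
    have h7 : (0:ℕ) < 2 ^ 225 := by positivity
    omega
  · show (A + 2 ^ 225) / 2 ^ 225 = _
    rw [Nat.add_div_right _ (by positivity), hdiv]
  · show (A + 2 ^ 225) % 2 ^ 225 = _
    rw [Nat.add_mod_right]

/-- What a child satisfies -/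
theorem edge_spec (hm : m < 225) (hd : x % 2 ^ 230 ≤ 21 * 2 ^ 225 - 1) {y b : Nat}
    (h : (y ^^^ mdOf x m) &&& ((F455! ^^^ (Nat.land (Nat.land x F455!) ZMASK!)) ||| b) = 0) :
    fM y = fM x ||| (1 <<< m) ∧ fd y = fd x + 1 ∧
      (∀ i, (fZ y).testBit i = true → (fZ x).testBit i = true) ∧
      (∀ i, b.testBit (230 + i) = true → (fZ y).testBit i = false) := by
  obtain ⟨hlt, hdiv, hmod⟩ := mdOf_facts hm hd
  have hF (j : Nat) : (F455! : Nat).testBit j = decide (j < 455) := by
    rw [c_F455, Nat.testBit_two_pow_sub_one]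
  have hCb (j : Nat) (hj : ((F455! ^^^ (Nat.land (Nat.land x F455!) ZMASK!)) ||| b).testBit j = true) :
      y.testBit j = (mdOf x m).testBit j := edge_bits h hj
  have tbC (j : Nat) : ((F455! ^^^ (Nat.land (Nat.land x F455!) ZMASK!)) ||| b).testBit j =
      ((decide (j < 455) ^^ ((x.testBit j && decide (j < 455)) && decide (230 ≤ j ∧ j < 455))) ||
        b.testBit j) := by
    rw [Nat.testBit_or, Nat.testBit_xor, tb_ZMASK, tb_F455, hF]
  -- low bits
  have hlow (j : Nat) (hj : j < 230) : y.testBit j = (mdOf x m).testBit j := by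
    apply hCb
    have hj' : j < 455 := by omega
    have hj2 : ¬ 230 ≤ j := by omega
    rw [tbC]
    simp [hj', hj2]
  have hhigh (j : Nat) (hj : 230 ≤ j) : (mdOf x m).testBit j = false :=
    Nat.testBit_lt_two_pow (lt_of_lt_of_le hlt (Nat.pow_le_pow_right (by norm_num) hj))
  have hymod : y % 2 ^ 230 = mdOf x m := by
    apply Nat.eq_of_testBit_eq
    intro j
    rw [Nat.testBit_mod_two_pow]
    by_cases hj : j < 230
    · simp [hj, hlow j hj]
    · simp [hj, hhigh j (by omega)]
  refine ⟨?_, ?_, ?_, ?_⟩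
  · -- stones
    have h1 : fM y = y % 2 ^ 225 := by
      have : fM y = y &&& (2 ^ 225 - 1) := by
        show Nat.land y M225! = _
        rw [c_M225]; rfl
      rw [this, Nat.and_two_pow_sub_one_eq_mod]
    have h2 : y % 2 ^ 225 = (y % 2 ^ 230) % 2 ^ 225 :=
      (Nat.mod_mod_of_dvd y (pow_dvd_pow 2 (by norm_num))).symm
    rw [h1, h2, hymod, hmod]
    apply Nat.eq_of_testBit_eq
    intro j
    rw [Nat.testBit_mod_two_pow, Nat.testBit_or, Nat.testBit_mod_two_pow, Nat.testBit_or, tb_fM,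
      Nat.one_shiftLeft, Nat.testBit_two_pow]
    by_cases hj : j < 225
    · have hj' : j < 230 := by omega
      simp [hj, hj']
    · have hne : m ≠ j := by omega
      simp [hj, hne]
  · rw [fd_eq, fd_eq, hymod, hdiv]
  · intro i hi
    rw [tb_fZ] at hi ⊢
    simp only [Bool.and_eq_true, decide_eq_true_eq] at hi ⊢
    refine ⟨?_, hi.2⟩
    by_contra hne
    have hxf : x.testBit (230 + i) = false := by simpa using hne
    have hj1 : 230 + i < 455 := by omega
    have hj2 : (230 ≤ 230 + i ∧ 230 + i < 455) := by omega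
    have := hCb (230 + i) (by
      rw [tbC]
      simp [hj1, hxf])
    rw [hhigh _ (by omega), hi.1] at this
    exact absurd this (by simp)
  · intro i hb
    rw [tb_fZ]
    have := hCb (230 + i) (by rw [tbC, hb]; simp)
    rw [hhigh _ (by omega)] at this
    rw [this]
    simp

end Edge

theorem goE_spec (T : NT) (cnt Md C : Nat) (n e W : Nat) (h : goE T cnt Md C n e W = 0) :
    (∀ rc ∈ repList n e, rc.2 < cnt ∧
      (rawAt T rc.2 ^^^ Md) &&& (C ||| (TOP! <<< rc.1)) = 0) ∧
    (∀ i, W.testBit (230 + i) = true → (repsMask (repList n e)).testBit i = true) := by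
  induction n generalizing e W with
  | zero =>
    have hW : W = 0 := h
    constructor
    · intro rc hrc
      exact absurd hrc (by simp [repList])
    · intro i hi
      rw [hW] at hi
      simp at hi
  | succ n ih =>
    have h1 : (Nat.sub (Nat.succ (Nat.land (Nat.shiftRight e (nat_lit 8)) (nat_lit 0xFFFFFF))) cnt) |||
      (((rawAt T (Nat.land (Nat.shiftRight e (nat_lit 8)) (nat_lit 0xFFFFFF)) ^^^ Md) &&&
          (C ||| (TOP! <<< (Nat.land e (nat_lit 255))))) |||
        (goE T cnt Md C n (Nat.shiftRight e (nat_lit 32))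
          (W ^^^ (W &&& (TOP! <<< (Nat.land e (nat_lit 255))))))) = 0 := h
    rw [Nat.or_eq_zero_iff, Nat.or_eq_zero_iff] at h1
    obtain ⟨h2, h3, h4⟩ := h1
    obtain ⟨ih1, ih2⟩ := ih _ _ h4
    have hl : repList (n + 1) e =
      (Nat.land e (nat_lit 255), Nat.land (Nat.shiftRight e (nat_lit 8)) (nat_lit 0xFFFFFF)) ::
        repList n (Nat.shiftRight e (nat_lit 32)) := rfl
    rw [hl]
    constructor
    · intro rc hrc
      rcases List.mem_cons.mp hrc with rfl | hrc'
      · refine ⟨?_, h3⟩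
        have : Nat.succ (Nat.land (Nat.shiftRight e (nat_lit 8)) (nat_lit 0xFFFFFF)) ≤ cnt :=
          Nat.sub_eq_zero_iff_le.mp h2
        exact this
      · exact ih1 rc hrc'
    · intro i hi
      simp only [repsMask, Nat.testBit_or, Bool.or_eq_true]
      generalize Nat.land e (nat_lit 255) = r at *
      by_cases hir : r = i
      · left
        rw [hir, Nat.one_shiftLeft, Nat.testBit_two_pow]
        simp
      · right
        apply ih2
        have hb : (TOP! <<< r).testBit (230 + i) = false := by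
          rw [c_TOP, Nat.testBit_shiftLeft, Nat.testBit_two_pow]
          have : ¬ (230 = 230 + i - r) := by omega
          simp [this]
        rw [Nat.testBit_xor, Nat.testBit_and, hb, hi]
        simp

/-- `repsOK` from its elements. -/
theorem repsOK_of_forall (node : ℕ → NodeRec) (cnt M' Z d : ℕ) (l : List (ℕ × ℕ))
    (h : ∀ rc ∈ l, rc.2 < cnt ∧ (node rc.2).M = M' ∧ (node rc.2).d = d + 1 ∧
      (node rc.2).Z &&& Z = (node rc.2).Z ∧ (node rc.2).Z.testBit rc.1 = false) :
    repsOK node cnt M' Z d l = true := by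
  induction l with
  | nil => rfl
  | cons hd t ih =>
    obtain ⟨r, c⟩ := hd
    have h0 := h (r, c) List.mem_cons_self
    simp only at h0
    obtain ⟨a1, a2, a3, a4, a5⟩ := h0
    have h1 := ih (fun rc hrc => h rc (List.mem_cons_of_mem _ hrc))
    simp only [repsOK, Bool.and_eq_true, Nat.blt_eq, Nat.beq_eq, Bool.not_eq_true']
    exact ⟨⟨⟨⟨⟨a1, a2⟩, a3⟩, a4⟩, a5⟩, h1⟩

theorem land_eq_of_bits {a b : Nat} (h : ∀ i, a.testBit i = true → b.testBit i = true) :
    a &&& b = a := by
  apply Nat.eq_of_testBit_eq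
  intro i
  rw [Nat.testBit_and]
  cases ha : a.testBit i with
  | false => simp
  | true => simp [h i ha]

theorem beq_false_of_ne {a b : Nat} (h : a ≠ b) : Nat.beq a b = false := by
  cases h' : Nat.beq a b with
  | false => rfl
  | true => exact absurd (Nat.eq_of_beq_eq_true h') h

/-- A non-terminal node with no errors is fine -/
theorem ntE_spec (T R : NT) (cnt i : Nat)
    (hm255 : fmm (rawAt T i) ≠ 255)
    (h : ntE T R cnt (rawAt T i) (Nat.land (rawAt T i) F455!) (fmm (rawAt T i)) = 0) :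
    okNode 15 (mkNode T R) cnt i = true := by
  set x := rawAt T i with hx
  set m := fmm x with hm
  have hK1 : Nat.land (Nat.land x F455!) M230! = x % 2 ^ 230 := by
    have h1 : Nat.land (Nat.land x F455!) M230! = ((x &&& (2 ^ 455 - 1)) &&& (2 ^ 230 - 1)) := by
      rw [c_F455, c_M230]; rfl
    rw [h1, Nat.and_two_pow_sub_one_eq_mod, Nat.and_two_pow_sub_one_eq_mod]
    exact Nat.mod_mod_of_dvd x (pow_dvd_pow 2 (by norm_num))
  have h0 : (Nat.sub (x % 2 ^ 230) LIM!) ||| (((((Nat.land x F455!) >>> m) &&& TWO!) ^^^ TOP!) |||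
      ((Nat.sub (Nat.succ (fc0 x)) cnt) ||| (((rawAt T (fc0 x) ^^^ mdOf x m) &&&
        (F455! ^^^ (Nat.land (Nat.land x F455!) ZMASK!))) |||
          (goE T cnt (mdOf x m) (F455! ^^^ (Nat.land (Nat.land x F455!) ZMASK!)) (fcount x)
            (repAt R (fstart x)) (Nat.land (rawAt T (fc0 x)) ZMASK!))))) = 0 := by
    have e1 : mdOf x m = Nat.add (Nat.lor (x % 2 ^ 230) (Nat.shiftLeft (nat_lit 1) m)) P225! := by
      rw [c_P225]; rfl
    rw [e1, ← hK1]
    exact h
  simp only [Nat.or_eq_zero_iff] at h0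
  obtain ⟨h1, h2, h3, h4, h5⟩ := h0
  -- the bound on the depth
  have hd : x % 2 ^ 230 ≤ 21 * 2 ^ 225 - 1 := by
    have := Nat.sub_eq_zero_iff_le.mp h1
    rw [c_LIM] at this
    exact this
  -- the move
  have hK (j : Nat) : (Nat.land x F455!).testBit j = (x.testBit j && decide (j < 455)) := tb_F455 x j
  have h21 : ((Nat.land x F455!) >>> m) &&& TWO! = TOP! := Nat.xor_eq_zero_iff.mp h2
  have htop : x.testBit (m + 230) = true ∧ m + 230 < 455 := by
    have : (((Nat.land x F455!) >>> m) &&& TWO!).testBit 230 = true := by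
      rw [h21, c_TOP, Nat.testBit_two_pow]; simp
    rw [Nat.testBit_and, Nat.testBit_shiftRight, hK, c_TWO] at this
    have h3 : ((2:ℕ) ^ 230 + 1).testBit 230 = true := by decide +kernel
    rw [h3] at this
    simpa using this
  have hmlt : m < 225 := by omega
  have hlow : x.testBit m = false := by
    have : (((Nat.land x F455!) >>> m) &&& TWO!).testBit 0 = false := by
      rw [h21, c_TOP, Nat.testBit_two_pow]; simp
    rw [Nat.testBit_and, Nat.testBit_shiftRight, hK, c_TWO] at this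
    have h3 : ((2:ℕ) ^ 230 + 1).testBit 0 = true := by decide +kernel
    rw [h3] at this
    have hmm : m < 455 := by omega
    simpa [hmm] using this
  have hterm : (mkNode T R i).term = false := by
    show Nat.beq (fmm x) 255 = false
    exact beq_false_of_ne hm255
  -- the children
  have hsub : Nat.land (Nat.land x F455!) ZMASK! = Nat.land (Nat.land x F455!) ZMASK! := rfl
  have e0 := edge_spec (x := x) (m := m) (y := rawAt T (fc0 x)) (b := 0) hmlt hd (by simpa using h4)
  obtain ⟨d1, d2, d3, _⟩ := e0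
  obtain ⟨g1, g2⟩ := goE_spec _ _ _ _ _ _ _ h5
  have hnodeM (c : Nat) : (mkNode T R c).M = fM (rawAt T c) := rfl
  have hnodeD (c : Nat) : (mkNode T R c).d = fd (rawAt T c) := rfl
  have hnodeZ (c : Nat) : (mkNode T R c).Z = fZ (rawAt T c) := rfl
  unfold okNode
  simp only [hterm, Bool.false_eq_true, if_false, Bool.and_eq_true, Nat.ble_eq, Nat.blt_eq, Nat.beq_eq,
    Bool.not_eq_true']
  have hfm : (mkNode T R i).m = m := rfl
  have hfdf : (mkNode T R i).dflt = fc0 x := rfl
  have hreps : (mkNode T R i).reps = repList (fcount x) (repAt R (fstart x)) := rfl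
  rw [hfm, hfdf, hreps, hnodeM, hnodeM, hnodeD, hnodeD, hnodeZ, hnodeZ, ← hx]
  refine ⟨⟨⟨⟨⟨⟨⟨⟨?_, ?_⟩, ?_⟩, ?_⟩, ?_⟩, ?_⟩, ?_⟩, ?_⟩, ?_⟩
  · -- depth
    rw [fd_eq]
    have : (x % 2 ^ 230) / 2 ^ 225 < 21 := by
      apply Nat.div_lt_of_lt_mul
      have h2 : (0:ℕ) < 2 ^ 225 := by positivity
      have h3 : 2 ^ 225 * 21 = 21 * 2 ^ 225 := Nat.mul_comm _ _
      omega
    omega
  · rw [tb_fZ]
    have : 230 + m = m + 230 := by omega
    rw [this, htop.1]
    simp [hmlt]
  · rw [tb_fM, hlow]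
    simp
  · exact Nat.sub_eq_zero_iff_le.mp h3
  · exact d1
  · exact d2
  · exact land_eq_of_bits d3
  · apply land_eq_of_bits
    intro j hj
    apply g2
    rw [tb_ZMASK]
    rw [tb_fZ] at hj
    simp only [Bool.and_eq_true, decide_eq_true_eq] at hj ⊢
    exact ⟨hj.1, by omega, by omega⟩
  · apply repsOK_of_forall
    intro rc hrc
    obtain ⟨b1, b2⟩ := g1 rc hrc
    have b3 := edge_spec (x := x) (m := m) hmlt hd b2
    obtain ⟨c1, c2, c3, c4⟩ := b3
    refine ⟨b1, ?_, ?_, ?_, ?_⟩
    · rw [hnodeM]; exact c1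
    · rw [hnodeD]; exact c2
    · rw [hnodeZ]; exact land_eq_of_bits c3
    · rw [hnodeZ]
      apply c4
      rw [c_TOP, Nat.testBit_shiftLeft, Nat.testBit_two_pow]
      simp

/-! ### Terminal nodes -/

/-- The check on the table of copies -/
def clo (o : Nat) (p : ℕ × ℕ) : Bool :=
  let sw := o.testBit 0
  let e1 := o.testBit 1
  let e2 := o.testBit 2
  let umax := if sw then 1 else 4
  let vmax := if sw then 4 else 1
  let u := if sw then p.2 else p.1
  let v := if sw then p.1 else p.2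
  let xo := if e1 then umax - u else u
  let yo := if e2 then vmax - v else v
  let ent := Nat.land (Nat.shiftRight TABLE! (Nat.mul o (nat_lit 70))) M70!
  Nat.ble u umax && Nat.ble v vmax && Nat.ble ((ent >>> 65) + umax) 14 &&
    (Nat.land ent M65!).testBit (xo + 15 * yo)

theorem clo_all : ∀ o, o < 8 → ∀ p ∈ snakyL, clo o p = true := by decide +kernel

theorem termE_spec (T R : NT) (cnt i : Nat) (hm255 : fmm (rawAt T i) = 255)
    (h : termE (rawAt T i) = 0) : okNode 15 (mkNode T R) cnt i = true := by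
  set x := rawAt T i with hx
  have hterm : (mkNode T R i).term = true := by
    show Nat.beq (fmm x) 255 = true
    rw [hm255]; rfl
  unfold okNode
  simp only [hterm, if_true]
  apply List.all_eq_true.mpr
  intro p hp
  have ho : fo x < 8 := by
    have : fo x ≤ 7 := Nat.and_le_right
    omega
  have hc := clo_all (fo x) ho p hp
  set ent := Nat.land (Nat.shiftRight TABLE! (Nat.mul (fo x) (nat_lit 70))) M70! with hent
  have h0 : ((fM x ^^^ ((Nat.land ent M65!) <<< fpos x)) &&& ((Nat.land ent M65!) <<< fpos x)) |||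
      (Nat.sub (fpos x % 15) (ent >>> 65)) = 0 := h
  rw [Nat.or_eq_zero_iff] at h0
  obtain ⟨h1, h2⟩ := h0
  have hlim : fpos x % 15 ≤ ent >>> 65 := Nat.sub_eq_zero_iff_le.mp h2
  have hpos : fpos x % 15 + 15 * (fpos x / 15) = fpos x := Nat.mod_add_div _ _
  set P := fpos x % 15 with hP
  set Q := fpos x / 15 with hQ
  have hsw : (mkNode T R i).wsw = (fo x).testBit 0 := rfl
  have he1 : (mkNode T R i).we1 = (fo x).testBit 1 := rfl
  have he2 : (mkNode T R i).we2 = (fo x).testBit 2 := rfl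
  have hwx : (mkNode T R i).wx = P + (if (fo x).testBit 1 then (if (fo x).testBit 0 then 1 else 4) else 0) := rfl
  have hwy : (mkNode T R i).wy = Q + (if (fo x).testBit 2 then (if (fo x).testBit 0 then 4 else 1) else 0) := rfl
  have hMM : (mkNode T R i).M = fM x := rfl
  simp only [clo, Bool.and_eq_true, Nat.ble_eq] at hc
  obtain ⟨⟨⟨c1, c2⟩, c3⟩, c4⟩ := hc
  have hbit : (fM x).testBit (fpos x + _) = true := bits_of_land h1
    (k := fpos x + _) (by
      rw [Nat.testBit_shiftLeft]
      simp only [Bool.and_eq_true, decide_eq_true_eq]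
      refine ⟨by omega, ?_⟩
      rw [Nat.add_sub_cancel_left]
      exact c4)
  simp only [wCell, wcoord, hsw, he1, he2, hwx, hwy, hMM, Bool.and_eq_true, Nat.blt_eq]
  generalize (fo x).testBit 0 = sw at *
  generalize (fo x).testBit 1 = e1 at *
  generalize (fo x).testBit 2 = e2 at *
  generalize (if sw = true then p.2 else p.1) = u at *
  generalize (if sw = true then p.1 else p.2) = v at *
  cases sw <;> cases e1 <;> cases e2 <;>
    simp only [if_true, if_false, Bool.false_eq_true, Nat.ble_eq, true_and, and_true] at * <;>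
    refine ⟨?_, ?_⟩ <;> first
    | omega
    | (refine ⟨?_, ?_⟩ <;> first | omega | skip)
    | skip
  all_goals
    convert hbit using 2
    omega

/-- A node with no errors is fine. -/
theorem okE_spec (T R : NT) (cnt i : Nat) (h : okE T R cnt (rawAt T i) = 0) :
    okNode 15 (mkNode T R) cnt i = true := by
  have h1 : Bool.rec (ntE T R cnt (rawAt T i) (Nat.land (rawAt T i) F455!) (fmm (rawAt T i)))
      (termE (rawAt T i)) (Nat.beq (fmm (rawAt T i)) (nat_lit 255)) = 0 := h
  by_cases hm : fmm (rawAt T i) = 255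
  · have e : Nat.beq (fmm (rawAt T i)) (nat_lit 255) = true := by rw [hm]; rfl
    rw [e] at h1
    exact termE_spec T R cnt i hm h1
  · have e : Nat.beq (fmm (rawAt T i)) (nat_lit 255) = false := beq_false_of_ne hm
    rw [e] at h1
    exact ntE_spec T R cnt i hm h1

/-- Combining two ranges. -/
theorem rangeE_combine (T R : NT) (cnt d lo : Nat) (h1 : rangeE T R cnt d lo = 0)
    (h2 : rangeE T R cnt d (Nat.add lo (Nat.shiftLeft (nat_lit 1) d)) = 0) :
    rangeE T R cnt (d + 1) lo = 0 := by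
  have h' : rangeE T R cnt (d + 1) lo =
      rangeE T R cnt d lo ||| rangeE T R cnt d (Nat.add lo (Nat.shiftLeft (nat_lit 1) d)) := rfl
  rw [h', h1, h2]
  rfl

theorem rangeE_spec (T R : NT) (cnt : Nat) (d lo : Nat) (h : rangeE T R cnt d lo = 0) :
    ∀ k, k < 2 ^ d → lo + k < cnt → okNode 15 (mkNode T R) cnt (lo + k) = true := by
  induction d generalizing lo with
  | zero =>
    intro k hk hlt
    have hk0 : k = 0 := by simpa using hk
    subst hk0
    have h' : Bool.rec (nat_lit 0) (okE T R cnt (rawAt T lo)) (Nat.ble (Nat.succ lo) cnt) = 0 := h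
    have hb : Nat.ble (Nat.succ lo) cnt = true := by
      simpa [Nat.ble_eq] using hlt
    rw [hb] at h'
    exact okE_spec T R cnt lo h'
  | succ d ih =>
    intro k hk hlt
    have h' : rangeE T R cnt d lo ||| rangeE T R cnt d (Nat.add lo (Nat.shiftLeft (nat_lit 1) d)) = 0 := h
    rw [Nat.or_eq_zero_iff] at h'
    by_cases hkd : k < 2 ^ d
    · exact ih lo h'.1 k hkd hlt
    · have h2 := ih _ h'.2 (k - 2 ^ d) (by rw [pow_succ] at hk; omega)
      have e : Nat.add lo (Nat.shiftLeft (nat_lit 1) d) + (k - 2 ^ d) = lo + k := by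
        have : Nat.shiftLeft 1 d = 2 ^ d := by simp [Nat.shiftLeft_eq]
        show lo + Nat.shiftLeft 1 d + (k - 2 ^ d) = lo + k
        rw [this]; omega
      rw [e] at h2
      exact h2 hlt

end

end Crest.Agent.Lib.SnakyFast
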