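import Crest.Agent.Lib.Tetra.Area

/-!
# Linear algebra for radial sweeps (S0328)

Projection along a vector, Gram determinants, coordinates in the plane `e^⊥`, increments of the
direction field.
-/

set_option autoImplicit false

open MeasureTheory Measure
open scoped ENNReal RealInnerProductSpace

namespace Crest.Agent.Lib.Sweep

open Crest.Agent.Lib.Tetra

/-- Projection along `d` onto `d^⊥`. -/
noncomputable def proj (d y : E3) : E3 := y - (inner ℝ y d / ‖d‖ ^ 2) • d

lemma proj_add (d x y : E3) : proj d (x + y) = proj d x + proj d y := by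
  simp only [proj, inner_add_left, add_div, add_smul]; abel

lemma proj_sub (d x y : E3) : proj d (x - y) = proj d x - proj d y := by
  simp only [proj, inner_sub_left, sub_div, sub_smul]; abel

lemma proj_smul (d y : E3) (s : ℝ) : proj d (s • y) = s • proj d y := by
  simp only [proj, inner_smul_left, conj_trivial, smul_sub, smul_smul]
  congr 2
  ring

lemma proj_self (d : E3) (hd : d ≠ 0) : proj d d = 0 := by
  have h : ‖d‖ ^ 2 ≠ 0 := by have := norm_pos_iff.2 hd; positivity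
  simp [proj, real_inner_self_eq_norm_sq, div_self h]

lemma proj_add_smul (d y : E3) (hd : d ≠ 0) (s : ℝ) : proj d (y + s • d) = proj d y := by
  rw [proj_add, proj_smul, proj_self d hd]; simp

lemma inner_proj (d y : E3) (hd : d ≠ 0) : inner ℝ (proj d y) d = 0 := by
  have h : ‖d‖ ^ 2 ≠ 0 := by have := norm_pos_iff.2 hd; positivity
  rw [proj, inner_sub_left, inner_smul_left, real_inner_self_eq_norm_sq]
  simp
  field_simp
  ring

lemma eq_proj_add (d y : E3) : y = proj d y + (inner ℝ y d / ‖d‖ ^ 2) • d := by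
  simp [proj]

/-- Gram square root of linear combinations. -/
lemma gram_lin (a b : E3) (u₁ v₁ u₂ v₂ : ℝ) :
    gram (u₁ • a + v₁ • b) (u₂ • a + v₂ • b) = |u₁ * v₂ - u₂ * v₁| * gram a b := by
  have hCS : 0 ≤ ‖a‖ ^ 2 * ‖b‖ ^ 2 - (inner ℝ a b) ^ 2 := by
    have h := abs_real_inner_le_norm a b
    have h2 : (inner ℝ a b) ^ 2 ≤ (‖a‖ * ‖b‖) ^ 2 := by
      rw [← sq_abs]; exact pow_le_pow_left₀ (abs_nonneg _) h 2
    nlinarith
  have key : ∀ (x₁ y₁ x₂ y₂ : ℝ), inner ℝ (x₁ • a + y₁ • b) (x₂ • a + y₂ • b)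
      = x₁ * x₂ * ‖a‖ ^ 2 + (x₁ * y₂ + x₂ * y₁) * inner ℝ a b + y₁ * y₂ * ‖b‖ ^ 2 := by
    intro x₁ y₁ x₂ y₂
    simp only [inner_add_left, inner_add_right, inner_smul_left, inner_smul_right,
      real_inner_self_eq_norm_sq, conj_trivial]
    rw [real_inner_comm a b]
    ring
  rw [gram, gram, ← real_inner_self_eq_norm_sq (u₁ • a + v₁ • b),
    ← real_inner_self_eq_norm_sq (u₂ • a + v₂ • b), key, key, key]
  have e : (u₁ * u₁ * ‖a‖ ^ 2 + (u₁ * v₁ + u₁ * v₁) * inner ℝ a b + v₁ * v₁ * ‖b‖ ^ 2) *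
      (u₂ * u₂ * ‖a‖ ^ 2 + (u₂ * v₂ + u₂ * v₂) * inner ℝ a b + v₂ * v₂ * ‖b‖ ^ 2) -
      (u₁ * u₂ * ‖a‖ ^ 2 + (u₁ * v₂ + u₂ * v₁) * inner ℝ a b + v₁ * v₂ * ‖b‖ ^ 2) ^ 2
      = (u₁ * v₂ - u₂ * v₁) ^ 2 * (‖a‖ ^ 2 * ‖b‖ ^ 2 - (inner ℝ a b) ^ 2) := by ring
  rw [e, Real.sqrt_mul (sq_nonneg _), Real.sqrt_sq_eq_abs]

/-- Squared Gram value. -/
lemma gram_sq (a b : E3) : gram a b ^ 2 = ‖a‖ ^ 2 * ‖b‖ ^ 2 - (inner ℝ a b) ^ 2 := by
  have hCS : 0 ≤ ‖a‖ ^ 2 * ‖b‖ ^ 2 - (inner ℝ a b) ^ 2 := by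
    have h := abs_real_inner_le_norm a b
    have h2 : (inner ℝ a b) ^ 2 ≤ (‖a‖ * ‖b‖) ^ 2 := by
      rw [← sq_abs]; exact pow_le_pow_left₀ (abs_nonneg _) h 2
    nlinarith
  rw [gram, Real.sq_sqrt hCS]

/-- Independence gives a positive Gram determinant. -/
lemma gram_pos_of_indep (a b : E3) (hab : LinearIndependent ℝ ![a, b]) : 0 < gram a b := by
  have hind := LinearIndependent.pair_iff.1 hab
  have ha : a ≠ 0 := by
    rintro rfl
    have := hind 1 0 (by simp)
    simp at this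
  have hA : 0 < ‖a‖ ^ 2 := by have := norm_pos_iff.2 ha; positivity
  set t := inner ℝ a b / ‖a‖ ^ 2 with ht
  have hb' : b - t • a ≠ 0 := by
    intro h0
    have := hind (-t) 1 (by rw [← h0]; simp; abel)
    simp at this
  have hpos : 0 < ‖b - t • a‖ ^ 2 := by have := norm_pos_iff.2 hb'; positivity
  have e : ‖b - t • a‖ ^ 2 = ‖b‖ ^ 2 - 2 * t * inner ℝ a b + t ^ 2 * ‖a‖ ^ 2 := by
    rw [← real_inner_self_eq_norm_sq, inner_sub_left, inner_sub_right, inner_sub_right,
      inner_smul_left, inner_smul_right, inner_smul_left, inner_smul_right,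
      real_inner_self_eq_norm_sq, real_inner_self_eq_norm_sq, real_inner_comm a b]
    simp
    ring
  have e2 : t ^ 2 * ‖a‖ ^ 2 = t * inner ℝ a b := by
    rw [ht]; field_simp
  have h3 : ‖a‖ ^ 2 * ‖b - t • a‖ ^ 2 = ‖a‖ ^ 2 * ‖b‖ ^ 2 - (inner ℝ a b) ^ 2 := by
    rw [e]
    have e3 : ‖a‖ ^ 2 * t = inner ℝ a b := by rw [ht]; field_simp
    have e4 : ‖a‖ ^ 2 * (t * inner ℝ a b) = (inner ℝ a b) ^ 2 := by
      rw [← mul_assoc, e3]; ring
    have e5 : ‖a‖ ^ 2 * (‖b‖ ^ 2 - 2 * t * inner ℝ a b + t ^ 2 * ‖a‖ ^ 2)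
        = ‖a‖ ^ 2 * ‖b‖ ^ 2 - 2 * (‖a‖ ^ 2 * (t * inner ℝ a b))
          + ‖a‖ ^ 2 * (t ^ 2 * ‖a‖ ^ 2) := by ring
    rw [e5, e2, e4]
    ring
  rw [gram]
  apply Real.sqrt_pos.2
  rw [← h3]
  positivity

instance : Fact (Module.finrank ℝ E3 = 3) := ⟨by simp⟩

/-- A vector orthogonal to `e` is a combination of two independent vectors orthogonal to `e`. -/
lemma exists_coords (e a b v : E3) (he : e ≠ 0) (ha : inner ℝ a e = 0) (hb : inner ℝ b e = 0)
    (hab : LinearIndependent ℝ ![a, b]) (hv : inner ℝ v e = 0) :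
    ∃ x y : ℝ, v = x • a + y • b := by
  set S : Submodule ℝ E3 := Submodule.span ℝ (Set.range ![a, b]) with hS
  have hfrS : Module.finrank ℝ S = 2 := by
    have := finrank_span_eq_card hab
    simpa using this
  set T : Submodule ℝ E3 := (ℝ ∙ e)ᗮ with hT
  have hfrT : Module.finrank ℝ T = 2 := Submodule.finrank_orthogonal_span_singleton he
  have hle : S ≤ T := by
    rw [hS, Submodule.span_le]
    rintro _ ⟨i, rfl⟩
    rw [SetLike.mem_coe, hT, Submodule.mem_orthogonal_singleton_iff_inner_right, real_inner_comm]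
    fin_cases i
    · exact ha
    · exact hb
  have heq : S = T := Submodule.eq_of_le_of_finrank_eq hle (by rw [hfrS, hfrT])
  have hvT : v ∈ T := by
    rw [hT, Submodule.mem_orthogonal_singleton_iff_inner_right, real_inner_comm]
    exact hv
  rw [← heq, hS] at hvT
  have : Set.range ![a, b] = {a, b} := by simp [Matrix.range_cons, Set.pair_comm]
  rw [this, Submodule.mem_span_pair] at hvT
  obtain ⟨x, y, h⟩ := hvT
  exact ⟨x, y, h.symm⟩

/-- The squared length of the axis. -/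
lemma norm_axis_sq (e v : E3) (he : ‖e‖ = 1) (hv : inner ℝ v e = 0) :
    ‖e + v‖ ^ 2 = 1 + ‖v‖ ^ 2 := by
  rw [← real_inner_self_eq_norm_sq, inner_add_left, inner_add_right, inner_add_right,
    real_inner_self_eq_norm_sq, real_inner_self_eq_norm_sq, hv, real_inner_comm, hv, he]
  ring

lemma axis_ne_zero (e v : E3) (he : ‖e‖ = 1) (hv : inner ℝ v e = 0) : e + v ≠ 0 := by
  intro h
  have := norm_axis_sq e v he hv
  rw [h, norm_zero] at this
  nlinarith [sq_nonneg ‖v‖]

/-- Projection along the axis scales the area of the `a,b`-plane. -/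
lemma gram_proj (e a b w : E3) (he : ‖e‖ = 1) (ha : inner ℝ a e = 0) (hb : inner ℝ b e = 0)
    (hw : inner ℝ w e = 0) (hab : LinearIndependent ℝ ![a, b]) :
    gram (proj (e + w) a) (proj (e + w) b) = gram a b / Real.sqrt (1 + ‖w‖ ^ 2) := by
  have he0 : e ≠ 0 := by
    intro h; rw [h, norm_zero] at he; exact zero_ne_one he
  obtain ⟨x, y, hxy⟩ := exists_coords e a b w he0 ha hb hab hw
  set d := e + w with hd
  set D := ‖d‖ ^ 2 with hD
  have hD1 : D = 1 + ‖w‖ ^ 2 := norm_axis_sq e w he hw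
  have hDpos : 0 < D := by rw [hD1]; positivity
  set A := ‖a‖ ^ 2 with hA
  set B := ‖b‖ ^ 2 with hB
  set C : ℝ := inner ℝ a b with hC
  have hwn : ‖w‖ ^ 2 = x ^ 2 * A + 2 * x * y * C + y ^ 2 * B := by
    rw [← real_inner_self_eq_norm_sq, hxy]
    simp only [inner_add_left, inner_add_right, inner_smul_left, inner_smul_right,
      real_inner_self_eq_norm_sq, conj_trivial]
    rw [real_inner_comm a b]
    ring
  have hαd : inner ℝ a d = x * A + y * C := by
    rw [hd, inner_add_right, ha, zero_add, hxy]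
    simp only [inner_add_right, inner_smul_right, real_inner_self_eq_norm_sq]
    rw [← hA, ← hC]
  have hβd : inner ℝ b d = x * C + y * B := by
    rw [hd, inner_add_right, hb, zero_add, hxy]
    simp only [inner_add_right, inner_smul_right, real_inner_self_eq_norm_sq]
    rw [real_inner_comm a b, ← hB, ← hC]
  have hinner : ∀ u v : E3, inner ℝ (proj d u) (proj d v)
      = inner ℝ u v - inner ℝ u d * inner ℝ v d / D := by
    intro u v
    simp only [proj, inner_sub_left, inner_sub_right, inner_smul_left, inner_smul_right,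
      real_inner_self_eq_norm_sq, conj_trivial, ← hD]
    rw [real_inner_comm v d]
    field_simp
    ring
  have hG : gram (proj d a) (proj d b) ^ 2 = (A * B - C ^ 2) / D := by
    rw [gram_sq, ← real_inner_self_eq_norm_sq (proj d a), ← real_inner_self_eq_norm_sq (proj d b),
      hinner, hinner, hinner, real_inner_self_eq_norm_sq, real_inner_self_eq_norm_sq, hαd, hβd]
    have hDe : D = 1 + (x ^ 2 * A + 2 * x * y * C + y ^ 2 * B) := by rw [hD1, hwn]
    field_simp
    rw [hDe]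
    ring
  have hnn : 0 ≤ gram (proj d a) (proj d b) := gram_nonneg _ _
  have hG2 : gram a b ^ 2 = A * B - C ^ 2 := gram_sq a b
  have hsq : (gram a b / Real.sqrt (1 + ‖w‖ ^ 2)) ^ 2 = (A * B - C ^ 2) / D := by
    rw [div_pow, hG2, Real.sq_sqrt (by positivity), hD1]
  have hnn2 : 0 ≤ gram a b / Real.sqrt (1 + ‖w‖ ^ 2) :=
    div_nonneg (gram_nonneg _ _) (Real.sqrt_nonneg _)
  rw [← hsq] at hG
  exact (pow_left_inj₀ hnn hnn2 two_ne_zero).1 hG

end Crest.Agent.Lib.Sweep
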