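import Crest.Agent.Lib.SweepPiece

/-!
# Radial sweeps: Riemann sums and the main theorem (S0328)
-/

set_option autoImplicit false

open MeasureTheory Measure
open scoped ENNReal RealInnerProductSpace

namespace Crest.Agent.Lib.Sweep

open Crest.Agent.Lib.Tetra

lemma exists_interval_aux (τ : ℝ) : ∀ (N : ℕ) (t : Fin (N + 2) → ℝ), Monotone t → t 0 ≤ τ →
    τ ≤ t (Fin.last (N + 1)) → ∃ i : Fin (N + 1), t i.castSucc ≤ τ ∧ τ ≤ t i.succ := by
  intro N
  induction N with
  | zero =>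
    intro t _ h0 h1
    exact ⟨0, by simpa using h0, by simpa using h1⟩
  | succ N ih =>
    intro t ht h0 h1
    by_cases hc : τ ≤ t (Fin.last (N + 1)).castSucc
    · have h0' : t (Fin.castSucc 0) ≤ τ := by rw [Fin.castSucc_zero]; exact h0
      obtain ⟨i, hi1, hi2⟩ := ih (fun j => t j.castSucc)
        (fun x y hxy => ht (Fin.castSucc_le_castSucc_iff.2 hxy)) h0' hc
      exact ⟨i.castSucc, hi1, by rw [Fin.succ_castSucc]; exact hi2⟩
    · push Not at hc
      exact ⟨Fin.last (N + 1), hc.le, by simpa [Fin.succ_last] using h1⟩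

/-- Every parameter lies in one of the partition intervals. -/
lemma exists_interval (N : ℕ) (t : Fin (N + 1) → ℝ) (ht : Monotone t) (hlt : t 0 < t (Fin.last N))
    (τ : ℝ) (h0 : t 0 ≤ τ) (h1 : τ ≤ t (Fin.last N)) :
    ∃ i : Fin N, t i.castSucc ≤ τ ∧ τ ≤ t i.succ := by
  cases N with
  | zero => simp at hlt
  | succ N => exact exists_interval_aux τ N t ht h0 h1

lemma sum_widths (N : ℕ) (t : Fin (N + 1) → ℝ) :
    ∑ i : Fin N, (t i.succ - t i.castSucc) = t (Fin.last N) - t 0 := by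
  induction N with
  | zero => simp
  | succ N ih =>
    rw [Fin.sum_univ_castSucc]
    have := ih (fun j => t j.castSucc)
    simp only [Fin.succ_castSucc] at this ⊢
    simp only [Fin.castSucc_zero] at this
    rw [this, Fin.succ_last]
    ring

lemma sum_integrals (N : ℕ) (t : Fin (N + 1) → ℝ) (f : ℝ → ℝ)
    (hf : ∀ j : Fin (N + 1), ∀ k : Fin (N + 1), IntervalIntegrable f volume (t j) (t k)) :
    ∑ i : Fin N, ∫ τ in t i.castSucc..t i.succ, f τ = ∫ τ in t 0..t (Fin.last N), f τ := by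
  induction N with
  | zero => simp
  | succ N ih =>
    rw [Fin.sum_univ_castSucc]
    have := ih (fun j => t j.castSucc) (fun j k => hf _ _)
    simp only [Fin.succ_castSucc] at this ⊢
    simp only [Fin.castSucc_zero] at this
    rw [this, Fin.succ_last]
    exact intervalIntegral.integral_add_adjacent_intervals (hf _ _) (hf _ _)

/-- Riemann sums for arbitrary tags. -/
lemma riemann_partition (F : ℝ → ℝ) (α β ε : ℝ) (hF : ContinuousOn F (Set.Icc α β)) (δ : ℝ)
    (hδ : ∀ x ∈ Set.Icc α β, ∀ y ∈ Set.Icc α β, |x - y| ≤ δ → |F x - F y| ≤ ε)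
    (N : ℕ) (t : Fin (N + 1) → ℝ) (c : Fin N → ℝ) (ht : StrictMono t) (h0 : t 0 = α)
    (h1 : t (Fin.last N) = β) (hmesh : ∀ i : Fin N, t i.succ - t i.castSucc ≤ δ)
    (htag : ∀ i : Fin N, t i.castSucc ≤ c i ∧ c i ≤ t i.succ) :
    |∑ i : Fin N, (t i.succ - t i.castSucc) * F (c i) - ∫ τ in α..β, F τ| ≤ ε * (β - α) := by
  have hmem : ∀ j, t j ∈ Set.Icc α β := by
    intro j
    constructor
    · rw [← h0]; exact ht.monotone (Fin.zero_le _)
    · rw [← h1]; exact ht.monotone (Fin.le_last _)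
  have hint : ∀ j k, IntervalIntegrable F volume (t j) (t k) := by
    intro j k
    apply ContinuousOn.intervalIntegrable
    exact hF.mono (Set.uIcc_subset_Icc (hmem j) (hmem k))
  have hsum := sum_integrals N t F hint
  rw [h0, h1] at hsum
  rw [← hsum, ← Finset.sum_sub_distrib]
  have hterm : ∀ i : Fin N, |(t i.succ - t i.castSucc) * F (c i) -
      ∫ τ in t i.castSucc..t i.succ, F τ| ≤ ε * (t i.succ - t i.castSucc) := by
    intro i
    have hlt : t i.castSucc < t i.succ := ht (Fin.castSucc_lt_succ)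
    have hcm : c i ∈ Set.Icc α β :=
      ⟨(hmem _).1.trans (htag i).1, (htag i).2.trans (hmem _).2⟩
    have e1 : (t i.succ - t i.castSucc) * F (c i) =
        ∫ _τ in t i.castSucc..t i.succ, F (c i) := by
      rw [intervalIntegral.integral_const, smul_eq_mul]
    rw [e1, ← intervalIntegral.integral_sub (by simp) (hint _ _)]
    have := intervalIntegral.norm_integral_le_of_norm_le_const (a := t i.castSucc) (b := t i.succ)
      (f := fun τ => F (c i) - F τ) (C := ε) (by
        intro τ hτ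
        rw [Set.uIoc_of_le hlt.le] at hτ
        rw [Real.norm_eq_abs]
        apply hδ _ hcm τ ⟨(hmem _).1.trans hτ.1.le, hτ.2.trans (hmem _).2⟩
        rw [abs_le]
        have := hmesh i
        have h3 := htag i
        constructor <;> linarith [hτ.1, hτ.2, h3.1, h3.2])
    rw [Real.norm_eq_abs, abs_of_pos (by linarith : 0 < t i.succ - t i.castSucc)] at this
    exact this
  calc _ ≤ ∑ i : Fin N, |(t i.succ - t i.castSucc) * F (c i) -
        ∫ τ in t i.castSucc..t i.succ, F τ| := Finset.abs_sum_le_sum_abs _ _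
    _ ≤ ∑ i : Fin N, ε * (t i.succ - t i.castSucc) := Finset.sum_le_sum (fun i _ => hterm i)
    _ = ε * (β - α) := by rw [← Finset.mul_sum, sum_widths, h0, h1]

/-- Sandwiching a sum between upper and lower Riemann-type bounds. -/
lemma sum_close (κ E ε I T η : ℝ) (N : ℕ) (d F' J U Lo A : Fin N → ℝ) (hκ : 0 ≤ κ) (hT : 0 ≤ T)
    (hd : ∀ i, 0 ≤ d i) (hJ0 : ∀ i, 0 ≤ J i) (hJ1 : ∀ i, J i ≤ 1) (hsumd : ∑ i, d i = T)
    (hU : ∀ i, U i - κ * (d i * F' i) ≤ κ * d i * E / 2)
    (hLo : ∀ i, κ * (d i * F' i) - Lo i ≤ κ * d i * E / 2)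
    (hA : ∀ i, Lo i ≤ A i ∧ A i ≤ U i)
    (hR : |∑ i, d i * F' i - I| ≤ ε * T)
    (hη1 : κ * T * E / 2 ≤ η / 2) (hη2 : κ * (ε * T) ≤ η / 2) :
    |∑ i, A i - κ * I| ≤ η := by
  have h1 : |∑ i, A i - κ * ∑ i, d i * F' i| ≤ κ * T * E / 2 := by
    rw [Finset.mul_sum, ← Finset.sum_sub_distrib]
    calc |∑ i, (A i - κ * (d i * F' i))| ≤ ∑ i, |A i - κ * (d i * F' i)| :=
          Finset.abs_sum_le_sum_abs _ _
      _ ≤ ∑ i, κ * d i * E / 2 := by
          apply Finset.sum_le_sum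
          intro i _
          rw [abs_le]
          constructor
          · linarith [hLo i, (hA i).1]
          · linarith [hU i, (hA i).2]
      _ = κ * T * E / 2 := by
          rw [← hsumd, ← Finset.sum_div, ← Finset.sum_mul, ← Finset.mul_sum]
  have h2 : |κ * ∑ i, d i * F' i - κ * I| ≤ κ * (ε * T) := by
    rw [← mul_sub, abs_mul, abs_of_nonneg hκ]
    exact mul_le_mul_of_nonneg_left hR hκ
  have h3 : ∑ i, A i - κ * I = (∑ i, A i - κ * ∑ i, d i * F' i) + (κ * ∑ i, d i * F' i - κ * I) := by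
    ring
  rw [h3]
  exact (abs_add_le _ _).trans (by linarith)

/-- **S0328**: radial sweeps. -/
theorem sweep_main
    (e a b p₀ : E3) (he : ‖e‖ = 1)
    (ha : inner ℝ a e = 0) (hb : inner ℝ b e = 0)
    (hab : LinearIndependent ℝ ![a, b]) (L : ℝ) (hL : 0 < L) (α β : ℝ) (hαβ : α < β)
    (R : ℝ → ℝ) (hR : ContinuousOn R (Set.Icc α β)) (hR0 : ∀ t ∈ Set.Icc α β, 0 ≤ R t)
    (w : ℝ → E3) (hw : ∀ t ∈ Set.Icc α β, inner ℝ (w t) e = 0)
    (lam : ℝ → ℝ) (hlam : ContinuousOn lam (Set.Icc α β))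
    (hw' : ∀ t ∈ Set.Icc α β, HasDerivWithinAt w (lam t • (a + t • b)) (Set.Icc α β) t)
    (η : ℝ) (hη : 0 < η) :
    ∃ δ : ℝ, 0 < δ ∧ ∀ (N : ℕ) (t : Fin (N + 1) → ℝ) (c : Fin N → ℝ),
      StrictMono t → t 0 = α → t (Fin.last N) = β →
      (∀ i : Fin N, t i.succ - t i.castSucc ≤ δ) →
      (∀ i : Fin N, t i.castSucc ≤ c i ∧ c i ≤ t i.succ) →
      (∃ (p q r : Fin N → E3),
        (∀ i, inner ℝ (p i) (e + w (c i)) = 0 ∧ inner ℝ (q i) (e + w (c i)) = 0 ∧
          inner ℝ (r i) (e + w (c i)) = 0) ∧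
        (∀ i, AffineIndependent ℝ ![p i, q i, r i]) ∧
        {x : E3 | ∃ τ ∈ Set.Icc α β, ∃ ρ ∈ Set.Icc 0 (R τ), ∃ s : ℝ, abs s ≤ L ∧
            x = p₀ + ρ • (a + τ • b) + s • (e + w τ)} ⊆
          ⋃ i, {x : E3 | ∃ y ∈ convexHull ℝ {p i, q i, r i}, ∃ σ : ℝ,
            x = y + σ • (e + w (c i))} ∧
        abs ((∑ i, (μHE[2] (convexHull ℝ ({p i, q i, r i} : Set E3))).toReal) -
            Real.sqrt (‖a‖ ^ 2 * ‖b‖ ^ 2 - inner ℝ a b ^ 2) *
              ∫ τ in α..β, R τ ^ 2 / (2 * Real.sqrt (1 + ‖w τ‖ ^ 2))) ≤ η) ∧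
      abs ((∑ i : Fin N, (μHE[2] ((fun y => y - (inner ℝ y (e + w (c i)) / ‖e + w (c i)‖ ^ 2) • (e + w (c i))) ''
            {x : E3 | ∃ τ ∈ Set.Icc (t i.castSucc) (t i.succ), ∃ ρ ∈ Set.Icc 0 (R τ),
              ∃ s : ℝ, abs s ≤ L ∧ x = p₀ + ρ • (a + τ • b) + s • (e + w τ)})).toReal) -
          Real.sqrt (‖a‖ ^ 2 * ‖b‖ ^ 2 - inner ℝ a b ^ 2) *
            ∫ τ in α..β, R τ ^ 2 / (2 * Real.sqrt (1 + ‖w τ‖ ^ 2))) ≤ η := by
  classical
  set κ := gram a b with hκdef
  have hκ : 0 < κ := gram_pos_of_indep a b hab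
  have hκe : Real.sqrt (‖a‖ ^ 2 * ‖b‖ ^ 2 - inner ℝ a b ^ 2) = κ := rfl
  rw [hκe]
  set F : ℝ → ℝ := fun τ => R τ ^ 2 / (2 * Real.sqrt (1 + ‖w τ‖ ^ 2)) with hF
  have hwc : ContinuousOn w (Set.Icc α β) := fun t ht => (hw' t ht).continuousWithinAt
  have hFc : ContinuousOn F (Set.Icc α β) := by
    apply ContinuousOn.div (hR.pow 2)
    · apply continuousOn_const.mul
      apply ContinuousOn.sqrt
      exact continuousOn_const.add (hwc.norm.pow 2)
    · intro τ _
      have : 0 < Real.sqrt (1 + ‖w τ‖ ^ 2) := Real.sqrt_pos.2 (by positivity)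
      positivity
  obtain ⟨Λ₀, hΛ₀⟩ := isCompact_Icc.exists_bound_of_continuousOn hlam
  set Λ := max Λ₀ 0 + 1 with hΛdef
  have hΛ0 : 0 < Λ := by
    have := le_max_right Λ₀ 0
    linarith
  have hΛ : ∀ t ∈ Set.Icc α β, |lam t| ≤ Λ := by
    intro t ht
    have := hΛ₀ t ht
    rw [Real.norm_eq_abs] at this
    have h2 := le_max_left Λ₀ 0
    linarith
  obtain ⟨Rm₀, hRm₀⟩ := isCompact_Icc.exists_bound_of_continuousOn hR
  set Rm := max Rm₀ 0 with hRmdef
  have hRm0 : 0 ≤ Rm := le_max_right _ _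
  have hRm : ∀ t ∈ Set.Icc α β, R t ≤ Rm := by
    intro t ht
    have := hRm₀ t ht
    rw [Real.norm_eq_abs] at this
    exact (le_abs_self _).trans (this.trans (le_max_left _ _))
  set T := β - α with hT
  have hT0 : 0 < T := by rw [hT]; linarith
  -- small parameters
  set B₀ := κ * T * (6 * Rm + 9) + 1 with hB₀
  have hB₀0 : 0 < B₀ := by positivity
  set ϖ := min 1 (η / B₀) with hϖ
  have hϖ0 : 0 < ϖ := lt_min one_pos (by positivity)
  have hϖ1 : ϖ ≤ 1 := min_le_left _ _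
  have hϖ2 : ϖ * B₀ ≤ η := by
    have : ϖ ≤ η / B₀ := min_le_right _ _
    rwa [le_div_iff₀ hB₀0] at this
  set E := 6 * Rm * ϖ + 9 * ϖ ^ 2 with hE
  have hEη : κ * T * E / 2 ≤ η / 2 := by
    have h1 : E ≤ (6 * Rm + 9) * ϖ := by
      rw [hE]; nlinarith
    have h2 : κ * T * E ≤ κ * T * ((6 * Rm + 9) * ϖ) :=
      mul_le_mul_of_nonneg_left h1 (by positivity)
    have h3 : κ * T * ((6 * Rm + 9) * ϖ) ≤ ϖ * B₀ := by
      rw [hB₀]; nlinarith
    linarith
  set εF := η / (2 * (κ * T + 1)) with hεF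
  have hεF0 : 0 < εF := by positivity
  have hεFη : κ * (εF * T) ≤ η / 2 := by
    have h1 : κ * (εF * T) = (κ * T) * εF := by ring
    rw [h1, hεF]
    have h2 : 0 < κ * T + 1 := by positivity
    rw [mul_div_assoc', div_le_iff₀ (by positivity)]
    have h3 : 0 < κ * T := by positivity
    nlinarith
  -- moduli of continuity
  have hucR := isCompact_Icc.uniformContinuousOn_of_continuous hR
  rw [Metric.uniformContinuousOn_iff] at hucR
  obtain ⟨δR, hδR, hucR⟩ := hucR (ϖ / 2) (by positivity)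
  have hucF := isCompact_Icc.uniformContinuousOn_of_continuous hFc
  rw [Metric.uniformContinuousOn_iff] at hucF
  obtain ⟨δF, hδF, hucF⟩ := hucF εF hεF0
  have hLΛ : 0 < L * Λ := by positivity
  set δ := min (δR / 2) (min (δF / 2) (ϖ / (2 * (L * Λ)))) with hδ
  have hδ0 : 0 < δ := lt_min (by positivity) (lt_min (by positivity) (by positivity))
  have hδR' : δ < δR := by
    have : δ ≤ δR / 2 := min_le_left _ _
    linarith
  have hδF' : δ < δF := by
    have : δ ≤ δF / 2 := (min_le_right _ _).trans (min_le_left _ _)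
    linarith
  have hδν : L * Λ * δ ≤ ϖ / 2 := by
    have : δ ≤ ϖ / (2 * (L * Λ)) := (min_le_right _ _).trans (min_le_right _ _)
    rw [le_div_iff₀ (by positivity)] at this
    linarith
  refine ⟨δ, hδ0, ?_⟩
  intro N t c ht ht0 ht1 hmesh htag
  have hmem : ∀ j, t j ∈ Set.Icc α β := by
    intro j
    constructor
    · rw [← ht0]; exact ht.monotone (Fin.zero_le _)
    · rw [← ht1]; exact ht.monotone (Fin.le_last _)
  have hlt : ∀ i : Fin N, t i.castSucc < t i.succ := fun i => ht Fin.castSucc_lt_succ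
  have hcm : ∀ i : Fin N, c i ∈ Set.Icc α β := fun i =>
    ⟨(hmem _).1.trans (htag i).1, (htag i).2.trans (hmem _).2⟩
  -- data of the pieces
  set dl : Fin N → ℝ := fun i => t i.succ - t i.castSucc with hdl
  have hdl0 : ∀ i, 0 < dl i := fun i => sub_pos.2 (hlt i)
  set ν : Fin N → ℝ := fun i => L * Λ * dl i with hν
  have hν0 : ∀ i, 0 ≤ ν i := fun i => mul_nonneg hLΛ.le (hdl0 i).le
  have hν1 : ∀ i, ν i ≤ ϖ / 2 := fun i =>
    (mul_le_mul_of_nonneg_left (hmesh i) hLΛ.le).trans hδν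
  set S : Fin N → ℝ := fun i => R (c i) + ϖ + 4 * ν i with hS
  have hS0 : ∀ i, 0 < S i := by
    intro i
    have h1 := hR0 _ (hcm i)
    have h2 := hν0 i
    simp only [hS]
    linarith
  set ax : Fin N → E3 := fun i => e + w (c i) with hax
  have hax0 : ∀ i, ax i ≠ 0 := fun i => axis_ne_zero e _ he (hw _ (hcm i))
  set vt : Fin N → E3 := fun i => apexV p₀ a b (4 * ν i) (t i.castSucc) (t i.succ) with hvt
  set Jc : Fin N → ℝ := fun i => 1 / Real.sqrt (1 + ‖w (c i)‖ ^ 2) with hJc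
  have hsq : ∀ i, 0 < Real.sqrt (1 + ‖w (c i)‖ ^ 2) := fun i => Real.sqrt_pos.2 (by positivity)
  have hJ0 : ∀ i, 0 < Jc i := fun i => by
    have := hsq i
    simp only [hJc]; positivity
  have hJ1 : ∀ i, Jc i ≤ 1 := by
    intro i
    simp only [hJc]
    rw [div_le_one (hsq i), Real.one_le_sqrt]
    nlinarith [sq_nonneg ‖w (c i)‖]
  -- the oscillation of `R`
  have hosc : ∀ i, ∀ τ ∈ Set.Icc (t i.castSucc) (t i.succ), |R τ - R (c i)| ≤ ϖ / 2 := by
    intro i τ hτ
    have h1 : τ ∈ Set.Icc α β := ⟨(hmem _).1.trans hτ.1, hτ.2.trans (hmem _).2⟩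
    have h2 : dist τ (c i) < δR := by
      rw [Real.dist_eq]
      refine lt_of_le_of_lt ?_ hδR'
      have h3 := hmesh i
      have h4 := htag i
      rw [abs_le]
      constructor <;> linarith [hτ.1, hτ.2, h4.1, h4.2]
    have := hucR τ h1 (c i) (hcm i) h2
    rw [Real.dist_eq] at this
    exact this.le
  -- upper area
  set U : Fin N → ℝ := fun i => S i ^ 2 * dl i * (κ * Jc i) / 2 with hU
  have hUarea : ∀ i, μHE[2] (convexHull ℝ ({proj (ax i) (vt i),
      proj (ax i) (vt i + S i • (a + t i.castSucc • b)),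
      proj (ax i) (vt i + S i • (a + t i.succ • b))} : Set E3)) = ENNReal.ofReal (U i) := by
    intro i
    rw [area_triangle, area_proj_triangle e a b (vt i) he ha hb hab (w (c i)) (hw _ (hcm i))
      (S i) _ _ (hS0 i).le (hlt i).le]
    congr 1
    simp only [hU, hJc, hdl, mul_one_div, ← hκdef]
  have hU0 : ∀ i, 0 < U i := by
    intro i
    have := hS0 i
    have h2 := hdl0 i
    have h3 := hJ0 i
    simp only [hU]; positivity
  have hmempiece : ∀ i, ∀ x ∈ piece p₀ a b e w R L (t i.castSucc) (t i.succ),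
      proj (ax i) x ∈ convexHull ℝ ({proj (ax i) (vt i),
        proj (ax i) (vt i + S i • (a + t i.castSucc • b)),
        proj (ax i) (vt i + S i • (a + t i.succ • b))} : Set E3) := by
    intro i x hx
    apply proj_piece_mem e a b p₀ he ha hb hab α β w hw lam Λ hΛ hw' R L (t i.castSucc) (t i.succ)
      (c i) (S i) hL (hlt i) (hmem _).1 (hmem _).2 (htag i) (hS0 i) _ x hx
    intro τ hτ
    have h1 := (abs_le.1 (hosc i τ hτ)).2
    have h2 := hν1 i
    simp only [hS]
    simp only [hν, hdl] at h2 ⊢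
    linarith
  -- lower area
  set rr : Fin N → ℝ := fun i => max (R (c i) - ϖ) 0 with hrr
  have hrr0 : ∀ i, 0 ≤ rr i := fun i => le_max_right _ _
  have hrrle : ∀ i, ∀ τ ∈ Set.Icc (t i.castSucc) (t i.succ), rr i ≤ R τ := by
    intro i τ hτ
    have h1 : τ ∈ Set.Icc α β := ⟨(hmem _).1.trans hτ.1, hτ.2.trans (hmem _).2⟩
    apply max_le
    · have := (abs_le.1 (hosc i τ hτ)).1
      linarith
    · exact hR0 τ h1
  set Lo : Fin N → ℝ := fun i => rr i ^ 2 * dl i * (κ * Jc i) / 2 with hLo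
  have hLoarea : ∀ i, μHE[2] (convexHull ℝ ({proj (ax i) p₀,
      proj (ax i) (p₀ + rr i • (a + t i.castSucc • b)),
      proj (ax i) (p₀ + rr i • (a + t i.succ • b))} : Set E3)) = ENNReal.ofReal (Lo i) := by
    intro i
    rw [area_triangle, area_proj_triangle e a b p₀ he ha hb hab (w (c i)) (hw _ (hcm i))
      (rr i) _ _ (hrr0 i) (hlt i).le]
    congr 1
    simp only [hLo, hJc, hdl, mul_one_div, ← hκdef]
  -- the key estimate
  have hkey : ∀ A : Fin N → ℝ, (∀ i, Lo i ≤ A i ∧ A i ≤ U i) →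
      |∑ i, A i - κ * ∫ τ in α..β, F τ| ≤ η := by
    intro A hA
    apply sum_close κ E εF _ T η N dl (fun i => F (c i)) Jc U Lo A hκ.le hT0.le
      (fun i => (hdl0 i).le) (fun i => (hJ0 i).le) hJ1 ?_ ?_ ?_ hA ?_ hEη hεFη
    · simp only [hdl]
      rw [sum_widths, ht0, ht1]
    · intro i
      have hRi := hR0 _ (hcm i)
      have hRi2 := hRm _ (hcm i)
      have hFi : F (c i) = R (c i) ^ 2 * Jc i / 2 := by
        simp only [hF, hJc]
        have := hsq i
        field_simp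
      have hSle : S i ≤ R (c i) + 3 * ϖ := by
        have := hν1 i
        simp only [hS]; linarith
      have hSge : R (c i) ≤ S i := by
        have := hν0 i
        simp only [hS]; linarith
      have hSS : S i ^ 2 - R (c i) ^ 2 ≤ E := by
        have h1 : S i ^ 2 ≤ (R (c i) + 3 * ϖ) ^ 2 := pow_le_pow_left₀ (hS0 i).le hSle 2
        rw [hE]
        nlinarith
      have hSS0 : 0 ≤ S i ^ 2 - R (c i) ^ 2 := by
        have := pow_le_pow_left₀ hRi hSge 2
        linarith
      simp only [hU]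
      rw [hFi]
      have h2 : S i ^ 2 * dl i * (κ * Jc i) / 2 - κ * (dl i * (R (c i) ^ 2 * Jc i / 2))
          = κ * dl i * (Jc i * (S i ^ 2 - R (c i) ^ 2)) / 2 := by ring
      rw [h2]
      have h3 : Jc i * (S i ^ 2 - R (c i) ^ 2) ≤ E := by
        calc _ ≤ 1 * (S i ^ 2 - R (c i) ^ 2) := mul_le_mul_of_nonneg_right (hJ1 i) hSS0
          _ ≤ E := by linarith
      have h4 : 0 ≤ κ * dl i := mul_nonneg hκ.le (hdl0 i).le
      have := mul_le_mul_of_nonneg_left h3 h4
      linarith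
    · intro i
      have hRi := hR0 _ (hcm i)
      have hRi2 := hRm _ (hcm i)
      have hFi : F (c i) = R (c i) ^ 2 * Jc i / 2 := by
        simp only [hF, hJc]
        have := hsq i
        field_simp
      have hrr1 : R (c i) ^ 2 - rr i ^ 2 ≤ E := by
        have h1 : R (c i) - ϖ ≤ rr i := le_max_left _ _
        have h0 := hrr0 i
        have h5 : R (c i) ^ 2 - rr i ^ 2 ≤ 2 * R (c i) * ϖ := by
          by_cases hc : 0 ≤ R (c i) - ϖ
          · have : (R (c i) - ϖ) ^ 2 ≤ rr i ^ 2 := pow_le_pow_left₀ hc h1 2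
            nlinarith [sq_nonneg ϖ]
          · push Not at hc
            nlinarith [sq_nonneg (rr i)]
        rw [hE]
        nlinarith [sq_nonneg ϖ]
      have hrr2 : 0 ≤ R (c i) ^ 2 - rr i ^ 2 := by
        have : rr i ≤ R (c i) := hrrle i _ (htag i)
        have := pow_le_pow_left₀ (hrr0 i) this 2
        linarith
      simp only [hLo]
      rw [hFi]
      have h2 : κ * (dl i * (R (c i) ^ 2 * Jc i / 2)) - rr i ^ 2 * dl i * (κ * Jc i) / 2
          = κ * dl i * (Jc i * (R (c i) ^ 2 - rr i ^ 2)) / 2 := by ring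
      rw [h2]
      have h3 : Jc i * (R (c i) ^ 2 - rr i ^ 2) ≤ E := by
        calc _ ≤ 1 * (R (c i) ^ 2 - rr i ^ 2) := mul_le_mul_of_nonneg_right (hJ1 i) hrr2
          _ ≤ E := by linarith
      have h4 : 0 ≤ κ * dl i := mul_nonneg hκ.le (hdl0 i).le
      have := mul_le_mul_of_nonneg_left h3 h4
      linarith
    · apply riemann_partition F α β εF hFc δ _ N t c ht ht0 ht1 hmesh htag
      intro x hx y hy hxy
      have : dist x y < δF := by
        rw [Real.dist_eq]; linarith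
      have h2 := hucF x hx y hy this
      rw [Real.dist_eq] at h2
      exact h2.le
  have hLoU : ∀ i, Lo i ≤ U i := by
    intro i
    simp only [hLo, hU]
    have hrrS : rr i ≤ S i := by
      have h1 : rr i ≤ R (c i) := hrrle i _ (htag i)
      have h2 := hν0 i
      simp only [hS]; linarith
    have h3 : rr i ^ 2 ≤ S i ^ 2 := pow_le_pow_left₀ (hrr0 i) hrrS 2
    have h4 : 0 < dl i * (κ * Jc i) := by
      have := hdl0 i
      have := hJ0 i
      positivity
    nlinarith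
  constructor
  · refine ⟨fun i => proj (ax i) (vt i), fun i => proj (ax i) (vt i + S i • (a + t i.castSucc • b)),
      fun i => proj (ax i) (vt i + S i • (a + t i.succ • b)), ?_, ?_, ?_, ?_⟩
    · intro i
      exact ⟨inner_proj _ _ (hax0 i), inner_proj _ _ (hax0 i), inner_proj _ _ (hax0 i)⟩
    · intro i
      apply affineIndep_of_gram
      rw [area_proj_triangle e a b (vt i) he ha hb hab (w (c i)) (hw _ (hcm i))
        (S i) _ _ (hS0 i).le (hlt i).le]
      have := hS0 i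
      have h2 := hsq i
      have h3 := hlt i
      have h4 : 0 < t i.succ - t i.castSucc := by linarith
      positivity
    · rintro x ⟨τ, hτ, ρ, hρ, s, hs, hx⟩
      obtain ⟨i, hi1, hi2⟩ := exists_interval N t ht.monotone (by rw [ht0, ht1]; exact hαβ) τ
        (by rw [ht0]; exact hτ.1) (by rw [ht1]; exact hτ.2)
      rw [Set.mem_iUnion]
      refine ⟨i, proj (ax i) x, hmempiece i x ⟨τ, ⟨hi1, hi2⟩, ρ, hρ, s, hs, hx⟩,
        inner ℝ x (ax i) / ‖ax i‖ ^ 2, eq_proj_add (ax i) x⟩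
    · have := hkey U (fun i => ⟨hLoU i, le_refl _⟩)
      convert this using 3
      apply Finset.sum_congr rfl
      intro i _
      rw [hUarea i, ENNReal.toReal_ofReal (hU0 i).le]
  · apply hkey
    intro i
    set Pc := (fun y => y - (inner ℝ y (e + w (c i)) / ‖e + w (c i)‖ ^ 2) • (e + w (c i))) ''
      {x : E3 | ∃ τ ∈ Set.Icc (t i.castSucc) (t i.succ), ∃ ρ ∈ Set.Icc 0 (R τ),
        ∃ s : ℝ, abs s ≤ L ∧ x = p₀ + ρ • (a + τ • b) + s • (e + w τ)} with hPc
    have hPc' : Pc = proj (ax i) '' piece p₀ a b e w R L (t i.castSucc) (t i.succ) := rfl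
    have hup : μHE[2] Pc ≤ ENNReal.ofReal (U i) := by
      rw [← hUarea i, hPc']
      apply measure_mono
      rintro _ ⟨x, hx, rfl⟩
      exact hmempiece i x hx
    have hlow : ENNReal.ofReal (Lo i) ≤ μHE[2] Pc := by
      rw [← hLoarea i, hPc']
      apply measure_mono
      exact lower_triangle_subset e a b p₀ w R L _ _ (rr i) hL (hlt i) (hrr0 i) (hrrle i) _
    have hfin : μHE[2] Pc ≠ ⊤ := ne_top_of_le_ne_top ENNReal.ofReal_ne_top hup
    constructor
    · have hL0 : 0 ≤ Lo i := by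
        have := hdl0 i
        have := hJ0 i
        simp only [hLo]; positivity
      exact (ENNReal.ofReal_le_iff_le_toReal hfin).1 hlow
    · exact ENNReal.toReal_le_of_le_ofReal (hU0 i).le hup

end Crest.Agent.Lib.Sweep
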