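import Crest.Agent.Lib.SweepBase

/-!
# One piece of a radial sweep (S0328)
-/

set_option autoImplicit false

open MeasureTheory Measure
open scoped ENNReal RealInnerProductSpace

namespace Crest.Agent.Lib.Sweep

open Crest.Agent.Lib.Tetra

/-- Increment of the direction field over a short interval. -/
lemma increments (e a b : E3) (he : ‖e‖ = 1) (ha : inner ℝ a e = 0) (hb : inner ℝ b e = 0)
    (hab : LinearIndependent ℝ ![a, b]) (α β : ℝ) (w : ℝ → E3)
    (hw : ∀ t ∈ Set.Icc α β, inner ℝ (w t) e = 0) (lam : ℝ → ℝ) (Λ : ℝ)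
    (hΛ : ∀ t ∈ Set.Icc α β, |lam t| ≤ Λ)
    (hw' : ∀ t ∈ Set.Icc α β, HasDerivWithinAt w (lam t • (a + t • b)) (Set.Icc α β) t)
    (τ c : ℝ) (hτ : τ ∈ Set.Icc α β) (hc : c ∈ Set.Icc α β) :
    ∃ A₁ ϑ : ℝ, w τ - w c = A₁ • (a + τ • b) + ϑ • b ∧ |A₁| ≤ Λ * |τ - c| ∧
      |ϑ| ≤ Λ * |τ - c| ^ 2 := by
  have he0 : e ≠ 0 := by
    intro h; rw [h, norm_zero] at he; exact zero_ne_one he
  have hG : 0 < ‖a‖ ^ 2 * ‖b‖ ^ 2 - (inner ℝ a b) ^ 2 := by
    have := gram_pos_of_indep a b hab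
    rw [← gram_sq]; positivity
  set A := ‖a‖ ^ 2 with hA
  set B := ‖b‖ ^ 2 with hB
  set C : ℝ := inner ℝ a b with hC
  set G := A * B - C ^ 2 with hGdef
  -- dual vectors
  set as : E3 := (B / G) • a - (C / G) • b with has
  set bs : E3 := (A / G) • b - (C / G) • a with hbs
  have hba : inner ℝ b a = C := real_inner_comm a b
  have haa : inner ℝ a a = A := real_inner_self_eq_norm_sq a
  have hbb : inner ℝ b b = B := real_inner_self_eq_norm_sq b
  have h1 : inner ℝ as a = 1 := by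
    rw [has, inner_sub_left, inner_smul_left, inner_smul_left, haa, hba]
    simp only [conj_trivial]
    field_simp
    rw [hGdef]; ring
  have h2 : inner ℝ as b = 0 := by
    rw [has, inner_sub_left, inner_smul_left, inner_smul_left, hbb, ← hC]
    simp only [conj_trivial]
    field_simp
    ring
  have h3 : inner ℝ bs a = 0 := by
    rw [hbs, inner_sub_left, inner_smul_left, inner_smul_left, haa, hba]
    simp only [conj_trivial]
    field_simp
    ring
  have h4 : inner ℝ bs b = 1 := by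
    rw [hbs, inner_sub_left, inner_smul_left, inner_smul_left, hbb, ← hC]
    simp only [conj_trivial]
    field_simp
    rw [hGdef]
  set x : ℝ → ℝ := fun σ => inner ℝ as (w σ) with hx
  set y : ℝ → ℝ := fun σ => inner ℝ bs (w σ) with hy
  have hxd : ∀ σ ∈ Set.Icc α β, HasDerivWithinAt x (lam σ) (Set.Icc α β) σ := by
    intro σ hσ
    have h5 : HasDerivWithinAt (fun σ => inner ℝ as (w σ)) ((innerSL ℝ as) (lam σ • (a + σ • b)))
        (Set.Icc α β) σ := (innerSL ℝ as).hasFDerivAt.comp_hasDerivWithinAt σ (hw' σ hσ)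
    have h6 : (innerSL ℝ as) (lam σ • (a + σ • b)) = lam σ := by
      rw [innerSL_apply_apply, inner_smul_right, inner_add_right, inner_smul_right, h1, h2]; ring
    rw [h6] at h5
    exact h5
  have hyd : ∀ σ ∈ Set.Icc α β, HasDerivWithinAt y (σ * lam σ) (Set.Icc α β) σ := by
    intro σ hσ
    have h5 : HasDerivWithinAt (fun σ => inner ℝ bs (w σ)) ((innerSL ℝ bs) (lam σ • (a + σ • b)))
        (Set.Icc α β) σ := (innerSL ℝ bs).hasFDerivAt.comp_hasDerivWithinAt σ (hw' σ hσ)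
    have h6 : (innerSL ℝ bs) (lam σ • (a + σ • b)) = σ * lam σ := by
      rw [innerSL_apply_apply, inner_smul_right, inner_add_right, inner_smul_right, h3, h4]; ring
    rw [h6] at h5
    exact h5
  have hcoord : ∀ σ ∈ Set.Icc α β, w σ = x σ • a + y σ • b := by
    intro σ hσ
    obtain ⟨p, q, hpq⟩ := exists_coords e a b (w σ) he0 ha hb hab (hw σ hσ)
    have e1 : x σ = p := by
      simp only [hx]
      rw [hpq, inner_add_right, inner_smul_right, inner_smul_right, h1, h2]; ring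
    have e2 : y σ = q := by
      simp only [hy]
      rw [hpq, inner_add_right, inner_smul_right, inner_smul_right, h3, h4]; ring
    rw [e1, e2]; exact hpq
  -- the segment
  have hsub : Set.uIcc c τ ⊆ Set.Icc α β := Set.uIcc_subset_Icc hc hτ
  have hconv : Convex ℝ (Set.uIcc c τ) := convex_uIcc c τ
  have hcm : c ∈ Set.uIcc c τ := Set.left_mem_uIcc
  have hτm : τ ∈ Set.uIcc c τ := Set.right_mem_uIcc
  refine ⟨x τ - x c, (y τ - y c) - τ * (x τ - x c), ?_, ?_, ?_⟩
  · rw [hcoord τ hτ, hcoord c hc]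
    module
  · have := Convex.norm_image_sub_le_of_norm_hasDerivWithin_le (𝕜 := ℝ) (f := x) (f' := lam)
      (C := Λ) (s := Set.uIcc c τ) (fun σ hσ => (hxd σ (hsub hσ)).mono hsub)
      (fun σ hσ => by rw [Real.norm_eq_abs]; exact hΛ σ (hsub hσ)) hconv hcm hτm
    simpa [Real.norm_eq_abs] using this
  · have hΛ0 : 0 ≤ Λ := (abs_nonneg _).trans (hΛ τ hτ)
    have hf : ∀ σ ∈ Set.uIcc c τ, HasDerivWithinAt (fun σ => y σ - τ * x σ)
        (σ * lam σ - τ * lam σ) (Set.uIcc c τ) σ := by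
      intro σ hσ
      exact ((hyd σ (hsub hσ)).mono hsub).sub (((hxd σ (hsub hσ)).mono hsub).const_mul τ)
    have hbound : ∀ σ ∈ Set.uIcc c τ, ‖σ * lam σ - τ * lam σ‖ ≤ Λ * |τ - c| := by
      intro σ hσ
      rw [Real.norm_eq_abs, ← sub_mul, abs_mul, mul_comm]
      apply mul_le_mul (hΛ σ (hsub hσ)) _ (abs_nonneg _) hΛ0
      rw [Set.mem_uIcc] at hσ
      rw [abs_le]
      rcases hσ with ⟨h5, h6⟩ | ⟨h5, h6⟩
      · have : |τ - c| = τ - c := abs_of_nonneg (by linarith)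
        rw [this]; constructor <;> linarith
      · have : |τ - c| = c - τ := by rw [abs_sub_comm]; exact abs_of_nonneg (by linarith)
        rw [this]; constructor <;> linarith
    have := Convex.norm_image_sub_le_of_norm_hasDerivWithin_le (𝕜 := ℝ) hf hbound hconv hcm hτm
    simp only [Real.norm_eq_abs] at this
    have e1 : y τ - y c - τ * (x τ - x c) = y τ - τ * x τ - (y c - τ * x c) := by ring
    rw [e1]
    calc _ ≤ Λ * |τ - c| * |τ - c| := this
      _ = Λ * |τ - c| ^ 2 := by ring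

/-- The sweep piece over the parameter interval `[t, t']`. -/
def piece (p₀ a b e : E3) (w : ℝ → E3) (R : ℝ → ℝ) (L t t' : ℝ) : Set E3 :=
  {x | ∃ τ ∈ Set.Icc t t', ∃ ρ ∈ Set.Icc 0 (R τ), ∃ s : ℝ, abs s ≤ L ∧
    x = p₀ + ρ • (a + τ • b) + s • (e + w τ)}

/-- The base triangle of the cylinder for one piece: its vertices. -/
noncomputable def apexV (p₀ a b : E3) (H t t' : ℝ) : E3 := p₀ - H • (a + ((t + t') / 2) • b)

/-- The image under `proj d` of a piece lies in the enlarged triangle. -/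
lemma proj_piece_mem (e a b p₀ : E3) (he : ‖e‖ = 1) (ha : inner ℝ a e = 0) (hb : inner ℝ b e = 0)
    (hab : LinearIndependent ℝ ![a, b]) (α β : ℝ) (w : ℝ → E3)
    (hw : ∀ t ∈ Set.Icc α β, inner ℝ (w t) e = 0) (lam : ℝ → ℝ) (Λ : ℝ)
    (hΛ : ∀ t ∈ Set.Icc α β, |lam t| ≤ Λ)
    (hw' : ∀ t ∈ Set.Icc α β, HasDerivWithinAt w (lam t • (a + t • b)) (Set.Icc α β) t)
    (R : ℝ → ℝ) (L t t' c S : ℝ) (hL : 0 < L) (htt' : t < t') (ht : α ≤ t) (ht' : t' ≤ β)
    (hc : c ∈ Set.Icc t t') (hS : 0 < S)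
    (hRS : ∀ τ ∈ Set.Icc t t', R τ + L * Λ * (t' - t) + 4 * (L * Λ * (t' - t)) ≤ S)
    (x : E3) (hx : x ∈ piece p₀ a b e w R L t t') :
    proj (e + w c) x ∈ convexHull ℝ
      {proj (e + w c) (apexV p₀ a b (4 * (L * Λ * (t' - t))) t t'),
       proj (e + w c) (apexV p₀ a b (4 * (L * Λ * (t' - t))) t t' + S • (a + t • b)),
       proj (e + w c) (apexV p₀ a b (4 * (L * Λ * (t' - t))) t t' + S • (a + t' • b))} := by
  obtain ⟨τ, hτ, ρ, hρ, s, hs, rfl⟩ := hx
  have hsubI : Set.Icc t t' ⊆ Set.Icc α β := Set.Icc_subset_Icc ht ht'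
  have hΛ0 : 0 ≤ Λ := (abs_nonneg _).trans (hΛ c (hsubI hc))
  obtain ⟨A₁, ϑ, hinc, hA₁, hϑ⟩ := increments e a b he ha hb hab α β w hw lam Λ hΛ hw' τ c
    (hsubI hτ) (hsubI hc)
  set dl := t' - t with hdl
  have hdl0 : 0 < dl := by rw [hdl]; linarith
  have hτc : |τ - c| ≤ dl := by
    rw [abs_le]; constructor <;> linarith [hτ.1, hτ.2, hc.1, hc.2]
  set ν := L * Λ * dl with hν
  have hν0 : 0 ≤ ν := by positivity
  set H := 4 * ν with hH
  set d := e + w c with hd
  have hd0 : d ≠ 0 := axis_ne_zero e (w c) he (hw c (hsubI hc))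
  -- reduced coordinates
  set ρ' := ρ + s * A₁ with hρ'
  set ϑ' := s * ϑ with hϑ'
  have hsA : |s * A₁| ≤ ν := by
    rw [abs_mul, hν]
    calc |s| * |A₁| ≤ L * (Λ * |τ - c|) := mul_le_mul hs hA₁ (abs_nonneg _) hL.le
      _ ≤ L * (Λ * dl) := by gcongr
      _ = L * Λ * dl := by ring
  have hsϑ : |ϑ'| ≤ ν * dl := by
    rw [hϑ', abs_mul, hν]
    calc |s| * |ϑ| ≤ L * (Λ * |τ - c| ^ 2) := mul_le_mul hs hϑ (abs_nonneg _) hL.le
      _ ≤ L * (Λ * dl ^ 2) := by gcongr
      _ = L * Λ * dl * dl := by ring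
  obtain ⟨hsA1, hsA2⟩ := abs_le.1 hsA
  obtain ⟨hϑ1, hϑ2⟩ := abs_le.1 hsϑ
  have hρ'low : -ν ≤ ρ' := by rw [hρ']; linarith [hρ.1]
  have hρ'up : ρ' + H ≤ S := by
    have := hRS τ hτ
    rw [hρ']; linarith [hρ.2]
  -- the representation of the projection
  have hx : p₀ + ρ • (a + τ • b) + s • (e + w τ)
      = (p₀ + ρ' • (a + τ • b) + ϑ' • b) + s • d := by
    have e1 : w τ = w c + (A₁ • (a + τ • b) + ϑ • b) := by rw [← hinc]; abel
    rw [e1, hd, hρ', hϑ']
    module
  rw [hx, proj_add_smul d _ hd0]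
  set X := ρ' + H with hX
  set Y := ρ' * τ + ϑ' + H * ((t + t') / 2) with hY
  set u := (X * t' - Y) / (S * dl) with hu
  set v := (Y - X * t) / (S * dl) with hv
  have hSd : 0 < S * dl := by positivity
  have hu0 : 0 ≤ u := by
    apply div_nonneg _ hSd.le
    have e1 : X * t' - Y = ρ' * (t' - τ) - ϑ' + H * (dl / 2) := by
      rw [hX, hY, hdl]; ring
    rw [e1]
    have h5 : -ν * (t' - τ) ≤ ρ' * (t' - τ) :=
      mul_le_mul_of_nonneg_right hρ'low (by linarith [hτ.2])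
    have h6 : ν * (t' - τ) ≤ ν * dl := mul_le_mul_of_nonneg_left (by linarith [hτ.1]) hν0
    rw [hH]
    nlinarith
  have hv0 : 0 ≤ v := by
    apply div_nonneg _ hSd.le
    have e1 : Y - X * t = ρ' * (τ - t) + ϑ' + H * (dl / 2) := by
      rw [hX, hY, hdl]; ring
    rw [e1]
    have h5 : -ν * (τ - t) ≤ ρ' * (τ - t) :=
      mul_le_mul_of_nonneg_right hρ'low (by linarith [hτ.1])
    have h6 : ν * (τ - t) ≤ ν * dl := mul_le_mul_of_nonneg_left (by linarith [hτ.2]) hν0
    rw [hH]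
    nlinarith
  have huv : u + v = X / S := by
    rw [hu, hv, ← add_div]
    have : X * t' - Y + (Y - X * t) = X * dl := by rw [hdl]; ring
    rw [this]
    field_simp
  have huv1 : u + v ≤ 1 := by
    rw [huv, div_le_one hS]; exact hρ'up
  have e1 : S * (u + v) = X := by rw [huv]; field_simp
  have e2 : S * (u * t + v * t') = Y := by
    rw [hu, hv]
    have : dl ≠ 0 := hdl0.ne'
    field_simp
    rw [hdl]; ring
  rw [convexHull_three_eq_image]
  refine ⟨!₂[u, v], ?_, ?_⟩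
  · simpa [unitTri] using ⟨hu0, hv0, huv1⟩
  · simp only [PiLp.toLp_apply, Matrix.cons_val_zero, Matrix.cons_val_one, Matrix.cons_val_fin_one]
    rw [← proj_sub, ← proj_sub, ← proj_smul, ← proj_smul, ← proj_add, ← proj_add]
    congr 1
    have e3 : apexV p₀ a b H t t' + S • (a + t • b) - apexV p₀ a b H t t' = S • (a + t • b) := by abel
    have e4 : apexV p₀ a b H t t' + S • (a + t' • b) - apexV p₀ a b H t t' = S • (a + t' • b) := by abel
    rw [e3, e4, apexV]
    have e5 : p₀ - H • (a + ((t + t') / 2) • b) + u • S • (a + t • b) + v • S • (a + t' • b)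
        = p₀ + (S * (u + v) - H) • a + (S * (u * t + v * t') - H * ((t + t') / 2)) • b := by
      module
    rw [e5, e1, e2, hX, hY]
    module

/-- The lower triangle lies in the projected piece. -/
lemma lower_triangle_subset (e a b p₀ : E3) (w : ℝ → E3) (R : ℝ → ℝ) (L t t' r₀ : ℝ) (hL : 0 < L)
    (htt' : t < t') (hr₀ : 0 ≤ r₀) (hRr : ∀ τ ∈ Set.Icc t t', r₀ ≤ R τ) (d : E3) :
    convexHull ℝ {proj d p₀, proj d (p₀ + r₀ • (a + t • b)), proj d (p₀ + r₀ • (a + t' • b))} ⊆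
      proj d '' piece p₀ a b e w R L t t' := by
  rw [convexHull_three_eq_image]
  rintro _ ⟨z, ⟨h0, h1, h2⟩, rfl⟩
  simp only
  rw [← proj_sub, ← proj_sub, ← proj_smul, ← proj_smul, ← proj_add, ← proj_add]
  by_cases hz : z 0 + z 1 = 0
  · have h3 : z 0 = 0 := by linarith
    have h4 : z 1 = 0 := by linarith
    refine ⟨p₀, ⟨t, ⟨le_refl _, htt'.le⟩, 0, ⟨le_refl _, hr₀.trans (hRr t ⟨le_refl _, htt'.le⟩)⟩, 0,
      by simpa using hL.le, by simp⟩, ?_⟩
    rw [h3, h4]
    congr 1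
    simp
  · have hpos : 0 < z 0 + z 1 := lt_of_le_of_ne (by linarith) (Ne.symm hz)
    set τ := (z 0 * t + z 1 * t') / (z 0 + z 1) with hτ
    have hτm : τ ∈ Set.Icc t t' := by
      constructor
      · rw [hτ, le_div_iff₀ hpos]; nlinarith
      · rw [hτ, div_le_iff₀ hpos]; nlinarith
    refine ⟨p₀ + (r₀ * (z 0 + z 1)) • (a + τ • b) + (0 : ℝ) • (e + w τ), ⟨τ, hτm, r₀ * (z 0 + z 1),
      ⟨by positivity, ?_⟩, 0, by simpa using hL.le, rfl⟩, ?_⟩
    · have : r₀ * (z 0 + z 1) ≤ r₀ * 1 := mul_le_mul_of_nonneg_left h2 hr₀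
      linarith [hRr τ hτm]
    · congr 1
      have e1 : p₀ + r₀ • (a + t • b) - p₀ = r₀ • (a + t • b) := by abel
      have e2 : p₀ + r₀ • (a + t' • b) - p₀ = r₀ • (a + t' • b) := by abel
      rw [e1, e2]
      have e3 : (z 0 + z 1) * τ = z 0 * t + z 1 * t' := by
        rw [hτ]; field_simp
      have e4 : (r₀ * (z 0 + z 1)) • (a + τ • b)
          = (r₀ * (z 0 + z 1)) • a + (r₀ * ((z 0 + z 1) * τ)) • b := by
        module
      rw [zero_smul, add_zero, e4, e3]
      module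

/-- Area of a triangle with vertices `proj d v`, `proj d (v + S (a + t b))`, `proj d (v + S (a + t' b))`. -/
lemma area_proj_triangle (e a b v : E3) (he : ‖e‖ = 1) (ha : inner ℝ a e = 0)
    (hb : inner ℝ b e = 0) (hab : LinearIndependent ℝ ![a, b]) (wc : E3) (hw : inner ℝ wc e = 0)
    (S t t' : ℝ) (hS : 0 ≤ S) (htt' : t ≤ t') :
    gram (proj (e + wc) (v + S • (a + t • b)) - proj (e + wc) v)
      (proj (e + wc) (v + S • (a + t' • b)) - proj (e + wc) v) =
      S ^ 2 * (t' - t) * (gram a b / Real.sqrt (1 + ‖wc‖ ^ 2)) := by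
  have e1 : ∀ τ : ℝ, proj (e + wc) (v + S • (a + τ • b)) - proj (e + wc) v
      = S • proj (e + wc) a + (S * τ) • proj (e + wc) b := by
    intro τ
    rw [proj_add, proj_smul, proj_add, proj_smul]
    module
  rw [e1, e1, gram_lin, gram_proj e a b wc he ha hb hw hab]
  congr 1
  have : S * (S * t') - S * (S * t) = S ^ 2 * (t' - t) := by ring
  rw [this, abs_of_nonneg (by apply mul_nonneg (sq_nonneg _); linarith)]

/-- Non-degeneracy of a triangle with positive Gram value. -/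
lemma affineIndep_of_gram (p q r : E3) (h : 0 < gram (q - p) (r - p)) :
    AffineIndependent ℝ ![p, q, r] := by
  rw [affineIndependent_iff_not_collinear_set]
  intro hcol
  rw [collinear_iff_of_mem (p₀ := p) (by simp)] at hcol
  obtain ⟨v, hv⟩ := hcol
  obtain ⟨r₁, h1⟩ := hv q (by simp)
  obtain ⟨r₂, h2⟩ := hv r (by simp)
  have e1 : q - p = r₁ • v := by rw [h1]; simp
  have e2 : r - p = r₂ • v := by rw [h2]; simp
  have := gram_lin v 0 r₁ 0 r₂ 0
  simp only [zero_smul, add_zero, mul_zero, sub_self, abs_zero, zero_mul] at this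
  rw [e1, e2, this] at h
  exact lt_irrefl _ h

end Crest.Agent.Lib.Sweep
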