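import Crest.Agent.Lib.SweepBase

/-!
# Planes in `ℝ³`: orthonormal frames, finiteness of areas of projections, relatively open bases
-/

set_option autoImplicit false

open MeasureTheory Measure
open scoped ENNReal RealInnerProductSpace

namespace Crest.Agent.Lib.TetraSim

open Crest.Agent.Lib.Tetra Crest.Agent.Lib.Sweep

/-- A unit vector extends to an orthonormal frame. -/
lemma exists_frame3 (u : E3) (hu : ‖u‖ = 1) :
    ∃ f₁ f₂ : E3, ‖f₁‖ = 1 ∧ ‖f₂‖ = 1 ∧ inner ℝ f₁ f₂ = 0 ∧ inner ℝ f₁ u = 0 ∧ inner ℝ f₂ u = 0 ∧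
      ∀ y : E3, y = inner ℝ y u • u + inner ℝ y f₁ • f₁ + inner ℝ y f₂ • f₂ := by
  have hfin : Module.finrank ℝ E3 = Fintype.card (Fin 3) := by simp
  have hor : Orthonormal ℝ (({0} : Set (Fin 3)).domRestrict (fun _ => u)) := by
    rw [orthonormal_subsingleton_iff]
    intro _
    exact hu
  obtain ⟨b, hb⟩ := hor.exists_orthonormalBasis_extension_of_card_eq hfin
  have hb0 : b 0 = u := hb 0 (by simp)
  have hor2 := b.orthonormal
  have hin : ∀ i j, i ≠ j → inner ℝ (b i) (b j) = 0 := fun i j h => hor2.2 h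
  refine ⟨b 1, b 2, hor2.1 1, hor2.1 2, hin _ _ (by decide), ?_, ?_, ?_⟩
  · rw [← hb0]; exact hin _ _ (by decide)
  · rw [← hb0]; exact hin _ _ (by decide)
  · intro y
    have := b.sum_repr' y
    rw [Fin.sum_univ_three, hb0] at this
    rw [real_inner_comm u y, real_inner_comm (b 1) y, real_inner_comm (b 2) y]
    exact this.symm

/-- The isometric embedding of `ℝ²` as the plane spanned by an orthonormal pair. -/
noncomputable def planeIso (f₁ f₂ : E3) (h1 : ‖f₁‖ = 1) (h2 : ‖f₂‖ = 1) (h12 : inner ℝ f₁ f₂ = 0) :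
    E2 →ₗᵢ[ℝ] E3 :=
  LinearMap.isometryOfInner
    { toFun := fun z => z 0 • f₁ + z 1 • f₂
      map_add' := by
        intro x y
        simp only [PiLp.add_apply, add_smul]
        abel
      map_smul' := by
        intro r x
        simp only [PiLp.smul_apply, smul_eq_mul, mul_smul, RingHom.id_apply, smul_add] }
    (by
      intro x y
      simp only [LinearMap.coe_mk, AddHom.coe_mk]
      have h21 : inner ℝ f₂ f₁ = 0 := by rw [real_inner_comm]; exact h12
      rw [inner_add_left, inner_add_right, inner_add_right, inner_smul_left, inner_smul_left,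
        inner_smul_left, inner_smul_left, inner_smul_right, inner_smul_right, inner_smul_right,
        inner_smul_right, h12, h21, real_inner_self_eq_norm_sq, real_inner_self_eq_norm_sq, h1, h2,
        inner_E2]
      simp)

lemma planeIso_apply (f₁ f₂ : E3) (h1 : ‖f₁‖ = 1) (h2 : ‖f₂‖ = 1) (h12 : inner ℝ f₁ f₂ = 0)
    (z : E2) : planeIso f₁ f₂ h1 h2 h12 z = z 0 • f₁ + z 1 • f₂ := rfl

/-- Sets in the plane orthogonal to `u` in terms of `ℝ²`: structure lemma. -/
lemma exists_plane_chart (u : E3) (hu : ‖u‖ = 1) :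
    ∃ (ι : E2 →ₗᵢ[ℝ] E3) (ρ : E3 → E2), Continuous ρ ∧ (∀ z, ρ (ι z) = z) ∧
      (∀ z, inner ℝ (ι z) u = 0) ∧ (∀ y, inner ℝ y u = 0 → ι (ρ y) = y) ∧
      (∀ y, ι (ρ y) = y - inner ℝ y u • u) := by
  obtain ⟨f₁, f₂, h1, h2, h12, h1u, h2u, hexp⟩ := exists_frame3 u hu
  let ρ : E3 → E2 := fun y => !₂[inner ℝ y f₁, inner ℝ y f₂]
  have h21 : inner ℝ f₂ f₁ = 0 := by rw [real_inner_comm]; exact h12
  have h11 : inner ℝ f₁ f₁ = 1 := by rw [real_inner_self_eq_norm_sq, h1]; norm_num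
  have h22 : inner ℝ f₂ f₂ = 1 := by rw [real_inner_self_eq_norm_sq, h2]; norm_num
  have hform : ∀ y, planeIso f₁ f₂ h1 h2 h12 (ρ y) = y - inner ℝ y u • u := by
    intro y
    rw [planeIso_apply]
    simp only [ρ]
    have := hexp y
    simp only [Matrix.cons_val_zero, Matrix.cons_val_one, Matrix.cons_val_fin_one]
    have h4 : y - inner ℝ y u • u = inner ℝ y f₁ • f₁ + inner ℝ y f₂ • f₂ := by
      calc y - inner ℝ y u • u
          = (inner ℝ y u • u + inner ℝ y f₁ • f₁ + inner ℝ y f₂ • f₂) - inner ℝ y u • u := by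
            rw [← this]
        _ = _ := by abel
    exact h4.symm
  refine ⟨planeIso f₁ f₂ h1 h2 h12, ρ, ?_, ?_, ?_, ?_, hform⟩
  · apply (PiLp.continuous_toLp 2 _).comp
    apply continuous_pi
    intro i
    fin_cases i
    · simp; fun_prop
    · simp; fun_prop
  · intro z
    rw [planeIso_apply]
    simp only [ρ]
    rw [inner_add_left, inner_add_left, inner_smul_left, inner_smul_left, inner_smul_left,
      inner_smul_left, h11, h12, h21, h22]
    ext i
    fin_cases i <;> simp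
  · intro z
    rw [planeIso_apply, inner_add_left, inner_smul_left, inner_smul_left, h1u, h2u]
    simp
  · intro y hy
    rw [hform, hy]; simp

/-- Orthogonal projection along a unit vector. -/
noncomputable def prU (u y : E3) : E3 := y - inner ℝ y u • u

/-- Bounded subsets of a plane have finite area. -/
lemma mu_proj_lt_top (u : E3) (hu : ‖u‖ = 1) (S : Set E3) (hS : Bornology.IsBounded S) :
    μHE[2] (prU u '' S) < ⊤ := by
  obtain ⟨ι, ρ, hρc, hρι, hιu, hιρ, hform⟩ := exists_plane_chart u hu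
  obtain ⟨R, hR⟩ := hS.exists_norm_le
  have hsub : prU u '' S ⊆ ι '' (Metric.closedBall (0 : E2) (2 * |R|)) := by
    rintro _ ⟨y, hy, rfl⟩
    refine ⟨ρ y, ?_, ?_⟩
    · rw [mem_closedBall_zero_iff, ← ι.norm_map, hform]
      have h1 : ‖inner ℝ y u • u‖ ≤ ‖y‖ := by
        rw [norm_smul, hu, mul_one, Real.norm_eq_abs]
        have := abs_real_inner_le_norm y u
        rwa [hu, mul_one] at this
      have h2 := norm_sub_le y (inner ℝ y u • u)
      have h3 := (hR y hy).trans (le_abs_self R)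
      linarith
    · rw [hform]; rfl
  refine (measure_mono hsub).trans_lt ?_
  rw [ι.isometry.euclideanHausdorffMeasure_image, EuclideanSpace.euclideanHausdorffMeasure_eq_volume]
  exact measure_closedBall_lt_top

/-- A compact subset of a plane is contained in a bounded relatively open subset of the plane of
almost the same area. -/
lemma exists_rel_open (u : E3) (hu : ‖u‖ = 1) (S : Set E3) (hS : IsCompact S)
    (hSu : ∀ y ∈ S, inner ℝ y u = 0) (η : ℝ) (hη : 0 < η) :
    ∃ B : Set E3, Bornology.IsBounded B ∧ (∃ O : Set E3, IsOpen O ∧ B = O ∩ {x | inner ℝ x u = 0}) ∧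
      S ⊆ B ∧ (μHE[2] B).toReal ≤ (μHE[2] S).toReal + η := by
  obtain ⟨ι, ρ, hρc, hρι, hιu, hιρ, hform⟩ := exists_plane_chart u hu
  set S₀ := ρ '' S with hS₀
  have hS₀c : IsCompact S₀ := hS.image hρc
  have hSS₀ : ι '' S₀ = S := by
    ext y
    constructor
    · rintro ⟨_, ⟨x, hx, rfl⟩, rfl⟩
      rw [hιρ x (hSu x hx)]; exact hx
    · intro hy
      exact ⟨ρ y, ⟨y, hy, rfl⟩, hιρ y (hSu y hy)⟩
  have hvol : μHE[2] S = volume S₀ := by
    rw [← hSS₀, ι.isometry.euclideanHausdorffMeasure_image,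
      EuclideanSpace.euclideanHausdorffMeasure_eq_volume]
  have hfin : volume S₀ ≠ ⊤ := hS₀c.measure_lt_top.ne
  obtain ⟨O₀, hO₀, hO₀o, hO₀v⟩ := S₀.exists_isOpen_lt_add (μ := volume) hfin
    (ENNReal.ofReal_pos.2 hη).ne'
  obtain ⟨R, hR⟩ := hS₀c.isBounded.subset_ball 0
  set O₁ := O₀ ∩ Metric.ball (0 : E2) R with hO₁
  have hO₁o : IsOpen O₁ := hO₀o.inter Metric.isOpen_ball
  refine ⟨ρ ⁻¹' O₁ ∩ {x | inner ℝ x u = 0}, ?_, ⟨ρ ⁻¹' O₁, hO₁o.preimage hρc, rfl⟩, ?_, ?_⟩
  · rw [isBounded_iff_forall_norm_le]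
    refine ⟨R, ?_⟩
    rintro y ⟨hy1, hy2⟩
    have h1 : ρ y ∈ Metric.ball (0 : E2) R := hy1.2
    rw [mem_ball_zero_iff] at h1
    rw [← hιρ y hy2, ι.norm_map]
    exact h1.le
  · intro y hy
    have h1 : ρ y ∈ S₀ := ⟨y, hy, rfl⟩
    exact ⟨⟨hO₀ h1, hR h1⟩, hSu y hy⟩
  · have hBimg : ρ ⁻¹' O₁ ∩ {x | inner ℝ x u = 0} = ι '' O₁ := by
      ext y
      constructor
      · rintro ⟨hy1, hy2⟩
        exact ⟨ρ y, hy1, hιρ y hy2⟩
      · rintro ⟨z, hz, rfl⟩
        refine ⟨?_, hιu z⟩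
        show ρ (ι z) ∈ O₁
        rw [hρι]; exact hz
    rw [hBimg, ι.isometry.euclideanHausdorffMeasure_image,
      EuclideanSpace.euclideanHausdorffMeasure_eq_volume, hvol]
    have hle : volume O₁ ≤ volume S₀ + ENNReal.ofReal η :=
      (measure_mono Set.inter_subset_left).trans hO₀v.le
    have := ENNReal.toReal_mono (by simp [hfin]) hle
    rwa [ENNReal.toReal_add hfin ENNReal.ofReal_ne_top, ENNReal.toReal_ofReal hη.le] at this

end Crest.Agent.Lib.TetraSim
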