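import Crest.Agent.Lib.TetraSim

/-!
# Covers of an arbitrary regular tetrahedron from covers of the standard one (S0327)
-/

set_option autoImplicit false

open MeasureTheory Measure
open scoped ENNReal RealInnerProductSpace Pointwise

namespace Crest.Agent.Lib.TetraSim

open Crest.Agent.Lib.Tetra Crest.Agent.Lib.Sweep

/-- A point of a triangle (in oblique coordinates) lies in one of `n` parallelogram strips. -/
lemma strip_cover (p A B : E3) (n : ℕ) (hn : 0 < n) (x y : ℝ) (hx : 0 ≤ x) (hy : 0 ≤ y)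
    (hxy : x + y ≤ 1) :
    ∃ k : Fin n, ∃ s ∈ Set.Icc (0 : ℝ) 1, ∃ t ∈ Set.Icc (0 : ℝ) 1,
      p + x • A + y • B =
        (p + ((k : ℝ) / n) • A) + s • ((1 / (n : ℝ)) • A) + t • ((1 - (k : ℝ) / n) • B) := by
  have hnr : (0 : ℝ) < n := by exact_mod_cast hn
  have hx1 : x ≤ 1 := by linarith
  -- the index
  obtain ⟨k, hk⟩ : ∃ k : Fin n, (k : ℝ) ≤ x * n ∧ x * n ≤ k + 1 := by
    by_cases hc : ⌊x * n⌋₊ < n
    · refine ⟨⟨⌊x * n⌋₊, hc⟩, Nat.floor_le (by positivity), (Nat.lt_floor_add_one _).le⟩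
    · push Not at hc
      have h1 : (n : ℝ) ≤ x * n := by
        have := Nat.floor_le (show 0 ≤ x * n by positivity)
        have h2 : (n : ℝ) ≤ ⌊x * n⌋₊ := by exact_mod_cast hc
        linarith
      have h3 : x * n ≤ n := by nlinarith
      refine ⟨⟨n - 1, by omega⟩, ?_, ?_⟩
      · simp only
        rw [Nat.cast_sub hn]
        push_cast
        linarith
      · simp only
        rw [Nat.cast_sub hn]
        push_cast
        linarith
  have hkn : (k : ℝ) + 1 ≤ n := by exact_mod_cast k.isLt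
  have hden : 0 < 1 - (k : ℝ) / n := by
    rw [sub_pos, div_lt_one hnr]; linarith
  have hk1 : (k : ℝ) / n ≤ x := by
    rw [div_le_iff₀ hnr]; exact hk.1
  refine ⟨k, x * n - k, ⟨by linarith [hk.1], by linarith [hk.2]⟩, y / (1 - (k : ℝ) / n),
    ⟨by positivity, ?_⟩, ?_⟩
  · rw [div_le_one hden]; linarith
  · have e1 : (x * n - k) • ((1 / (n : ℝ)) • A) = (x - (k : ℝ) / n) • A := by
      rw [smul_smul]; congr 1; field_simp
    have e2 : (y / (1 - (k : ℝ) / n)) • ((1 - (k : ℝ) / n) • B) = y • B := by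
      rw [smul_smul, div_mul_cancel₀ y hden.ne']
    rw [e1, e2]
    module

/-- Total relative size of the strips. -/
lemma sum_strip_weights (n : ℕ) (hn : 0 < n) :
    ∑ k : Fin n, (1 / (n : ℝ)) * (1 - (k : ℝ) / n) = (1 / 2) * (1 + 1 / (n : ℝ)) := by
  have hnr : (n : ℝ) ≠ 0 := by positivity
  rw [Fin.sum_univ_eq_sum_range (fun k => (1 / (n : ℝ)) * (1 - (k : ℝ) / n)) n, ← Finset.mul_sum,
    Finset.sum_sub_distrib, ← Finset.sum_div]
  have h1 : ∑ k ∈ Finset.range n, ((k : ℕ) : ℝ) = (n : ℝ) * (n - 1) / 2 := by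
    have := Finset.sum_range_id_mul_two n
    have h2 : ((∑ i ∈ Finset.range n, i : ℕ) : ℝ) * 2 = (n : ℝ) * ((n - 1 : ℕ) : ℝ) := by
      exact_mod_cast this
    rw [Nat.cast_sub (by omega)] at h2
    push_cast at h2
    linarith
  rw [h1]
  simp only [Finset.sum_const, Finset.card_range, nsmul_eq_mul, mul_one]
  field_simp
  ring

/-- The final comparison with the projections. -/
lemma ratio_bound {ι : Type*} [Fintype ι] (A D : ι → ℝ) (m : ℝ) (hm : 0 < m) (hA : ∀ i, 0 ≤ A i)
    (hD : ∀ i, m ≤ D i) (hsum : ∑ i, A i < m / 2) : ∑ i, A i / D i < 1 / 2 := by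
  have h1 : ∀ i, A i / D i ≤ A i / m := by
    intro i
    exact div_le_div_of_nonneg_left (hA i) hm (hD i)
  calc ∑ i, A i / D i ≤ ∑ i, A i / m := Finset.sum_le_sum (fun i _ => h1 i)
    _ = (∑ i, A i) / m := by rw [Finset.sum_div]
    _ < 1 / 2 := by
        rw [div_lt_iff₀ hm]; linarith

/-- Lower bound for the areas of all projections of a regular tetrahedron. -/
lemma proj_area_lower (H₁ : ∀ v : E3, ‖v‖ = 1 → ENNReal.ofReal (Real.sqrt 2) ≤
      μHE[2] ((fun y => y - inner ℝ y v • v) '' K0))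
    (s : ℝ) (hs : 0 < s) (Q : E3 ≃ₗᵢ[ℝ] E3) (c₀ : E3) (v : E3) (hv : ‖v‖ = 1) :
    s ^ 2 * Real.sqrt 2 ≤ (μHE[2] ((fun y => y - inner ℝ y v • v) ''
      ((fun y => c₀ + s • Q y) '' K0))).toReal := by
  rw [proj_similar_image, mu_similarity _ s hs]
  have hv' : ‖Q.symm v‖ = 1 := by rw [Q.symm.norm_map]; exact hv
  have hbd : Bornology.IsBounded K0 := by
    rw [K0, isBounded_convexHull]
    exact (Set.toFinite _).isBounded
  have hfin : μHE[2] ((fun y => y - inner ℝ y (Q.symm v) • Q.symm v) '' K0) ≠ ⊤ :=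
    (mu_proj_lt_top (Q.symm v) hv' K0 hbd).ne
  rw [ENNReal.toReal_mul, ENNReal.toReal_ofReal (by positivity)]
  apply mul_le_mul_of_nonneg_left _ (by positivity)
  exact (ENNReal.ofReal_le_iff_le_toReal hfin).1 (H₁ _ hv')

/-- **S0327** from a cover of the standard tetrahedron by triangular cylinders of total area below
half of the least projection. -/
theorem tetra_general
    (H₁ : ∀ v : E3, ‖v‖ = 1 → ENNReal.ofReal (Real.sqrt 2) ≤
      μHE[2] ((fun y => y - inner ℝ y v • v) '' K0))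
    (M : ℕ) (u p q r : Fin M → E3) (hu : ∀ i, ‖u i‖ = 1)
    (hperp : ∀ i, inner ℝ (p i) (u i) = 0 ∧ inner ℝ (q i) (u i) = 0 ∧ inner ℝ (r i) (u i) = 0)
    (hcov : K0 ⊆ ⋃ i, {x : E3 | ∃ b ∈ convexHull ℝ {p i, q i, r i}, ∃ t : ℝ, x = b + t • u i})
    (θ : ℝ) (hθ : 0 < θ)
    (hZ : ∑ i, (μHE[2] (convexHull ℝ ({p i, q i, r i} : Set E3))).toReal ≤ Real.sqrt 2 * (1 / 2 - θ))
    (w : Fin 4 → E3) (ℓ : ℝ) (hℓ : 0 < ℓ)
    (hw : ∀ i j, i ≠ j → dist (w i) (w j) = ℓ) :
    (∃ (k : ℕ) (u c a b : Fin k → E3),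
      (∀ i, ‖u i‖ = 1) ∧
      (∀ i, inner ℝ (c i) (u i) = 0 ∧ inner ℝ (a i) (u i) = 0 ∧ inner ℝ (b i) (u i) = 0) ∧
      convexHull ℝ (Set.range w) ⊆ ⋃ i, {x : E3 |
        ∃ s ∈ Set.Icc (0 : ℝ) 1, ∃ t ∈ Set.Icc (0 : ℝ) 1, ∃ τ : ℝ, x = c i + s • a i + t • b i + τ • u i} ∧
      (∃ δ : ℝ, 0 < δ ∧ ∀ v : E3, ‖v‖ = 1 →
        (∑ i, (μHE[2] {x : E3 |
            ∃ s ∈ Set.Icc (0 : ℝ) 1, ∃ t ∈ Set.Icc (0 : ℝ) 1, x = c i + s • a i + t • b i}).toReal) + δ ≤
          (μHE[2] ((fun y => y - inner ℝ y v • v) '' convexHull ℝ (Set.range w))).toReal / 2) ∧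
      ∑ i, (μHE[2] {x : E3 |
            ∃ s ∈ Set.Icc (0 : ℝ) 1, ∃ t ∈ Set.Icc (0 : ℝ) 1, x = c i + s • a i + t • b i}).toReal /
          (μHE[2] ((fun y => y - inner ℝ y (u i) • u i) '' convexHull ℝ (Set.range w))).toReal < 1 / 2) ∧
    (∃ (k : ℕ) (u : Fin k → E3) (B : Fin k → Set E3),
      (∀ i, ‖u i‖ = 1) ∧
      (∀ i, Bornology.IsBounded (B i) ∧ ∃ O : Set E3, IsOpen O ∧
        B i = O ∩ {x | inner ℝ x (u i) = 0}) ∧
      convexHull ℝ (Set.range w) ⊆
        ⋃ i, {x : E3 | ∃ y ∈ B i, ∃ τ : ℝ, x = y + τ • u i} ∧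
      (∃ δ : ℝ, 0 < δ ∧ ∀ v : E3, ‖v‖ = 1 →
        (∑ i, (μHE[2] (B i)).toReal) + δ ≤
          (μHE[2] ((fun y => y - inner ℝ y v • v) '' convexHull ℝ (Set.range w))).toReal / 2) ∧
      ∑ i, (μHE[2] (B i)).toReal /
          (μHE[2] ((fun y => y - inner ℝ y (u i) • u i) '' convexHull ℝ (Set.range w))).toReal < 1 / 2) := by
  classical
  obtain ⟨Q, c₀, hQ⟩ := exists_similarity w ℓ hℓ hw
  set sc := ℓ / 2 with hsc
  have hsc0 : 0 < sc := by positivity
  have hK : convexHull ℝ (Set.range w) = (fun y => c₀ + sc • Q y) '' K0 :=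
    convexHull_range_eq w sc Q c₀ hQ
  rw [hK]
  set mm := sc ^ 2 * Real.sqrt 2 with hmm
  have hs2 : 0 < Real.sqrt 2 := Real.sqrt_pos.2 (by norm_num)
  have hmm0 : 0 < mm := by positivity
  have hproj : ∀ v : E3, ‖v‖ = 1 → mm ≤ (μHE[2] ((fun y => y - inner ℝ y v • v) ''
      ((fun y => c₀ + sc • Q y) '' K0))).toReal := fun v hv =>
    proj_area_lower H₁ sc hsc0 Q c₀ v hv
  set Z₀ := ∑ i, (μHE[2] (convexHull ℝ ({p i, q i, r i} : Set E3))).toReal with hZ₀
  -- transported directions and offsets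
  let u' : Fin M → E3 := fun j => Q (u j)
  have hu' : ∀ j, ‖u' j‖ = 1 := fun j => by simp only [u']; rw [Q.norm_map]; exact hu j
  let off : Fin M → E3 := fun j => c₀ - inner ℝ c₀ (u' j) • u' j
  have hoff : ∀ j, inner ℝ (off j) (u' j) = 0 := by
    intro j
    simp only [off]
    rw [inner_sub_left, inner_smul_left, real_inner_self_eq_norm_sq, hu' j]
    simp
  have hQinner : ∀ (j : Fin M) (y : E3), inner ℝ y (u j) = 0 → inner ℝ (Q y) (u' j) = 0 := by
    intro j y hy
    simp only [u']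
    rw [Q.inner_map_map]; exact hy
  -- a covering point
  have hpoint : ∀ x ∈ (fun y => c₀ + sc • Q y) '' K0, ∃ (j : Fin M) (b₀ : E3),
      b₀ ∈ convexHull ℝ ({p j, q j, r j} : Set E3) ∧ ∃ τ : ℝ,
      x = off j + sc • Q b₀ + τ • u' j := by
    rintro _ ⟨y, hy, rfl⟩
    have := hcov hy
    rw [Set.mem_iUnion] at this
    obtain ⟨j, b₀, hb₀, t, rfl⟩ := this
    refine ⟨j, b₀, hb₀, inner ℝ c₀ (u' j) + sc * t, ?_⟩
    simp only [off, map_add, map_smul, u']
    module
  constructor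
  · -- parallelogram bases
    obtain ⟨n₀, hn₀⟩ := exists_nat_gt (1 / θ)
    set n := n₀ + 1 with hn
    have hnpos : 0 < n := by omega
    have hnr : (0 : ℝ) < n := by exact_mod_cast hnpos
    have h1n : 1 / (n : ℝ) < θ := by
      rw [div_lt_iff₀ hnr]
      have h1 : 1 / θ < n := by
        rw [hn]; push_cast; linarith
      rw [div_lt_iff₀ hθ] at h1
      linarith
    let ee := (finProdFinEquiv : Fin M × Fin n ≃ Fin (M * n))
    let cf : Fin M × Fin n → E3 := fun x =>
      off x.1 + sc • Q (p x.1 + ((x.2 : ℝ) / n) • (q x.1 - p x.1))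
    let af : Fin M × Fin n → E3 := fun x => sc • Q ((1 / (n : ℝ)) • (q x.1 - p x.1))
    let bf : Fin M × Fin n → E3 := fun x => sc • Q ((1 - (x.2 : ℝ) / n) • (r x.1 - p x.1))
    have hgram : ∀ x, gram (af x) (bf x)
        = sc ^ 2 * ((1 / (n : ℝ)) * (1 - (x.2 : ℝ) / n) * gram (q x.1 - p x.1) (r x.1 - p x.1)) := by
      intro x
      have hknn : (x.2 : ℝ) / n ≤ 1 := by
        rw [div_le_one hnr]; exact_mod_cast x.2.isLt.le
      have e1 := gram_lin (q x.1 - p x.1) (r x.1 - p x.1) (1 / (n : ℝ)) 0 0 (1 - (x.2 : ℝ) / n)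
      simp only [zero_smul, add_zero, zero_add, zero_mul, sub_zero] at e1
      have hnn : 0 ≤ (1 / (n : ℝ)) * (1 - (x.2 : ℝ) / n) :=
        mul_nonneg (by positivity) (by linarith)
      rw [abs_of_nonneg hnn] at e1
      rw [← e1]
      simp only [af, bf]
      set A' := (1 / (n : ℝ)) • (q x.1 - p x.1)
      set B' := (1 - (x.2 : ℝ) / n) • (r x.1 - p x.1)
      rw [gram, gram, norm_smul, norm_smul, Q.norm_map, Q.norm_map, inner_smul_left,
        inner_smul_right, Q.inner_map_map, Real.norm_eq_abs]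
      have : (|sc| * ‖A'‖) ^ 2 * (|sc| * ‖B'‖) ^ 2 - ((starRingEnd ℝ) sc * (sc * inner ℝ A' B')) ^ 2
          = (sc ^ 2) ^ 2 * (‖A'‖ ^ 2 * ‖B'‖ ^ 2 - inner ℝ A' B' ^ 2) := by
        simp only [conj_trivial, mul_pow, sq_abs]
        ring
      rw [this, Real.sqrt_mul (by positivity), Real.sqrt_sq (by positivity)]
    have harea : ∀ x, (μHE[2] {y : E3 | ∃ s ∈ Set.Icc (0 : ℝ) 1, ∃ t ∈ Set.Icc (0 : ℝ) 1,
        y = cf x + s • af x + t • bf x}).toReal = gram (af x) (bf x) := by
      intro x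
      rw [area_parallelogram, ENNReal.toReal_ofReal (gram_nonneg _ _)]
    have htri : ∀ j, (μHE[2] (convexHull ℝ ({p j, q j, r j} : Set E3))).toReal
        = gram (q j - p j) (r j - p j) / 2 := by
      intro j
      rw [area_triangle, ENNReal.toReal_ofReal (by have := gram_nonneg (q j - p j) (r j - p j); positivity)]
    have hsumF : ∑ x : Fin M × Fin n, gram (af x) (bf x) = sc ^ 2 * ((1 + 1 / (n : ℝ)) * Z₀) := by
      simp only [hgram]
      rw [← Finset.mul_sum, Fintype.sum_prod_type]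
      congr 1
      rw [hZ₀]
      simp only [htri]
      rw [Finset.mul_sum]
      apply Finset.sum_congr rfl
      intro j _
      rw [← Finset.sum_mul, sum_strip_weights n hnpos]
      ring
    have hZ₀0 : 0 ≤ Z₀ := Finset.sum_nonneg (fun _ _ => ENNReal.toReal_nonneg)
    have hsmall : sc ^ 2 * ((1 + 1 / (n : ℝ)) * Z₀) < mm / 2 := by
      have h1 : (1 + 1 / (n : ℝ)) * Z₀ < Real.sqrt 2 / 2 := by
        have h2 : (1 + 1 / (n : ℝ)) * Z₀ ≤ (1 + 1 / (n : ℝ)) * (Real.sqrt 2 * (1 / 2 - θ)) :=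
          mul_le_mul_of_nonneg_left hZ (by positivity)
        have h3 : (1 + 1 / (n : ℝ)) * (1 / 2 - θ) < 1 / 2 := by
          have h4 : 0 < 1 / (n : ℝ) := by positivity
          nlinarith
        nlinarith
      rw [hmm]
      nlinarith [pow_pos hsc0 2]
    refine ⟨M * n, fun i => u' (ee.symm i).1, fun i => cf (ee.symm i), fun i => af (ee.symm i),
      fun i => bf (ee.symm i), fun i => hu' _, ?_, ?_, ?_, ?_⟩
    · intro i
      set x := ee.symm i
      have hP := hperp x.1
      refine ⟨?_, ?_, ?_⟩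
      · simp only [cf]
        rw [inner_add_left, hoff, zero_add, inner_smul_left, hQinner]
        · simp
        · rw [inner_add_left, inner_smul_left, inner_sub_left, hP.1, hP.2.1]; simp
      · simp only [af]
        rw [inner_smul_left, hQinner]
        · simp
        · rw [inner_smul_left, inner_sub_left, hP.1, hP.2.1]; simp
      · simp only [bf]
        rw [inner_smul_left, hQinner]
        · simp
        · rw [inner_smul_left, inner_sub_left, hP.1, hP.2.2]; simp
    · intro x hx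
      obtain ⟨j, b₀, hb₀, τ, rfl⟩ := hpoint x hx
      rw [convexHull_three_eq_image] at hb₀
      obtain ⟨z, ⟨hz0, hz1, hz2⟩, rfl⟩ := hb₀
      obtain ⟨k, s, hs, t, ht, hst⟩ := strip_cover (p j) (q j - p j) (r j - p j) n hnpos (z 0) (z 1)
        hz0 hz1 hz2
      rw [Set.mem_iUnion]
      refine ⟨ee (j, k), s, hs, t, ht, τ, ?_⟩
      simp only [Equiv.symm_apply_apply, cf, af, bf]
      simp only at hst
      rw [hst]
      simp only [map_add, map_smul]
      module
    · have hsum : ∑ i : Fin (M * n), (μHE[2] {y : E3 | ∃ s ∈ Set.Icc (0 : ℝ) 1,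
          ∃ t ∈ Set.Icc (0 : ℝ) 1, y = cf (ee.symm i) + s • af (ee.symm i) + t • bf (ee.symm i)}).toReal
          = sc ^ 2 * ((1 + 1 / (n : ℝ)) * Z₀) := by
        simp only [harea]
        rw [Equiv.sum_comp ee.symm (fun x => gram (af x) (bf x)), hsumF]
      refine ⟨mm / 2 - sc ^ 2 * ((1 + 1 / (n : ℝ)) * Z₀), by linarith, fun v hv => ?_⟩
      rw [hsum]
      have := hproj v hv
      linarith
    · apply ratio_bound _ _ mm hmm0
      · intro i; exact ENNReal.toReal_nonneg
      · intro i; exact hproj _ (hu' _)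
      · simp only [harea]
        rw [Equiv.sum_comp ee.symm (fun x => gram (af x) (bf x)), hsumF]
        exact hsmall
  · -- relatively open bases
    set η := mm * θ / (M + 1) with hη
    have hη0 : 0 < η := by positivity
    let baseT : Fin M → Set E3 := fun j =>
      (fun y => off j + sc • Q y) '' convexHull ℝ ({p j, q j, r j} : Set E3)
    have hbaseC : ∀ j, IsCompact (baseT j) := by
      intro j
      apply IsCompact.image
      · apply Set.Finite.isCompact_convexHull
        exact Set.toFinite _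
      · have : Continuous (Q : E3 → E3) := Q.continuous
        fun_prop
    have hbaseU : ∀ j, ∀ y ∈ baseT j, inner ℝ y (u' j) = 0 := by
      rintro j _ ⟨y, hy, rfl⟩
      rw [inner_add_left, hoff, zero_add, inner_smul_left, hQinner]
      · simp
      · -- the convex hull lies in the plane
        have hsub : ({p j, q j, r j} : Set E3) ⊆ {x | inner ℝ x (u j) = 0} := by
          intro x hx
          simp only [Set.mem_insert_iff, Set.mem_singleton_iff] at hx
          rcases hx with rfl | rfl | rfl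
          · exact (hperp j).1
          · exact (hperp j).2.1
          · exact (hperp j).2.2
        have hconv : Convex ℝ {x : E3 | inner ℝ x (u j) = 0} := by
          intro x hx z hz a b _ _ hab
          change inner ℝ x (u j) = 0 at hx
          change inner ℝ z (u j) = 0 at hz
          change inner ℝ (a • x + b • z) (u j) = 0
          rw [inner_add_left, inner_smul_left, inner_smul_left, hx, hz]
          simp
        exact convexHull_min hsub hconv hy
    choose B hB1 hB2 hB3 hB4 using fun j => exists_rel_open (u' j) (hu' j) (baseT j) (hbaseC j)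
      (hbaseU j) η hη0
    have hareaT : ∀ j, (μHE[2] (baseT j)).toReal = sc ^ 2 *
        (μHE[2] (convexHull ℝ ({p j, q j, r j} : Set E3))).toReal := by
      intro j
      simp only [baseT]
      rw [mu_similarity _ sc hsc0, ENNReal.toReal_mul, ENNReal.toReal_ofReal (by positivity)]
    have hsumB : ∑ j, (μHE[2] (B j)).toReal < mm / 2 := by
      calc ∑ j, (μHE[2] (B j)).toReal ≤ ∑ j, (sc ^ 2 *
            (μHE[2] (convexHull ℝ ({p j, q j, r j} : Set E3))).toReal + η) :=
            Finset.sum_le_sum (fun j _ => by rw [← hareaT j]; exact hB4 j)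
        _ = sc ^ 2 * Z₀ + M * η := by
            rw [Finset.sum_add_distrib, ← Finset.mul_sum, hZ₀]
            simp only [Finset.sum_const, Finset.card_univ, Fintype.card_fin, nsmul_eq_mul]
        _ < mm / 2 := by
            have h1 : M * η < mm * θ := by
              rw [hη, mul_div_assoc', div_lt_iff₀ (by positivity)]
              have : 0 < mm * θ := by positivity
              nlinarith
            have h2 : sc ^ 2 * Z₀ ≤ sc ^ 2 * (Real.sqrt 2 * (1 / 2 - θ)) :=
              mul_le_mul_of_nonneg_left hZ (by positivity)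
            rw [hmm] at h1 ⊢
            nlinarith
    refine ⟨M, u', B, hu', fun j => ⟨hB1 j, hB2 j⟩, ?_, ?_, ?_⟩
    · intro x hx
      obtain ⟨j, b₀, hb₀, τ, rfl⟩ := hpoint x hx
      rw [Set.mem_iUnion]
      exact ⟨j, off j + sc • Q b₀, hB3 j ⟨b₀, hb₀, rfl⟩, τ, rfl⟩
    · refine ⟨mm / 2 - ∑ j, (μHE[2] (B j)).toReal, by linarith, fun v hv => ?_⟩
      have := hproj v hv
      linarith
    · apply ratio_bound _ _ mm hmm0
      · intro i; exact ENNReal.toReal_nonneg
      · intro i; exact hproj _ (hu' _)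
      · exact hsumB

end Crest.Agent.Lib.TetraSim
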