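import Crest.Agent.Lib.TetraFrame

/-!
# Every regular tetrahedron is similar to the standard one
-/

set_option autoImplicit false

open MeasureTheory Measure
open scoped ENNReal RealInnerProductSpace Pointwise

namespace Crest.Agent.Lib.TetraSim

open Crest.Agent.Lib.Tetra Crest.Agent.Lib.Sweep

/-- The standard vertices. -/
noncomputable def stdV : Fin 4 → E3 :=
  ![!₂[1, 0, 0], !₂[-1, 0, 0], !₂[0, 1, Real.sqrt 2], !₂[0, -1, Real.sqrt 2]]

/-- The standard tetrahedron. -/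
noncomputable def K0 : Set E3 :=
  convexHull ℝ {!₂[1, 0, 0], !₂[-1, 0, 0], !₂[0, 1, Real.sqrt 2], !₂[0, -1, Real.sqrt 2]}

lemma inner_E3' (x y : E3) : inner ℝ x y = x 0 * y 0 + x 1 * y 1 + x 2 * y 2 := by
  simp [PiLp.inner_apply, Fin.sum_univ_three]; ring

/-- A linear isometry from an orthonormal triple. -/
noncomputable def frameIso (f₀ f₁ f₂ : E3) (h0 : ‖f₀‖ = 1) (h1 : ‖f₁‖ = 1) (h2 : ‖f₂‖ = 1)
    (h01 : inner ℝ f₀ f₁ = 0) (h02 : inner ℝ f₀ f₂ = 0) (h12 : inner ℝ f₁ f₂ = 0) : E3 ≃ₗᵢ[ℝ] E3 :=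
  (LinearMap.isometryOfInner
    { toFun := fun z => z 0 • f₀ + z 1 • f₁ + z 2 • f₂
      map_add' := by
        intro x y
        simp only [PiLp.add_apply, add_smul]
        abel
      map_smul' := by
        intro r x
        simp only [PiLp.smul_apply, smul_eq_mul, mul_smul, RingHom.id_apply, smul_add] }
    (by
      intro x y
      simp only [LinearMap.coe_mk, AddHom.coe_mk]
      have h10 : inner ℝ f₁ f₀ = 0 := by rw [real_inner_comm]; exact h01
      have h20 : inner ℝ f₂ f₀ = 0 := by rw [real_inner_comm]; exact h02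
      have h21 : inner ℝ f₂ f₁ = 0 := by rw [real_inner_comm]; exact h12
      have h00 : inner ℝ f₀ f₀ = 1 := by rw [real_inner_self_eq_norm_sq, h0]; norm_num
      have h11 : inner ℝ f₁ f₁ = 1 := by rw [real_inner_self_eq_norm_sq, h1]; norm_num
      have h22 : inner ℝ f₂ f₂ = 1 := by rw [real_inner_self_eq_norm_sq, h2]; norm_num
      simp only [inner_add_left, inner_add_right, inner_smul_left, inner_smul_right, h00, h01, h02,
        h10, h11, h12, h20, h21, h22, inner_E3']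
      simp
      ring)).toLinearIsometryEquiv rfl

lemma frameIso_apply (f₀ f₁ f₂ : E3) (h0 : ‖f₀‖ = 1) (h1 : ‖f₁‖ = 1) (h2 : ‖f₂‖ = 1)
    (h01 : inner ℝ f₀ f₁ = 0) (h02 : inner ℝ f₀ f₂ = 0) (h12 : inner ℝ f₁ f₂ = 0) (z : E3) :
    frameIso f₀ f₁ f₂ h0 h1 h2 h01 h02 h12 z = z 0 • f₀ + z 1 • f₁ + z 2 • f₂ := rfl

/-- Every regular tetrahedron is a similar copy of the standard one. -/
theorem exists_similarity (w : Fin 4 → E3) (ℓ : ℝ) (hℓ : 0 < ℓ)
    (hw : ∀ i j, i ≠ j → dist (w i) (w j) = ℓ) :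
    ∃ (Q : E3 ≃ₗᵢ[ℝ] E3) (c₀ : E3), ∀ i, w i = c₀ + (ℓ / 2) • Q (stdV i) := by
  set u₁ := w 1 - w 0 with hu₁
  set u₂ := w 2 - w 0 with hu₂
  set u₃ := w 3 - w 0 with hu₃
  have hnorm : ∀ i j, i ≠ j → ‖w i - w j‖ ^ 2 = ℓ ^ 2 := by
    intro i j h
    rw [← dist_eq_norm, hw i j h]
  have hgram : ∀ x y : E3, ‖x‖ ^ 2 = ℓ ^ 2 → ‖y‖ ^ 2 = ℓ ^ 2 → ‖x - y‖ ^ 2 = ℓ ^ 2 →
      inner ℝ x y = ℓ ^ 2 / 2 := by
    intro x y hx hy hxy
    have := @norm_sub_sq_real E3 _ _ x y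
    rw [hxy, hx, hy] at this
    linarith
  have h11 : inner ℝ u₁ u₁ = ℓ ^ 2 := by
    rw [real_inner_self_eq_norm_sq]; exact hnorm _ _ (by decide)
  have h22 : inner ℝ u₂ u₂ = ℓ ^ 2 := by
    rw [real_inner_self_eq_norm_sq]; exact hnorm _ _ (by decide)
  have h33 : inner ℝ u₃ u₃ = ℓ ^ 2 := by
    rw [real_inner_self_eq_norm_sq]; exact hnorm _ _ (by decide)
  have hsub : ∀ i j k : Fin 4, (w i - w k) - (w j - w k) = w i - w j := by
    intro i j k; abel
  have h12 : inner ℝ u₁ u₂ = ℓ ^ 2 / 2 := hgram _ _ (hnorm _ _ (by decide)) (hnorm _ _ (by decide))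
    (by rw [hu₁, hu₂, hsub]; exact hnorm _ _ (by decide))
  have h13 : inner ℝ u₁ u₃ = ℓ ^ 2 / 2 := hgram _ _ (hnorm _ _ (by decide)) (hnorm _ _ (by decide))
    (by rw [hu₁, hu₃, hsub]; exact hnorm _ _ (by decide))
  have h23 : inner ℝ u₂ u₃ = ℓ ^ 2 / 2 := hgram _ _ (hnorm _ _ (by decide)) (hnorm _ _ (by decide))
    (by rw [hu₂, hu₃, hsub]; exact hnorm _ _ (by decide))
  have h21 : inner ℝ u₂ u₁ = ℓ ^ 2 / 2 := by rw [real_inner_comm]; exact h12
  have h31 : inner ℝ u₃ u₁ = ℓ ^ 2 / 2 := by rw [real_inner_comm]; exact h13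
  have h32 : inner ℝ u₃ u₂ = ℓ ^ 2 / 2 := by rw [real_inner_comm]; exact h23
  have hs2 : Real.sqrt 2 ^ 2 = 2 := Real.sq_sqrt (by norm_num)
  have hs2pos : 0 < Real.sqrt 2 := Real.sqrt_pos.2 (by norm_num)
  set f₀ : E3 := (-(1 / ℓ)) • u₁ with hf₀
  set f₁ : E3 := (1 / ℓ) • (u₂ - u₃) with hf₁
  set f₂ : E3 := (1 / (Real.sqrt 2 * ℓ)) • (u₂ + u₃ - u₁) with hf₂
  have hunit : ∀ x : E3, inner ℝ x x = 1 → ‖x‖ = 1 := by
    intro x hx
    rw [real_inner_self_eq_norm_sq] at hx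
    nlinarith [norm_nonneg x, sq_nonneg (‖x‖ - 1), sq_nonneg (‖x‖ + 1)]
  have n0 : ‖f₀‖ = 1 := by
    apply hunit
    rw [hf₀, inner_smul_left, inner_smul_right, h11]
    simp only [conj_trivial]
    field_simp
  have n1 : ‖f₁‖ = 1 := by
    apply hunit
    rw [hf₁, inner_smul_left, inner_smul_right]
    simp only [conj_trivial, inner_sub_left, inner_sub_right, h22, h23, h32, h33]
    field_simp
    ring
  have n2 : ‖f₂‖ = 1 := by
    apply hunit
    rw [hf₂, inner_smul_left, inner_smul_right]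
    simp only [conj_trivial, inner_sub_left, inner_sub_right, inner_add_left, inner_add_right,
      h11, h12, h13, h21, h22, h23, h31, h32, h33]
    field_simp
    rw [hs2]
    ring
  have o01 : inner ℝ f₀ f₁ = 0 := by
    rw [hf₀, hf₁, inner_smul_left, inner_smul_right]
    simp only [conj_trivial, inner_sub_left, inner_sub_right, h12, h13]
    ring
  have o02 : inner ℝ f₀ f₂ = 0 := by
    rw [hf₀, hf₂, inner_smul_left, inner_smul_right]
    simp only [conj_trivial, inner_sub_left, inner_sub_right, inner_add_left, inner_add_right,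
      h11, h12, h13]
    ring
  have o12 : inner ℝ f₁ f₂ = 0 := by
    rw [hf₁, hf₂, inner_smul_left, inner_smul_right]
    simp only [conj_trivial, inner_sub_left, inner_sub_right, inner_add_left, inner_add_right,
      h21, h22, h23, h31, h32, h33]
    ring
  set Q := frameIso f₀ f₁ f₂ n0 n1 n2 o01 o02 o12 with hQ
  refine ⟨Q, w 0 - (ℓ / 2) • f₀, ?_⟩
  have hℓ0 : ℓ ≠ 0 := hℓ.ne'
  have e0 : (ℓ / 2) • f₀ = (-(1 / 2 : ℝ)) • u₁ := by
    rw [hf₀, smul_smul]; congr 1; field_simp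
  have e1 : (ℓ / 2) • f₁ = (1 / 2 : ℝ) • (u₂ - u₃) := by
    rw [hf₁, smul_smul]; congr 1; field_simp
  have e2 : (ℓ / 2) • (Real.sqrt 2 • f₂) = (1 / 2 : ℝ) • (u₂ + u₃ - u₁) := by
    rw [hf₂, smul_smul, smul_smul]; congr 1; field_simp
  intro i
  fin_cases i
  · simp only [stdV, Fin.zero_eta, Matrix.cons_val_zero, hQ, frameIso_apply]
    simp
  · have h : Q (stdV 1) = (-1 : ℝ) • f₀ := by
      simp only [stdV, Matrix.cons_val_one, hQ, frameIso_apply]
      simp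
    change w 1 = w 0 - (ℓ / 2) • f₀ + (ℓ / 2) • Q (stdV 1)
    have e3 : (ℓ / 2) • ((-1 : ℝ) • f₀) = -((ℓ / 2) • f₀) := by
      rw [smul_comm, neg_one_smul]
    rw [h, e3, e0, hu₁]
    module
  · have h : Q (stdV 2) = f₁ + Real.sqrt 2 • f₂ := by
      simp only [stdV, hQ, frameIso_apply]
      simp
    change w 2 = w 0 - (ℓ / 2) • f₀ + (ℓ / 2) • Q (stdV 2)
    rw [h, smul_add, e1, e2, e0, hu₁, hu₂, hu₃]
    module
  · have h : Q (stdV 3) = (-1 : ℝ) • f₁ + Real.sqrt 2 • f₂ := by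
      simp only [stdV, hQ, frameIso_apply]
      simp
    change w 3 = w 0 - (ℓ / 2) • f₀ + (ℓ / 2) • Q (stdV 3)
    have e3 : (ℓ / 2) • ((-1 : ℝ) • f₁) = -((ℓ / 2) • f₁) := by
      rw [smul_comm, neg_one_smul]
    rw [h, smul_add, e3, e1, e2, e0, hu₁, hu₂, hu₃]
    module

/-- The similar copy as an image of the standard tetrahedron. -/
lemma convexHull_range_eq (w : Fin 4 → E3) (s : ℝ) (Q : E3 ≃ₗᵢ[ℝ] E3) (c₀ : E3)
    (hw : ∀ i, w i = c₀ + s • Q (stdV i)) :
    convexHull ℝ (Set.range w) = (fun y => c₀ + s • Q y) '' K0 := by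
  let Tₐ : E3 →ᵃ[ℝ] E3 := (s • (Q.toLinearEquiv.toLinearMap)).toAffineMap + AffineMap.const ℝ E3 c₀
  have hT : ∀ y, Tₐ y = c₀ + s • Q y := by
    intro y
    simp [Tₐ, add_comm]
  have himg : (fun y => c₀ + s • Q y) '' K0 = Tₐ '' K0 := by
    apply Set.image_congr
    intro y _
    exact (hT y).symm
  rw [himg, K0, AffineMap.image_convexHull]
  congr 1
  ext x
  simp only [Set.mem_range, Set.image_insert_eq, Set.image_singleton, Set.mem_insert_iff,
    Set.mem_singleton_iff, hT]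
  constructor
  · rintro ⟨i, rfl⟩
    rw [hw]
    fin_cases i
    · left; rfl
    · right; left; rfl
    · right; right; left; rfl
    · right; right; right; rfl
  · rintro (rfl | rfl | rfl | rfl)
    · exact ⟨0, hw 0⟩
    · exact ⟨1, hw 1⟩
    · exact ⟨2, hw 2⟩
    · exact ⟨3, hw 3⟩

/-- Area under a similarity. -/
lemma mu_similarity (c₁ : E3) (s : ℝ) (hs : 0 < s) (Q : E3 ≃ₗᵢ[ℝ] E3) (S : Set E3) :
    μHE[2] ((fun y => c₁ + s • Q y) '' S) = ENNReal.ofReal (s ^ 2) * μHE[2] S := by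
  have h1 : (fun y => c₁ + s • Q y) '' S = (fun y => c₁ + y) '' (s • (Q '' S)) := by
    ext x
    simp only [Set.mem_image, Set.mem_smul_set, exists_exists_and_eq_and]
  rw [h1, (isometry_add_left c₁).euclideanHausdorffMeasure_image,
    euclideanHausdorffMeasure_smul₀ 2 hs.ne', Q.isometry.euclideanHausdorffMeasure_image]
  rw [ENNReal.smul_def, smul_eq_mul]
  congr 1
  rw [ENNReal.ofReal_pow hs.le]
  push_cast
  congr 1
  rw [ENNReal.ofReal, Real.toNNReal_of_nonneg hs.le]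
  congr 1
  ext
  simp [abs_of_pos hs]

/-- Projections of the similar copy. -/
lemma proj_similar_image (c₀ : E3) (s : ℝ) (Q : E3 ≃ₗᵢ[ℝ] E3) (v : E3) (S : Set E3) :
    (fun y => y - inner ℝ y v • v) '' ((fun y => c₀ + s • Q y) '' S) =
      (fun y => (c₀ - inner ℝ c₀ v • v) + s • Q y) ''
        ((fun y => y - inner ℝ y (Q.symm v) • Q.symm v) '' S) := by
  rw [Set.image_image, Set.image_image]
  apply Set.image_congr
  intro y _
  have e1 : inner ℝ (Q y) v = inner ℝ y (Q.symm v) := by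
    have := Q.inner_map_map y (Q.symm v)
    rwa [Q.apply_symm_apply] at this
  have e2 : Q (y - inner ℝ y (Q.symm v) • Q.symm v) = Q y - inner ℝ y (Q.symm v) • v := by
    rw [map_sub, map_smul, Q.apply_symm_apply]
  simp only [inner_add_left, inner_smul_left, e1, e2, conj_trivial]
  module

end Crest.Agent.Lib.TetraSim
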