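import Crest.Prelude.Def_TreePotentials
import Crest.Agent.Lib.AsympGame

/-!
Core of the midpoint estimate on tree potentials: truncating potentials at a finite root-closed set.
-/

set_option autoImplicit false

namespace Crest.Agent.Lib.TreeCore

open Crest.AnalysisR Crest.AnalysisR.TreePotential

/-- Increments of a vertex function along the tree. -/
def incr (Q : List ℕ → ℝ) : List ℕ → ℝ
  | [] => Q []
  | a :: v => Q (a :: v) - Q v

theorem pathPotential_incr (Q : List ℕ → ℝ) : ∀ s, pathPotential (incr Q) s = Q s
  | [] => by simp [pathPotential, incr]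
  | a :: v => by
      have := pathPotential_incr Q v
      simp [pathPotential, incr, this]

/-- The truncated family. -/
noncomputable def restrictIn (S : Set (List ℕ)) (f : List ℕ → ℝ) : List ℕ → ℝ := by
  classical exact fun s => if s ∈ S then f s else 0

theorem restrictIn_mem {S : Set (List ℕ)} {f : List ℕ → ℝ} {s : List ℕ} (hs : s ∈ S) :
    restrictIn S f s = f s := by
  simp [restrictIn, hs]

theorem restrictIn_not_mem {S : Set (List ℕ)} {f : List ℕ → ℝ} {s : List ℕ} (hs : s ∉ S) :
    restrictIn S f s = 0 := by
  simp [restrictIn, hs]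

theorem abs_min_sub_min_zero (x y : ℝ) : |min x 0 - min y 0| ≤ |x - y| := by
  have := abs_min_sub_min_le_max x 0 y 0
  simpa using this

theorem abs_max_sub_max_zero (x y : ℝ) : |max x 0 - max y 0| ≤ |x - y| := by
  have := abs_max_sub_max_le_abs x y 0
  exact this

section combine

variable (S : Set (List ℕ)) (hroot : [] ∈ S) (hcl : ∀ a v, a :: v ∈ S → v ∈ S)
include hroot hcl

/-- On the root-closed set the potential of the truncated family is the original potential. -/
theorem pot_restrictIn_mem (f : List ℕ → ℝ) :
    ∀ s, s ∈ S → pathPotential (restrictIn S f) s = pathPotential f s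
  | [], _ => by simp [pathPotential, restrictIn_mem hroot]
  | a :: v, hs => by
      have hv := hcl a v hs
      simp [pathPotential, restrictIn_mem hs, pot_restrictIn_mem f v hv]

/-- The potential of the part inside `S` stays bounded by one. -/
theorem abs_pot_restrictIn_le (f : List ℕ → ℝ) (hf : ∀ s, |pathPotential f s| ≤ 1) :
    ∀ s, |pathPotential (restrictIn S f) s| ≤ 1
  | [] => by
      rw [pot_restrictIn_mem S hroot hcl f [] hroot]; exact hf _
  | a :: v => by
      by_cases hs : a :: v ∈ S
      · rw [pot_restrictIn_mem S hroot hcl f _ hs]; exact hf _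
      · simp only [pathPotential, restrictIn_not_mem hs, add_zero]
        exact abs_pot_restrictIn_le f hf v

/-- The potential of the part outside `S` vanishes on `S`. -/
theorem pot_outside_mem (g : List ℕ → ℝ) :
    ∀ s, s ∈ S → pathPotential (fun r => g r - restrictIn S g r) s = 0
  | [], _ => by simp [pathPotential, restrictIn_mem hroot]
  | a :: v, hs => by
      have hv := hcl a v hs
      simp [pathPotential, restrictIn_mem hs, pot_outside_mem g v hv]

/-- The potential of the part outside `S` is a difference of two values of the potential. -/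
theorem pot_outside_eq (g : List ℕ → ℝ) (hg : ∀ s, |pathPotential g s| ≤ 1) :
    ∀ s, ∃ p : ℝ, |p| ≤ 1 ∧
      pathPotential (fun r => g r - restrictIn S g r) s = pathPotential g s - p
  | [] => ⟨pathPotential g [], hg _, by simp [pathPotential, restrictIn_mem hroot]⟩
  | a :: v => by
      by_cases hs : a :: v ∈ S
      · refine ⟨pathPotential g (a :: v), hg _, ?_⟩
        rw [pot_outside_mem S hroot hcl g _ hs]; ring
      · obtain ⟨p, hp, hv⟩ := pot_outside_eq g hg v
        refine ⟨p, hp, ?_⟩
        simp only [pathPotential, restrictIn_not_mem hs, sub_zero]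
        rw [hv]; ring

/-- **Combination of tests.** -/
theorem exists_combined_tests (f g : List ℕ → ℝ) (hf : ∀ s, |pathPotential f s| ≤ 1)
    (hg : ∀ s, |pathPotential g s| ≤ 1) (a c : ℝ) (ha0 : 0 ≤ a) (ha1 : a ≤ 1) (hc0 : 0 ≤ c)
    (hc : 2 * c ≤ 1) :
    ∃ hp hm : List ℕ → ℝ, (∀ s, |pathPotential hp s| ≤ 1) ∧ (∀ s, |pathPotential hm s| ≤ 1) ∧
      (∀ s ∈ S, hp s = a * f s) ∧ (∀ s ∈ S, hm s = a * f s) ∧
      (∀ s, s ∉ S → |hp s| ≤ c * |g s|) ∧ (∀ s, s ∉ S → |hm s| ≤ c * |g s|) ∧
      (∀ s, s ∉ S → hp s - hm s = c * g s) := by
  classical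
  set F' := restrictIn S f with hF'
  set G' : List ℕ → ℝ := fun r => g r - restrictIn S g r with hG'
  set P := pathPotential F' with hP
  set R := pathPotential G' with hR
  have hPb : ∀ s, |P s| ≤ 1 := abs_pot_restrictIn_le S hroot hcl f hf
  have hRS : ∀ s ∈ S, R s = 0 := pot_outside_mem S hroot hcl g
  have hRb : ∀ s, |R s| ≤ 2 := by
    intro s
    obtain ⟨p, hp, h⟩ := pot_outside_eq S hroot hcl g hg s
    rw [hR, h]
    have h1 := abs_le.1 (hg s)
    have h2 := abs_le.1 hp
    rw [abs_le]; constructor <;> linarith [h1.1, h1.2, h2.1, h2.2]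
  -- the four truncations
  let tp : List ℕ → ℝ := fun s => if 0 ≤ P s then min (R s) 0 else max (R s) 0
  let tm : List ℕ → ℝ := fun s => if 0 ≤ P s then -max (R s) 0 else -min (R s) 0
  let Qp : List ℕ → ℝ := fun s => a * P s + c * tp s
  let Qm : List ℕ → ℝ := fun s => a * P s + c * tm s
  have hPcons : ∀ b v, b :: v ∉ S → P (b :: v) = P v := by
    intro b v hs
    simp [hP, pathPotential, hF', restrictIn_not_mem hs]
  have hRcons : ∀ b v, R (b :: v) = R v + G' (b :: v) := by
    intro b v; simp [hR, pathPotential]
  have hG'out : ∀ s, s ∉ S → G' s = g s := by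
    intro s hs; simp [hG', restrictIn_not_mem hs]
  have hamul : ∀ s, |a * P s| ≤ 1 := by
    intro s
    rw [abs_mul, abs_of_nonneg ha0]
    have := hPb s
    have h0 := abs_nonneg (P s)
    nlinarith
  have hcR : ∀ s, c * |R s| ≤ 1 := by
    intro s
    have := hRb s
    nlinarith [abs_nonneg (R s)]
  have hS0 : ∀ s ∈ S, tp s = 0 ∧ tm s = 0 := by
    intro s hs
    simp only [tp, tm, hRS s hs]
    simp
  refine ⟨incr Qp, incr Qm, ?_, ?_, ?_, ?_, ?_, ?_, ?_⟩
  · intro s
    rw [pathPotential_incr]
    simp only [Qp, tp]
    have h1 := abs_le.1 (hamul s)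
    have h2 := hcR s
    have h3 : |R s| ≥ 0 := abs_nonneg _
    split_ifs with h
    · have hmin : min (R s) 0 ≤ 0 := min_le_right _ _
      have hmin2 : -|R s| ≤ min (R s) 0 := le_min (neg_abs_le _) (by linarith)
      have hp0 : 0 ≤ a * P s := mul_nonneg ha0 h
      rw [abs_le]
      constructor
      · nlinarith
      · nlinarith
    · have hmax : 0 ≤ max (R s) 0 := le_max_right _ _
      have hmax2 : max (R s) 0 ≤ |R s| := max_le (le_abs_self _) h3
      have hp0 : a * P s ≤ 0 := mul_nonpos_of_nonneg_of_nonpos ha0 (by linarith [not_le.1 h])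
      rw [abs_le]
      constructor
      · nlinarith
      · nlinarith
  · intro s
    rw [pathPotential_incr]
    simp only [Qm, tm]
    have h1 := abs_le.1 (hamul s)
    have h2 := hcR s
    have h3 : |R s| ≥ 0 := abs_nonneg _
    split_ifs with h
    · have hmax : 0 ≤ max (R s) 0 := le_max_right _ _
      have hmax2 : max (R s) 0 ≤ |R s| := max_le (le_abs_self _) h3
      have hp0 : 0 ≤ a * P s := mul_nonneg ha0 h
      rw [abs_le]
      constructor
      · nlinarith
      · nlinarith
    · have hmin : min (R s) 0 ≤ 0 := min_le_right _ _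
      have hmin2 : -|R s| ≤ min (R s) 0 := le_min (neg_abs_le _) (by linarith)
      have hp0 : a * P s ≤ 0 := mul_nonpos_of_nonneg_of_nonpos ha0 (by linarith [not_le.1 h])
      rw [abs_le]
      constructor
      · nlinarith
      · nlinarith
  · intro s hs
    cases s with
    | nil =>
      simp only [incr, Qp, (hS0 [] hs).1]
      have : P [] = f [] := by simp [hP, pathPotential, hF', restrictIn_mem hs]
      rw [this]; ring
    | cons b v =>
      have hv := hcl b v hs
      simp only [incr, Qp, (hS0 _ hs).1, (hS0 _ hv).1]
      have : P (b :: v) = P v + f (b :: v) := by simp [hP, pathPotential, hF', restrictIn_mem hs]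
      rw [this]; ring
  · intro s hs
    cases s with
    | nil =>
      simp only [incr, Qm, (hS0 [] hs).2]
      have : P [] = f [] := by simp [hP, pathPotential, hF', restrictIn_mem hs]
      rw [this]; ring
    | cons b v =>
      have hv := hcl b v hs
      simp only [incr, Qm, (hS0 _ hs).2, (hS0 _ hv).2]
      have : P (b :: v) = P v + f (b :: v) := by simp [hP, pathPotential, hF', restrictIn_mem hs]
      rw [this]; ring
  · intro s hs
    cases s with
    | nil => exact absurd hroot hs
    | cons b v =>
      have hPc := hPcons b v hs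
      have hRc : R (b :: v) = R v + g (b :: v) := by rw [hRcons, hG'out _ hs]
      have key : |tp (b :: v) - tp v| ≤ |g (b :: v)| := by
        simp only [tp, hPc]
        split_ifs
        · have := abs_min_sub_min_zero (R (b :: v)) (R v)
          rw [hRc] at this ⊢
          simpa using this
        · have := abs_max_sub_max_zero (R (b :: v)) (R v)
          rw [hRc] at this ⊢
          simpa using this
      have heq : incr Qp (b :: v) = c * (tp (b :: v) - tp v) := by
        simp only [incr, Qp, hPc]; ring
      rw [heq, abs_mul, abs_of_nonneg hc0]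
      gcongr
  · intro s hs
    cases s with
    | nil => exact absurd hroot hs
    | cons b v =>
      have hPc := hPcons b v hs
      have hRc : R (b :: v) = R v + g (b :: v) := by rw [hRcons, hG'out _ hs]
      have key : |tm (b :: v) - tm v| ≤ |g (b :: v)| := by
        simp only [tm, hPc]
        split_ifs
        · have := abs_max_sub_max_zero (R (b :: v)) (R v)
          rw [hRc] at this ⊢
          rw [show -max (R v + g (b :: v)) 0 - -max (R v) 0 = -(max (R v + g (b :: v)) 0 - max (R v) 0) by ring, abs_neg]
          simpa using this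
        · have := abs_min_sub_min_zero (R (b :: v)) (R v)
          rw [hRc] at this ⊢
          rw [show -min (R v + g (b :: v)) 0 - -min (R v) 0 = -(min (R v + g (b :: v)) 0 - min (R v) 0) by ring, abs_neg]
          simpa using this
      have heq : incr Qm (b :: v) = c * (tm (b :: v) - tm v) := by
        simp only [incr, Qm, hPc]; ring
      rw [heq, abs_mul, abs_of_nonneg hc0]
      gcongr
  · intro s hs
    cases s with
    | nil => exact absurd hroot hs
    | cons b v =>
      have hPc := hPcons b v hs
      have hRc : R (b :: v) = R v + g (b :: v) := by rw [hRcons, hG'out _ hs]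
      have hd : ∀ s, tp s - tm s = R s := by
        intro s
        simp only [tp, tm]
        split_ifs
        · have := min_add_max (R s) 0
          linarith
        · have := min_add_max (R s) 0
          linarith
      have h1 := hd (b :: v)
      have h2 := hd v
      simp only [incr, Qp, Qm, hPc]
      rw [hRc] at h1
      have : c * tp (b :: v) - c * tm (b :: v) - (c * tp v - c * tm v)
          = c * ((tp (b :: v) - tm (b :: v)) - (tp v - tm v)) := by ring
      linear_combination this + c * h1 - c * h2

end combine

end Crest.Agent.Lib.TreeCore
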