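import Crest.Agent.Lib.TreeSpace

/-!
The four potential models of `Def_TreePotentials` as instances of `TreeModel`.
-/

set_option autoImplicit false

namespace Crest.Agent.Lib.TreeModels

open Crest.AnalysisR Crest.AnalysisR.TreePotential Crest.Agent.Lib.TreeCore
open Crest.Agent.Lib.TreeSpace

theorem pathPotential_neg (f : List ℕ → ℝ) : ∀ s,
    pathPotential (fun r => - f r) s = - pathPotential f s
  | [] => by simp [pathPotential]
  | a :: v => by
      simp only [pathPotential, pathPotential_neg f v]
      ring

theorem pathPotential_zero : ∀ s, pathPotential (fun _ => (0:ℝ)) s = 0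
  | [] => by simp [pathPotential]
  | a :: v => by simp [pathPotential, pathPotential_zero v]

/-- The unit coefficient at a vertex. -/
noncomputable def delta (s : List ℕ) : List ℕ → ℝ := fun r => if r = s then 1 else 0

theorem pathPotential_delta (s : List ℕ) : ∀ r,
    pathPotential (delta s) r = if s <:+ r then 1 else 0
  | [] => by
      by_cases h : s = []
      · subst h; simp [pathPotential, delta]
      · have h' : ¬ s <:+ [] := by
          rw [List.suffix_nil]; exact h
        have h'' : ¬ ([] : List ℕ) = s := fun e => h e.symm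
        simp [pathPotential, delta, h', h'']
  | a :: v => by
      simp only [pathPotential, pathPotential_delta s v, delta]
      by_cases h : a :: v = s
      · subst h
        have h' : ¬ (a :: v) <:+ v := by
          intro hh
          have := hh.length_le
          simp at this
        simp [h']
      · have h' : s <:+ a :: v ↔ s <:+ v := by
          rw [List.suffix_cons_iff]
          constructor
          · rintro (h1 | h1)
            · exact absurd h1.symm h
            · exact h1
          · exact Or.inr
        simp [h, h']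

theorem abs_pathPotential_delta_le (s r : List ℕ) : |pathPotential (delta s) r| ≤ 1 := by
  rw [pathPotential_delta]
  split_ifs <;> simp

/-- Squares of a single-spike function along an injective family sum to at most one. -/
theorem sum_sq_delta_le {α : Type*} (A : Finset α) (u : α → List ℕ) (hu : Function.Injective u)
    (s : List ℕ) : ∑ i ∈ A, (delta s (u i)) ^ 2 ≤ 1 := by
  classical
  have h1 : ∀ i ∈ A, (delta s (u i)) ^ 2 = if u i = s then 1 else 0 := by
    intro i _
    simp only [delta]
    split_ifs <;> simp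
  rw [Finset.sum_congr rfl h1, Finset.sum_boole]
  have h2 : (A.filter fun i => u i = s).card ≤ 1 := by
    rw [Finset.card_le_one]
    intro a ha b hb
    simp only [Finset.mem_filter] at ha hb
    exact hu (ha.2.trans hb.2.symm)
  exact_mod_cast h2

/-- Splitting squares along the set `S`. -/
theorem sum_sq_combine {α : Type*} (A : Finset α) (u : α → List ℕ) (h f g : List ℕ → ℝ)
    (S : Set (List ℕ)) (a c : ℝ) (ha : 0 ≤ a) (hc : 0 ≤ c) (hac : a ^ 2 + c ^ 2 ≤ 1)
    (hS : ∀ s ∈ S, h s = a * f s) (hS' : ∀ s, s ∉ S → |h s| ≤ c * |g s|)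
    (hf : ∀ B ⊆ A, ∑ i ∈ B, (f (u i)) ^ 2 ≤ 1) (hg : ∀ B ⊆ A, ∑ i ∈ B, (g (u i)) ^ 2 ≤ 1) :
    ∑ i ∈ A, (h (u i)) ^ 2 ≤ 1 := by
  classical
  rw [← Finset.sum_filter_add_sum_filter_not A (fun i => u i ∈ S)]
  have h1 : ∑ i ∈ A.filter (fun i => u i ∈ S), (h (u i)) ^ 2 ≤ a ^ 2 := by
    have h2 : ∀ i ∈ A.filter (fun i => u i ∈ S), (h (u i)) ^ 2 = a ^ 2 * (f (u i)) ^ 2 := by
      intro i hi
      rw [hS _ (Finset.mem_filter.1 hi).2]; ring
    rw [Finset.sum_congr rfl h2, ← Finset.mul_sum]
    have := hf _ (Finset.filter_subset (fun i => u i ∈ S) A)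
    nlinarith [sq_nonneg a]
  have h3 : ∑ i ∈ A.filter (fun i => ¬ u i ∈ S), (h (u i)) ^ 2 ≤ c ^ 2 := by
    have h2 : ∀ i ∈ A.filter (fun i => ¬ u i ∈ S), (h (u i)) ^ 2 ≤ c ^ 2 * (g (u i)) ^ 2 := by
      intro i hi
      have h4 := hS' _ (Finset.mem_filter.1 hi).2
      have h5 : |h (u i)| ^ 2 ≤ (c * |g (u i)|) ^ 2 := by gcongr
      rw [sq_abs, mul_pow, sq_abs] at h5
      exact h5
    refine (Finset.sum_le_sum h2).trans ?_
    rw [← Finset.mul_sum]
    have := hg _ (Finset.filter_subset (fun i => ¬ u i ∈ S) A)
    nlinarith [sq_nonneg c]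
  linarith

/-- Live vertices of a model. -/
def liveSet : PotentialModel → Set (List ℕ)
  | .rootlessSibling => {s | s ≠ []}
  | _ => Set.univ

theorem isTest_neg (m : PotentialModel) (f : List ℕ → ℝ) (hf : IsTest m f) :
    IsTest m (fun r => - f r) := by
  refine ⟨fun s => by rw [pathPotential_neg, abs_neg]; exact hf.1 s, ?_⟩
  obtain ⟨-, h2⟩ := hf
  cases m with
  | rootlessSibling =>
    simp only [ExtraCondition] at h2 ⊢
    refine ⟨by simp [h2.1], fun r A => ?_⟩
    simpa using h2.2 r A
  | rootedSibling =>
    simp only [ExtraCondition] at h2 ⊢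
    intro r A
    simpa using h2 r A
  | antichain =>
    simp only [ExtraCondition] at h2 ⊢
    refine ⟨by simpa [Function.support] using h2.1, fun A hA => ?_⟩
    simpa using h2.2 A hA
  | global =>
    simp only [ExtraCondition] at h2 ⊢
    intro A
    simpa using h2 A

theorem isTest_zero (m : PotentialModel) : IsTest m (fun _ => 0) := by
  refine ⟨fun s => by rw [pathPotential_zero]; simp, ?_⟩
  cases m <;> simp [ExtraCondition]

theorem isTest_delta (m : PotentialModel) (s : List ℕ) (hs : s ∈ liveSet m) :
    IsTest m (delta s) := by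
  refine ⟨abs_pathPotential_delta_le s, ?_⟩
  cases m with
  | rootlessSibling =>
    refine ⟨?_, fun r A => ?_⟩
    · have : ¬ ([] : List ℕ) = s := fun h => hs h.symm
      simp [delta, this]
    · exact sum_sq_delta_le A (fun n => n :: r) (fun a b h => by simpa using h) s
  | rootedSibling =>
    intro r A
    exact sum_sq_delta_le A (fun n => n :: r) (fun a b h => by simpa using h) s
  | antichain =>
    refine ⟨?_, fun A _ => sum_sq_delta_le A id Function.injective_id s⟩
    apply (Set.finite_singleton s).subset
    intro r hr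
    simp only [Function.mem_support, delta] at hr
    by_contra h
    simp only [Set.mem_singleton_iff] at h
    simp [h] at hr
  | global =>
    intro A
    exact sum_sq_delta_le A id Function.injective_id s

theorem isTest_combine (m : PotentialModel) (f g : List ℕ → ℝ) (hf : IsTest m f) (hg : IsTest m g)
    (S : Set (List ℕ)) (hroot : [] ∈ S) (a c : ℝ) (ha : 0 ≤ a) (hc : 0 ≤ c)
    (hac : a ^ 2 + c ^ 2 ≤ 1) (h : List ℕ → ℝ) (h1 : ∀ s, |pathPotential h s| ≤ 1)
    (h2 : ∀ s ∈ S, h s = a * f s) (h3 : ∀ s, s ∉ S → |h s| ≤ c * |g s|) : IsTest m h := by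
  refine ⟨h1, ?_⟩
  obtain ⟨-, hf2⟩ := hf
  obtain ⟨-, hg2⟩ := hg
  cases m with
  | rootlessSibling =>
    refine ⟨?_, fun r A => ?_⟩
    · rw [h2 _ hroot, hf2.1]; ring
    · exact sum_sq_combine A (fun n => n :: r) h f g S a c ha hc hac h2 h3
        (fun B _ => hf2.2 r B) (fun B _ => hg2.2 r B)
  | rootedSibling =>
    intro r A
    exact sum_sq_combine A (fun n => n :: r) h f g S a c ha hc hac h2 h3
        (fun B _ => hf2 r B) (fun B _ => hg2 r B)
  | antichain =>
    refine ⟨?_, fun A hA => ?_⟩
    · apply (hf2.1.union hg2.1).subset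
      intro s hs
      by_cases hsS : s ∈ S
      · left
        simp only [Function.mem_support] at hs ⊢
        intro h0
        apply hs
        rw [h2 s hsS, h0]; ring
      · right
        simp only [Function.mem_support] at hs ⊢
        intro h0
        apply hs
        have := h3 s hsS
        rw [h0] at this
        simpa using this
    · have hsub : ∀ B ⊆ A, IsTreeAntichain B := fun B hB u hu v hv =>
        hA u (hB hu) v (hB hv)
      exact sum_sq_combine A id h f g S a c ha hc hac h2 h3
        (fun B hB => hf2.2 B (hsub B hB)) (fun B hB => hg2.2 B (hsub B hB))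
  | global =>
    intro A
    exact sum_sq_combine A id h f g S a c ha hc hac h2 h3
        (fun B _ => hf2 B) (fun B _ => hg2 B)

theorem sum_sq_children_le (m : PotentialModel) (f : List ℕ → ℝ) (hf : IsTest m f) (v : List ℕ)
    (A : Finset ℕ) : ∑ n ∈ A, (f (n :: v)) ^ 2 ≤ 1 := by
  classical
  obtain ⟨-, hf2⟩ := hf
  have hinj : Function.Injective (fun n : ℕ => n :: v) := fun a b h => by simpa using h
  have himg : ∑ u ∈ A.image (fun n => n :: v), (f u) ^ 2 = ∑ n ∈ A, (f (n :: v)) ^ 2 :=
    Finset.sum_image (fun a _ b _ h => hinj h)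
  cases m with
  | rootlessSibling => exact hf2.2 v A
  | rootedSibling => exact hf2 v A
  | antichain =>
    rw [← himg]
    apply hf2.2
    intro u hu w hw hne hsuf
    obtain ⟨n, -, rfl⟩ := Finset.mem_image.1 hu
    obtain ⟨n', -, rfl⟩ := Finset.mem_image.1 hw
    apply hne
    exact hsuf.eq_of_length (by simp)
  | global =>
    rw [← himg]
    exact hf2 _

/-- The model as a `TreeModel`. -/
noncomputable def model (m : PotentialModel) : TreeModel (PotentialTest m) where
  φ := Subtype.val
  e := coordVector m
  he := fun _ _ => rfl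
  hpot := fun f s => f.2.1 s
  hneg := fun f => ⟨⟨fun r => - f.1 r, isTest_neg m f.1 f.2⟩, fun _ => rfl⟩
  hcomb := fun f g S hroot _ a c ha hc hac h h1 h2 h3 =>
    ⟨⟨h, isTest_combine m f.1 g.1 f.2 g.2 S hroot a c ha hc hac h h1 h2 h3⟩, rfl⟩
  hne := ⟨⟨fun _ => 0, isTest_zero m⟩⟩
  D := liveSet m
  hδ := fun s hs => ⟨⟨delta s, isTest_delta m s hs⟩, fun _ => rfl⟩
  hdead := by
    intro s hs f
    cases m with
    | rootlessSibling =>
      have : s = [] := by
        by_contra h
        exact hs h
      subst this
      exact f.2.2.1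
    | rootedSibling => exact absurd (Set.mem_univ s) hs
    | antichain => exact absurd (Set.mem_univ s) hs
    | global => exact absurd (Set.mem_univ s) hs
  hchild := fun f v A => sum_sq_children_le m f.1 f.2 v A

theorem mem_liveSet_of_ne_nil (m : PotentialModel) (v : List ℕ) (hv : v ≠ []) : v ∈ liveSet m := by
  cases m with
  | rootlessSibling => exact hv
  | rootedSibling => exact Set.mem_univ v
  | antichain => exact Set.mem_univ v
  | global => exact Set.mem_univ v

end Crest.Agent.Lib.TreeModels
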