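import Crest.Prelude.Def_TreeProducts
import Crest.Agent.Lib.AsympGame

/-!
Path products of independent multipliers: martingale estimates in `L¹` and `L²` and the absence of
equivalent AUC norms on their closed span.
-/

set_option autoImplicit false

namespace Crest.Agent.Lib.TreeProductSpan

open MeasureTheory ProbabilityTheory Crest.AnalysisR Crest.AnalysisR.TreeProduct

attribute [local instance] RealBanach.normed RealBanach.space

variable {Ω : Type} [mΩ : MeasurableSpace Ω]

/-- σ-algebra generated by the coordinates in `T`. -/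
def sig (W : List ℕ → Ω → ℝ) (T : Set (List ℕ)) : MeasurableSpace Ω :=
  ⨆ u ∈ T, MeasurableSpace.comap (W u) inferInstance

theorem sig_le {W : List ℕ → Ω → ℝ} (hm : ∀ v, Measurable (W v)) (T : Set (List ℕ)) :
    sig W T ≤ mΩ :=
  iSup₂_le fun u _ => (hm u).comap_le

theorem sig_mono {W : List ℕ → Ω → ℝ} {S T : Set (List ℕ)} (h : S ⊆ T) : sig W S ≤ sig W T :=
  biSup_mono h

theorem measurable_sig {W : List ℕ → Ω → ℝ} {T : Set (List ℕ)} {u : List ℕ} (hu : u ∈ T) :
    Measurable[sig W T] (W u) :=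
  (comap_measurable (W u)).mono (le_iSup₂_of_le u hu le_rfl) le_rfl

theorem indepFun_of_disjoint {μ : Measure Ω} {W : List ℕ → Ω → ℝ} (hm : ∀ v, Measurable (W v))
    (hi : iIndepFun W μ) {S T : Set (List ℕ)} (hST : Disjoint S T) {F G : Ω → ℝ}
    (hF : Measurable[sig W S] F) (hG : Measurable[sig W T] G) : IndepFun F G μ := by
  rw [IndepFun_iff_Indep]
  have h := indep_iSup_of_disjoint (fun u => (hm u).comap_le) ((iIndepFun_iff_iIndep _ _ _).1 hi) hST
  exact indep_of_indep_of_le h hF.comap_le hG.comap_le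

/-- The non-root vertices on the root path of `v`. -/
def anc (v : List ℕ) : Set (List ℕ) := {u | u <:+ v ∧ u ≠ []}

theorem not_mem_anc (n : ℕ) (v : List ℕ) : (n :: v) ∉ anc v := by
  rintro ⟨h, -⟩
  have := h.length_le
  simp at this

theorem measurable_pathProduct {W : List ℕ → Ω → ℝ} :
    ∀ v, Measurable[sig W (anc v)] (pathProduct W v)
  | [] => by
      exact @measurable_const _ _ _ (sig W (anc [])) _
  | a :: v => by
      have h1 : Measurable[sig W (anc (a :: v))] (pathProduct W v) :=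
        (measurable_pathProduct v).mono
          (sig_mono (fun u hu => ⟨hu.1.trans (List.suffix_cons a v), hu.2⟩)) le_rfl
      have h2 : Measurable[sig W (anc (a :: v))] (W (a :: v)) :=
        measurable_sig ⟨List.suffix_refl _, by simp⟩
      exact h1.mul h2

section main

set_option linter.unusedSectionVars false

variable {ν : Measure ℝ} {μ : Measure Ω} [IsProbabilityMeasure μ] [IsProbabilityMeasure ν]
  {W : List ℕ → Ω → ℝ} 

theorem measurable_pp (hm : ∀ v, Measurable (W v)) (v : List ℕ) : Measurable (pathProduct W v) :=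
  (measurable_pathProduct v).mono (sig_le hm _) le_rfl

theorem integrable_comp (hm : ∀ v, Measurable (W v)) (hl : ∀ v, v ≠ [] → μ.map (W v) = ν)
    {g : ℝ → ℝ} (hg : Integrable g ν) {u : List ℕ} (hu : u ≠ []) :
    Integrable (fun ω => g (W u ω)) μ := by
  have h1 : Integrable g (μ.map (W u)) := by rw [hl u hu]; exact hg
  exact (integrable_map_measure h1.aestronglyMeasurable (hm u).aemeasurable).1 h1

theorem integral_comp (hm : ∀ v, Measurable (W v)) (hl : ∀ v, v ≠ [] → μ.map (W v) = ν)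
    {g : ℝ → ℝ} (hg : Measurable g) {u : List ℕ} (hu : u ≠ []) :
    ∫ ω, g (W u ω) ∂μ = ∫ x, g x ∂ν := by
  rw [← hl u hu, integral_map (hm u).aemeasurable hg.aestronglyMeasurable]

/-- Basic facts on path products. -/
theorem pp_facts (hm : ∀ v, Measurable (W v)) (hi : iIndepFun W μ)
    (hl : ∀ v, v ≠ [] → μ.map (W v) = ν) (hpos : ν (Set.Ioi 0) = 1)
    (hmean : ∫ x, x ∂ν = 1) (hm2 : Integrable (fun x : ℝ => x ^ 2) ν) :
    ∀ v, Integrable (pathProduct W v) μ ∧ ∫ ω, pathProduct W v ω ∂μ = 1 ∧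
      Integrable (fun ω => (pathProduct W v ω) ^ 2) μ ∧ ∀ᵐ ω ∂μ, 0 < pathProduct W v ω
  | [] => by
      refine ⟨integrable_const _, by simp [pathProduct], by simp [pathProduct], ?_⟩
      filter_upwards with ω
      simp [pathProduct]
  | a :: v => by
      obtain ⟨h1, h2, h3, h4⟩ := pp_facts hm hi hl hpos hmean hm2 v
      have hid : Integrable (fun x : ℝ => x) ν :=
        Integrable.of_integral_ne_zero (by rw [hmean]; norm_num)
      have hu : a :: v ≠ [] := by simp
      have hind : IndepFun (pathProduct W v) (W (a :: v)) μ := by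
        apply indepFun_of_disjoint hm hi (S := anc v) (T := {a :: v})
        · rw [Set.disjoint_singleton_right]; exact not_mem_anc a v
        · exact measurable_pathProduct v
        · exact measurable_sig (Set.mem_singleton _)
      have hind2 : IndepFun (fun ω => (pathProduct W v ω) ^ 2) (fun ω => (W (a :: v) ω) ^ 2) μ :=
        hind.comp (φ := fun x : ℝ => x ^ 2) (ψ := fun x : ℝ => x ^ 2)
          (by fun_prop) (by fun_prop)
      have hX1 : Integrable (W (a :: v)) μ := integrable_comp hm hl hid hu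
      have hX2 : Integrable (fun ω => (W (a :: v) ω) ^ 2) μ := integrable_comp hm hl hm2 hu
      have hEq : pathProduct W (a :: v) = (pathProduct W v) * (W (a :: v)) := rfl
      refine ⟨?_, ?_, ?_, ?_⟩
      · rw [hEq]; exact hind.integrable_mul h1 hX1
      · rw [hEq]
        rw [show (∫ ω, ((pathProduct W v) * (W (a :: v))) ω ∂μ)
          = ∫ ω, (pathProduct W v) ω * (W (a :: v)) ω ∂μ from rfl]
        rw [hind.integral_fun_mul_eq_mul_integral (measurable_pp hm v).aestronglyMeasurable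
          (hm _).aestronglyMeasurable, h2]
        have : ∫ ω, W (a :: v) ω ∂μ = 1 := by
          rw [← hmean]; exact integral_comp hm hl measurable_id hu
        rw [this]; ring
      · have h5 := hind2.integrable_mul h3 hX2
        refine h5.congr ?_
        filter_upwards with ω
        simp only [Pi.mul_apply, hEq]
        ring
      · have h5 : ∀ᵐ ω ∂μ, 0 < W (a :: v) ω := by
          have h6 : ∀ᵐ x ∂(μ.map (W (a :: v))), 0 < x := by
            rw [hl _ hu]
            have : (ν (Set.Ioi 0)ᶜ) = 0 := (prob_compl_eq_zero_iff measurableSet_Ioi).2 hpos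
            exact this
          exact ae_of_ae_map (hm _).aemeasurable h6
        filter_upwards [h4, h5] with ω h6 h7
        exact mul_pos h6 h7

/-- `L¹` norm is at most the `L²` norm on a probability space. -/
theorem integral_abs_le_sqrt {G : Ω → ℝ} (hG : Integrable G μ)
    (hG2 : Integrable (fun ω => (G ω) ^ 2) μ) :
    ∫ ω, |G ω| ∂μ ≤ Real.sqrt (∫ ω, (G ω) ^ 2 ∂μ) := by
  apply Real.le_sqrt_of_sq_le
  set c := ∫ ω, |G ω| ∂μ with hc
  have h0 : 0 ≤ ∫ ω, (|G ω| - c) ^ 2 ∂μ := integral_nonneg fun _ => sq_nonneg _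
  have hexp : ∀ ω, (|G ω| - c) ^ 2 = (G ω) ^ 2 - 2 * c * |G ω| + c ^ 2 := by
    intro ω
    have := sq_abs (G ω)
    nlinarith
  simp_rw [hexp] at h0
  have h1 : Integrable (fun ω => (G ω) ^ 2 - 2 * c * |G ω|) μ := hG2.sub (hG.abs.const_mul _)
  rw [integral_add h1 (integrable_const _),
    integral_sub hG2 (hG.abs.const_mul _), integral_const_mul] at h0
  simp only [integral_const, probReal_univ, one_smul] at h0
  nlinarith

/-- Positivity of the first absolute central moment. -/
theorem kappa_pos (hnc : ∀ c : ℝ, ν ≠ Measure.dirac c) (hid : Integrable (fun x : ℝ => x) ν) :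
    0 < ∫ x, |x - 1| ∂ν := by
  have hint : Integrable (fun x : ℝ => |x - 1|) ν := (hid.sub (integrable_const 1)).abs
  have h0 : 0 ≤ ∫ x, |x - 1| ∂ν := integral_nonneg fun _ => abs_nonneg _
  rcases h0.eq_or_lt with h | h
  · exfalso
    have h1 := (integral_eq_zero_iff_of_nonneg (fun _ => abs_nonneg _) hint).1 h.symm
    apply hnc 1
    have hae : ∀ᵐ x ∂ν, x = 1 := by
      filter_upwards [h1] with x hx
      have : |x - 1| = 0 := hx
      have := abs_eq_zero.1 this
      linarith
    ext A hA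
    rw [Measure.dirac_apply' _ hA]
    by_cases h1A : (1:ℝ) ∈ A
    · rw [Set.indicator_of_mem h1A]
      simp only [Pi.one_apply]
      rw [← prob_compl_eq_zero_iff hA]
      apply measure_mono_null _ (ae_iff.1 hae)
      intro x hx hx1
      exact hx (by rw [hx1]; exact h1A)
    · rw [Set.indicator_of_notMem h1A]
      apply measure_mono_null _ (ae_iff.1 hae)
      intro x hx hx1
      exact h1A (by rw [← hx1]; exact hx)
  · exact h

section children

variable (hm : ∀ v, Measurable (W v)) (hi : iIndepFun W μ)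
    (hl : ∀ v, v ≠ [] → μ.map (W v) = ν)
    (hmean : ∫ x, x ∂ν = 1) (hm2 : Integrable (fun x : ℝ => x ^ 2) ν)
include hm hi hl hmean hm2

theorem memLp_W {u : List ℕ} (hu : u ≠ []) : MemLp (W u) 2 μ :=
  (memLp_two_iff_integrable_sq (hm u).aestronglyMeasurable).2 (integrable_comp hm hl hm2 hu)

/-- Second moment of a combination of the children. -/
theorem integral_sum_children_sq (v : List ℕ) (A : Finset ℕ) (ε : ℕ → ℝ) :
    ∫ ω, (∑ i ∈ A, ε i * (W (i :: v) ω - 1)) ^ 2 ∂μ
      = (∑ i ∈ A, (ε i) ^ 2) * ∫ x, (x - 1) ^ 2 ∂ν := by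
  let X : ℕ → Ω → ℝ := fun i ω => ε i * (W (i :: v) ω - 1)
  have hX : ∀ i, MemLp (X i) 2 μ := by
    intro i
    exact ((memLp_W hm hi hl hmean hm2 (u := i :: v) (by simp)).sub (memLp_const 1)).const_mul (ε i)
  have hid : Integrable (fun x : ℝ => x) ν :=
    Integrable.of_integral_ne_zero (by rw [hmean]; norm_num)
  have hmean0 : ∀ i, ∫ ω, X i ω ∂μ = 0 := by
    intro i
    have h1 : ∫ ω, W (i :: v) ω ∂μ = 1 := by
      rw [← hmean]; exact integral_comp hm hl measurable_id (by simp)
    have hint : Integrable (W (i :: v)) μ := integrable_comp hm hl hid (by simp)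
    simp only [X]
    rw [integral_const_mul, integral_sub hint (integrable_const 1), h1]
    simp
  have hvar := IndepFun.variance_sum (μ := μ) (X := X) (s := A) (fun i _ => hX i) (by
    intro i _ j _ hij
    apply indepFun_of_disjoint hm hi (S := {i :: v}) (T := {j :: v})
    · simp only [Set.disjoint_singleton, ne_eq, List.cons.injEq, and_true]
      exact hij
    · exact ((measurable_sig (Set.mem_singleton _)).sub_const 1).const_mul (ε i)
    · exact ((measurable_sig (Set.mem_singleton _)).sub_const 1).const_mul (ε j))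
  have hsum : MemLp (∑ i ∈ A, X i) 2 μ := memLp_finsetSum' A (fun i _ => hX i)
  rw [variance_eq_sub hsum] at hvar
  have hmeansum : ∫ ω, (∑ i ∈ A, X i) ω ∂μ = 0 := by
    have : ∀ ω, (∑ i ∈ A, X i) ω = ∑ i ∈ A, X i ω := fun ω => Finset.sum_apply _ _ _
    simp_rw [this]
    rw [integral_finsetSum A (fun i _ => (hX i).integrable (by norm_num))]
    exact Finset.sum_eq_zero fun i _ => hmean0 i
  have hvar2 : ∀ i ∈ A, variance (X i) μ = (ε i) ^ 2 * ∫ x, (x - 1) ^ 2 ∂ν := by
    intro i _
    rw [variance_eq_sub (hX i)]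
    have h1 : ∫ ω, (X i) ω ∂μ = 0 := hmean0 i
    have h2 : (μ[X i]) = 0 := h1
    rw [h2]
    have h3 : ∫ x, (x - 1) ^ 2 ∂ν = ∫ ω, (W (i :: v) ω - 1) ^ 2 ∂μ := by
      symm
      exact integral_comp hm hl (g := fun x : ℝ => (x - 1) ^ 2) (by fun_prop) (by simp)
    rw [h3, ← integral_const_mul]
    simp only [Pi.pow_apply, X, zero_pow, ne_eq, OfNat.ofNat_ne_zero, not_false_eq_true, sub_zero]
    congr 1
    funext ω
    ring
  rw [Finset.sum_congr rfl hvar2, ← Finset.sum_mul] at hvar
  have h5 : (μ[∑ i ∈ A, X i]) = 0 := hmeansum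
  rw [h5] at hvar
  simp only [ne_eq, OfNat.ofNat_ne_zero, not_false_eq_true, zero_pow, sub_zero] at hvar
  rw [← hvar]
  congr 1
  funext ω
  simp [X, Finset.sum_apply]

/-- The square of a combination of children times the parent path product. -/
theorem integral_pp_mul_sum_sq (v : List ℕ) (A : Finset ℕ) (ε : ℕ → ℝ) :
    ∫ ω, (pathProduct W v ω * ∑ i ∈ A, ε i * (W (i :: v) ω - 1)) ^ 2 ∂μ
      = (∫ ω, (pathProduct W v ω) ^ 2 ∂μ) * ((∑ i ∈ A, (ε i) ^ 2) * ∫ x, (x - 1) ^ 2 ∂ν) := by
  rw [← integral_sum_children_sq hm hi hl hmean hm2 v A ε]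
  let T : Set (List ℕ) := {u | ∃ i, u = i :: v}
  have hS : Measurable[sig W T] (fun ω => ∑ i ∈ A, ε i * (W (i :: v) ω - 1)) :=
    Finset.measurable_fun_sum A (fun i _ =>
      ((measurable_sig (T := T) (u := i :: v) ⟨i, rfl⟩).sub_const 1).const_mul (ε i))
  have hind : IndepFun (pathProduct W v) (fun ω => ∑ i ∈ A, ε i * (W (i :: v) ω - 1)) μ := by
    apply indepFun_of_disjoint hm hi (S := anc v) (T := T)
    · rw [Set.disjoint_left]
      rintro u hu ⟨i, rfl⟩
      exact not_mem_anc i v hu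
    · exact measurable_pathProduct v
    · exact hS
  have hind2 : IndepFun (fun ω => (pathProduct W v ω) ^ 2)
      (fun ω => (∑ i ∈ A, ε i * (W (i :: v) ω - 1)) ^ 2) μ :=
    hind.comp (φ := fun x : ℝ => x ^ 2) (ψ := fun x : ℝ => x ^ 2) (by fun_prop) (by fun_prop)
  have h1 := hind2.integral_fun_mul_eq_mul_integral
    ((measurable_pp hm v).pow_const 2).aestronglyMeasurable
    (hS.mono (sig_le hm T) le_rfl |>.pow_const 2).aestronglyMeasurable
  have h2 : ∀ ω, (pathProduct W v ω * ∑ i ∈ A, ε i * (W (i :: v) ω - 1)) ^ 2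
      = (pathProduct W v ω) ^ 2 * (∑ i ∈ A, ε i * (W (i :: v) ω - 1)) ^ 2 := by
    intro ω; ring
  simp_rw [h2]
  exact h1

/-- Integrability of the square of a combination of children times the parent path product. -/
theorem integrable_pp_mul_sum_sq (hpp : ∀ v, Integrable (fun ω => (pathProduct W v ω) ^ 2) μ)
    (v : List ℕ) (A : Finset ℕ) (ε : ℕ → ℝ) :
    Integrable (fun ω => (pathProduct W v ω * ∑ i ∈ A, ε i * (W (i :: v) ω - 1)) ^ 2) μ := by
  let T : Set (List ℕ) := {u | ∃ i, u = i :: v}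
  have hS : Measurable[sig W T] (fun ω => ∑ i ∈ A, ε i * (W (i :: v) ω - 1)) :=
    Finset.measurable_fun_sum A (fun i _ =>
      ((measurable_sig (T := T) (u := i :: v) ⟨i, rfl⟩).sub_const 1).const_mul (ε i))
  have hind : IndepFun (pathProduct W v) (fun ω => ∑ i ∈ A, ε i * (W (i :: v) ω - 1)) μ := by
    apply indepFun_of_disjoint hm hi (S := anc v) (T := T)
    · rw [Set.disjoint_left]
      rintro u hu ⟨i, rfl⟩
      exact not_mem_anc i v hu
    · exact measurable_pathProduct v
    · exact hS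
  have hind2 : IndepFun (fun ω => (pathProduct W v ω) ^ 2)
      (fun ω => (∑ i ∈ A, ε i * (W (i :: v) ω - 1)) ^ 2) μ :=
    hind.comp (φ := fun x : ℝ => x ^ 2) (ψ := fun x : ℝ => x ^ 2) (by fun_prop) (by fun_prop)
  have hX : ∀ i, MemLp (fun ω => ε i * (W (i :: v) ω - 1)) 2 μ := by
    intro i
    exact ((memLp_W hm hi hl hmean hm2 (u := i :: v) (by simp)).sub (memLp_const 1)).const_mul (ε i)
  have hsum : MemLp (fun ω => ∑ i ∈ A, ε i * (W (i :: v) ω - 1)) 2 μ :=
    memLp_finsetSum A (fun i _ => hX i)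
  have hS2 : Integrable (fun ω => (∑ i ∈ A, ε i * (W (i :: v) ω - 1)) ^ 2) μ :=
    hsum.integrable_sq
  have h1 := hind2.integrable_mul (hpp v) hS2
  refine h1.congr ?_
  filter_upwards with ω
  simp only [Pi.mul_apply]
  ring

end children

/-- The absence of equivalent AUC norms. -/
theorem no_auc_spanBanach (hm : ∀ v, Measurable (W v)) (hi : iIndepFun W μ)
    (hl : ∀ v, v ≠ [] → μ.map (W v) = ν) (hpos : ν (Set.Ioi 0) = 1)
    (hnc : ∀ c : ℝ, ν ≠ Measure.dirac c)
    (hmean : ∫ x, x ∂ν = 1) (hm2 : Integrable (fun x : ℝ => x ^ 2) ν) :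
    ∀ N : (spanBanach μ W).X → ℝ, (spanBanach μ W).IsEquivNorm N → ¬ (spanBanach μ W).IsAUC N := by
  have hfacts := pp_facts hm hi hl hpos hmean hm2
  have hid : Integrable (fun x : ℝ => x) ν :=
    Integrable.of_integral_ne_zero (by rw [hmean]; norm_num)
  have hκ := kappa_pos hnc hid
  set κ := ∫ x, |x - 1| ∂ν with hκdef
  have hint : ∀ v, Integrable (pathProduct W v) μ := fun v => (hfacts v).1
  let P : List ℕ → Lp ℝ 1 μ := fun v => (hint v).toL1 (pathProduct W v)
  have hPmem : ∀ v, P v ∈ productSpan μ W := fun v =>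
    Submodule.le_topologicalClosure _ (Submodule.subset_span ⟨v, (hint v).coeFn_toL1⟩)
  have hPnorm : ∀ v, ‖P v‖ = 1 := by
    intro v
    simp only [P]
    rw [L1.norm_of_fun_eq_integral_norm (hint v)]
    have h1 : ∫ ω, ‖pathProduct W v ω‖ ∂μ = ∫ ω, pathProduct W v ω ∂μ := by
      apply integral_congr_ae
      filter_upwards [(hfacts v).2.2.2] with ω hω
      rw [Real.norm_eq_abs, abs_of_pos hω]
    rw [h1]; exact (hfacts v).2.1
  -- differences
  have hdiff : ∀ v n, Integrable (fun ω => pathProduct W (n :: v) ω - pathProduct W v ω) μ :=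
    fun v n => (hint _).sub (hint _)
  have hPsub : ∀ v n, P (n :: v) - P v
      = (hdiff v n).toL1 (fun ω => pathProduct W (n :: v) ω - pathProduct W v ω) := by
    intro v n
    exact (Integrable.toL1_sub _ _ (hint _) (hint _)).symm
  have hnormdiff : ∀ v n, ‖P (n :: v) - P v‖ = κ := by
    intro v n
    rw [hPsub, L1.norm_of_fun_eq_integral_norm]
    have h1 : ∀ ω, ‖pathProduct W (n :: v) ω - pathProduct W v ω‖
        = |pathProduct W v ω| * |W (n :: v) ω - 1| := by
      intro ω
      rw [Real.norm_eq_abs, ← abs_mul]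
      congr 1
      show pathProduct W v ω * W (n :: v) ω - pathProduct W v ω = _
      ring
    simp_rw [h1]
    have hind : IndepFun (fun ω => |pathProduct W v ω|) (fun ω => |W (n :: v) ω - 1|) μ := by
      have h2 : IndepFun (pathProduct W v) (W (n :: v)) μ := by
        apply indepFun_of_disjoint hm hi (S := anc v) (T := {n :: v})
        · rw [Set.disjoint_singleton_right]; exact not_mem_anc n v
        · exact measurable_pathProduct v
        · exact measurable_sig (Set.mem_singleton _)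
      exact h2.comp (φ := fun x : ℝ => |x|) (ψ := fun x : ℝ => |x - 1|)
        (by fun_prop) (by fun_prop)
    rw [hind.integral_fun_mul_eq_mul_integral
      ((measurable_pp hm v).abs).aestronglyMeasurable
      (((hm _).sub_const 1).abs).aestronglyMeasurable]
    have h3 : ∫ ω, |pathProduct W v ω| ∂μ = 1 := by
      have := hPnorm v
      simp only [P] at this
      rw [L1.norm_of_fun_eq_integral_norm (hint v)] at this
      simpa [Real.norm_eq_abs] using this
    have h4 : ∫ ω, |W (n :: v) ω - 1| ∂μ = κ :=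
      integral_comp hm hl (g := fun x : ℝ => |x - 1|) (by fun_prop) (by simp)
    have h3' : (μ[fun ω => |pathProduct W v ω|]) = 1 := h3
    have h4' : (μ[fun ω => |W (n :: v) ω - 1|]) = κ := h4
    rw [h3', h4', one_mul]
  -- the weak-ℓ² bound
  have hweak : ∀ (v : List ℕ) (A : Finset ℕ) (ε : ℕ → ℝ), (∀ i, |ε i| ≤ 1) →
      ‖∑ i ∈ A, ε i • (P (i :: v) - P v)‖ ≤
        Real.sqrt ((∫ ω, (pathProduct W v ω) ^ 2 ∂μ) * ∫ x, (x - 1) ^ 2 ∂ν) * Real.sqrt A.card := by
    intro v A ε hε
    have key : ∀ A : Finset ℕ, (⇑(∑ i ∈ A, ε i • (P (i :: v) - P v) : Lp ℝ 1 μ)) =ᵐ[μ]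
        fun ω => pathProduct W v ω * ∑ i ∈ A, ε i * (W (i :: v) ω - 1) := by
      intro A
      classical
      induction A using Finset.induction_on with
      | empty =>
        simp only [Finset.sum_empty]
        filter_upwards [Lp.coeFn_zero ℝ 1 μ] with ω hω
        rw [hω]; simp
      | insert a A ha ih =>
        rw [Finset.sum_insert ha]
        filter_upwards [Lp.coeFn_add (ε a • (P (a :: v) - P v)) (∑ i ∈ A, ε i • (P (i :: v) - P v)),
          Lp.coeFn_smul (ε a) (P (a :: v) - P v), Lp.coeFn_sub (P (a :: v)) (P v),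
          (hint (a :: v)).coeFn_toL1, (hint v).coeFn_toL1, ih] with ω h1 h2 h3 h4 h5 h6
        rw [h1, Pi.add_apply, h2, Pi.smul_apply, h3, Pi.sub_apply, h6, h4, h5, Finset.sum_insert ha,
          smul_eq_mul]
        show ε a * (pathProduct W v ω * W (a :: v) ω - pathProduct W v ω) + _ = _
        ring
    have hpp : ∀ v, Integrable (fun ω => (pathProduct W v ω) ^ 2) μ := fun v => (hfacts v).2.2.1
    have hnorm := L1.norm_eq_integral_norm (∑ i ∈ A, ε i • (P (i :: v) - P v) : Lp ℝ 1 μ)
    have hint2 : Integrable (fun ω => pathProduct W v ω * ∑ i ∈ A, ε i * (W (i :: v) ω - 1)) μ :=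
      (L1.integrable_coeFn _).congr (key A)
    have h1 : ∫ ω, ‖(∑ i ∈ A, ε i • (P (i :: v) - P v) : Lp ℝ 1 μ) ω‖ ∂μ
        = ∫ ω, |pathProduct W v ω * ∑ i ∈ A, ε i * (W (i :: v) ω - 1)| ∂μ := by
      apply integral_congr_ae
      filter_upwards [key A] with ω hω
      rw [hω, Real.norm_eq_abs]
    rw [hnorm, h1]
    refine (integral_abs_le_sqrt hint2
      (integrable_pp_mul_sum_sq hm hi hl hmean hm2 hpp v A ε)).trans ?_
    rw [integral_pp_mul_sum_sq hm hi hl hmean hm2 v A ε, ← Real.sqrt_mul (by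
      apply mul_nonneg
      · exact integral_nonneg fun _ => sq_nonneg _
      · exact integral_nonneg fun _ => sq_nonneg _)]
    apply Real.sqrt_le_sqrt
    have h2 : ∑ i ∈ A, (ε i) ^ 2 ≤ A.card := by
      calc ∑ i ∈ A, (ε i) ^ 2 ≤ ∑ i ∈ A, (1:ℝ) := by
            apply Finset.sum_le_sum; intro i _
            have := hε i
            rw [← sq_abs]
            nlinarith [abs_nonneg (ε i)]
        _ = A.card := by simp
    have h3 : 0 ≤ ∫ ω, (pathProduct W v ω) ^ 2 ∂μ := integral_nonneg fun _ => sq_nonneg _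
    have h4 : 0 ≤ ∫ x, (x - 1) ^ 2 ∂ν := integral_nonneg fun _ => sq_nonneg _
    calc (∫ ω, (pathProduct W v ω) ^ 2 ∂μ) * ((∑ i ∈ A, (ε i) ^ 2) * ∫ x, (x - 1) ^ 2 ∂ν)
        ≤ (∫ ω, (pathProduct W v ω) ^ 2 ∂μ) * ((A.card : ℝ) * ∫ x, (x - 1) ^ 2 ∂ν) := by gcongr
      _ = _ := by ring
  -- the game
  apply Crest.Agent.Lib.AsympGame.no_auc_of_game (spanBanach μ W) (min (κ / 2) 1) 1 (by positivity)
  intro K
  let Q : List ℕ → (spanBanach μ W).X := fun v => (⟨P v, hPmem v⟩ : productSpan μ W)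
  refine ⟨fun i => {p | ∃ v : List ℕ, v.length = i ∧ p = Q v}, ⟨Q [], ⟨[], rfl, rfl⟩, ?_⟩, ?_, ?_⟩
  · show min (κ / 2) 1 ≤ ‖P []‖
    rw [hPnorm]
    exact min_le_right _ _
  · rintro i - p ⟨v, hv, rfl⟩ F hF ε hε
    let z : ℕ → (spanBanach μ W).X := fun n =>
      (⟨P (n :: v) - P v, Submodule.sub_mem _ (hPmem _) (hPmem _)⟩ : productSpan μ W)
    have hz : ∀ (A : Finset ℕ) (η : ℕ → ℝ), (∀ i, |η i| ≤ 1) → ‖∑ i ∈ A, η i • z i‖ ≤
        Real.sqrt ((∫ ω, (pathProduct W v ω) ^ 2 ∂μ) * ∫ x, (x - 1) ^ 2 ∂ν) * Real.sqrt A.card := by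
      intro A η hη
      have h1 := hweak v A η hη
      have h2 : ((∑ i ∈ A, η i • z i : productSpan μ W) : Lp ℝ 1 μ)
          = ∑ i ∈ A, η i • (P (i :: v) - P v) := by
        rw [Submodule.coe_sum]
        rfl
      rw [← h2] at h1
      exact h1
    obtain ⟨n, y, hy, hclose⟩ := Crest.Agent.Lib.AsympGame.exists_close_of_weakL2
      (spanBanach μ W) F hF z _ hz (min ε (κ / 2)) (by positivity)
    have hzn : ‖z n‖ = κ := hnormdiff v n
    refine ⟨Q (n :: v), ⟨n :: v, by simp [hv], rfl⟩, y, hy, ?_, ?_⟩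
    · have h2 : ‖z n - y‖ < κ / 2 := lt_of_lt_of_le hclose (min_le_right _ _)
      have h3 : ‖z n‖ ≤ ‖y‖ + ‖z n - y‖ := by
        have := norm_add_le y (z n - y)
        simpa using this
      have h4 : κ / 2 ≤ ‖y‖ := by linarith
      exact (min_le_left _ _).trans h4
    · have h1 : Q (n :: v) = Q v + z n := by
        apply Subtype.ext
        show P (n :: v) = P v + (P (n :: v) - P v)
        abel
      rw [h1]
      have h2 : Q v + z n - (Q v + y) = z n - y := by abel
      rw [h2]
      exact (lt_of_lt_of_le hclose (min_le_left _ _)).le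
  · rintro i - p ⟨v, -, rfl⟩
    show ‖P v‖ ≤ 1
    exact (hPnorm v).le

end main

end Crest.Agent.Lib.TreeProductSpan
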