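import Crest.Agent.Lib.TreeCore

/-!
Spaces generated by coordinate vectors over a family of tests with bounded path potentials.
-/

set_option autoImplicit false

namespace Crest.Agent.Lib.TreeSpace

open Crest.AnalysisR Crest.AnalysisR.TreePotential Crest.Agent.Lib.TreeCore
open scoped ENNReal

/-- Bounded functions on the test index. -/
abbrev Linf (τ : Type) : Type := lp (fun _ : τ => ℝ) ⊤

/-- Evaluation at a test. -/
noncomputable def ev {τ : Type} (f : τ) : Linf τ →L[ℝ] ℝ :=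
  LinearMap.mkContinuous
    { toFun := fun z => (z : τ → ℝ) f
      map_add' := by intros; rfl
      map_smul' := by intros; rfl } 1 (by
      intro z
      simpa using lp.norm_apply_le_norm (by simp) z f)

@[simp] theorem ev_apply {τ : Type} (f : τ) (z : Linf τ) : ev f z = (z : τ → ℝ) f := rfl

/-- Data of a family of tests with all closure properties we need. -/
structure TreeModel (τ : Type) where
  φ : τ → List ℕ → ℝ
  e : List ℕ → Linf τ
  he : ∀ s f, (e s : τ → ℝ) f = φ f s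
  hpot : ∀ f s, |pathPotential (φ f) s| ≤ 1
  hneg : ∀ f, ∃ f', ∀ s, φ f' s = - φ f s
  hcomb : ∀ f g (S : Set (List ℕ)), [] ∈ S → (∀ a v, a :: v ∈ S → v ∈ S) →
    ∀ a c : ℝ, 0 ≤ a → 0 ≤ c → a ^ 2 + c ^ 2 ≤ 1 → ∀ h : List ℕ → ℝ,
      (∀ s, |pathPotential h s| ≤ 1) → (∀ s ∈ S, h s = a * φ f s) →
      (∀ s, s ∉ S → |h s| ≤ c * |φ g s|) → ∃ f', φ f' = h
  hne : Nonempty τ
  D : Set (List ℕ)
  hδ : ∀ s ∈ D, ∃ f, ∀ r, φ f r = if r = s then 1 else 0
  hdead : ∀ s, s ∉ D → ∀ f, φ f s = 0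
  hchild : ∀ f v (A : Finset ℕ), ∑ n ∈ A, (φ f (n :: v)) ^ 2 ≤ 1

namespace TreeModel

variable {τ : Type} (M : TreeModel τ)

/-- The generated space. -/
noncomputable def Sp : Submodule ℝ (Linf τ) :=
  (Submodule.span ℝ (Set.range M.e)).topologicalClosure

/-- Closed span of part of the coordinate vectors. -/
noncomputable def Spn (T : Set (List ℕ)) : Submodule ℝ (Linf τ) :=
  (Submodule.span ℝ (M.e '' T)).topologicalClosure

theorem Spn_le_Sp (T : Set (List ℕ)) : M.Spn T ≤ M.Sp :=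
  Submodule.topologicalClosure_mono (Submodule.span_mono (Set.image_subset_range _ _))

theorem e_mem_Sp (s : List ℕ) : M.e s ∈ M.Sp :=
  Submodule.le_topologicalClosure _ (Submodule.subset_span ⟨s, rfl⟩)

/-- A continuous functional vanishing on generators vanishes on the closed span. -/
theorem map_eq_zero_of_mem_Spn (T : Set (List ℕ)) (L : Linf τ →L[ℝ] ℝ)
    (hL : ∀ r ∈ T, L (M.e r) = 0) {z : Linf τ} (hz : z ∈ M.Spn T) : L z = 0 := by
  have h1 : ∀ w ∈ Submodule.span ℝ (M.e '' T), L w = 0 := by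
    intro w hw
    induction hw using Submodule.span_induction with
    | mem x hx =>
      obtain ⟨r, hr, rfl⟩ := hx
      exact hL r hr
    | zero => simp
    | add x y _ _ hx hy => simp [hx, hy]
    | smul a x _ hx => simp [hx]
  have h2 : z ∈ closure (Submodule.span ℝ (M.e '' T) : Set (Linf τ)) := hz
  have h3 : IsClosed {w : Linf τ | L w = 0} := isClosed_eq L.continuous continuous_const
  exact closure_minimal (fun w hw => h1 w hw) h3 h2

/-- A continuous functional vanishing on all generators vanishes on `Sp`. -/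
theorem map_eq_zero_of_mem_Sp (L : Linf τ →L[ℝ] ℝ)
    (hL : ∀ r, L (M.e r) = 0) {z : Linf τ} (hz : z ∈ M.Sp) : L z = 0 := by
  have h1 : ∀ w ∈ Submodule.span ℝ (Set.range M.e), L w = 0 := by
    intro w hw
    induction hw using Submodule.span_induction with
    | mem x hx =>
      obtain ⟨r, rfl⟩ := hx
      exact hL r
    | zero => simp
    | add x y _ _ hx hy => simp [hx, hy]
    | smul a x _ hx => simp [hx]
  have h2 : z ∈ closure (Submodule.span ℝ (Set.range M.e) : Set (Linf τ)) := hz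
  have h3 : IsClosed {w : Linf τ | L w = 0} := isClosed_eq L.continuous continuous_const
  exact closure_minimal (fun w hw => h1 w hw) h3 h2

/-- Elements of `Sp` are odd under the symmetry of tests. -/
theorem apply_neg_test {z : Linf τ} (hz : z ∈ M.Sp) (f f' : τ) (hf : ∀ s, M.φ f' s = - M.φ f s) :
    (z : τ → ℝ) f' = - (z : τ → ℝ) f := by
  have := M.map_eq_zero_of_mem_Sp (ev f' + ev f) (by
    intro r
    simp [M.he, hf]) hz
  simp only [ContinuousLinearMap.add_apply, ev_apply] at this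
  linarith

/-- Near-norming tests. -/
theorem exists_near_norm {z : Linf τ} (hz : z ∈ M.Sp) (ε : ℝ) (hε : 0 < ε) :
    ∃ f, ‖z‖ - ε ≤ (z : τ → ℝ) f := by
  haveI := M.hne
  have h1 : ‖z‖ - ε < ⨆ i, ‖(z : τ → ℝ) i‖ := by
    rw [← lp.norm_eq_ciSup]; linarith
  obtain ⟨f, hf⟩ := exists_lt_of_lt_ciSup h1
  rcases le_total 0 ((z : τ → ℝ) f) with h | h
  · refine ⟨f, ?_⟩
    rw [Real.norm_eq_abs, abs_of_nonneg h] at hf
    exact hf.le
  · obtain ⟨f', hf'⟩ := M.hneg f
    refine ⟨f', ?_⟩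
    rw [M.apply_neg_test hz f f' hf']
    rw [Real.norm_eq_abs, abs_of_nonpos h] at hf
    exact hf.le

/-- The core inequality. -/
theorem core_ineq (S : Set (List ℕ)) (hroot : [] ∈ S) (hcl : ∀ a v, a :: v ∈ S → v ∈ S)
    {x y : Linf τ} (hx : x ∈ M.Spn S) (hy : y ∈ M.Spn Sᶜ) (t a c : ℝ) (ht : 0 ≤ t)
    (ha : 0 ≤ a) (hc : 0 ≤ c) (hac : a ^ 2 + c ^ 2 ≤ 1) (hc2 : 2 * c ≤ 1) :
    2 * a * ‖x‖ + t * c * ‖y‖ ≤ ‖x + t • y‖ + ‖x - t • y‖ := by
  apply le_of_forall_pos_le_add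
  intro ε hε
  let ε' : ℝ := ε / (2 * a + t * c + 1)
  have hden : 0 < 2 * a + t * c + 1 := by positivity
  have hε' : 0 < ε' := by positivity
  obtain ⟨f, hf⟩ := M.exists_near_norm (M.Spn_le_Sp S hx) ε' hε'
  obtain ⟨g, hg⟩ := M.exists_near_norm (M.Spn_le_Sp Sᶜ hy) ε' hε'
  have ha1 : a ≤ 1 := by nlinarith [sq_nonneg a, sq_nonneg c]
  obtain ⟨hp, hm, hp1, hm1, hp2, hm2, hp3, hm3, hpm⟩ :=
    exists_combined_tests S hroot hcl (M.φ f) (M.φ g) (M.hpot f) (M.hpot g) a c ha ha1 hc hc2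
  obtain ⟨fp, hfp⟩ := M.hcomb f g S hroot hcl a c ha hc hac hp hp1 hp2 hp3
  obtain ⟨fm, hfm⟩ := M.hcomb f g S hroot hcl a c ha hc hac hm hm1 hm2 hm3
  -- identities
  have hxp : (x : τ → ℝ) fp = a * (x : τ → ℝ) f := by
    have := M.map_eq_zero_of_mem_Spn S (ev fp - a • ev f) (by
      intro r hr
      simp [M.he, hfp, hp2 r hr]) hx
    simp only [ContinuousLinearMap.sub_apply, ContinuousLinearMap.smul_apply, ev_apply,
      smul_eq_mul] at this
    linarith
  have hxm : (x : τ → ℝ) fm = a * (x : τ → ℝ) f := by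
    have := M.map_eq_zero_of_mem_Spn S (ev fm - a • ev f) (by
      intro r hr
      simp [M.he, hfm, hm2 r hr]) hx
    simp only [ContinuousLinearMap.sub_apply, ContinuousLinearMap.smul_apply, ev_apply,
      smul_eq_mul] at this
    linarith
  have hypm : (y : τ → ℝ) fp - (y : τ → ℝ) fm = c * (y : τ → ℝ) g := by
    have := M.map_eq_zero_of_mem_Spn Sᶜ (ev fp - ev fm - c • ev g) (by
      intro r hr
      have := hpm r hr
      simp [M.he, hfp, hfm]
      linarith) hy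
    simp only [ContinuousLinearMap.sub_apply, ContinuousLinearMap.smul_apply, ev_apply,
      smul_eq_mul] at this
    linarith
  have h1 : ((x + t • y : Linf τ) : τ → ℝ) fp ≤ ‖x + t • y‖ := by
    have := lp.norm_apply_le_norm (p := ⊤) (by simp) (x + t • y) fp
    exact (le_abs_self _).trans this
  have h2 : ((x - t • y : Linf τ) : τ → ℝ) fm ≤ ‖x - t • y‖ := by
    have := lp.norm_apply_le_norm (p := ⊤) (by simp) (x - t • y) fm
    exact (le_abs_self _).trans this
  have h3 : ((x + t • y : Linf τ) : τ → ℝ) fp = (x : τ → ℝ) fp + t * (y : τ → ℝ) fp := rfl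
  have h4 : ((x - t • y : Linf τ) : τ → ℝ) fm = (x : τ → ℝ) fm - t * (y : τ → ℝ) fm := rfl
  rw [h3] at h1
  rw [h4] at h2
  have h5 : 2 * a * ‖x‖ + t * c * ‖y‖ ≤ 2 * a * (x : τ → ℝ) f + t * c * (y : τ → ℝ) g
      + (2 * a + t * c) * ε' := by
    have h6 : 2 * a * (‖x‖ - ε') ≤ 2 * a * (x : τ → ℝ) f := by gcongr
    have h7 : t * c * (‖y‖ - ε') ≤ t * c * (y : τ → ℝ) g := by gcongr
    nlinarith
  have h8 : (2 * a + t * c) * ε' ≤ ε := by
    have : (2 * a + t * c + 1) * ε' = ε := by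
      simp only [ε']; field_simp
    nlinarith
  have h9 : t * (y : τ → ℝ) fp - t * (y : τ → ℝ) fm = t * c * (y : τ → ℝ) g := by
    rw [← mul_sub, hypm]; ring
  rw [hxp] at h1
  rw [hxm] at h2
  nlinarith

/-- The core inequality in square-root form. -/
theorem core_sqrt (S : Set (List ℕ)) (hroot : [] ∈ S) (hcl : ∀ a v, a :: v ∈ S → v ∈ S)
    {x y : Linf τ} (hx : x ∈ M.Spn S) (hy : y ∈ M.Spn Sᶜ) (t : ℝ) (ht : 0 ≤ t) :
    Real.sqrt (‖x‖ ^ 2 + t ^ 2 * ‖y‖ ^ 2 / 4) ≤ (‖x + t • y‖ + ‖x - t • y‖) / 2 := by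
  set α := ‖x‖ with hα
  set β := t * ‖y‖ with hβ
  have hα0 : 0 ≤ α := norm_nonneg _
  have hβ0 : 0 ≤ β := by positivity
  have hrad : t ^ 2 * ‖y‖ ^ 2 / 4 = β ^ 2 / 4 := by rw [hβ]; ring
  rw [hrad]
  set D := Real.sqrt (α ^ 2 + β ^ 2 / 4) with hD
  have hDsq : D ^ 2 = α ^ 2 + β ^ 2 / 4 := Real.sq_sqrt (by positivity)
  have hD0 : 0 ≤ D := Real.sqrt_nonneg _
  by_cases hcase : 3 / 4 * β ^ 2 ≤ α ^ 2
  · rcases hD0.eq_or_lt with hDz | hDpos
    · rw [← hDz]; positivity
    · let a := α / D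
      let c := (β / 2) / D
      have ha : 0 ≤ a := by positivity
      have hc : 0 ≤ c := by positivity
      have hac : a ^ 2 + c ^ 2 ≤ 1 := by
        simp only [a, c, div_pow]
        rw [← add_div, div_le_one (by positivity)]
        nlinarith
      have hc2 : 2 * c ≤ 1 := by
        simp only [c]
        rw [show 2 * (β / 2 / D) = β / D by ring, div_le_one hDpos]
        have : β ^ 2 ≤ D ^ 2 := by nlinarith
        nlinarith
      have := M.core_ineq S hroot hcl hx hy t a c ht ha hc hac hc2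
      have hval : 2 * a * ‖x‖ + t * c * ‖y‖ = 2 * D := by
        have h1 : t * c * ‖y‖ = β * c := by rw [hβ]; ring
        rw [h1]
        simp only [a, c, ← hα]
        field_simp
        nlinarith
      linarith
  · have hlt : D ≤ β := by
      have : D ^ 2 ≤ β ^ 2 := by nlinarith
      exact abs_le_of_sq_le_sq' this hβ0 |>.2
    have htri : ‖(2 : ℝ) • (t • y)‖ ≤ ‖x + t • y‖ + ‖x - t • y‖ := by
      have : (2 : ℝ) • (t • y) = (x + t • y) - (x - t • y) := by
        rw [two_smul]; abel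
      rw [this]
      exact norm_sub_le _ _
    have h2 : ‖(2 : ℝ) • (t • y)‖ = 2 * β := by
      rw [norm_smul, norm_smul, Real.norm_eq_abs, Real.norm_eq_abs, abs_of_nonneg ht, hβ]
      norm_num
    rw [h2] at htri
    linarith

/-- Vectors of `Sp` vanishing on the live part of a finite set lie in the closed span off the set. -/
theorem exists_tests_vanish (S : Set (List ℕ)) (hS : S.Finite) :
    ∃ A : Finset τ, ∀ y ∈ M.Sp, (∀ f ∈ A, (y : τ → ℝ) f = 0) → y ∈ M.Spn Sᶜ := by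
  classical
  haveI := M.hne
  let Af : Finset (List ℕ) := (hS.toFinset).filter (· ∈ M.D)
  have hAf : ∀ s ∈ Af, s ∈ S ∧ s ∈ M.D := by
    intro s hs
    simpa [Af] using hs
  have hchoice : ∀ s : List ℕ, ∃ f : τ, s ∈ M.D → ∀ r, M.φ f r = if r = s then 1 else 0 := by
    intro s
    by_cases hs : s ∈ M.D
    · obtain ⟨f, hf⟩ := M.hδ s hs
      exact ⟨f, fun _ => hf⟩
    · exact ⟨Classical.arbitrary τ, fun h => absurd h hs⟩
  choose d hd using hchoice
  refine ⟨Af.image d, ?_⟩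
  intro y hy hvan
  let P : Linf τ →L[ℝ] Linf τ :=
    ContinuousLinearMap.id ℝ _ - ∑ s ∈ Af, (ev (d s)).smulRight (M.e s)
  have hPapp : ∀ z, P z = z - ∑ s ∈ Af, (z : τ → ℝ) (d s) • M.e s := by
    intro z
    simp [P, ContinuousLinearMap.sum_apply]
  have hgen : ∀ r, P (M.e r) ∈ M.Spn Sᶜ := by
    intro r
    rw [hPapp]
    by_cases hr : r ∈ Af
    · have : ∑ s ∈ Af, (M.e r : τ → ℝ) (d s) • M.e s = M.e r := by
        rw [Finset.sum_eq_single r]
        · rw [M.he, hd r (hAf r hr).2]; simp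
        · intro s hs hne
          rw [M.he, hd s (hAf s hs).2, if_neg hne.symm, zero_smul]
        · intro h; exact absurd hr h
      rw [this, sub_self]
      exact Submodule.zero_mem _
    · have : ∑ s ∈ Af, (M.e r : τ → ℝ) (d s) • M.e s = 0 := by
        apply Finset.sum_eq_zero
        intro s hs
        have hne : r ≠ s := fun h => hr (h ▸ hs)
        rw [M.he, hd s (hAf s hs).2, if_neg hne, zero_smul]
      rw [this, sub_zero]
      by_cases hrS : r ∈ S
      · have hrD : r ∉ M.D := by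
          intro h
          exact hr (by simp [Af, hrS, h])
        have : M.e r = 0 := by
          apply lp.ext
          funext f
          rw [M.he, M.hdead r hrD f]
          rfl
        rw [this]
        exact Submodule.zero_mem _
      · exact Submodule.le_topologicalClosure _ (Submodule.subset_span ⟨r, hrS, rfl⟩)
  have hspan : ∀ z ∈ Submodule.span ℝ (Set.range M.e), P z ∈ M.Spn Sᶜ := by
    intro z hz
    induction hz using Submodule.span_induction with
    | mem x hx =>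
      obtain ⟨r, rfl⟩ := hx
      exact hgen r
    | zero => rw [map_zero]; exact Submodule.zero_mem _
    | add x y _ _ hx hy => rw [map_add]; exact Submodule.add_mem _ hx hy
    | smul a x _ hx => rw [map_smul]; exact Submodule.smul_mem _ _ hx
  have hPy : P y = y := by
    rw [hPapp]
    have : ∑ s ∈ Af, (y : τ → ℝ) (d s) • M.e s = 0 := by
      apply Finset.sum_eq_zero
      intro s hs
      rw [hvan (d s) (Finset.mem_image_of_mem d hs), zero_smul]
    rw [this, sub_zero]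
  have hcl : IsClosed (M.Spn Sᶜ : Set (Linf τ)) := Submodule.isClosed_topologicalClosure _
  have hclosure : y ∈ closure (Submodule.span ℝ (Set.range M.e) : Set (Linf τ)) := hy
  have := map_mem_closure P.continuous hclosure (t := (M.Spn Sᶜ : Set (Linf τ)))
    (fun z hz => hspan z hz)
  rw [hcl.closure_eq, hPy] at this
  exact this

/-- Root-closed finite supports of finitely supported combinations. -/
theorem exists_finite_support {x : Linf τ} (hx : x ∈ Submodule.span ℝ (Set.range M.e)) :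
    ∃ S : Set (List ℕ), S.Finite ∧ [] ∈ S ∧ (∀ a v, a :: v ∈ S → v ∈ S) ∧ x ∈ M.Spn S := by
  have hsuff : ∀ r : List ℕ, ∃ S : Set (List ℕ), S.Finite ∧ [] ∈ S ∧
      (∀ a v, a :: v ∈ S → v ∈ S) ∧ r ∈ S := by
    intro r
    refine ⟨{u | u <:+ r}, ?_, List.nil_suffix, ?_, List.suffix_refl r⟩
    · apply (List.finite_toSet r.tails).subset
      intro u hu
      simpa using (List.mem_tails _ _).2 hu
    · intro a v h
      exact (List.suffix_cons a v).trans h
  induction hx using Submodule.span_induction with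
  | mem x hx =>
    obtain ⟨r, rfl⟩ := hx
    obtain ⟨S, h1, h2, h3, h4⟩ := hsuff r
    exact ⟨S, h1, h2, h3, Submodule.le_topologicalClosure _ (Submodule.subset_span ⟨r, h4, rfl⟩)⟩
  | zero => 
    obtain ⟨S, h1, h2, h3, h4⟩ := hsuff []
    exact ⟨S, h1, h2, h3, Submodule.zero_mem _⟩
  | add x y _ _ hx hy =>
    obtain ⟨S, h1, h2, h3, h4⟩ := hx
    obtain ⟨S', h1', h2', h3', h4'⟩ := hy
    refine ⟨S ∪ S', h1.union h1', Or.inl h2, ?_, Submodule.add_mem _ ?_ ?_⟩
    · rintro a v (h | h)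
      · exact Or.inl (h3 a v h)
      · exact Or.inr (h3' a v h)
    · exact Submodule.topologicalClosure_mono
        (Submodule.span_mono (Set.image_mono Set.subset_union_left)) h4
    · exact Submodule.topologicalClosure_mono
        (Submodule.span_mono (Set.image_mono Set.subset_union_right)) h4'
  | smul a x _ hx =>
    obtain ⟨S, h1, h2, h3, h4⟩ := hx
    exact ⟨S, h1, h2, h3, Submodule.smul_mem _ _ h4⟩

/-- One-Lipschitz property of the square root in the first variable. -/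
theorem sqrt_sq_add_le (α α₀ β : ℝ) (hα : 0 ≤ α) (hα₀ : 0 ≤ α₀) (hβ : 0 ≤ β) :
    Real.sqrt (α ^ 2 + β) ≤ Real.sqrt (α₀ ^ 2 + β) + |α - α₀| := by
  have h0 : 0 ≤ Real.sqrt (α₀ ^ 2 + β) := Real.sqrt_nonneg _
  have h1 : α ^ 2 + β ≤ (Real.sqrt (α₀ ^ 2 + β) + |α - α₀|) ^ 2 := by
    have h2 : Real.sqrt (α₀ ^ 2 + β) ^ 2 = α₀ ^ 2 + β := Real.sq_sqrt (by positivity)
    have h3 : α₀ ≤ Real.sqrt (α₀ ^ 2 + β) := by
      apply Real.le_sqrt_of_sq_le; linarith
    have h4 : (|α - α₀|) ^ 2 = (α - α₀) ^ 2 := sq_abs _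
    have h5 : α - α₀ ≤ |α - α₀| := le_abs_self _
    have h6 : 0 ≤ |α - α₀| := abs_nonneg _
    nlinarith [mul_nonneg h0 h6, mul_le_mul h3 h5]
  exact Real.sqrt_le_iff.2 ⟨by positivity, h1⟩

/-- Asymptotic midpoint estimate in `Sp`. -/
theorem midpoint_approx {x : Linf τ} (hx : x ∈ M.Sp) (η : ℝ) (hη : 0 < η) :
    ∃ (A : Finset τ) (S : Set (List ℕ)) (x₀ : Linf τ), S.Finite ∧ [] ∈ S ∧
      (∀ a v, a :: v ∈ S → v ∈ S) ∧ x₀ ∈ M.Spn S ∧ ‖x - x₀‖ ≤ η ∧
      ∀ y ∈ M.Sp, (∀ f ∈ A, (y : τ → ℝ) f = 0) → y ∈ M.Spn Sᶜ := by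
  have hx' : x ∈ closure (Submodule.span ℝ (Set.range M.e) : Set (Linf τ)) := hx
  obtain ⟨x₀, hx₀, hclose⟩ := Metric.mem_closure_iff.1 hx' η hη
  obtain ⟨S, h1, h2, h3, h4⟩ := M.exists_finite_support hx₀
  obtain ⟨A, hA⟩ := M.exists_tests_vanish S h1
  refine ⟨A, S, x₀, h1, h2, h3, h4, ?_, hA⟩
  rw [← dist_eq_norm]
  exact hclose.le

theorem midpoint_ineq {x x₀ y : Linf τ} (S : Set (List ℕ)) (hroot : [] ∈ S)
    (hcl : ∀ a v, a :: v ∈ S → v ∈ S) (hx₀ : x₀ ∈ M.Spn S) (hy : y ∈ M.Spn Sᶜ)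
    (t : ℝ) (ht : 0 ≤ t) :
    Real.sqrt (‖x‖ ^ 2 + t ^ 2 * ‖y‖ ^ 2 / 4) - 2 * ‖x - x₀‖ ≤
      (‖x + t • y‖ + ‖x - t • y‖) / 2 := by
  have h1 := M.core_sqrt S hroot hcl hx₀ hy t ht
  have h2 := sqrt_sq_add_le ‖x‖ ‖x₀‖ (t ^ 2 * ‖y‖ ^ 2 / 4) (norm_nonneg _) (norm_nonneg _)
    (by positivity)
  have h3 : |‖x‖ - ‖x₀‖| ≤ ‖x - x₀‖ := abs_norm_sub_norm_le _ _
  have h4 : ‖x₀ + t • y‖ ≤ ‖x + t • y‖ + ‖x - x₀‖ := by
    have : x₀ + t • y = (x + t • y) - (x - x₀) := by abel
    rw [this]; exact norm_sub_le _ _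
  have h5 : ‖x₀ - t • y‖ ≤ ‖x - t • y‖ + ‖x - x₀‖ := by
    have : x₀ - t • y = (x - t • y) - (x - x₀) := by abel
    rw [this]; exact norm_sub_le _ _
  linarith

/-- Weak-`ℓ²` upper bound for the children of a vertex. -/
theorem norm_sum_children_le (v : List ℕ) (A : Finset ℕ) (ε : ℕ → ℝ) (hε : ∀ i, |ε i| ≤ 1) :
    ‖∑ i ∈ A, ε i • M.e (i :: v)‖ ≤ Real.sqrt A.card := by
  apply lp.norm_le_of_forall_le (Real.sqrt_nonneg _)
  intro f
  have h1 : ((∑ i ∈ A, ε i • M.e (i :: v) : Linf τ) : τ → ℝ) f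
      = ∑ i ∈ A, ε i * M.φ f (i :: v) := by
    rw [← ev_apply, map_sum]
    apply Finset.sum_congr rfl
    intro i _
    rw [map_smul, ev_apply, M.he, smul_eq_mul]
  rw [h1, Real.norm_eq_abs]
  have h2 := Finset.sum_mul_sq_le_sq_mul_sq A ε (fun i => M.φ f (i :: v))
  have h3 : ∑ i ∈ A, ε i ^ 2 ≤ A.card := by
    calc ∑ i ∈ A, ε i ^ 2 ≤ ∑ i ∈ A, (1:ℝ) := by
          apply Finset.sum_le_sum; intro i _
          have := hε i
          rw [← sq_abs]
          nlinarith [abs_nonneg (ε i)]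
      _ = A.card := by simp
  have h4 := M.hchild f v A
  have h5 : (∑ i ∈ A, ε i * M.φ f (i :: v)) ^ 2 ≤ A.card := by
    refine h2.trans ?_
    calc (∑ i ∈ A, ε i ^ 2) * ∑ i ∈ A, M.φ f (i :: v) ^ 2 ≤ (A.card : ℝ) * 1 := by
          apply mul_le_mul h3 h4
          · exact Finset.sum_nonneg fun i _ => sq_nonneg _
          · positivity
      _ = A.card := by ring
  exact Real.abs_le_sqrt h5

/-- Sum of the coordinate vectors along the path from the root (the root excluded). -/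
noncomputable def pathSum : List ℕ → Linf τ
  | [] => 0
  | a :: v => pathSum v + M.e (a :: v)

theorem pathSum_apply (f : τ) :
    ∀ v, (M.pathSum v : τ → ℝ) f = pathPotential (M.φ f) v - M.φ f []
  | [] => by simp [pathSum, pathPotential]
  | a :: v => by
      have h := pathSum_apply f v
      show (M.pathSum v : τ → ℝ) f + (M.e (a :: v) : τ → ℝ) f = _
      rw [h, M.he]
      simp only [pathPotential]
      ring

theorem norm_pathSum_le (v : List ℕ) : ‖M.pathSum v‖ ≤ 2 := by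
  apply lp.norm_le_of_forall_le (by norm_num)
  intro f
  rw [pathSum_apply, Real.norm_eq_abs]
  have h1 := abs_le.1 (M.hpot f v)
  have h2 := abs_le.1 (M.hpot f [])
  simp only [pathPotential] at h2
  rw [abs_le]; constructor <;> linarith [h1.1, h1.2, h2.1, h2.2]

theorem pathSum_mem : ∀ v, M.pathSum v ∈ M.Sp
  | [] => Submodule.zero_mem _
  | a :: v => Submodule.add_mem _ (pathSum_mem v) (M.e_mem_Sp _)

theorem one_le_norm_e {s : List ℕ} (hs : s ∈ M.D) : 1 ≤ ‖M.e s‖ := by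
  obtain ⟨d, hd⟩ := M.hδ s hs
  have h1 := lp.norm_apply_le_norm (p := ⊤) (by simp) (M.e s) d
  rw [M.he, hd s] at h1
  simpa using h1

attribute [local instance] RealBanach.normed RealBanach.space

/-- The tree game played through a linear isometry. -/
theorem game_of_isometry (E : RealBanach) (j : M.Sp →ₗᵢ[ℝ] E.X) (K : ℕ)
    (hK : ∀ v : List ℕ, v ≠ [] → v.length ≤ K + 1 → v ∈ M.D) :
    ∃ S : ℕ → Set E.X,
      (∃ p ∈ S 0, (1 / 2 : ℝ) ≤ ‖p‖) ∧
      (∀ i < K, ∀ p ∈ S i, ∀ F, E.IsCof F → ∀ ε : ℝ, 0 < ε →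
        ∃ p' ∈ S (i + 1), ∃ y ∈ F, (1 / 2 : ℝ) ≤ ‖y‖ ∧ ‖p' - (p + y)‖ ≤ ε) ∧
      (∀ i ≤ K, ∀ p ∈ S i, ‖p‖ ≤ 2) := by
  refine ⟨fun i => {p | ∃ v : List ℕ, v.length = i + 1 ∧ p = j ⟨M.pathSum v, M.pathSum_mem v⟩},
    ?_, ?_, ?_⟩
  · refine ⟨_, ⟨[0], rfl, rfl⟩, ?_⟩
    rw [j.norm_map]
    show (1 / 2 : ℝ) ≤ ‖M.pathSum [0]‖
    have h1 : M.pathSum [0] = M.e [0] := by simp [pathSum]
    rw [h1]
    have := M.one_le_norm_e (hK [0] (by simp) (by simp))
    linarith
  · rintro i hi p ⟨v, hv, rfl⟩ F hF ε hε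
    let z : ℕ → E.X := fun n => j ⟨M.e (n :: v), M.e_mem_Sp _⟩
    have hz : ∀ (A : Finset ℕ) (η : ℕ → ℝ), (∀ i, |η i| ≤ 1) →
        ‖∑ i ∈ A, η i • z i‖ ≤ 1 * Real.sqrt A.card := by
      intro A η hη
      have h1 : ∑ i ∈ A, η i • z i
          = j (∑ i ∈ A, η i • (⟨M.e (i :: v), M.e_mem_Sp _⟩ : M.Sp)) := by
        rw [map_sum]
        apply Finset.sum_congr rfl
        intro i _
        rw [map_smul]
      rw [h1, j.norm_map, one_mul]
      have h2 : ‖∑ i ∈ A, η i • (⟨M.e (i :: v), M.e_mem_Sp _⟩ : M.Sp)‖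
          = ‖∑ i ∈ A, η i • M.e (i :: v)‖ := by
        have h3 : ((∑ i ∈ A, η i • (⟨M.e (i :: v), M.e_mem_Sp _⟩ : M.Sp) : M.Sp) : Linf τ)
            = ∑ i ∈ A, η i • M.e (i :: v) := by
          simp [Submodule.coe_sum]
        rw [← h3]
        rfl
      rw [h2]
      exact M.norm_sum_children_le v A η hη
    obtain ⟨n, y, hy, hclose⟩ := Crest.Agent.Lib.AsympGame.exists_close_of_weakL2 E F hF z 1 hz
      (min ε (1 / 2)) (by positivity)
    have hnv : (n :: v).length = i + 1 + 1 := by simp [hv]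
    refine ⟨j ⟨M.pathSum (n :: v), M.pathSum_mem _⟩, ⟨n :: v, hnv, rfl⟩, y, hy, ?_, ?_⟩
    · have h1 : 1 ≤ ‖z n‖ := by
        show 1 ≤ ‖j ⟨M.e (n :: v), M.e_mem_Sp _⟩‖
        rw [j.norm_map]
        exact M.one_le_norm_e (hK _ (by simp) (by simp [hv]; omega))
      have h2 : ‖z n - y‖ < 1 / 2 := lt_of_lt_of_le hclose (min_le_right _ _)
      have h3 : ‖z n‖ ≤ ‖y‖ + ‖z n - y‖ := by
        have := norm_add_le y (z n - y)
        simpa using this
      linarith
    · have h1 : j ⟨M.pathSum (n :: v), M.pathSum_mem _⟩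
          = j ⟨M.pathSum v, M.pathSum_mem v⟩ + z n := by
        rw [← map_add]
        rfl
      rw [h1]
      have h2 : j ⟨M.pathSum v, M.pathSum_mem v⟩ + z n - (j ⟨M.pathSum v, M.pathSum_mem v⟩ + y)
          = z n - y := by abel
      rw [h2]
      exact (lt_of_lt_of_le hclose (min_le_left _ _)).le
  · rintro i - p ⟨v, -, rfl⟩
    rw [j.norm_map]
    exact M.norm_pathSum_le v

/-- The generated space is separable. -/
theorem separable_Sp : TopologicalSpace.SeparableSpace M.Sp := by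
  have h1 : TopologicalSpace.IsSeparable (Set.range M.e) :=
    (Set.countable_range _).isSeparable
  have h2 := h1.span (R := ℝ)
  have h3 := h2.closure
  exact h3.separableSpace

/-- The generated space is infinite-dimensional as soon as all first-level vertices are live. -/
theorem not_finiteDimensional_Sp (hinf : ∀ n : ℕ, [n] ∈ M.D) : ¬ FiniteDimensional ℝ M.Sp := by
  classical
  intro hfd
  have hli : LinearIndependent ℝ (fun n : ℕ => (⟨M.e [n], M.e_mem_Sp _⟩ : M.Sp)) := by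
    rw [linearIndependent_iff']
    intro A c hsum i hi
    obtain ⟨d, hd⟩ := M.hδ [i] (hinf i)
    have h1 : ∑ n ∈ A, c n • M.e [n] = 0 := by
      have := congrArg (Subtype.val) hsum
      simpa using this
    have h2 := congrArg (ev d) h1
    rw [map_sum, map_zero] at h2
    have h3 : ∀ n ∈ A, ev d (c n • M.e [n]) = if n = i then c n else 0 := by
      intro n _
      rw [map_smul, ev_apply, M.he, hd]
      by_cases hn : n = i
      · simp [hn]
      · have : ¬ ([n] = [i]) := by simpa using hn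
        simp [this, hn]
    rw [Finset.sum_congr rfl h3, Finset.sum_ite_eq' A i] at h2
    simpa [hi] using h2
  have : Finite ℕ := hli.finite
  exact not_finite ℕ

/-- The generated space as a `RealBanach` record. -/
noncomputable def banach : RealBanach :=
  ⟨M.Sp, inferInstance, inferInstance,
    (Submodule.isClosed_topologicalClosure _).completeSpace_coe⟩

theorem banach_isSeparableInfiniteDim (hinf : ∀ n : ℕ, [n] ∈ M.D) :
    M.banach.IsSeparableInfiniteDim :=
  ⟨M.separable_Sp, M.not_finiteDimensional_Sp hinf⟩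

theorem banach_no_auc (hD1 : ∀ v : List ℕ, v ≠ [] → v ∈ M.D) :
    ∀ N : M.banach.X → ℝ, M.banach.IsEquivNorm N → ¬ M.banach.IsAUC N := by
  apply Crest.Agent.Lib.AsympGame.no_auc_of_game M.banach (1 / 2) 2 (by norm_num)
  intro K
  exact M.game_of_isometry M.banach (LinearIsometry.id : M.Sp →ₗᵢ[ℝ] M.Sp) K
    (fun v hv _ => hD1 v hv)

theorem banach_midpoint (t : ℝ) (ht : 0 < t) :
    M.banach.MidpointModulusGE M.banach.norm t (Real.sqrt (1 + t ^ 2 / 4) - 1) := by
  intro x hx η hη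
  let x' : M.Sp := x
  have hx1 : ‖(x' : Linf τ)‖ = 1 := hx
  obtain ⟨A, S, x₀, -, h2, h3, h4, hclose, hA⟩ := M.midpoint_approx x'.2 (η / 2) (by positivity)
  let φ : A → (M.banach.X →L[ℝ] ℝ) := fun f => (ev f.1).comp (M.Sp.subtypeL)
  refine ⟨_, Crest.Agent.Lib.AsympGame.isCof_of_functionals M.banach φ, ?_⟩
  intro y hy hy1
  let y' : M.Sp := y
  have hy1' : ‖(y' : Linf τ)‖ = 1 := hy1
  have hy2 : (y' : Linf τ) ∈ M.Spn Sᶜ := by
    apply hA _ y'.2
    intro f hf
    exact hy ⟨f, hf⟩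
  have := M.midpoint_ineq (x := x') S h2 h3 h4 hy2 t ht.le
  rw [hx1, hy1'] at this
  have h5 : ((1:ℝ) ^ 2 + t ^ 2 * 1 ^ 2 / 4) = 1 + t ^ 2 / 4 := by ring
  rw [h5] at this
  show _ ≤ (‖(x' : Linf τ) + t • (y' : Linf τ)‖ + ‖(x' : Linf τ) - t • (y' : Linf τ)‖) / 2 - 1
  linarith

end TreeModel

end Crest.Agent.Lib.TreeSpace
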