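import Mathlib

/-!
Basic one-dimensional integrals used in the proof of S0423.
-/

open MeasureTheory Set Real Filter Topology

namespace Crest.Agent.TruncExp

lemma integrableOn_pow_mul_exp (n : ℕ) {b : ℝ} (hb : 0 < b) :
    IntegrableOn (fun x : ℝ => x ^ n * exp (-(b * x))) (Ioi 0) := by
  have h := integrableOn_rpow_mul_exp_neg_mul_rpow (p := 1) (s := (n : ℝ)) (b := b)
    (by have : (0 : ℝ) ≤ n := Nat.cast_nonneg n
        linarith) one_pos hb
  refine h.congr_fun (fun x hx => ?_) measurableSet_Ioi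
  simp [Real.rpow_natCast]

lemma integral_pow_mul_exp (n : ℕ) {b : ℝ} (hb : 0 < b) :
    ∫ x in Ioi (0 : ℝ), x ^ n * exp (-(b * x)) = (1 / b) ^ (n + 1) * (n.factorial : ℝ) := by
  have h := Real.integral_rpow_mul_exp_neg_mul_Ioi (a := (n : ℝ) + 1) (r := b)
    (by have : (0 : ℝ) ≤ n := Nat.cast_nonneg n
        linarith) hb
  have h2 : ∫ x in Ioi (0 : ℝ), x ^ n * exp (-(b * x))
      = ∫ t in Ioi (0 : ℝ), t ^ ((n : ℝ) + 1 - 1) * exp (-(b * t)) := by
    refine setIntegral_congr_fun measurableSet_Ioi (fun x hx => ?_)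
    simp only [add_sub_cancel_right, Real.rpow_natCast]
  rw [h2, h, Real.Gamma_nat_eq_factorial]
  congr 1
  rw [← Real.rpow_natCast]
  push_cast
  rfl

lemma integrableOn_exp_neg_mul {b : ℝ} (hb : 0 < b) :
    IntegrableOn (fun x : ℝ => exp (-(b * x))) (Ioi 0) := by
  simpa using integrableOn_pow_mul_exp 0 hb

lemma integrableOn_mul_exp_neg_mul {b : ℝ} (hb : 0 < b) :
    IntegrableOn (fun x : ℝ => x * exp (-(b * x))) (Ioi 0) := by
  simpa using integrableOn_pow_mul_exp 1 hb

lemma integral_exp_neg_mul {b : ℝ} (hb : 0 < b) :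
    ∫ x in Ioi (0 : ℝ), exp (-(b * x)) = 1 / b := by
  simpa using integral_pow_mul_exp 0 hb

lemma integral_mul_exp_neg_mul {b : ℝ} (hb : 0 < b) :
    ∫ x in Ioi (0 : ℝ), x * exp (-(b * x)) = 1 / b ^ 2 := by
  have := integral_pow_mul_exp 1 hb
  simpa [one_div, inv_pow] using this

lemma integrableOn_exp_neg : IntegrableOn (fun x : ℝ => exp (-x)) (Ioi 0) := by
  simpa using integrableOn_exp_neg_mul (b := 1) one_pos

lemma integrableOn_mul_exp_neg : IntegrableOn (fun x : ℝ => x * exp (-x)) (Ioi 0) := by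
  simpa using integrableOn_mul_exp_neg_mul (b := 1) one_pos

lemma integrableOn_sq_mul_exp_neg : IntegrableOn (fun x : ℝ => x ^ 2 * exp (-x)) (Ioi 0) := by
  simpa using integrableOn_pow_mul_exp 2 (b := 1) one_pos

lemma integral_exp_neg' : ∫ x in Ioi (0 : ℝ), exp (-x) = 1 := by
  simpa using integral_exp_neg_mul (b := 1) one_pos

lemma integral_mul_exp_neg : ∫ x in Ioi (0 : ℝ), x * exp (-x) = 1 := by
  simpa using integral_mul_exp_neg_mul (b := 1) one_pos

lemma integral_sq_mul_exp_neg : ∫ x in Ioi (0 : ℝ), x ^ 2 * exp (-x) = 2 := by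
  have := integral_pow_mul_exp 2 (b := 1) one_pos
  simpa [Nat.factorial] using this

end Crest.Agent.TruncExp
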