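import Crest.Agent.Lib.TruncExpOrth
import Crest.Prelude.Def_TruncExpWeight

/-!
Ramp representation of `truncExpWeight`, the swap of integrals, the crossing inequality and the
closed forms for the comparators.
-/

open MeasureTheory Set Real Filter Topology

namespace Crest.Agent.TruncExp

open Crest.AlgGeometry (truncExpWeight)

/-- The auxiliary convex function. -/
noncomputable def psi (y : ℝ) : ℝ := if y ≤ 0 then 0 else y - 1 + exp (-y)

lemma ramp_integral (κ : ℝ → ℝ) {y : ℝ} (hy : y ≤ 0) :
    ∫ t in Ioi (0 : ℝ), κ t * max (y - t) 0 = 0 := by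
  have : ∫ t in Ioi (0 : ℝ), κ t * max (y - t) 0 = ∫ t in Ioi (0 : ℝ), (0 : ℝ) := by
    refine setIntegral_congr_fun measurableSet_Ioi (fun t ht => ?_)
    have ht' : (0 : ℝ) < t := ht
    rw [max_eq_right (by linarith), mul_zero]
  rw [this]
  simp

lemma ramp_integral_pos {κ P : ℝ → ℝ} {y : ℝ} (hy : 0 < y) (hκ : Continuous κ)
    (hP : ∀ t, HasDerivAt P (κ t * (y - t)) t) :
    ∫ t in Ioi (0 : ℝ), κ t * max (y - t) 0 = P y - P 0 := by
  have h1 : ∫ t in Ioi (0 : ℝ), κ t * max (y - t) 0 = ∫ t in Ioc (0 : ℝ) y, κ t * max (y - t) 0 := by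
    refine setIntegral_eq_of_subset_of_forall_sdiff_eq_zero measurableSet_Ioi
      Ioc_subset_Ioi_self (fun t ht => ?_)
    have h2 : y < t := by
      by_contra hc
      exact ht.2 ⟨ht.1, not_lt.1 hc⟩
    rw [max_eq_right (by linarith), mul_zero]
  rw [h1]
  have h2 : ∫ t in Ioc (0 : ℝ) y, κ t * max (y - t) 0 = ∫ t in Ioc (0 : ℝ) y, κ t * (y - t) := by
    refine setIntegral_congr_fun measurableSet_Ioc (fun t ht => ?_)
    rw [max_eq_left (by linarith [ht.2])]
  rw [h2, ← intervalIntegral.integral_of_le hy.le]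
  refine intervalIntegral.integral_eq_sub_of_hasDerivAt (fun t _ => hP t) ?_
  exact (Continuous.intervalIntegrable (by fun_prop) _ _)

lemma integral_ramp_psi (y : ℝ) :
    ∫ t in Ioi (0 : ℝ), exp (-t) * max (y - t) 0 = psi y := by
  unfold psi
  split_ifs with hy
  · exact ramp_integral _ hy
  · push Not at hy
    have hP : ∀ t, HasDerivAt (fun t => (t + 1 - y) * exp (-t)) (exp (-t) * (y - t)) t := by
      intro t
      have h1 : HasDerivAt (fun t : ℝ => t + 1 - y) 1 t :=
        ((hasDerivAt_id' t).add_const 1).sub_const y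
      have h2 : HasDerivAt (fun t : ℝ => exp (-t)) (exp (-t) * (-1)) t := by
        exact (hasDerivAt_neg t).exp
      have := h1.fun_mul h2
      have e : exp (-t) * (y - t) = 1 * exp (-t) + (t + 1 - y) * (exp (-t) * -1) := by ring
      rw [e]
      exact this
    rw [ramp_integral_pos hy (by fun_prop) hP]
    simp only [neg_zero, exp_zero, zero_add, mul_one]
    ring

lemma integral_ramp_g (y : ℝ) :
    ∫ t in Ioi (0 : ℝ), ((t - 1) * exp (-t)) * max (y - t) 0 = truncExpWeight y - 1 := by
  unfold truncExpWeight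
  split_ifs with hy
  · rw [ramp_integral _ hy]
    ring
  · push Not at hy
    have hP : ∀ t, HasDerivAt (fun t => (t ^ 2 + (1 - y) * t + 1) * exp (-t))
        (((t - 1) * exp (-t)) * (y - t)) t := by
      intro t
      have h1 : HasDerivAt (fun t : ℝ => t ^ 2 + (1 - y) * t + 1) (2 * t + (1 - y)) t := by
        have h3 : HasDerivAt (fun t : ℝ => t ^ 2) (2 * t) t := by
          simpa using hasDerivAt_pow 2 t
        have h4 : HasDerivAt (fun t : ℝ => (1 - y) * t) (1 - y) t := by
          simpa using (hasDerivAt_id' t).const_mul (1 - y)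
        exact (h3.add h4).add_const 1
      have h2 : HasDerivAt (fun t : ℝ => exp (-t)) (exp (-t) * (-1)) t := by
        exact (hasDerivAt_neg t).exp
      have := h1.fun_mul h2
      have e : ((t - 1) * exp (-t)) * (y - t)
          = (2 * t + (1 - y)) * exp (-t) + (t ^ 2 + (1 - y) * t + 1) * (exp (-t) * -1) := by ring
      rw [e]
      exact this
    rw [ramp_integral_pos hy (by fun_prop) hP]
    simp only [neg_zero, exp_zero]
    ring

section Swap

variable {α : Type*} [MeasurableSpace α] (ν : Measure α) [SFinite ν]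

/-- The swap of the two integrals. -/
lemma swap_ramp {Y w : α → ℝ} (hY : Measurable Y) (hw : Measurable w) (hw0 : ∀ ω, 0 ≤ w ω)
    (hi : Integrable (fun ω => |Y ω| * w ω) ν) {κ : ℝ → ℝ} (hκ : Continuous κ)
    (hκi : IntegrableOn κ (Ioi 0)) :
    ∫ ω, (∫ t in Ioi (0 : ℝ), κ t * max (Y ω - t) 0) * w ω ∂ν
      = ∫ t in Ioi (0 : ℝ), κ t * ∫ ω, max (Y ω - t) 0 * w ω ∂ν := by
  set f : α → ℝ → ℝ := fun ω t => κ t * max (Y ω - t) 0 * w ω with hf
  have hint : Integrable (Function.uncurry f) (ν.prod (volume.restrict (Ioi (0 : ℝ)))) := by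
    have hbd : Integrable (fun z : α × ℝ => (|Y z.1| * w z.1) * |κ z.2|)
        (ν.prod (volume.restrict (Ioi (0 : ℝ)))) :=
      hi.mul_prod hκi.abs
    refine Integrable.mono' hbd ?_ ?_
    · have hm : Measurable (Function.uncurry f) := by
        simp only [hf, Function.uncurry_def]
        have h1 : Measurable (fun z : α × ℝ => κ z.2) := hκ.measurable.comp measurable_snd
        have h2 : Measurable (fun z : α × ℝ => Y z.1 - z.2) :=
          (hY.comp measurable_fst).sub measurable_snd
        have h3 : Measurable (fun z : α × ℝ => max (Y z.1 - z.2) 0) :=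
          h2.max measurable_const
        have h4 : Measurable (fun z : α × ℝ => w z.1) := hw.comp measurable_fst
        exact (h1.mul h3).mul h4
      exact hm.aestronglyMeasurable
    · have hae : ∀ᵐ z ∂(ν.prod (volume.restrict (Ioi (0 : ℝ)))), z.2 ∈ Ioi (0 : ℝ) :=
        Measure.quasiMeasurePreserving_snd.ae (ae_restrict_mem measurableSet_Ioi)
      filter_upwards [hae] with z hz
      have hz' : (0 : ℝ) < z.2 := hz
      simp only [hf, Function.uncurry_def]
      rw [Real.norm_eq_abs, abs_mul, abs_mul, abs_of_nonneg (hw0 z.1),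
        abs_of_nonneg (le_max_right (Y z.1 - z.2) 0)]
      have h1 : max (Y z.1 - z.2) 0 ≤ |Y z.1| := by
        refine max_le ?_ (abs_nonneg _)
        have := le_abs_self (Y z.1)
        linarith
      have h2 := mul_le_mul_of_nonneg_left h1 (abs_nonneg (κ z.2))
      have h3 := mul_le_mul_of_nonneg_right h2 (hw0 z.1)
      calc |κ z.2| * max (Y z.1 - z.2) 0 * w z.1 ≤ |κ z.2| * |Y z.1| * w z.1 := h3
        _ = |Y z.1| * w z.1 * |κ z.2| := by ring
  have hswap := integral_integral_swap (f := f) hint
  have e1 : ∀ ω, ∫ t in Ioi (0 : ℝ), f ω t = (∫ t in Ioi (0 : ℝ), κ t * max (Y ω - t) 0) * w ω := by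
    intro ω
    simp only [hf]
    rw [integral_mul_const]
  have e2 : ∀ t, ∫ ω, f ω t ∂ν = κ t * ∫ ω, max (Y ω - t) 0 * w ω ∂ν := by
    intro t
    simp only [hf, mul_assoc]
    rw [integral_const_mul]
  simp only [e1, e2] at hswap
  exact hswap

end Swap

section Expect

variable {α : Type*} [MeasurableSpace α] (ν : Measure α) [SFinite ν]

lemma integrableOn_kappa_one : IntegrableOn (fun t : ℝ => (t - 1) * exp (-t)) (Ioi 0) := by
  have := integrableOn_lin_mul_exp (-1) 1
  refine this.congr_fun (fun x _ => ?_) measurableSet_Ioi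
  ring

lemma expect_psi {Y w : α → ℝ} (hY : Measurable Y) (hw : Measurable w) (hw0 : ∀ ω, 0 ≤ w ω)
    (hi : Integrable (fun ω => |Y ω| * w ω) ν) :
    ∫ ω, psi (Y ω) * w ω ∂ν
      = ∫ t in Ioi (0 : ℝ), exp (-t) * ∫ ω, max (Y ω - t) 0 * w ω ∂ν := by
  have := swap_ramp ν hY hw hw0 hi (κ := fun t => exp (-t)) (by fun_prop) integrableOn_exp_neg
  simp only [integral_ramp_psi] at this
  exact this

lemma continuous_truncExpWeight : Continuous truncExpWeight := by
  have : truncExpWeight = fun y => if y ≤ 0 then 1 else (1 + y) * exp (-y) := by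
    funext y
    rfl
  rw [this]
  refine Continuous.if_le continuous_const (by fun_prop) continuous_id continuous_const ?_
  intro x hx
  simp [hx]

lemma truncExpWeight_nonneg (y : ℝ) : 0 ≤ truncExpWeight y := by
  unfold truncExpWeight
  split_ifs with hy
  · exact zero_le_one
  · push Not at hy
    positivity

lemma truncExpWeight_le_one (y : ℝ) : truncExpWeight y ≤ 1 := by
  unfold truncExpWeight
  split_ifs with hy
  · exact le_rfl
  · push Not at hy
    have h := Real.add_one_le_exp y
    have h2 : exp (-y) * exp y = 1 := by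
      rw [← exp_add]; simp
    have h3 : 0 < exp (-y) := exp_pos _
    nlinarith

lemma expect_g {Y w : α → ℝ} (hY : Measurable Y) (hw : Measurable w) (hw0 : ∀ ω, 0 ≤ w ω)
    (hi : Integrable (fun ω => |Y ω| * w ω) ν) (hwi : Integrable w ν) :
    ∫ ω, truncExpWeight (Y ω) * w ω ∂ν
      = ∫ ω, w ω ∂ν + ∫ t in Ioi (0 : ℝ), ((t - 1) * exp (-t)) * ∫ ω, max (Y ω - t) 0 * w ω ∂ν := by
  have := swap_ramp ν hY hw hw0 hi (κ := fun t => (t - 1) * exp (-t)) (by fun_prop)
    integrableOn_kappa_one
  simp only [integral_ramp_g] at this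
  rw [← this, ← integral_add hwi]
  · refine integral_congr_ae (Eventually.of_forall fun ω => ?_)
    simp only
    ring
  · have h1 : Integrable (fun ω => truncExpWeight (Y ω) * w ω) ν := by
      refine Integrable.mono' hwi ?_ (Eventually.of_forall fun ω => ?_)
      · exact ((continuous_truncExpWeight.measurable.comp hY).mul hw).aestronglyMeasurable
      · rw [Real.norm_eq_abs, abs_mul, abs_of_nonneg (truncExpWeight_nonneg _),
          abs_of_nonneg (hw0 ω)]
        exact mul_le_of_le_one_left (hw0 ω) (truncExpWeight_le_one _)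
    have h2 := h1.sub hwi
    refine h2.congr (Eventually.of_forall fun ω => ?_)
    simp only [Pi.sub_apply]
    ring

end Expect

/-- integrability against `exp (-t)`. -/
lemma integrableOn_exp_mul {U : ℝ → ℝ} (hc : Continuous U) (hg : LinGrowth U) :
    IntegrableOn (fun t : ℝ => exp (-t) * U t) (Ioi 0) := by
  obtain ⟨A, B, hB, h⟩ := hg
  refine Integrable.mono' (integrableOn_lin_mul_exp A B) ?_ ?_
  · exact (Continuous.mul (by fun_prop) hc).aestronglyMeasurable
  · refine (ae_restrict_iff' measurableSet_Ioi).2 (Eventually.of_forall fun t ht => ?_)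
    have ht' : (0 : ℝ) < t := ht
    have h1 := h t
    rw [abs_of_pos ht'] at h1
    rw [Real.norm_eq_abs, abs_mul, abs_of_pos (exp_pos _), mul_comm]
    exact mul_le_mul_of_nonneg_right h1 (exp_pos _).le

lemma integrableOn_mul_exp_mul {U : ℝ → ℝ} (hc : Continuous U) (hg : LinGrowth U) :
    IntegrableOn (fun t : ℝ => t * exp (-t) * U t) (Ioi 0) := by
  obtain ⟨A, B, hB, h⟩ := hg
  have h0 : IntegrableOn (fun t : ℝ => A * (t * exp (-t)) + B * (t ^ 2 * exp (-t))) (Ioi 0) :=
    (integrableOn_mul_exp_neg.const_mul A).add (integrableOn_sq_mul_exp_neg.const_mul B)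
  refine Integrable.mono' h0 ?_ ?_
  · exact (Continuous.mul (by fun_prop) hc).aestronglyMeasurable
  · refine (ae_restrict_iff' measurableSet_Ioi).2 (Eventually.of_forall fun t ht => ?_)
    have ht' : (0 : ℝ) < t := ht
    have h1 := h t
    rw [abs_of_pos ht'] at h1
    have e : 0 < t * exp (-t) := mul_pos ht' (exp_pos _)
    rw [Real.norm_eq_abs, abs_mul, abs_of_pos e]
    have := mul_le_mul_of_nonneg_right h1 e.le
    nlinarith

/-- The crossing inequality. -/
lemma crossing_integral {w : ℝ → ℝ}
    (hw1 : IntegrableOn (fun t : ℝ => exp (-t) * w t) (Ioi 0))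
    (hw2 : IntegrableOn (fun t : ℝ => t * exp (-t) * w t) (Ioi 0))
    (hQ : ∀ s t, 0 < s → s ≤ t → 0 < w t → 0 ≤ w s)
    (h0 : ∫ t in Ioi (0 : ℝ), exp (-t) * w t = 0) :
    ∫ t in Ioi (0 : ℝ), t * exp (-t) * w t ≤ 0 := by
  by_cases hA : ∀ t, 0 < t → 0 ≤ w t
  · -- everything vanishes a.e.
    have hnn : 0 ≤ᵐ[volume.restrict (Ioi (0 : ℝ))] fun t : ℝ => exp (-t) * w t := by
      refine (ae_restrict_iff' measurableSet_Ioi).2 (Eventually.of_forall fun t ht => ?_)
      exact mul_nonneg (exp_pos _).le (hA t ht)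
    have hz := (setIntegral_eq_zero_iff_of_nonneg_ae hnn hw1).1 h0
    have hz2 : (fun t : ℝ => t * exp (-t) * w t) =ᵐ[volume.restrict (Ioi (0 : ℝ))] 0 := by
      filter_upwards [hz] with t ht
      simp only [Pi.zero_apply] at ht ⊢
      rw [mul_assoc, ht, mul_zero]
    rw [integral_congr_ae hz2]
    simp
  · push Not at hA
    obtain ⟨t1, ht1, hwt1⟩ := hA
    set S : Set ℝ := {t | 0 < t ∧ 0 < w t} with hS
    have hbdd : BddAbove S := by
      refine ⟨t1, fun t ht => ?_⟩
      by_contra hc
      push Not at hc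
      have := hQ t1 t ht1 hc.le ht.2
      linarith
    set τ := sSup S with hτ
    have hsign : ∀ t, 0 < t → (t - τ) * w t ≤ 0 := by
      intro t ht
      rcases lt_trichotomy t τ with h1 | h1 | h1
      · have hne : S.Nonempty := by
          by_contra hne
          rw [not_nonempty_iff_eq_empty] at hne
          have : τ = 0 := by
            rw [hτ, hne, Real.sSup_empty]
          linarith
        obtain ⟨t', ht', htt'⟩ := exists_lt_of_lt_csSup hne h1
        have := hQ t t' ht htt'.le ht'.2
        exact mul_nonpos_of_nonpos_of_nonneg (by linarith) this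
      · rw [h1]
        simp
      · have hnot : t ∉ S := fun hmem => by
          have := le_csSup hbdd hmem
          linarith
        have hw : w t ≤ 0 := by
          by_contra hc
          push Not at hc
          exact hnot ⟨ht, hc⟩
        exact mul_nonpos_of_nonneg_of_nonpos (by linarith) hw
    have hsplit : ∫ t in Ioi (0 : ℝ), t * exp (-t) * w t
        = ∫ t in Ioi (0 : ℝ), ((t - τ) * w t * exp (-t) + τ * (exp (-t) * w t)) := by
      refine setIntegral_congr_fun measurableSet_Ioi (fun t _ => ?_)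
      ring
    have hint1 : IntegrableOn (fun t : ℝ => (t - τ) * w t * exp (-t)) (Ioi 0) := by
      have := hw2.sub (hw1.const_mul τ)
      refine this.congr_fun (fun t _ => ?_) measurableSet_Ioi
      simp only [Pi.sub_apply]
      ring
    rw [hsplit, integral_add hint1 (hw1.const_mul τ), integral_const_mul, h0, mul_zero, add_zero]
    refine setIntegral_nonpos measurableSet_Ioi (fun t ht => ?_)
    exact mul_nonpos_of_nonpos_of_nonneg (hsign t ht) (exp_pos _).le

end Crest.Agent.TruncExp
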