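import Crest.Agent.Lib.TruncExpFunc

/-!
The main inequality of S0423 and the approach to the supremum.
-/

open MeasureTheory Set Real Filter Topology

namespace Crest.Agent.TruncExp

open Crest.AlgGeometry (truncExpWeight)

lemma Cmp_large {c a t : ℝ} (ha : 0 < a) (hac : c ≤ a) (ht : 0 < t) :
    Cmp (c - a) a t = a * (exp ((c - a) / a) * exp (-(t / a))) := by
  unfold Cmp
  rw [if_neg (by linarith)]
  rw [← exp_add]
  congr 2
  field_simp
  ring

lemma JV_large {c a : ℝ} (ha : 0 < a) (hac : c ≤ a) :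
    ∫ t in Ioi (0 : ℝ), exp (-t) * Cmp (c - a) a t = exp ((c - a) / a) * (a ^ 2 / (1 + a)) := by
  have hb : 0 < 1 + 1 / a := by positivity
  have h1 : ∫ t in Ioi (0 : ℝ), exp (-t) * Cmp (c - a) a t
      = ∫ t in Ioi (0 : ℝ), (a * exp ((c - a) / a)) * exp (-((1 + 1 / a) * t)) := by
    refine setIntegral_congr_fun measurableSet_Ioi (fun t ht => ?_)
    rw [Cmp_large ha hac ht]
    have : exp (-((1 + 1 / a) * t)) = exp (-t) * exp (-(t / a)) := by
      rw [← exp_add]
      congr 1
      field_simp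
      ring
    rw [this]
    ring
  rw [h1, integral_const_mul, integral_exp_neg_mul hb]
  field_simp
  ring

lemma MV_large {c a : ℝ} (ha : 0 < a) (hac : c ≤ a) :
    ∫ t in Ioi (0 : ℝ), ((t - 1) * exp (-t)) * Cmp (c - a) a t
      = -(exp ((c - a) / a) * (a ^ 2 / (1 + a) ^ 2)) := by
  have hb : 0 < 1 + 1 / a := by positivity
  have h1 : ∫ t in Ioi (0 : ℝ), ((t - 1) * exp (-t)) * Cmp (c - a) a t
      = ∫ t in Ioi (0 : ℝ), ((a * exp ((c - a) / a)) * (t * exp (-((1 + 1 / a) * t)))
          - (a * exp ((c - a) / a)) * exp (-((1 + 1 / a) * t))) := by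
    refine setIntegral_congr_fun measurableSet_Ioi (fun t ht => ?_)
    rw [Cmp_large ha hac ht]
    have : exp (-((1 + 1 / a) * t)) = exp (-t) * exp (-(t / a)) := by
      rw [← exp_add]
      congr 1
      field_simp
      ring
    rw [this]
    ring
  rw [h1, integral_sub ((integrableOn_mul_exp_neg_mul hb).const_mul _)
    ((integrableOn_exp_neg_mul hb).const_mul _), integral_const_mul, integral_const_mul,
    integral_exp_neg_mul hb, integral_mul_exp_neg_mul hb]
  have h1a : 1 + a ≠ 0 := by positivity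
  field_simp
  ring

lemma ramp_W (t0 : ℝ) {a : ℝ} (ha : 0 < a) (t : ℝ) :
    ∫ x in Ioi (0 : ℝ), max (t0 + a * x - t) 0 * exp (-x) = Cmp t0 a t := by
  rw [← T_U0 t0 ha t]
  unfold T U0
  refine setIntegral_congr_fun measurableSet_Ioi (fun x _ => ?_)
  congr 2
  ring

lemma LinGrowth_abs_add (c : ℝ) : LinGrowth (fun y => |c + y|) := by
  refine ⟨|c|, 1, zero_le_one, fun y => ?_⟩
  rw [abs_abs, one_mul]
  exact abs_add_le _ _

lemma expect_psi_one (t0 : ℝ) {a : ℝ} (ha : 0 < a) :
    ∫ x in Ioi (0 : ℝ), psi (t0 + a * x) * exp (-x)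
      = ∫ t in Ioi (0 : ℝ), exp (-t) * Cmp t0 a t := by
  have hi : Integrable (fun x : ℝ => |t0 + a * x| * exp (-x)) (volume.restrict (Ioi (0 : ℝ))) := by
    have h := integrableOn_comp_mul_exp (φ := fun y => |y|) continuous_abs
      (by simpa using LinGrowth_abs_add 0) t0 a
    exact h
  have := expect_psi (volume.restrict (Ioi (0 : ℝ))) (Y := fun x : ℝ => t0 + a * x)
    (w := fun x : ℝ => exp (-x)) (by fun_prop) (by fun_prop) (fun x => (exp_pos _).le) hi
  simp only [ramp_W t0 ha] at this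
  exact this

lemma expect_g_one (t0 : ℝ) {a : ℝ} (ha : 0 < a) :
    ∫ x in Ioi (0 : ℝ), truncExpWeight (t0 + a * x) * exp (-x)
      = 1 + ∫ t in Ioi (0 : ℝ), ((t - 1) * exp (-t)) * Cmp t0 a t := by
  have hi : Integrable (fun x : ℝ => |t0 + a * x| * exp (-x)) (volume.restrict (Ioi (0 : ℝ))) := by
    have h := integrableOn_comp_mul_exp (φ := fun y => |y|) continuous_abs
      (by simpa using LinGrowth_abs_add 0) t0 a
    exact h
  have := expect_g (volume.restrict (Ioi (0 : ℝ))) (Y := fun x : ℝ => t0 + a * x)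
    (w := fun x : ℝ => exp (-x)) (by fun_prop) (by fun_prop) (fun x => (exp_pos _).le) hi
    integrableOn_exp_neg
  simp only [ramp_W t0 ha] at this
  rw [integral_exp_neg'] at this
  exact this

lemma JV_small {c a : ℝ} (ha : 0 < a) (hac : a ≤ c) :
    ∫ t in Ioi (0 : ℝ), exp (-t) * Cmp (c - a) a t = c - 1 + exp (-(c - a)) / (1 + a) := by
  rw [← expect_psi_one (c - a) ha]
  have hb : 0 < 1 + a := by positivity
  have h1 : ∫ x in Ioi (0 : ℝ), psi (c - a + a * x) * exp (-x)
      = ∫ x in Ioi (0 : ℝ), (((c - a - 1) + a * x) * exp (-x)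
          + exp (-(c - a)) * exp (-((1 + a) * x))) := by
    refine setIntegral_congr_fun measurableSet_Ioi (fun x hx => ?_)
    have hx' : (0 : ℝ) < x := hx
    have hp : 0 < c - a + a * x := by
      have : 0 < a * x := mul_pos ha hx'
      linarith
    simp only [psi]
    rw [if_neg (not_le.2 hp)]
    have : exp (-((1 + a) * x)) = exp (-x) * exp (-(a * x)) := by
      rw [← exp_add]
      congr 1
      ring
    rw [this]
    have h2 : exp (-(c - a + a * x)) = exp (-(c - a)) * exp (-(a * x)) := by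
      rw [← exp_add]
      congr 1
      ring
    rw [h2]
    ring
  rw [h1, integral_add (integrableOn_lin_mul_exp _ _)
    ((integrableOn_exp_neg_mul hb).const_mul _), integral_lin_mul_exp, integral_const_mul,
    integral_exp_neg_mul hb]
  field_simp
  ring

lemma MV_small {c a : ℝ} (ha : 0 < a) (hac : a ≤ c) :
    1 + ∫ t in Ioi (0 : ℝ), ((t - 1) * exp (-t)) * Cmp (c - a) a t
      = exp (-(c - a)) * ((1 + (c - a)) / (1 + a) + a / (1 + a) ^ 2) := by
  rw [← expect_g_one (c - a) ha]
  have hb : 0 < 1 + a := by positivity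
  have h1 : ∫ x in Ioi (0 : ℝ), truncExpWeight (c - a + a * x) * exp (-x)
      = ∫ x in Ioi (0 : ℝ), ((exp (-(c - a)) * (1 + (c - a))) * exp (-((1 + a) * x))
          + (exp (-(c - a)) * a) * (x * exp (-((1 + a) * x)))) := by
    refine setIntegral_congr_fun measurableSet_Ioi (fun x hx => ?_)
    have hx' : (0 : ℝ) < x := hx
    have hp : 0 < c - a + a * x := by
      have : 0 < a * x := mul_pos ha hx'
      linarith
    simp only [truncExpWeight]
    rw [if_neg (not_le.2 hp)]
    have : exp (-((1 + a) * x)) = exp (-x) * exp (-(a * x)) := by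
      rw [← exp_add]
      congr 1
      ring
    rw [this]
    have h2 : exp (-(c - a + a * x)) = exp (-(c - a)) * exp (-(a * x)) := by
      rw [← exp_add]
      congr 1
      ring
    rw [h2]
    ring
  rw [h1, integral_add ((integrableOn_exp_neg_mul hb).const_mul _)
    ((integrableOn_mul_exp_neg_mul hb).const_mul _), integral_const_mul, integral_const_mul,
    integral_exp_neg_mul hb, integral_mul_exp_neg_mul hb]
  field_simp

/-- comparison at the level of the second functional. -/
theorem crossing_step {W : ℝ → ℝ} (hW : Nice W) {c a : ℝ} (ha : 0 < a) (hL : ∀ t, c - t ≤ W t)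
    (hJ : ∫ t in Ioi (0 : ℝ), exp (-t) * W t = ∫ t in Ioi (0 : ℝ), exp (-t) * Cmp (c - a) a t) :
    ∫ t in Ioi (0 : ℝ), ((t - 1) * exp (-t)) * W t
      ≤ ∫ t in Ioi (0 : ℝ), ((t - 1) * exp (-t)) * Cmp (c - a) a t := by
  set V := Cmp (c - a) a with hV
  have hVT : V = T a (U0 (c - a)) := by
    funext t
    exact (T_U0 (c - a) ha t).symm
  have hVnice : Nice V := by
    rw [hVT]
    exact Nice_T_U0 _ ha
  have h1W := integrableOn_exp_mul hW.cont hW.growth
  have h2W := integrableOn_mul_exp_mul hW.cont hW.growth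
  have h1V := integrableOn_exp_mul hVnice.cont hVnice.growth
  have h2V := integrableOn_mul_exp_mul hVnice.cont hVnice.growth
  set w : ℝ → ℝ := fun t => W t - V t with hw
  have hw1 : IntegrableOn (fun t : ℝ => exp (-t) * w t) (Ioi 0) := by
    refine (h1W.sub h1V).congr_fun (fun t _ => ?_) measurableSet_Ioi
    simp only [hw, Pi.sub_apply]
    ring
  have hw2 : IntegrableOn (fun t : ℝ => t * exp (-t) * w t) (Ioi 0) := by
    refine (h2W.sub h2V).congr_fun (fun t _ => ?_) measurableSet_Ioi
    simp only [hw, Pi.sub_apply]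
    ring
  have hQ : ∀ s t, 0 < s → s ≤ t → 0 < w t → 0 ≤ w s := by
    intro s t _ hst hwt
    have h3 : V t < W t := by
      simp only [hw] at hwt
      linarith
    have h4 := crossing_property hW ha hL hst h3
    simp only [hw]
    linarith
  have h0 : ∫ t in Ioi (0 : ℝ), exp (-t) * w t = 0 := by
    have e : ∫ t in Ioi (0 : ℝ), exp (-t) * w t
        = (∫ t in Ioi (0 : ℝ), exp (-t) * W t) - ∫ t in Ioi (0 : ℝ), exp (-t) * V t := by
      rw [← integral_sub h1W h1V]
      refine setIntegral_congr_fun measurableSet_Ioi (fun t _ => ?_)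
      simp only [hw]
      ring
    rw [e, hJ]
    ring
  have hmain := crossing_integral hw1 hw2 hQ h0
  have e2 : ∫ t in Ioi (0 : ℝ), t * exp (-t) * w t
      = (∫ t in Ioi (0 : ℝ), ((t - 1) * exp (-t)) * W t)
        - (∫ t in Ioi (0 : ℝ), ((t - 1) * exp (-t)) * V t) + ∫ t in Ioi (0 : ℝ), exp (-t) * w t := by
    have i1 : IntegrableOn (fun t : ℝ => ((t - 1) * exp (-t)) * W t) (Ioi 0) := by
      refine (h2W.sub h1W).congr_fun (fun t _ => ?_) measurableSet_Ioi
      simp only [Pi.sub_apply]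
      ring
    have i2 : IntegrableOn (fun t : ℝ => ((t - 1) * exp (-t)) * V t) (Ioi 0) := by
      refine (h2V.sub h1V).congr_fun (fun t _ => ?_) measurableSet_Ioi
      simp only [Pi.sub_apply]
      ring
    have i3 : IntegrableOn (fun t : ℝ => ((t - 1) * exp (-t)) * W t - ((t - 1) * exp (-t)) * V t)
        (Ioi 0) := i1.sub i2
    rw [← integral_sub i1 i2, ← integral_add i3 hw1]
    refine setIntegral_congr_fun measurableSet_Ioi (fun t _ => ?_)
    simp only [hw]
    ring
  rw [e2, h0] at hmain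
  linarith

/-- Numerical inequality for the comparators with `a ≥ c`. -/
lemma F1 {a : ℝ} (ha : 0 < a) :
    1 + -(exp ((4 / 3 - a) / a) * (a ^ 2 / (1 + a) ^ 2)) ≤ 1 - 4 / 9 * exp (-1 / 3) := by
  set x : ℝ := (2 / 3) * (1 / a - 1 / 2) with hx
  have h1 : x + 1 ≤ exp x := Real.add_one_le_exp x
  have h2 : x + 1 = (2 / 3) * ((1 + a) / a) := by
    rw [hx]
    field_simp
    ring
  have h3 : 0 < x + 1 := by
    rw [h2]
    positivity
  have h4 : (x + 1) ^ 2 ≤ exp x ^ 2 := pow_le_pow_left₀ h3.le h1 2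
  have h5 : exp x ^ 2 = exp (2 * x) := by
    rw [← exp_nat_mul]
    norm_num
  have h6 : exp ((4 / 3 - a) / a) = exp (-1 / 3) * exp (2 * x) := by
    rw [← exp_add]
    congr 1
    rw [hx]
    field_simp
    ring
  have h7 : (x + 1) ^ 2 * (a ^ 2 / (1 + a) ^ 2) = 4 / 9 := by
    rw [h2]
    field_simp
    norm_num
  have h8 : 0 < a ^ 2 / (1 + a) ^ 2 := by positivity
  have h9 := exp_pos (-1 / 3 : ℝ)
  have h10 : 4 / 9 * exp (-1 / 3) ≤ exp ((4 / 3 - a) / a) * (a ^ 2 / (1 + a) ^ 2) := by
    rw [h6, ← h7, ← h5]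
    have := mul_le_mul_of_nonneg_left h4 (mul_pos h9 h8).le
    nlinarith
  linarith

lemma exp_neg_third_le : exp (-1 / 3) ≤ 18 / 25 := by
  have h1 : 1 + (1 / 3 : ℝ) + (1 / 3) ^ 2 / 2 ≤ exp (1 / 3) :=
    Real.quadratic_le_exp_of_nonneg (by norm_num)
  have h2 : exp (-1 / 3) = (exp (1 / 3))⁻¹ := by
    rw [← exp_neg]
    congr 1
    ring
  rw [h2]
  have h3 : (25 / 18 : ℝ) ≤ exp (1 / 3) := by
    norm_num at h1 ⊢
    linarith
  calc (exp (1 / 3))⁻¹ ≤ (25 / 18 : ℝ)⁻¹ := inv_anti₀ (by norm_num) h3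
    _ = 18 / 25 := by norm_num

/-- Numerical inequality for the comparators with `a ≤ c`. -/
lemma F2 {a : ℝ} (ha : 0 ≤ a) (hac : a ≤ 4 / 3) :
    exp (-(4 / 3 - a)) * ((1 + (4 / 3 - a)) / (1 + a) + a / (1 + a) ^ 2)
      ≤ 1 - 4 / 9 * exp (-1 / 3) := by
  have hv : (17 / 25 : ℝ) ≤ 1 - 4 / 9 * exp (-1 / 3) := by
    have := exp_neg_third_le
    linarith
  refine le_trans ?_ hv
  set s := 4 / 3 - a with hs
  have hs0 : 0 ≤ s := by rw [hs]; linarith
  have hs1 : 0 ≤ 4 / 3 - s := by rw [hs]; linarith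
  have hb : 0 < 1 + a := by positivity
  have hE : 1 + s + s ^ 2 / 2 + s ^ 3 / 6 ≤ exp s := by
    have := Real.sum_le_exp_of_nonneg hs0 4
    simp only [Finset.sum_range_succ, Finset.sum_range_zero, Nat.factorial] at this
    norm_num at this
    linarith
  have hEp : 0 < exp s := exp_pos s
  have hm : ((1 + s) * (1 + a) + a) ≤ 17 / 25 * (1 + s + s ^ 2 / 2 + s ^ 3 / 6) * (1 + a) ^ 2 := by
    have ha' : a = 4 / 3 - s := by rw [hs]; ring
    rw [ha']
    have h0 := mul_nonneg (pow_nonneg hs0 0) (pow_nonneg hs1 5)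
    have h1 := mul_nonneg (pow_nonneg hs0 1) (pow_nonneg hs1 4)
    have h2 := mul_nonneg (pow_nonneg hs0 2) (pow_nonneg hs1 3)
    have h3 := mul_nonneg (pow_nonneg hs0 3) (pow_nonneg hs1 2)
    have h4 := mul_nonneg (pow_nonneg hs0 4) (pow_nonneg hs1 1)
    have h5 := mul_nonneg (pow_nonneg hs0 5) (pow_nonneg hs1 0)
    nlinarith [h0, h1, h2, h3, h4, h5]
  have hQ : (1 + s) / (1 + a) + a / (1 + a) ^ 2 ≤ 17 / 25 * exp s := by
    have e : (1 + s) / (1 + a) + a / (1 + a) ^ 2 = ((1 + s) * (1 + a) + a) / (1 + a) ^ 2 := by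
      field_simp
    rw [e, div_le_iff₀ (by positivity)]
    have hbb : 0 < (1 + a) ^ 2 := by positivity
    calc (1 + s) * (1 + a) + a ≤ 17 / 25 * (1 + s + s ^ 2 / 2 + s ^ 3 / 6) * (1 + a) ^ 2 := hm
      _ ≤ 17 / 25 * exp s * (1 + a) ^ 2 := by
        refine mul_le_mul_of_nonneg_right ?_ hbb.le
        linarith
  have h2 : exp (-s) * exp s = 1 := by
    rw [← exp_add]
    simp
  calc exp (-s) * ((1 + s) / (1 + a) + a / (1 + a) ^ 2)
      ≤ exp (-s) * (17 / 25 * exp s) := mul_le_mul_of_nonneg_left hQ (exp_pos _).le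
    _ = 17 / 25 * (exp (-s) * exp s) := by ring
    _ = 17 / 25 := by rw [h2, mul_one]

/-- The bound at the level of the functional. -/
theorem functional_bound {W : ℝ → ℝ} (hW : Nice W) (hL : ∀ t, 4 / 3 - t ≤ W t) :
    1 + ∫ t in Ioi (0 : ℝ), ((t - 1) * exp (-t)) * W t ≤ 1 - 4 / 9 * exp (-1 / 3) := by
  set J := ∫ t in Ioi (0 : ℝ), exp (-t) * W t with hJ
  have h1W := integrableOn_exp_mul hW.cont hW.growth
  -- J is strictly larger than the value at the point mass
  have hJ0 : (4 / 3 : ℝ) - 1 + exp (-(4 / 3 - 0)) / (1 + 0) < J := by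
    have hU := integrableOn_exp_mul (U0_cont (4 / 3)) (U0_growth (4 / 3))
    have e1 : ∫ t in Ioi (0 : ℝ), exp (-t) * U0 (4 / 3) t
        = (4 / 3 : ℝ) - 1 + exp (-(4 / 3 - 0)) / (1 + 0) := by
      have := integral_ramp_psi (4 / 3)
      unfold U0
      rw [this]
      unfold psi
      rw [if_neg (by norm_num)]
      norm_num
    rw [← e1, hJ, ← sub_pos, ← integral_sub h1W hU]
    have hint := h1W.sub hU
    have hint' : IntegrableOn (fun t : ℝ => exp (-t) * W t - exp (-t) * U0 (4 / 3) t) (Ioi 0) := hint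
    rw [setIntegral_pos_iff_support_of_nonneg_ae _ hint']
    · have hsub : Ioi (4 / 3 : ℝ) ⊆
          Function.support (fun t : ℝ => exp (-t) * W t - exp (-t) * U0 (4 / 3) t) ∩ Ioi 0 := by
        intro t ht
        have ht' : (4 / 3 : ℝ) < t := ht
        refine ⟨?_, (by norm_num : (0 : ℝ) < 4 / 3).trans ht'⟩
        simp only [Function.mem_support]
        have h3 : U0 (4 / 3) t = 0 := by
          unfold U0
          exact max_eq_right (by linarith)
        rw [h3, mul_zero, sub_zero]
        exact (mul_pos (exp_pos _) (hW.pos t)).ne'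
      refine lt_of_lt_of_le ?_ (measure_mono hsub)
      simp
    · refine (ae_restrict_iff' measurableSet_Ioi).2 (Eventually.of_forall fun t _ => ?_)
      simp only [Pi.zero_apply]
      have h3 : U0 (4 / 3) t ≤ W t := max_le (hL t) (hW.pos t).le
      have h4 := exp_pos (-t)
      nlinarith
  by_cases hcase : J ≤ 16 / 21
  · set j1 : ℝ → ℝ := fun a => (4 / 3 : ℝ) - 1 + exp (-(4 / 3 - a)) / (1 + a) with hj1
    have hcont : ContinuousOn j1 (Icc 0 (4 / 3)) := by
      refine ContinuousOn.add continuousOn_const (ContinuousOn.div (by fun_prop) (by fun_prop) ?_)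
      intro a ha
      have := ha.1
      positivity
    have hend : j1 (4 / 3) = 16 / 21 := by
      simp only [hj1]
      norm_num
    obtain ⟨a, ⟨ha0, ha1⟩, hja⟩ := intermediate_value_Icc (by norm_num : (0 : ℝ) ≤ 4 / 3) hcont
      (show J ∈ Icc (j1 0) (j1 (4 / 3)) from ⟨hJ0.le, by rw [hend]; exact hcase⟩)
    have ha : 0 < a := by
      rcases ha0.eq_or_lt with h | h
      · rw [← h] at hja
        exact absurd hja hJ0.ne
      · exact h
    have hJV := JV_small ha ha1
    have hstep := crossing_step hW ha hL (hJ.symm.trans (hja.symm.trans hJV.symm))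
    have hMV := MV_small ha ha1
    have hF2 := F2 ha.le ha1
    linarith
  · push Not at hcase
    have hJpos : 0 < J := by linarith
    set A := 1 + 4 / 3 + J * exp 1 with hA
    have hJe : 0 < J * exp 1 := mul_pos hJpos (exp_pos _)
    have hA1 : 4 / 3 ≤ A := by rw [hA]; linarith
    have hApos : 0 < A := by linarith
    set j2 : ℝ → ℝ := fun a => exp ((4 / 3 - a) / a) * (a ^ 2 / (1 + a)) with hj2
    have hcont : ContinuousOn j2 (Icc (4 / 3) A) := by
      refine ContinuousOn.mul ?_ (ContinuousOn.div (by fun_prop) (by fun_prop) ?_)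
      · refine ContinuousOn.rexp (ContinuousOn.div (by fun_prop) (by fun_prop) ?_)
        intro a ha
        have : (0 : ℝ) < a := by linarith [ha.1]
        exact this.ne'
      · intro a ha
        have : (0 : ℝ) < a := by linarith [ha.1]
        positivity
    have hstart : j2 (4 / 3) = 16 / 21 := by
      simp only [hj2]
      norm_num
    have hendA : J ≤ j2 A := by
      simp only [hj2]
      have h1 : (-1 : ℝ) ≤ (4 / 3 - A) / A := by
        rw [le_div_iff₀ hApos]
        linarith
      have h2 : exp (-1) ≤ exp ((4 / 3 - A) / A) := Real.exp_le_exp.2 h1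
      have h3 : J * exp 1 ≤ A ^ 2 / (1 + A) := by
        rw [le_div_iff₀ (by positivity)]
        nlinarith
      have h4 : exp (-1) * exp 1 = 1 := by
        rw [← exp_add]
        simp
      calc J = exp (-1) * (J * exp 1) := by
            rw [mul_comm J, ← mul_assoc, h4, one_mul]
        _ ≤ exp ((4 / 3 - A) / A) * (A ^ 2 / (1 + A)) :=
            mul_le_mul h2 h3 hJe.le (exp_pos _).le
    obtain ⟨a, ⟨ha0, ha1⟩, hja⟩ := intermediate_value_Icc hA1 hcont
      (show J ∈ Icc (j2 (4 / 3)) (j2 A) from ⟨by rw [hstart]; exact hcase.le, hendA⟩)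
    have ha : 0 < a := by linarith
    have hJV := JV_large ha ha0
    have hstep := crossing_step hW ha hL (hJ.symm.trans (hja.symm.trans hJV.symm))
    have hMV := MV_large ha ha0
    have hF1 := F1 ha
    linarith

/-- The identity relating the expectation of the weight and the ramp integral, over the orthant. -/
lemma I_g_eq {N : ℕ} (a : Fin N → ℝ) (c : ℝ) :
    I N a (fun y => truncExpWeight (c + y))
      = 1 + ∫ t in Ioi (0 : ℝ), ((t - 1) * exp (-t)) * I N a (fun y => max (c + y - t) 0) := by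
  have hY : Measurable (fun x : Fin N → ℝ => c + ∑ i, a i * x i) := by fun_prop
  have hw : Measurable (fun x : Fin N → ℝ => exp (-∑ i, x i)) := by fun_prop
  have hi : Integrable (fun x : Fin N → ℝ => |c + ∑ i, a i * x i| * exp (-∑ i, x i))
      (volume.restrict (Orth N)) :=
    integrableOn_I (φ := fun y => |c + y|) (by fun_prop) (LinGrowth_abs_add c) a
  have hwi : Integrable (fun x : Fin N → ℝ => exp (-∑ i, x i)) (volume.restrict (Orth N)) := by
    have := integrableOn_I (φ := fun _ => 1) continuous_const (LinGrowth.const 1) a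
    have h2 : IntegrableOn (fun x : Fin N → ℝ => exp (-∑ i, x i)) (Orth N) := by
      simpa using this
    exact h2
  have h := expect_g (volume.restrict (Orth N)) hY hw (fun x => (exp_pos _).le) hi hwi
  have h1 : ∫ x in Orth N, exp (-∑ i, x i) = 1 := by
    have := I_const N a 1
    unfold I at this
    simpa using this
  rw [h1] at h
  unfold I
  exact h

/-- The first half of S0423 in terms of `I`. -/
theorem main_upper {N : ℕ} (a : Fin N → ℝ) (hN : 1 ≤ N) (hsum : ∑ i, a i = 0) :
    I N a (fun y => truncExpWeight (4 / 3 + y)) ≤ 1 - 4 / 9 * exp (-1 / 3) := by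
  by_cases hz : ∀ i, a i = 0
  · -- constant case
    have e : I N a (fun y => truncExpWeight (4 / 3 + y)) = truncExpWeight (4 / 3) := by
      have e1 : I N a (fun y => truncExpWeight (4 / 3 + y))
          = I N a (fun _ => truncExpWeight (4 / 3)) := by
        unfold I
        refine setIntegral_congr_fun (measurableSet_Orth N) (fun x _ => ?_)
        simp [hz]
      rw [e1, I_const]
    rw [e]
    have h2 := F2 (a := 0) le_rfl (by norm_num)
    have h3 : truncExpWeight (4 / 3) = exp (-(4 / 3)) * (7 / 3) := by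
      unfold truncExpWeight
      rw [if_neg (by norm_num)]
      norm_num
      ring
    rw [h3]
    norm_num at h2 ⊢
    linarith
  · -- some coefficient is positive
    have hpos : ∃ i, 0 < a i := by
      by_contra hc
      push Not at hc
      have := (Finset.sum_eq_zero_iff_of_nonpos (fun i _ => hc i)).1 hsum
      exact hz fun i => this i (Finset.mem_univ i)
    obtain ⟨i, hi⟩ := hpos
    obtain ⟨n, rfl⟩ : ∃ n, N = n + 1 := ⟨N - 1, by omega⟩
    set a' : Fin n → ℝ := fun k => a (i.succAbove k) with ha'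
    set V := T (a i) (U0 (4 / 3)) with hV
    have hVnice : Nice V := Nice_T_U0 _ hi
    have hVL : ∀ t, (4 / 3 + a i) - t ≤ V t :=
      T_lower (U0_cont _) (U0_growth _) (U0_lower (4 / 3)) (a i)
    obtain ⟨h1, h2⟩ := nice_chain a' hVnice hVL
    have hW : ∀ t, I (n + 1) a (fun y => max (4 / 3 + y - t) 0) = I n a' (fun y => V (t - y)) := by
      intro t
      have hc : Continuous (fun y : ℝ => max (4 / 3 + y - t) 0) := by fun_prop
      have hg : LinGrowth (fun y : ℝ => max (4 / 3 + y - t) 0) := by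
        refine ⟨|4 / 3 - t|, 1, zero_le_one, fun y => ?_⟩
        rw [abs_of_nonneg (le_max_right _ _), one_mul]
        refine max_le ?_ (by positivity)
        have h3 := le_abs_self (4 / 3 - t)
        have h4 := le_abs_self y
        linarith
      rw [I_succ hc hg a i]
      congr 1
      funext y
      unfold V T U0
      refine setIntegral_congr_fun measurableSet_Ioi (fun u _ => ?_)
      congr 2
      ring
    have hWfun : (fun t => I (n + 1) a (fun y => max (4 / 3 + y - t) 0))
        = fun t => I n a' (fun y => V (t - y)) := by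
      funext t
      exact hW t
    have hN' : Nice (fun t => I (n + 1) a (fun y => max (4 / 3 + y - t) 0)) := by
      rw [hWfun]
      exact h1
    have hL' : ∀ t, 4 / 3 - t ≤ I (n + 1) a (fun y => max (4 / 3 + y - t) 0) := by
      intro t
      rw [hW t]
      have h3 := h2 t
      have h4 : a i + ∑ k, a' k = 0 := by
        rw [← hsum, Fin.sum_univ_succAbove a i]
      linarith
    have hb := functional_bound hN' hL'
    rw [I_g_eq]
    exact hb

/-- `truncExpWeight` is Lipschitz. -/
lemma abs_truncExpWeight_sub_le (p q : ℝ) :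
    |truncExpWeight p - truncExpWeight q| ≤ 2 * |p - q| := by
  have hp := integral_ramp_g p
  have hq := integral_ramp_g q
  have hint : ∀ r : ℝ, IntegrableOn (fun t : ℝ => ((t - 1) * exp (-t)) * max (r - t) 0) (Ioi 0) := by
    intro r
    have h1 := integrableOn_mul_exp_mul (U0_cont r) (U0_growth r)
    have h2 := integrableOn_exp_mul (U0_cont r) (U0_growth r)
    refine (h1.sub h2).congr_fun (fun t _ => ?_) measurableSet_Ioi
    simp only [Pi.sub_apply, U0]
    ring
  have e : truncExpWeight p - truncExpWeight q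
      = ∫ t in Ioi (0 : ℝ), (((t - 1) * exp (-t)) * max (p - t) 0
          - ((t - 1) * exp (-t)) * max (q - t) 0) := by
    rw [integral_sub (hint p) (hint q), hp, hq]
    ring
  rw [e]
  have hb : IntegrableOn (fun t : ℝ => |p - q| * ((1 + 1 * t) * exp (-t))) (Ioi 0) :=
    (integrableOn_lin_mul_exp 1 1).const_mul _
  have h3 := norm_integral_le_of_norm_le (μ := volume.restrict (Ioi (0 : ℝ)))
    (f := fun t : ℝ => ((t - 1) * exp (-t)) * max (p - t) 0
      - ((t - 1) * exp (-t)) * max (q - t) 0) hb ?_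
  · rw [Real.norm_eq_abs] at h3
    refine h3.trans (le_of_eq ?_)
    rw [integral_const_mul, integral_lin_mul_exp]
    ring
  · refine (ae_restrict_iff' measurableSet_Ioi).2 (Eventually.of_forall fun t ht => ?_)
    have ht' : (0 : ℝ) < t := ht
    have e2 : ((t - 1) * exp (-t)) * max (p - t) 0 - ((t - 1) * exp (-t)) * max (q - t) 0
        = ((t - 1) * exp (-t)) * (max (p - t) 0 - max (q - t) 0) := by ring
    rw [Real.norm_eq_abs, e2, abs_mul, abs_mul, abs_of_pos (exp_pos _)]
    have h4 : |max (p - t) 0 - max (q - t) 0| ≤ |p - q| := by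
      have := abs_max_sub_max_le_abs (p - t) (q - t) 0
      have e3 : p - t - (q - t) = p - q := by ring
      rwa [e3] at this
    have h5 : |t - 1| ≤ 1 + 1 * t := by
      rw [abs_le]
      constructor <;> linarith
    have h6 : 0 < exp (-t) := exp_pos _
    calc |t - 1| * exp (-t) * |max (p - t) 0 - max (q - t) 0|
        ≤ ((1 + 1 * t) * exp (-t)) * |p - q| := by
          refine mul_le_mul (mul_le_mul_of_nonneg_right h5 h6.le) h4 (abs_nonneg _) ?_
          positivity
      _ = |p - q| * ((1 + 1 * t) * exp (-t)) := by ring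

lemma LinGrowth_of_abs_le_one {φ : ℝ → ℝ} (h : ∀ y, |φ y| ≤ 1) : LinGrowth φ :=
  ⟨1, 0, le_rfl, fun y => by simpa using h y⟩

lemma abs_truncExpWeight_le_one (y : ℝ) : |truncExpWeight y| ≤ 1 := by
  rw [abs_of_nonneg (truncExpWeight_nonneg y)]
  exact truncExpWeight_le_one y

/-- The one-step smoothing of the weight. -/
noncomputable def Sg (y : ℝ) : ℝ := ∫ u in Ioi (0 : ℝ), truncExpWeight (4 / 3 + (y + 2 * u)) * exp (-u)

lemma integrableOn_Sg (y : ℝ) :
    IntegrableOn (fun u : ℝ => truncExpWeight (4 / 3 + (y + 2 * u)) * exp (-u)) (Ioi 0) := by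
  have hc : Continuous (fun y : ℝ => truncExpWeight (4 / 3 + y)) :=
    continuous_truncExpWeight.comp (by fun_prop)
  exact integrableOn_comp_mul_exp hc (LinGrowth_of_abs_le_one fun y => abs_truncExpWeight_le_one _) y 2

lemma abs_Sg_sub_le (y y' : ℝ) : |Sg y - Sg y'| ≤ 2 * |y - y'| := by
  unfold Sg
  rw [← integral_sub (integrableOn_Sg y) (integrableOn_Sg y')]
  have hb : IntegrableOn (fun u : ℝ => (2 * |y - y'|) * exp (-u)) (Ioi 0) :=
    integrableOn_exp_neg.const_mul _
  have h3 := norm_integral_le_of_norm_le (μ := volume.restrict (Ioi (0 : ℝ)))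
    (f := fun u : ℝ => truncExpWeight (4 / 3 + (y + 2 * u)) * exp (-u)
      - truncExpWeight (4 / 3 + (y' + 2 * u)) * exp (-u)) hb ?_
  · rw [Real.norm_eq_abs] at h3
    refine h3.trans (le_of_eq ?_)
    rw [integral_const_mul, integral_exp_neg', mul_one]
  · refine Eventually.of_forall fun u => ?_
    have e : truncExpWeight (4 / 3 + (y + 2 * u)) * exp (-u)
        - truncExpWeight (4 / 3 + (y' + 2 * u)) * exp (-u)
        = (truncExpWeight (4 / 3 + (y + 2 * u)) - truncExpWeight (4 / 3 + (y' + 2 * u))) * exp (-u) := by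
      ring
    rw [Real.norm_eq_abs, e, abs_mul, abs_of_pos (exp_pos _)]
    refine mul_le_mul_of_nonneg_right ?_ (exp_pos _).le
    have h4 := abs_truncExpWeight_sub_le (4 / 3 + (y + 2 * u)) (4 / 3 + (y' + 2 * u))
    have e3 : 4 / 3 + (y + 2 * u) - (4 / 3 + (y' + 2 * u)) = y - y' := by ring
    rwa [e3] at h4

lemma continuous_Sg : Continuous Sg := by
  have : LipschitzWith 2 Sg := LipschitzWith.of_dist_le_mul fun y y' => by
    rw [Real.dist_eq, Real.dist_eq]
    simpa using abs_Sg_sub_le y y'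
  exact this.continuous

lemma abs_Sg_le_one (y : ℝ) : |Sg y| ≤ 1 := by
  unfold Sg
  have hb : IntegrableOn (fun u : ℝ => exp (-u)) (Ioi 0) := integrableOn_exp_neg
  have h3 := norm_integral_le_of_norm_le (μ := volume.restrict (Ioi (0 : ℝ)))
    (f := fun u : ℝ => truncExpWeight (4 / 3 + (y + 2 * u)) * exp (-u)) hb ?_
  · rw [Real.norm_eq_abs, integral_exp_neg'] at h3
    exact h3
  · refine Eventually.of_forall fun u => ?_
    rw [Real.norm_eq_abs, abs_mul, abs_of_pos (exp_pos _)]
    exact mul_le_of_le_one_left (exp_pos _).le (abs_truncExpWeight_le_one _)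

lemma Sg_value : Sg (-2) = 1 - 4 / 9 * exp (-1 / 3) := by
  have h1 := expect_g_one (4 / 3 - 2) (a := 2) (by norm_num)
  have h2 := MV_large (c := 4 / 3) (a := 2) (by norm_num) (by norm_num)
  have e : Sg (-2) = ∫ x in Ioi (0 : ℝ), truncExpWeight (4 / 3 - 2 + 2 * x) * exp (-x) := by
    unfold Sg
    refine setIntegral_congr_fun measurableSet_Ioi (fun u _ => ?_)
    congr 2
    ring
  rw [e, h1, h2]
  norm_num
  ring

lemma quad_bound (κ γ β y : ℝ) :
    |κ * (y + γ) ^ 2 + β| ≤ (|β| + 2 * |κ| * γ ^ 2) + (2 * |κ|) * y ^ 2 := by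
  have h1 : |κ * (y + γ) ^ 2 + β| ≤ |κ * (y + γ) ^ 2| + |β| := abs_add_le _ _
  have h2 : |κ * (y + γ) ^ 2| = |κ| * (y + γ) ^ 2 := by
    rw [abs_mul, abs_of_nonneg (sq_nonneg (y + γ))]
  have h3 : (y + γ) ^ 2 ≤ 2 * γ ^ 2 + 2 * y ^ 2 := by nlinarith [sq_nonneg (y - γ)]
  have h4 := mul_le_mul_of_nonneg_left h3 (abs_nonneg κ)
  rw [h2] at h1
  nlinarith

/-- The second half of S0423 in terms of `I`. -/
theorem main_approach {ε : ℝ} (hε : 0 < ε) :
    ∃ (N : ℕ) (a : Fin N → ℝ), 1 ≤ N ∧ ∑ i, a i = 0 ∧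
      1 - 4 / 9 * exp (-1 / 3) - ε < I N a (fun y => truncExpWeight (4 / 3 + y)) := by
  set M : ℕ := ⌈16 / ε ^ 2⌉₊ + 1 with hM
  have hMpos : 0 < M := by omega
  have hMR : (0 : ℝ) < M := by exact_mod_cast hMpos
  have hMbig : 16 / ε ^ 2 < (M : ℝ) := by
    have h1 := Nat.le_ceil (16 / ε ^ 2)
    rw [hM]
    push_cast
    linarith
  set a : Fin (M + 1) → ℝ := Fin.cons 2 (fun _ => -2 / (M : ℝ)) with ha
  refine ⟨M + 1, a, by omega, ?_, ?_⟩
  · rw [Fin.sum_univ_succ]
    simp only [ha, Fin.cons_zero, Fin.cons_succ, Finset.sum_const, Finset.card_univ,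
      Fintype.card_fin, nsmul_eq_mul]
    field_simp
    ring
  · have hc : Continuous (fun y : ℝ => truncExpWeight (4 / 3 + y)) :=
      continuous_truncExpWeight.comp (by fun_prop)
    have hg : LinGrowth (fun y : ℝ => truncExpWeight (4 / 3 + y)) :=
      LinGrowth_of_abs_le_one fun y => abs_truncExpWeight_le_one _
    set b : Fin M → ℝ := fun _ => -2 / (M : ℝ) with hb
    have e1 : I (M + 1) a (fun y => truncExpWeight (4 / 3 + y)) = I M b Sg := by
      rw [I_succ hc hg a 0]
      have e2 : (fun k : Fin M => a ((0 : Fin (M + 1)).succAbove k)) = b := by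
        funext k
        simp [ha, hb]
      rw [e2]
      congr 1
    rw [e1]
    -- pointwise lower bound
    have hpt : ∀ y, (-(2 / ε)) * (y + 2) ^ 2 + ((1 - 4 / 9 * exp (-1 / 3)) - ε / 2) ≤ Sg y := by
      intro y
      have h1 := abs_Sg_sub_le y (-2)
      rw [Sg_value] at h1
      have h2 := (abs_le.1 h1).1
      have h3 : 2 * |y - -2| ≤ ε / 2 + (2 / ε) * (y + 2) ^ 2 := by
        have e3 : y - -2 = y + 2 := by ring
        rw [e3]
        set z := |y + 2| with hz
        have e4 : (y + 2) ^ 2 = z ^ 2 := by rw [hz, sq_abs]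
        rw [e4]
        have h5 : 0 ≤ (ε / 2 - z) ^ 2 := sq_nonneg _
        have h6 : ε / 2 + (2 / ε) * z ^ 2 - 2 * z = (2 / ε) * (ε / 2 - z) ^ 2 := by
          field_simp
          ring
        have h7 : 0 ≤ (2 / ε) * (ε / 2 - z) ^ 2 := by positivity
        linarith
      linarith
    have hmono : I M b (fun y => (-(2 / ε)) * (y + 2) ^ 2 + ((1 - 4 / 9 * exp (-1 / 3)) - ε / 2))
        ≤ I M b Sg := by
      unfold I
      refine setIntegral_mono_on ?_ ?_ (measurableSet_Orth M) (fun x _ => ?_)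
      · have hc2 : Continuous (fun y : ℝ => (-(2 / ε)) * (y + 2) ^ 2 + ((1 - 4 / 9 * exp (-1 / 3)) - ε / 2)) := by
          fun_prop
        exact integrableOn_I_quad hc2 (by positivity) (quad_bound _ _ _) b
      · exact integrableOn_I continuous_Sg (LinGrowth_of_abs_le_one abs_Sg_le_one) b
      · exact mul_le_mul_of_nonneg_right (hpt _) (exp_pos _).le
    rw [I_quad] at hmono
    have e5 : ∑ i, b i = -2 := by
      simp only [hb, Finset.sum_const, Finset.card_univ, Fintype.card_fin, nsmul_eq_mul]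
      field_simp
    have e6 : ∑ i, b i ^ 2 = 4 / (M : ℝ) := by
      simp only [hb, Finset.sum_const, Finset.card_univ, Fintype.card_fin, nsmul_eq_mul]
      field_simp
      ring
    rw [e5, e6] at hmono
    have h8 : 8 / (ε * (M : ℝ)) < ε / 2 := by
      rw [div_lt_div_iff₀ (by positivity) (by norm_num)]
      rw [div_lt_iff₀ (by positivity)] at hMbig
      nlinarith
    have h9 : -(2 / ε) * ((2 + -2) ^ 2 + 4 / (M : ℝ)) = -(8 / (ε * (M : ℝ))) := by
      field_simp
      ring
    rw [h9] at hmono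
    linarith

end Crest.Agent.TruncExp
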