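import Crest.Agent.Lib.TruncExpU0

/-!
Integrals over the positive orthant against `exp (-∑ x_i)`: integrability, peeling off one
coordinate, and the propagation of `Nice` along a finite family of exponential variables.
-/

open MeasureTheory Set Real Filter Topology

namespace Crest.Agent.TruncExp

/-- The positive orthant. -/
def Orth (N : ℕ) : Set (Fin N → ℝ) := Set.pi Set.univ (fun _ : Fin N => Set.Ioi (0 : ℝ))

lemma measurableSet_Orth (N : ℕ) : MeasurableSet (Orth N) :=
  MeasurableSet.univ_pi fun _ => measurableSet_Ioi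

/-- The expectation of `φ (∑ a_i X_i)` for independent exponential variables. -/
noncomputable def I (N : ℕ) (a : Fin N → ℝ) (φ : ℝ → ℝ) : ℝ :=
  ∫ x in Orth N, φ (∑ i, a i * x i) * exp (-∑ i, x i)

lemma integrableOn_orth_exp_half (N : ℕ) :
    IntegrableOn (fun x : Fin N → ℝ => exp (-((∑ i, x i) / 2))) (Orth N) := by
  set f : ℝ → ℝ := (Ioi (0 : ℝ)).indicator (fun x => exp (-((1 / 2) * x))) with hf
  have hfi : Integrable f volume := by
    rw [hf, integrable_indicator_iff measurableSet_Ioi]
    exact integrableOn_exp_neg_mul (by norm_num)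
  have hprod : Integrable (fun x : Fin N → ℝ => ∏ i, f (x i)) volume := by
    have := Integrable.fintype_prod (ι := Fin N) (f := fun _ => f) (μ := fun _ => volume)
      (fun _ => hfi)
    simpa [volume_pi] using this
  refine (hprod.integrableOn (s := Orth N)).congr_fun (fun x hx => ?_) (measurableSet_Orth N)
  have : ∀ i, f (x i) = exp (-((1 / 2) * x i)) := by
    intro i
    have hxi : x i ∈ Ioi (0 : ℝ) := hx i (mem_univ i)
    simp only [hf, indicator_of_mem hxi]
  simp only [this]
  rw [← Real.exp_sum]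
  congr 1
  rw [Finset.sum_neg_distrib, ← Finset.mul_sum]
  ring

lemma sum_mul_abs_le {N : ℕ} (a x : Fin N → ℝ) (hx : x ∈ Orth N) :
    |∑ i, a i * x i| ≤ (∑ i, |a i|) * ∑ i, x i := by
  have hpos : ∀ i, 0 < x i := fun i => hx i (mem_univ i)
  calc |∑ i, a i * x i| ≤ ∑ i, |a i * x i| := Finset.abs_sum_le_sum_abs _ _
    _ = ∑ i, |a i| * x i := by
        refine Finset.sum_congr rfl fun i _ => ?_
        rw [abs_mul, abs_of_pos (hpos i)]
    _ ≤ ∑ i, |a i| * ∑ j, x j := by
        refine Finset.sum_le_sum fun i _ => ?_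
        refine mul_le_mul_of_nonneg_left ?_ (abs_nonneg _)
        exact Finset.single_le_sum (f := x) (fun j _ => (hpos j).le) (Finset.mem_univ i)
    _ = (∑ i, |a i|) * ∑ i, x i := by rw [Finset.sum_mul]

/-- Integrability over the orthant, for quadratically bounded integrands. -/
lemma integrableOn_I_quad {φ : ℝ → ℝ} (hc : Continuous φ) {A B : ℝ} (hB : 0 ≤ B)
    (h : ∀ y, |φ y| ≤ A + B * y ^ 2) {N : ℕ} (a : Fin N → ℝ) :
    IntegrableOn (fun x : Fin N → ℝ => φ (∑ i, a i * x i) * exp (-∑ i, x i)) (Orth N) := by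
  set L := ∑ i, |a i| with hL
  have hL0 : 0 ≤ L := Finset.sum_nonneg fun i _ => abs_nonneg _
  have hint := (integrableOn_orth_exp_half N).const_mul (|A| + 8 * B * L ^ 2)
  refine Integrable.mono' hint ?_ ?_
  · have : Continuous (fun x : Fin N → ℝ => φ (∑ i, a i * x i) * exp (-∑ i, x i)) := by
      apply Continuous.mul
      · exact hc.comp (by fun_prop)
      · fun_prop
    exact this.aestronglyMeasurable
  · refine (ae_restrict_iff' (measurableSet_Orth N)).2 (Eventually.of_forall fun x hx => ?_)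
    set S := ∑ i, x i with hS
    have hS0 : 0 ≤ S := Finset.sum_nonneg fun i _ => (hx i (mem_univ i)).le
    rw [Real.norm_eq_abs, abs_mul, abs_of_pos (exp_pos _)]
    have h1 : |φ (∑ i, a i * x i)| ≤ A + B * (L * S) ^ 2 := by
      refine (h _).trans ?_
      have h2 := sum_mul_abs_le a x hx
      have h3 : (∑ i, a i * x i) ^ 2 ≤ (L * S) ^ 2 := by
        rw [← sq_abs (∑ i, a i * x i)]
        exact pow_le_pow_left₀ (abs_nonneg _) h2 2
      have := mul_le_mul_of_nonneg_left h3 hB
      linarith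
    have h2 : A + B * (L * S) ^ 2 ≤ (|A| + 8 * B * L ^ 2) * exp (S / 2) := by
      have h3 : 1 + S / 2 + (S / 2) ^ 2 / 2 ≤ exp (S / 2) :=
        Real.quadratic_le_exp_of_nonneg (by positivity)
      have h4 : 0 ≤ |A| + 8 * B * L ^ 2 := by positivity
      have h5 : (|A| + 8 * B * L ^ 2) * (1 + S / 2 + (S / 2) ^ 2 / 2)
          ≤ (|A| + 8 * B * L ^ 2) * exp (S / 2) :=
        mul_le_mul_of_nonneg_left h3 h4
      have h6 : A ≤ |A| := le_abs_self A
      have h7 : 0 ≤ |A| * S := by positivity
      have h7' : 0 ≤ |A| * S ^ 2 := by positivity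
      have h8 : 0 ≤ B * L ^ 2 := by positivity
      have h9 : 0 ≤ B * L ^ 2 * S := by positivity
      nlinarith
    have h3 : exp (S / 2) * exp (-S) = exp (-(S / 2)) := by
      rw [← exp_add]
      congr 1
      ring
    calc |φ (∑ i, a i * x i)| * exp (-S)
        ≤ ((|A| + 8 * B * L ^ 2) * exp (S / 2)) * exp (-S) :=
          mul_le_mul_of_nonneg_right (h1.trans h2) (exp_pos _).le
      _ = (|A| + 8 * B * L ^ 2) * exp (-(S / 2)) := by rw [mul_assoc, h3]

/-- Integrability over the orthant. -/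
lemma integrableOn_I {φ : ℝ → ℝ} (hc : Continuous φ) (hg : LinGrowth φ) {N : ℕ} (a : Fin N → ℝ) :
    IntegrableOn (fun x : Fin N → ℝ => φ (∑ i, a i * x i) * exp (-∑ i, x i)) (Orth N) := by
  obtain ⟨A, B, hB, h⟩ := hg
  refine integrableOn_I_quad hc (A := A + B) (B := B) hB (fun y => (h y).trans ?_) a
  have : |y| ≤ 1 + y ^ 2 := by
    rw [← sq_abs y]
    nlinarith [sq_nonneg (|y| - 1), abs_nonneg y]
  have := mul_le_mul_of_nonneg_left this hB
  linarith

/-- Peeling off one coordinate. -/
theorem I_succ' {φ : ℝ → ℝ} {N : ℕ}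
    (a : Fin (N + 1) → ℝ) (i : Fin (N + 1))
    (h0 : IntegrableOn (fun x : Fin (N + 1) → ℝ => φ (∑ i, a i * x i) * exp (-∑ i, x i))
      (Orth (N + 1))) :
    I (N + 1) a φ = I N (fun k => a (i.succAbove k))
      (fun y => ∫ u in Ioi (0 : ℝ), φ (y + a i * u) * exp (-u)) := by
  set e := MeasurableEquiv.piFinSuccAbove (fun _ : Fin (N + 1) => ℝ) i with he
  have mp : MeasurePreserving e volume volume :=
    volume_preserving_piFinSuccAbove (fun _ : Fin (N + 1) => ℝ) i
  set g : ℝ × (Fin N → ℝ) → ℝ := fun p =>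
    φ (a i * p.1 + ∑ k, a (i.succAbove k) * p.2 k) * exp (-(p.1 + ∑ k, p.2 k)) with hgdef
  have he_apply : ∀ x, e x = (x i, fun k => x (i.succAbove k)) := fun x => rfl
  have hpre : e ⁻¹' (Ioi 0 ×ˢ Orth N) = Orth (N + 1) := by
    ext x
    rw [mem_preimage, he_apply]
    simp only [Orth, mem_prod, Set.mem_pi, mem_univ, forall_true_left, mem_Ioi]
    constructor
    · rintro ⟨h0, h1⟩ j
      rcases Fin.eq_self_or_eq_succAbove i j with rfl | ⟨k, rfl⟩
      · exact h0
      · exact h1 k
    · intro h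
      exact ⟨h i, fun k => h _⟩
  have hcomp : ∀ x, g (e x) = φ (∑ j, a j * x j) * exp (-∑ j, x j) := by
    intro x
    rw [he_apply]
    simp only [hgdef]
    rw [Fin.sum_univ_succAbove (fun j => a j * x j) i, Fin.sum_univ_succAbove (fun j => x j) i]
  have hI : I (N + 1) a φ = ∫ z in Ioi (0 : ℝ) ×ˢ Orth N, g z := by
    have := mp.setIntegral_preimage_emb e.measurableEmbedding g (Ioi 0 ×ˢ Orth N)
    rw [← this, hpre]
    unfold I
    refine setIntegral_congr_fun (measurableSet_Orth _) (fun x _ => ?_)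
    exact (hcomp x).symm
  have hgint : IntegrableOn g (Ioi (0 : ℝ) ×ˢ Orth N) := by
    rw [← mp.integrableOn_comp_preimage e.measurableEmbedding, hpre]
    refine h0.congr_fun (fun x _ => ?_) (measurableSet_Orth _)
    exact (hcomp x).symm
  rw [hI]
  have hprod : (volume : Measure (ℝ × (Fin N → ℝ))).restrict (Ioi (0 : ℝ) ×ˢ Orth N)
      = (volume.restrict (Ioi (0 : ℝ))).prod (volume.restrict (Orth N)) := by
    rw [Measure.prod_restrict, Measure.volume_eq_prod]
  have hgint' : Integrable g ((volume.restrict (Ioi (0 : ℝ))).prod (volume.restrict (Orth N))) := by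
    rw [← hprod]
    exact hgint
  rw [hprod, integral_prod_symm g hgint']
  unfold I
  refine setIntegral_congr_fun (measurableSet_Orth _) (fun v _ => ?_)
  simp only [hgdef]
  rw [← integral_mul_const]
  refine setIntegral_congr_fun measurableSet_Ioi (fun u _ => ?_)
  have e1 : a i * u + ∑ k, a (i.succAbove k) * v k = ∑ k, a (i.succAbove k) * v k + a i * u := by
    ring
  have e2 : -(u + ∑ k, v k) = -u + -∑ k, v k := by ring
  rw [e1, e2, exp_add]
  ring

theorem I_succ {φ : ℝ → ℝ} (hc : Continuous φ) (hg : LinGrowth φ) {N : ℕ}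
    (a : Fin (N + 1) → ℝ) (i : Fin (N + 1)) :
    I (N + 1) a φ = I N (fun k => a (i.succAbove k))
      (fun y => ∫ u in Ioi (0 : ℝ), φ (y + a i * u) * exp (-u)) :=
  I_succ' a i (integrableOn_I hc hg a)

lemma I_zero (a : Fin 0 → ℝ) (φ : ℝ → ℝ) : I 0 a φ = φ 0 := by
  unfold I Orth
  have : (Set.pi Set.univ (fun _ : Fin 0 => Set.Ioi (0 : ℝ))) = Set.univ := by
    ext x
    simp
  rw [this, Measure.restrict_univ]
  simp only [Finset.univ_eq_empty, Finset.sum_empty, neg_zero, exp_zero, mul_one]
  rw [volume_pi, Measure.pi_of_empty (fun _ : Fin 0 => (volume : Measure ℝ))]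
  rw [integral_dirac]

lemma LinGrowth.const (β : ℝ) : LinGrowth (fun _ => β) :=
  ⟨|β|, 0, le_rfl, fun _ => by simp⟩

lemma I_const (N : ℕ) (a : Fin N → ℝ) (β : ℝ) : I N a (fun _ => β) = β := by
  induction N with
  | zero => exact I_zero a _
  | succ N ih =>
    rw [I_succ continuous_const (LinGrowth.const β) a 0]
    have : (fun y : ℝ => ∫ u in Ioi (0 : ℝ), β * exp (-u)) = fun _ => β := by
      funext y
      rw [integral_const_mul, integral_exp_neg', mul_one]
    rw [this]
    exact ih _

lemma LinGrowth.sub_left {U : ℝ → ℝ} (hg : LinGrowth U) (t : ℝ) :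
    LinGrowth (fun y => U (t - y)) := by
  obtain ⟨A, B, hB, h⟩ := hg
  refine ⟨A + B * |t|, B, hB, fun y => ?_⟩
  refine (h _).trans ?_
  have : |t - y| ≤ |t| + |y| := abs_sub _ _
  have := mul_le_mul_of_nonneg_left this hB
  linarith

/-- Propagation along the whole family. -/
theorem nice_chain {N : ℕ} (a : Fin N → ℝ) {U : ℝ → ℝ} {m : ℝ} (hU : Nice U)
    (hL : ∀ t, m - t ≤ U t) :
    Nice (fun t => I N a (fun y => U (t - y))) ∧
      ∀ t, m + ∑ i, a i - t ≤ I N a (fun y => U (t - y)) := by
  induction N generalizing U m with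
  | zero =>
    have e : (fun t => I 0 a (fun y => U (t - y))) = U := by
      funext t
      rw [I_zero]
      simp
    rw [e]
    refine ⟨hU, fun t => ?_⟩
    rw [show I 0 a (fun y => U (t - y)) = U t by rw [I_zero]; simp]
    simpa using hL t
  | succ N ih =>
    have e : ∀ t, I (N + 1) a (fun y => U (t - y))
        = I N (fun k => a (Fin.succ k)) (fun y => T (a 0) U (t - y)) := by
      intro t
      have hc : Continuous (fun y => U (t - y)) := hU.cont.comp (by fun_prop)
      rw [I_succ hc (hU.growth.sub_left t) a 0]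
      have e1 : (fun k : Fin N => a ((0 : Fin (N + 1)).succAbove k)) = fun k => a (Fin.succ k) := by
        funext k
        simp
      rw [e1]
      congr 1
      funext y
      unfold T
      refine setIntegral_congr_fun measurableSet_Ioi (fun u _ => ?_)
      congr 2
      ring
    have hT := hU.T (a 0)
    have hTL : ∀ t, (m + a 0) - t ≤ T (a 0) U t := T_lower hU.cont hU.growth hL (a 0)
    obtain ⟨h1, h2⟩ := ih (fun k => a (Fin.succ k)) hT hTL
    have e2 : (fun t => I (N + 1) a (fun y => U (t - y)))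
        = fun t => I N (fun k => a (Fin.succ k)) (fun y => T (a 0) U (t - y)) := by
      funext t
      exact e t
    rw [e2]
    refine ⟨h1, fun t => ?_⟩
    have := h2 t
    rw [Fin.sum_univ_succ, e t]
    linarith

/-- The quadratic moment. -/
lemma I_quad {N : ℕ} (a : Fin N → ℝ) (κ γ β : ℝ) :
    I N a (fun y => κ * (y + γ) ^ 2 + β) = κ * ((γ + ∑ i, a i) ^ 2 + ∑ i, a i ^ 2) + β := by
  induction N generalizing γ β with
  | zero =>
    rw [I_zero]
    simp
  | succ N ih =>
    have hc : Continuous (fun y : ℝ => κ * (y + γ) ^ 2 + β) := by fun_prop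
    have hb : ∀ y : ℝ, |κ * (y + γ) ^ 2 + β| ≤ (|β| + 2 * |κ| * γ ^ 2) + (2 * |κ|) * y ^ 2 := by
      intro y
      have h1 : |κ * (y + γ) ^ 2 + β| ≤ |κ * (y + γ) ^ 2| + |β| := abs_add_le _ _
      have h2 : |κ * (y + γ) ^ 2| = |κ| * (y + γ) ^ 2 := by
        rw [abs_mul, abs_of_nonneg (sq_nonneg (y + γ))]
      have h3 : (y + γ) ^ 2 ≤ 2 * γ ^ 2 + 2 * y ^ 2 := by nlinarith [sq_nonneg (y - γ)]
      have h4 := mul_le_mul_of_nonneg_left h3 (abs_nonneg κ)
      rw [h2] at h1
      nlinarith
    rw [I_succ' a 0 (integrableOn_I_quad hc (by positivity) hb a)]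
    have e1 : (fun k : Fin N => a ((0 : Fin (N + 1)).succAbove k)) = fun k => a (Fin.succ k) := by
      funext k
      simp
    rw [e1]
    have e2 : (fun y : ℝ => ∫ u in Ioi (0 : ℝ), (κ * (y + a 0 * u + γ) ^ 2 + β) * exp (-u))
        = fun y => κ * (y + (γ + a 0)) ^ 2 + (κ * a 0 ^ 2 + β) := by
      funext y
      set z := y + γ with hz
      have h3 : ∀ u : ℝ, (κ * (y + a 0 * u + γ) ^ 2 + β) * exp (-u)
          = (κ * z ^ 2 + β) * exp (-u) + (2 * κ * z * a 0) * (u * exp (-u))
            + (κ * a 0 ^ 2) * (u ^ 2 * exp (-u)) := by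
        intro u
        rw [hz]
        ring
      simp only [h3]
      rw [integral_add, integral_add, integral_const_mul, integral_const_mul, integral_const_mul,
        integral_exp_neg', integral_mul_exp_neg, integral_sq_mul_exp_neg]
      · rw [hz]
        ring
      · exact integrableOn_exp_neg.const_mul _
      · exact integrableOn_mul_exp_neg.const_mul _
      · exact (integrableOn_exp_neg.const_mul _).add (integrableOn_mul_exp_neg.const_mul _)
      · exact integrableOn_sq_mul_exp_neg.const_mul _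
    rw [e2, ih, Fin.sum_univ_succ, Fin.sum_univ_succ]
    ring

end Crest.Agent.TruncExp
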