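import Crest.Agent.Lib.TruncExpBasic

/-!
The one-step smoothing operator `T a U t = ∫_{x>0} U (t - a x) e^{-x} dx` and preservation of
log-concavity (in the elementary form needed for S0423).
-/

open MeasureTheory Set Real Filter Topology

namespace Crest.Agent.TruncExp

/-- Linear growth of a real function. -/
def LinGrowth (φ : ℝ → ℝ) : Prop := ∃ A B : ℝ, 0 ≤ B ∧ ∀ y, |φ y| ≤ A + B * |y|

/-- The smoothing operator. -/
noncomputable def T (a : ℝ) (U : ℝ → ℝ) (t : ℝ) : ℝ :=
  ∫ x in Ioi (0 : ℝ), U (t - a * x) * exp (-x)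

lemma LinGrowth.bound_shift {φ : ℝ → ℝ} {A B : ℝ} (hB : 0 ≤ B) (h : ∀ y, |φ y| ≤ A + B * |y|)
    (t a x : ℝ) (hx : 0 < x) : |φ (t + a * x)| ≤ A + B * |t| + B * |a| * x := by
  have h1 := h (t + a * x)
  have h2 : |t + a * x| ≤ |t| + |a| * x := by
    calc |t + a * x| ≤ |t| + |a * x| := abs_add_le _ _
      _ = |t| + |a| * x := by rw [abs_mul, abs_of_pos hx]
  have h3 := mul_le_mul_of_nonneg_left h2 hB
  nlinarith

lemma integrableOn_lin_mul_exp (P Q : ℝ) :
    IntegrableOn (fun x : ℝ => (P + Q * x) * exp (-x)) (Ioi 0) := by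
  have h1 := integrableOn_exp_neg.const_mul P
  have h2 := integrableOn_mul_exp_neg.const_mul Q
  have h3 : IntegrableOn (fun x : ℝ => P * exp (-x) + Q * (x * exp (-x))) (Ioi 0) := h1.add h2
  refine h3.congr_fun (fun x _ => ?_) measurableSet_Ioi
  ring

lemma integral_lin_mul_exp (P Q : ℝ) :
    ∫ x in Ioi (0 : ℝ), (P + Q * x) * exp (-x) = P + Q := by
  have h1 := integrableOn_exp_neg.const_mul P
  have h2 := integrableOn_mul_exp_neg.const_mul Q
  have : ∫ x in Ioi (0 : ℝ), (P + Q * x) * exp (-x)
      = ∫ x in Ioi (0 : ℝ), (P * exp (-x) + Q * (x * exp (-x))) := by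
    refine setIntegral_congr_fun measurableSet_Ioi (fun x _ => ?_)
    ring
  rw [this, integral_add h1 h2, integral_const_mul, integral_const_mul, integral_exp_neg',
    integral_mul_exp_neg]
  ring

/-- Integrability of the integrand of `S_a φ`. -/
lemma integrableOn_comp_mul_exp {φ : ℝ → ℝ} (hc : Continuous φ) (hg : LinGrowth φ) (t a : ℝ) :
    IntegrableOn (fun x : ℝ => φ (t + a * x) * exp (-x)) (Ioi 0) := by
  obtain ⟨A, B, hB, h⟩ := hg
  have hint := integrableOn_lin_mul_exp (A + B * |t|) (B * |a|)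
  refine Integrable.mono' hint ?_ ?_
  · exact ((hc.comp (by fun_prop)).mul (by fun_prop)).aestronglyMeasurable
  · refine (ae_restrict_iff' measurableSet_Ioi).2 (Eventually.of_forall fun x hx => ?_)
    have hx' : (0 : ℝ) < x := hx
    have := LinGrowth.bound_shift hB h t a x hx'
    rw [Real.norm_eq_abs, abs_mul, abs_of_pos (exp_pos _)]
    exact mul_le_mul_of_nonneg_right this (exp_pos _).le

lemma integrableOn_T {U : ℝ → ℝ} (hc : Continuous U) (hg : LinGrowth U) (a t : ℝ) :
    IntegrableOn (fun x : ℝ => U (t - a * x) * exp (-x)) (Ioi 0) := by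
  have := integrableOn_comp_mul_exp hc hg t (-a)
  refine this.congr_fun (fun x _ => ?_) measurableSet_Ioi
  simp only [neg_mul, sub_eq_add_neg]

lemma setIntegral_Ioi_shift (f : ℝ → ℝ) (c : ℝ) :
    ∫ x in Ioi c, f x = ∫ z in Ioi (0 : ℝ), f (z + c) := by
  have h := (measurePreserving_add_right (volume : Measure ℝ) c).setIntegral_preimage_emb
    (measurableEmbedding_addRight c) f (Ioi c)
  have h2 : (fun x : ℝ => x + c) ⁻¹' Ioi c = Ioi 0 := by
    ext x
    simp
  rw [h2] at h
  exact h.symm

/-- growth of `T`. -/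
lemma T_abs_le {U : ℝ → ℝ} (hc : Continuous U) {A B : ℝ} (hB : 0 ≤ B)
    (h : ∀ y, |U y| ≤ A + B * |y|) (a t : ℝ) :
    |T a U t| ≤ A + B * |a| + B * |t| := by
  have hint := integrableOn_T hc ⟨A, B, hB, h⟩ a t
  have h1 : |T a U t| ≤ ∫ x in Ioi (0 : ℝ), |U (t - a * x) * exp (-x)| :=
    abs_integral_le_integral_abs
  refine h1.trans ?_
  have h2 : ∫ x in Ioi (0 : ℝ), |U (t - a * x) * exp (-x)|
      ≤ ∫ x in Ioi (0 : ℝ), (A + B * |t| + B * |a| * x) * exp (-x) := by
    refine setIntegral_mono_on hint.abs (integrableOn_lin_mul_exp _ _) measurableSet_Ioi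
      (fun x hx => ?_)
    have hx' : (0 : ℝ) < x := hx
    have := LinGrowth.bound_shift hB h t (-a) x hx'
    rw [abs_mul, abs_of_pos (exp_pos _)]
    refine mul_le_mul_of_nonneg_right ?_ (exp_pos _).le
    simpa [sub_eq_add_neg, abs_neg] using this
  refine h2.trans ?_
  rw [integral_lin_mul_exp]
  linarith

lemma LinGrowth.T {U : ℝ → ℝ} (hc : Continuous U) (hg : LinGrowth U) (a : ℝ) :
    LinGrowth (T a U) := by
  obtain ⟨A, B, hB, h⟩ := hg
  exact ⟨A + B * |a|, B, hB, fun t => T_abs_le hc hB h a t⟩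

/-- lower linear bound of `T`. -/
lemma T_lower {U : ℝ → ℝ} (hc : Continuous U) (hg : LinGrowth U) {m : ℝ}
    (hL : ∀ t, m - t ≤ U t) (a t : ℝ) : m + a - t ≤ T a U t := by
  have hint := integrableOn_T hc hg a t
  have h2 : ∫ x in Ioi (0 : ℝ), ((m - t) + a * x) * exp (-x) ≤ T a U t := by
    refine setIntegral_mono_on (integrableOn_lin_mul_exp _ _) hint measurableSet_Ioi
      (fun x _ => ?_)
    refine mul_le_mul_of_nonneg_right ?_ (exp_pos _).le
    have := hL (t - a * x)
    linarith
  rw [integral_lin_mul_exp] at h2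
  linarith

section Deriv

variable {U : ℝ → ℝ} {a : ℝ}

/-- integrability of the kernel used for the derivative computation. -/
lemma integrableOn_kernel (hc : Continuous U) (hg : LinGrowth U) (ha : 0 < a) (τ : ℝ) :
    IntegrableOn (fun z : ℝ => U (-z) * exp (-(z / a))) (Ioi τ) := by
  obtain ⟨A, B, hB, h⟩ := hg
  have ha2 : 0 < (1 / (2 * a)) := by positivity
  have ha1 : 0 < (1 / a) := by positivity
  have h1 := exp_neg_integrableOn_Ioi τ ha1
  have h2 := exp_neg_integrableOn_Ioi τ ha2
  have hint : IntegrableOn (fun z : ℝ =>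
      (A + B * |τ|) * exp (-(1 / a) * z) + (B * (2 * a) * exp (-(τ / (2 * a)))) *
        exp (-(1 / (2 * a)) * z)) (Ioi τ) := (h1.const_mul _).add (h2.const_mul _)
  refine Integrable.mono' hint ?_ ?_
  · exact ((hc.comp (by fun_prop)).mul (by fun_prop)).aestronglyMeasurable
  · refine (ae_restrict_iff' measurableSet_Ioi).2 (Eventually.of_forall fun z hz => ?_)
    have hz' : τ < z := hz
    rw [Real.norm_eq_abs, abs_mul, abs_of_pos (exp_pos _)]
    have hU := h (-z)
    rw [abs_neg] at hU
    -- |z| ≤ |τ| + 2 a exp ((z-τ)/(2a))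
    have hexp : (z - τ) / (2 * a) + 1 ≤ exp ((z - τ) / (2 * a)) := Real.add_one_le_exp _
    have hz2 : |z| ≤ |τ| + (2 * a) * exp ((z - τ) / (2 * a)) := by
      have h3 : |z| ≤ |τ| + |z - τ| := by
        have := abs_add_le τ (z - τ)
        simpa using this
      rw [abs_of_pos (sub_pos.2 hz')] at h3
      have h4 : z - τ = (2 * a) * ((z - τ) / (2 * a)) := by field_simp
      have h5 : (2 * a) * ((z - τ) / (2 * a) + 1) ≤ (2 * a) * exp ((z - τ) / (2 * a)) :=
        mul_le_mul_of_nonneg_left hexp (by positivity)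
      have h6 : (2 * a) * ((z - τ) / (2 * a) + 1) = (z - τ) + 2 * a := by
        field_simp
      linarith
    have hE : exp (-(z / a)) * exp ((z - τ) / (2 * a))
        = exp (-(τ / (2 * a))) * exp (-(1 / (2 * a)) * z) := by
      rw [← exp_add, ← exp_add]
      congr 1
      field_simp
      ring
    have hE1 : exp (-(z / a)) = exp (-(1 / a) * z) := by
      congr 1
      field_simp
    calc |U (-z)| * exp (-(z / a))
        ≤ (A + B * (|τ| + (2 * a) * exp ((z - τ) / (2 * a)))) * exp (-(z / a)) := by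
          refine mul_le_mul_of_nonneg_right ?_ (exp_pos _).le
          have := mul_le_mul_of_nonneg_left hz2 hB
          linarith
      _ = (A + B * |τ|) * exp (-(z / a)) +
            (B * (2 * a)) * (exp (-(z / a)) * exp ((z - τ) / (2 * a))) := by ring
      _ = _ := by rw [hE, hE1]; ring

/-- The function `L τ = ∫_{z>τ} f z`. -/
noncomputable def kerL (U : ℝ → ℝ) (a τ : ℝ) : ℝ :=
  ∫ z in Ioi τ, U (-z) * exp (-(z / a))

lemma T_eq_kerL (ha : 0 < a) (t : ℝ) :
    T a U t = (1 / a) * exp (-(t / a)) * kerL U a (-t) := by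
  set f : ℝ → ℝ := fun z => U (-z) * exp (-(z / a)) with hf
  have h1 : T a U t = ∫ x in Ioi (0 : ℝ), exp (-(t / a)) * f (a * x - t) := by
    refine setIntegral_congr_fun measurableSet_Ioi (fun x _ => ?_)
    simp only [hf]
    have : -(a * x - t) = t - a * x := by ring
    rw [this]
    have hE : exp (-x) = exp (-(t / a)) * exp (-((a * x - t) / a)) := by
      rw [← exp_add]
      congr 1
      field_simp
      ring
    rw [hE]
    ring
  rw [h1, integral_const_mul]
  have h2 : ∫ x in Ioi (0 : ℝ), f (a * x - t) = a⁻¹ * ∫ u in Ioi (0 : ℝ), f (u - t) := by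
    have := integral_comp_mul_left_Ioi (fun u => f (u - t)) 0 ha
    simp only [mul_zero, smul_eq_mul] at this
    exact this
  rw [h2]
  have h3 : kerL U a (-t) = ∫ u in Ioi (0 : ℝ), f (u - t) := by
    unfold kerL
    rw [setIntegral_Ioi_shift]
    simp only [hf, sub_eq_add_neg]
  rw [h3]
  field_simp

lemma kerL_hasDerivAt (hc : Continuous U) (hg : LinGrowth U) (ha : 0 < a) (τ : ℝ) :
    HasDerivAt (kerL U a) (-(U (-τ) * exp (-(τ / a)))) τ := by
  set f : ℝ → ℝ := fun z => U (-z) * exp (-(z / a)) with hf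
  have hfc : Continuous f := by
    simp only [hf]
    exact (hc.comp (by fun_prop)).mul (by fun_prop)
  have hint := fun τ => integrableOn_kernel hc hg ha τ
  have hL : kerL U a = fun τ => kerL U a 0 - ∫ z in (0 : ℝ)..τ, f z := by
    funext τ
    have h := intervalIntegral.integral_interval_add_Ioi (hint 0) (hint τ)
    unfold kerL at *
    simp only [hf] at h ⊢
    linarith
  rw [hL]
  have hd : HasDerivAt (fun τ => ∫ z in (0 : ℝ)..τ, f z) (f τ) τ :=
    intervalIntegral.integral_hasDerivAt_right (hfc.intervalIntegrable 0 τ)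
      (hfc.stronglyMeasurableAtFilter volume (nhds τ))
      hfc.continuousAt
  exact (hd.const_sub _)

/-- The ODE satisfied by `T a U`. -/
lemma T_hasDerivAt (hc : Continuous U) (hg : LinGrowth U) (ha : 0 < a) (t : ℝ) :
    HasDerivAt (T a U) ((U t - T a U t) / a) t := by
  have hT : T a U = fun t => (1 / a) * exp (-(t / a)) * kerL U a (-t) := by
    funext s
    exact T_eq_kerL ha s
  have h1 : HasDerivAt (fun t : ℝ => exp (-(t / a))) (exp (-(t / a)) * (-(1 / a))) t := by
    have : HasDerivAt (fun t : ℝ => -(t / a)) (-(1 / a)) t :=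
      ((hasDerivAt_id' t).div_const a).fun_neg
    exact this.exp
  have h2 : HasDerivAt (fun t : ℝ => kerL U a (-t)) (U t * exp (t / a)) t := by
    have h3 := kerL_hasDerivAt hc hg ha (-t)
    have h4 : HasDerivAt (kerL U a ∘ fun t : ℝ => -t) ((-1 : ℝ) • (-(U (- -t) * exp (-(-t / a))))) t :=
      h3.scomp t (hasDerivAt_neg t)
    have e : (-1 : ℝ) • (-(U (- -t) * exp (-(-t / a)))) = U t * exp (t / a) := by
      simp [neg_div]
    rw [e] at h4
    exact h4
  have h5 := ((h1.const_mul (1 / a)).fun_mul h2)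
  have hE : exp (-(t / a)) * exp (t / a) = 1 := by
    rw [← exp_add]; simp
  have h6 : (1 / a * (exp (-(t / a)) * -(1 / a))) * kerL U a (-t)
      + (1 / a) * exp (-(t / a)) * (U t * exp (t / a)) = (U t - T a U t) / a := by
    rw [T_eq_kerL ha t]
    have : (1 / a) * exp (-(t / a)) * (U t * exp (t / a))
        = (1 / a) * U t * (exp (-(t / a)) * exp (t / a)) := by ring
    rw [this, hE]
    field_simp
    ring
  rw [h6] at h5
  exact h5.congr_of_eventuallyEq (Eventually.of_forall fun s => T_eq_kerL ha s)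

end Deriv

/-- The four-point inequality (Pólya frequency of order two). -/
def PF2 (U : ℝ → ℝ) : Prop :=
  ∀ s t x : ℝ, s ≤ t → 0 ≤ x → U t * U (s - x) ≤ U s * U (t - x)

theorem logConcave_T {U : ℝ → ℝ} {a : ℝ} (hc : Continuous U) (hg : LinGrowth U)
    (hpf : PF2 U) (ha : 0 < a) (hV : ∀ t, 0 < T a U t) :
    ConcaveOn ℝ univ (fun t => log (T a U t)) := by
  have hd : ∀ t, HasDerivAt (fun t => log (T a U t)) (((U t - T a U t) / a) / T a U t) t :=
    fun t => (T_hasDerivAt hc hg ha t).log (hV t).ne'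
  have hderiv : deriv (fun t => log (T a U t)) = fun t => ((U t - T a U t) / a) / T a U t := by
    funext t
    exact (hd t).deriv
  have hdiff : Differentiable ℝ (fun t => log (T a U t)) := fun t => (hd t).differentiableAt
  refine AntitoneOn.concaveOn_of_deriv convex_univ hdiff.continuous.continuousOn
    hdiff.differentiableOn ?_
  rw [hderiv]
  intro s _ t _ hst
  simp only
  have key : U t * T a U s ≤ U s * T a U t := by
    have hint1 := integrableOn_T hc hg a s
    have hint2 := integrableOn_T hc hg a t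
    unfold T
    rw [← integral_const_mul, ← integral_const_mul]
    refine setIntegral_mono_on (hint1.const_mul _) (hint2.const_mul _) measurableSet_Ioi
      (fun x hx => ?_)
    have hx' : (0 : ℝ) < x := hx
    have := hpf s t (a * x) hst (by positivity)
    have he := (exp_pos (-x)).le
    nlinarith [mul_le_mul_of_nonneg_right this he]
  have hVs := hV s
  have hVt := hV t
  have h1 : U t / T a U t ≤ U s / T a U s := by
    rw [div_le_div_iff₀ hVt hVs]
    linarith
  have h2 : ((U t - T a U t) / a) / T a U t = (U t / T a U t - 1) / a := by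
    field_simp
  have h3 : ((U s - T a U s) / a) / T a U s = (U s / T a U s - 1) / a := by
    field_simp
  rw [h2, h3]
  exact div_le_div_of_nonneg_right (by linarith) ha.le

/-- The class of functions we propagate. -/
structure Nice (U : ℝ → ℝ) : Prop where
  cont : Continuous U
  growth : LinGrowth U
  pos : ∀ t, 0 < U t
  lc : ConcaveOn ℝ univ (fun t => log (U t))

/-- four-point inequality for concave functions -/
lemma four_point_concave {f : ℝ → ℝ} (hf : ConcaveOn ℝ univ f) {p q r w : ℝ}
    (hpq : p ≤ q) (hqw : q ≤ w) (hpr : p ≤ r) (hrw : r ≤ w) (hs : q + r = p + w) :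
    f p + f w ≤ f q + f r := by
  rcases eq_or_lt_of_le (hpq.trans hqw) with hpw | hpw
  · have h1 : q = p := le_antisymm (hqw.trans hpw.ge) hpq
    have h2 : r = p := le_antisymm (hrw.trans hpw.ge) hpr
    rw [h1, h2, ← hpw]
  · have hd : 0 < w - p := sub_pos.2 hpw
    set θ := (q - p) / (w - p) with hθ
    have hθ0 : 0 ≤ θ := div_nonneg (sub_nonneg.2 hpq) hd.le
    have hθ1 : θ ≤ 1 := by
      rw [hθ, div_le_one hd]
      linarith
    have hq : q = (1 - θ) * p + θ * w := by
      rw [hθ]
      field_simp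
      ring
    have hr : r = θ * p + (1 - θ) * w := by
      have : r = p + w - q := by linarith
      rw [this, hq]
      ring
    have h1 := hf.2 (mem_univ p) (mem_univ w) (by linarith : 0 ≤ 1 - θ) hθ0 (by ring)
    have h2 := hf.2 (mem_univ p) (mem_univ w) hθ0 (by linarith : 0 ≤ 1 - θ) (by ring)
    simp only [smul_eq_mul] at h1 h2
    rw [← hq] at h1
    rw [← hr] at h2
    nlinarith

lemma Nice.pf2 {U : ℝ → ℝ} (h : Nice U) : PF2 U := by
  intro s t x hst hx
  have hfp := four_point_concave h.lc (p := s - x) (q := s) (r := t - x) (w := t)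
    (by linarith) hst (by linarith) (by linarith) (by ring)
  have e1 : log (U (s - x)) + log (U t) = log (U t * U (s - x)) := by
    rw [Real.log_mul (h.pos _).ne' (h.pos _).ne']
    ring
  have e2 : log (U s) + log (U (t - x)) = log (U s * U (t - x)) := by
    rw [Real.log_mul (h.pos _).ne' (h.pos _).ne']
  rw [e1, e2] at hfp
  exact (Real.log_le_log_iff (mul_pos (h.pos _) (h.pos _)) (mul_pos (h.pos _) (h.pos _))).1 hfp

lemma T_pos_of_pos {U : ℝ → ℝ} (hc : Continuous U) (hg : LinGrowth U) (hp : ∀ t, 0 < U t)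
    (a t : ℝ) : 0 < T a U t := by
  unfold T
  have hint := integrableOn_T hc hg a t
  rw [setIntegral_pos_iff_support_of_nonneg_ae _ hint]
  · have : Function.support (fun x => U (t - a * x) * exp (-x)) = univ := by
      ext x
      simp only [Function.mem_support, mem_univ, iff_true]
      exact (mul_pos (hp _) (exp_pos _)).ne'
    rw [this]
    simp
  · exact Eventually.of_forall fun x => (mul_pos (hp _) (exp_pos _)).le

theorem Nice.T_of_pos {U : ℝ → ℝ} (h : Nice U) {a : ℝ} (ha : 0 < a) : Nice (T a U) where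
  cont := by
    have : Differentiable ℝ (T a U) :=
      fun t => (T_hasDerivAt h.cont h.growth ha t).differentiableAt
    exact this.continuous
  growth := LinGrowth.T h.cont h.growth a
  pos := T_pos_of_pos h.cont h.growth h.pos a
  lc := logConcave_T h.cont h.growth h.pf2 ha
    (T_pos_of_pos h.cont h.growth h.pos a)

theorem Nice.reflect {U : ℝ → ℝ} (h : Nice U) : Nice (fun t => U (-t)) where
  cont := h.cont.comp continuous_neg
  growth := by
    obtain ⟨A, B, hB, hb⟩ := h.growth
    exact ⟨A, B, hB, fun y => by simpa [abs_neg] using hb (-y)⟩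
  pos := fun t => h.pos _
  lc := by
    refine ⟨convex_univ, fun x _ y _ α β hα hβ hαβ => ?_⟩
    have := h.lc.2 (mem_univ (-x)) (mem_univ (-y)) hα hβ hαβ
    simp only [smul_eq_mul] at this ⊢
    have e : -(α * x + β * y) = α * -x + β * -y := by ring
    rw [e]
    exact this

lemma T_zero {U : ℝ → ℝ} (t : ℝ) : T 0 U t = U t := by
  unfold T
  simp only [zero_mul, sub_zero]
  rw [integral_const_mul, integral_exp_neg', mul_one]

lemma T_neg_eq (U : ℝ → ℝ) (a t : ℝ) : T a U t = T (-a) (fun s => U (-s)) (-t) := by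
  unfold T
  refine setIntegral_congr_fun measurableSet_Ioi (fun x _ => ?_)
  simp only
  congr 2
  ring

theorem Nice.T {U : ℝ → ℝ} (h : Nice U) (a : ℝ) : Nice (T a U) := by
  rcases lt_trichotomy a 0 with ha | ha | ha
  · have h1 : Nice (Crest.Agent.TruncExp.T (-a) (fun s => U (-s))) :=
      h.reflect.T_of_pos (by linarith)
    have h2 := h1.reflect
    have e : Crest.Agent.TruncExp.T a U = fun t => Crest.Agent.TruncExp.T (-a) (fun s => U (-s)) (-t) := by
      funext t
      exact T_neg_eq U a t
    rw [e]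
    exact h2
  · subst ha
    have e : Crest.Agent.TruncExp.T 0 U = U := by
      funext t
      exact T_zero t
    rw [e]
    exact h
  · exact h.T_of_pos ha

end Crest.Agent.TruncExp
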