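import Crest.Agent.Lib.TruncExpT

/-!
The base function `U0 s t = max (s - t) 0`, and its image under `T`.
-/

open MeasureTheory Set Real Filter Topology

namespace Crest.Agent.TruncExp

/-- The base function. -/
noncomputable def U0 (s t : ℝ) : ℝ := max (s - t) 0

lemma U0_cont (s : ℝ) : Continuous (U0 s) := by
  unfold U0
  fun_prop

lemma U0_growth (s : ℝ) : LinGrowth (U0 s) := by
  refine ⟨|s|, 1, zero_le_one, fun y => ?_⟩
  unfold U0
  rw [abs_of_nonneg (le_max_right _ _), one_mul]
  refine max_le ?_ (by positivity)
  have h1 := le_abs_self s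
  have h2 := neg_abs_le y
  linarith

lemma U0_lower (s t : ℝ) : s - t ≤ U0 s t := le_max_left _ _

lemma U0_nonneg (s t : ℝ) : 0 ≤ U0 s t := le_max_right _ _

lemma U0_pf2 (s : ℝ) : PF2 (U0 s) := by
  intro p t x hpt hx
  unfold U0
  by_cases ht : t ≤ s
  · have h1 : max (s - t) 0 = s - t := max_eq_left (by linarith)
    have h2 : max (s - (p - x)) 0 = s - (p - x) := max_eq_left (by linarith)
    have h3 : max (s - p) 0 = s - p := max_eq_left (by linarith)
    have h4 : max (s - (t - x)) 0 = s - (t - x) := max_eq_left (by linarith)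
    rw [h1, h2, h3, h4]
    nlinarith
  · have h1 : max (s - t) 0 = 0 := max_eq_right (by linarith)
    rw [h1, zero_mul]
    exact mul_nonneg (le_max_right _ _) (le_max_right _ _)

/-- The explicit comparator function. -/
noncomputable def Cmp (s a t : ℝ) : ℝ :=
  if t ≤ s then s - t + a else a * exp (-((t - s) / a))

lemma integral_shifted_ramp (x0 : ℝ) :
    ∫ x in Ioi x0, (x - x0) * exp (-x) = exp (-x0) := by
  rw [setIntegral_Ioi_shift]
  have : ∫ z in Ioi (0 : ℝ), (z + x0 - x0) * exp (-(z + x0))
      = ∫ z in Ioi (0 : ℝ), exp (-x0) * (z * exp (-z)) := by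
    refine setIntegral_congr_fun measurableSet_Ioi (fun z _ => ?_)
    have : -(z + x0) = -x0 + -z := by ring
    simp only [this, exp_add]
    ring
  rw [this, integral_const_mul, integral_mul_exp_neg, mul_one]

lemma T_U0 (s : ℝ) {a : ℝ} (ha : 0 < a) (t : ℝ) : T a (U0 s) t = Cmp s a t := by
  unfold T Cmp
  split_ifs with ht
  · have : ∫ x in Ioi (0 : ℝ), U0 s (t - a * x) * exp (-x)
        = ∫ x in Ioi (0 : ℝ), ((s - t) + a * x) * exp (-x) := by
      refine setIntegral_congr_fun measurableSet_Ioi (fun x hx => ?_)
      have hx' : (0 : ℝ) < x := hx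
      have hp : 0 < a * x := mul_pos ha hx'
      simp only [U0]
      rw [max_eq_left (by linarith)]
      ring
    rw [this, integral_lin_mul_exp]
  · push Not at ht
    set x0 := (t - s) / a with hx0
    have hx0pos : 0 < x0 := div_pos (by linarith) ha
    have hat : t - s = a * x0 := by
      rw [hx0]
      field_simp
    have h1 : ∫ x in Ioi (0 : ℝ), U0 s (t - a * x) * exp (-x)
        = ∫ x in Ioi x0, U0 s (t - a * x) * exp (-x) := by
      refine setIntegral_eq_of_subset_of_forall_sdiff_eq_zero measurableSet_Ioi
        (Ioi_subset_Ioi hx0pos.le) (fun x hx => ?_)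
      have hxle : x ≤ x0 := by
        by_contra hc
        exact hx.2 (not_le.1 hc)
      have h2 : s - (t - a * x) ≤ 0 := by
        have := mul_le_mul_of_nonneg_left hxle ha.le
        linarith
      simp only [U0]
      rw [max_eq_right h2, zero_mul]
    rw [h1]
    have h2 : ∫ x in Ioi x0, U0 s (t - a * x) * exp (-x)
        = ∫ x in Ioi x0, a * ((x - x0) * exp (-x)) := by
      refine setIntegral_congr_fun measurableSet_Ioi (fun x hx => ?_)
      have hx' : x0 < x := hx
      have h3 : 0 ≤ s - (t - a * x) := by
        have := mul_le_mul_of_nonneg_left hx'.le ha.le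
        linarith
      simp only [U0]
      rw [max_eq_left h3]
      have : s - (t - a * x) = a * (x - x0) := by
        have : a * (x - x0) = a * x - a * x0 := by ring
        rw [this, ← hat]
        ring
      rw [this]
      ring
    rw [h2, integral_const_mul, integral_shifted_ramp]

theorem Nice_T_U0 (s : ℝ) {a : ℝ} (ha : 0 < a) : Nice (T a (U0 s)) := by
  have hpos : ∀ t, 0 < T a (U0 s) t := by
    intro t
    rw [T_U0 s ha]
    unfold Cmp
    split_ifs with ht
    · linarith
    · exact mul_pos ha (exp_pos _)
  refine ⟨?_, LinGrowth.T (U0_cont s) (U0_growth s) a, hpos, ?_⟩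
  · have : Differentiable ℝ (T a (U0 s)) :=
      fun t => (T_hasDerivAt (U0_cont s) (U0_growth s) ha t).differentiableAt
    exact this.continuous
  · exact logConcave_T (U0_cont s) (U0_growth s) (U0_pf2 s) ha hpos

/-- The crossing property of a log-concave function against the comparator. -/
lemma crossing_property {W : ℝ → ℝ} (hW : Nice W) {c a : ℝ} (ha : 0 < a)
    (hL : ∀ t, c - t ≤ W t) {s t : ℝ} (hst : s ≤ t)
    (h : Cmp (c - a) a t < W t) : Cmp (c - a) a s ≤ W s := by
  set t0 := c - a with ht0
  by_cases hs : s ≤ t0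
  · have : Cmp t0 a s = c - s := by
      unfold Cmp
      rw [if_pos hs]
      rw [ht0]
      ring
    rw [this]
    exact hL s
  · push Not at hs
    have ht : t0 < t := lt_of_lt_of_le hs hst
    have hCs : Cmp t0 a s = a * exp (-((s - t0) / a)) := by
      unfold Cmp
      rw [if_neg (not_le.2 hs)]
    have hCt : Cmp t0 a t = a * exp (-((t - t0) / a)) := by
      unfold Cmp
      rw [if_neg (not_le.2 ht)]
    rw [hCs]
    rw [hCt] at h
    -- log-concavity
    set θ := (s - t0) / (t - t0) with hθ
    have hd : 0 < t - t0 := by linarith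
    have hθ0 : 0 ≤ θ := div_nonneg (by linarith) hd.le
    have hθ1 : θ ≤ 1 := by
      rw [hθ, div_le_one hd]
      linarith
    have hs' : s = (1 - θ) * t0 + θ * t := by
      rw [hθ]
      field_simp
      ring
    have hc := hW.lc.2 (mem_univ t0) (mem_univ t) (by linarith : 0 ≤ 1 - θ) hθ0 (by ring)
    simp only [smul_eq_mul] at hc
    rw [← hs'] at hc
    have h1 : log a ≤ log (W t0) := by
      have : a ≤ W t0 := by
        have := hL t0
        rw [ht0] at this ⊢
        linarith
      exact Real.log_le_log ha this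
    have h2 : log a + (-((t - t0) / a)) ≤ log (W t) := by
      have h3 : log (a * exp (-((t - t0) / a))) ≤ log (W t) :=
        Real.log_le_log (mul_pos ha (exp_pos _)) h.le
      rw [Real.log_mul ha.ne' (exp_pos _).ne', Real.log_exp] at h3
      exact h3
    have h3 : log (a * exp (-((s - t0) / a))) ≤ log (W s) := by
      rw [Real.log_mul ha.ne' (exp_pos _).ne', Real.log_exp]
      have e : (s - t0) / a = θ * ((t - t0) / a) := by
        rw [hθ]
        field_simp
      rw [e]
      have h4 := mul_le_mul_of_nonneg_left h1 (by linarith : 0 ≤ 1 - θ)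
      have h5 := mul_le_mul_of_nonneg_left h2 hθ0
      nlinarith
    exact (Real.log_le_log_iff (mul_pos ha (exp_pos _)) (hW.pos s)).1 h3

end Crest.Agent.TruncExp
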